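import Mathlib

/-! Convex-geometric vocabulary shared by the rigidity proof. -/

open Matrix

namespace Vale.Agent.P252

/-- The set `K` seen in the affine frame with origin `O` and basis the columns of `B`. -/
def frame {N : ℕ} (K : Set (Fin N → ℝ)) (O : Fin N → ℝ) (B : Matrix (Fin N) (Fin N) ℝ) :
    Set (Fin N → ℝ) :=
  {Z | O + B *ᵥ Z ∈ K}

/-- Block diagonal matrix with the scalar `s` in position `(0,0)` and lower block `A`. -/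
def cons1 {N : ℕ} (s : ℝ) (A : Matrix (Fin N) (Fin N) ℝ) : Matrix (Fin (N + 1)) (Fin (N + 1)) ℝ :=
  Matrix.of fun i j =>
    Fin.cases (Fin.cases s (fun _ => 0) j) (fun i' => Fin.cases 0 (fun j' => A i' j') j) i

/-- The cap `{e ⬝ Z ≤ h}` of `K` is bounded by `C` (sup norm), and from each of its points a step
`C • e` leads to the centre of a ball of radius `C⁻¹` inside `K`. -/
def CapHyp {N : ℕ} (K : Set (Fin N → ℝ)) (e : Fin N → ℝ) (h C : ℝ) : Prop :=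
  (∀ Z ∈ K, e ⬝ᵥ Z ≤ h → ‖Z‖ ≤ C) ∧
  (∀ Z ∈ K, e ⬝ᵥ Z ≤ h → ∀ W : Fin N → ℝ, ‖W‖ ≤ 1 → Z + C • e + C⁻¹ • W ∈ K)

/-- Supporting hyperplanes at points of height at least one pass at least `η` below the origin. -/
def DualHyp {N : ℕ} (K : Set (Fin (N + 1) → ℝ)) (η : ℝ) : Prop :=
  ∀ Z ∈ K, ∀ ξ : Fin (N + 1) → ℝ, (∀ W ∈ K, 0 ≤ ξ ⬝ᵥ (W - Z)) → 1 ≤ Z 0 →
    η * ξ 0 ≤ -(ξ ⬝ᵥ Z)

/-- The vector `e_0`. -/
def e0 (N : ℕ) : Fin (N + 1) → ℝ := Pi.single 0 1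

/-- The vector `e_0 + e_1`. -/
def e01 (m : ℕ) : Fin (m + 2) → ℝ := Pi.single 0 1 + Pi.single 1 1

/-- `K` looks like a two-dimensional wedge `{Z_0 ≥ 0, Z_1 ≥ 0}` with uniformly controlled caps
over the range of scales `e^{-L} .. e^{L}` in both wedge directions. -/
structure WedgeHyp {m : ℕ} (K : Set (Fin (m + 2) → ℝ)) (C : ℝ) (L : ℕ) : Prop where
  near0 : ∃ O' ∈ K, ‖O'‖ ≤ 1 / 100
  far0 : ∃ P ∈ K, ‖P - Pi.single 0 (Real.exp L)‖ ≤ 1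
  far1 : ∃ P ∈ K, ‖P - Pi.single 1 (Real.exp L)‖ ≤ 1
  nonneg : ∀ Z ∈ K, Z 0 + Z 1 ≤ 8 * Real.exp L → 0 ≤ Z 0 ∧ 0 ≤ Z 1
  central : CapHyp K (e01 m) 8 C
  cells : ∀ i j : ℤ, |i| ≤ L → |j| ≤ L → ∃ A : Matrix (Fin m) (Fin m) ℝ, A.det ≠ 0 ∧
    CapHyp (frame K 0 (cons1 (Real.exp i) (cons1 (Real.exp j) A))) (e01 m) 8 C

end Vale.Agent.P252
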