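import Vale.Agent.P252.Defs
import Vale.Agent.P252.ConvexDefs

/-! Abstract diffusion structure and abstract affine maximal hypersurface. -/

open scoped ContDiff
open Matrix

namespace Vale.Agent.P252

/-- Euclidean `n`-space. -/
abbrev E (n : ℕ) := EuclideanSpace ℝ (Fin n)

/-- Vector of first derivatives. -/
noncomputable def grad {n : ℕ} (g : E n → ℝ) (x : E n) : Fin n → ℝ := fun i => pd i g x

/-- A divergence-form operator `m⁻¹ ∂_i (a^{ij} ∂_j ·)` on an open set. -/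
structure Diff (n : ℕ) where
  Ω : Set (E n)
  a : E n → Matrix (Fin n) (Fin n) ℝ
  m : E n → ℝ
  isOpen : IsOpen Ω
  a_pos : ∀ x ∈ Ω, (a x).PosDef
  m_pos : ∀ x ∈ Ω, 0 < m x
  a_smooth : ∀ i j, ContDiffOn ℝ 1 (fun x => a x i j) Ω
  m_cont : ContinuousOn m Ω

/-- Inner product on covectors. -/
noncomputable def Diff.ip {n : ℕ} (D : Diff n) (x : E n) (v w : Fin n → ℝ) : ℝ :=
  (v ⬝ᵥ D.a x *ᵥ w) / D.m x

/-- Carre du champ. -/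
noncomputable def Diff.Γ {n : ℕ} (D : Diff n) (g h : E n → ℝ) (x : E n) : ℝ :=
  D.ip x (grad g x) (grad h x)

/-- The operator. -/
noncomputable def Diff.lap {n : ℕ} (D : Diff n) (g : E n → ℝ) (x : E n) : ℝ :=
  (∑ i, pd i (fun y => ∑ j, D.a y i j * pd j g y) x) / D.m x

/-- The matrix with first column `v` and further columns the derivatives of `F`. -/
noncomputable def jacM {n : ℕ} (v : Fin (n + 1) → ℝ) (F : E n → Fin (n + 1) → ℝ) (x : E n) :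
    Matrix (Fin (n + 1)) (Fin (n + 1)) ℝ :=
  Matrix.of fun k l => Fin.cases (v k) (fun i => pd i (fun y => F y k) x) l

/-- Position `X`, conormal `N` and affine normal `Y` of an affine maximal hypersurface that is the
boundary of a closed convex set `K`. -/
structure AS (n : ℕ) extends Diff n where
  X : E n → Fin (n + 1) → ℝ
  N : E n → Fin (n + 1) → ℝ
  Y : E n → Fin (n + 1) → ℝ
  K : Set (Fin (n + 1) → ℝ)
  X_smooth : ∀ k, ContDiffOn ℝ 2 (fun x => X x k) Ω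
  N_smooth : ∀ k, ContDiffOn ℝ 2 (fun x => N x k) Ω
  lapN : ∀ x ∈ Ω, ∀ k, toDiff.lap (fun y => N y k) x = 0
  lapX : ∀ x ∈ Ω, ∀ k, toDiff.lap (fun y => X y k) x = n * Y x k
  ΓNX : ∀ x ∈ Ω, ∀ k l, toDiff.Γ (fun y => N y k) (fun y => X y l) x
    = N x k * Y x l - if k = l then 1 else 0
  orth : ∀ x ∈ Ω, ∀ i, ∑ k, N x k * pd i (fun y => X y k) x = 0
  jacX : ∀ x ∈ Ω, ∀ v, |(jacM v X x).det| = m x * |N x ⬝ᵥ v|
  jacN : ∀ x ∈ Ω, |(jacM (N x) N x).det| = m x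
  det_a : ∀ x ∈ Ω, (a x).det * m x ^ 2 = m x ^ n
  K_closed : IsClosed K
  K_convex : Convex ℝ K
  X_mem : ∀ x ∈ Ω, X x ∈ K
  supp : ∀ x ∈ Ω, ∀ Z ∈ K, 0 ≤ N x ⬝ᵥ (Z - X x)
  bdry : ∀ Z ∈ frontier K, ∃ x ∈ Ω, X x = Z
  inj : Set.InjOn X Ω
  proper : ∀ R : ℝ, IsCompact {x | x ∈ Ω ∧ ‖X x‖ ≤ R}

/-- The epigraph of `u` over `Ω`, height first. -/
def epi {n : ℕ} (Ω : Set (E n)) (u : E n → ℝ) : Set (Fin (n + 1) → ℝ) :=
  {Z | (WithLp.toLp 2 fun i => Z i.succ : E n) ∈ Ω ∧ u (WithLp.toLp 2 fun i => Z i.succ) ≤ Z 0}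

/-- Uniformly normalized sections at a base point and pinched Hessian determinant. -/
structure SecHyp {n : ℕ} (Ω : Set (E n)) (z : E n → ℝ) (x0 : E n) (C : ℝ) : Prop where
  isOpen : IsOpen Ω
  smooth : ContDiffOn ℝ ∞ z Ω
  pos : ∀ x ∈ Ω, (hess z x).PosDef
  cvx : ConvexOn ℝ Ω z
  mem : x0 ∈ Ω
  zero : z x0 = 0
  nonneg : ∀ x ∈ Ω, 0 ≤ z x
  cpt : ∀ h : ℝ, IsCompact {x | x ∈ Ω ∧ z x ≤ h}
  Cpos : 0 < C
  box : ∀ h : ℝ, 0 < h → ∃ A : Matrix (Fin n) (Fin n) ℝ,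
    h ^ n ≤ C * A.det ^ 2 ∧ A.det ^ 2 ≤ C * h ^ n ∧
    (∀ x ∈ Ω, z x ≤ h → ∃ w : Fin n → ℝ, ‖w‖ ≤ C ∧ ∀ i, x i - x0 i = (A *ᵥ w) i) ∧
    (∀ x ∈ Ω, z x ≤ h → ∀ k, |∑ i, pd i z x * A i k| ≤ C * h)
  detlo : ∀ x ∈ Ω, C⁻¹ ≤ (hess z x).det
  dethi : ∀ x ∈ Ω, (hess z x).det ≤ C

end Vale.Agent.P252
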