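import Vale.Agent.P252.DiffCalc

/-! Basic identities on an abstract affine maximal hypersurface; Gram bounds; change of frame. -/

open scoped ContDiff Topology
open Matrix Finset

namespace Vale.Agent.P252

variable {n : ℕ}

lemma cons1_det {N : ℕ} (s : ℝ) (A : Matrix (Fin N) (Fin N) ℝ) :
    (cons1 s A).det = s * A.det := by
  rw [Matrix.det_succ_row_zero, Fin.sum_univ_succ]
  simp [cons1]
  left; rfl

lemma cons1_mulVec {N : ℕ} (s : ℝ) (A : Matrix (Fin N) (Fin N) ℝ) (Z : Fin (N + 1) → ℝ) :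
    cons1 s A *ᵥ Z = Fin.cons (s * Z 0) (A *ᵥ fun i => Z i.succ) := by
  funext k
  refine Fin.cases ?_ (fun i => ?_) k <;>
    simp [cons1, mulVec, dotProduct, Fin.sum_univ_succ]

lemma real_gram_aux {P q W : ℝ} (k : ℕ) (hq : 0 < q) (hW : 0 ≤ W)
    (h : ∀ s : ℝ, 0 < s → s * P ≤ (s * q + W) ^ (k + 1)) : P ≤ 2 ^ (k + 1) * q * W ^ k := by
  have key : ∀ ε : ℝ, 0 < ε → P ≤ 2 ^ (k + 1) * q * (W + ε) ^ k := fun ε hε => by
    have h1 := h ((W + ε) / q) (by positivity)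
    have h2 : (W + ε) / q * q + W ≤ 2 * (W + ε) := by field_simp; linarith
    have h3 : ((W + ε) / q * q + W) ^ (k + 1) ≤ (2 * (W + ε)) ^ (k + 1) :=
      pow_le_pow_left₀ (by positivity) h2 _
    have h4 := h1.trans h3
    rw [div_mul_eq_mul_div, div_le_iff₀ hq, mul_pow, pow_succ (W + ε)] at h4
    have h5 : 0 < W + ε := by positivity
    nlinarith
  have hc : ContinuousAt (fun ε : ℝ => 2 ^ (k + 1) * q * (W + ε) ^ k) 0 := by fun_prop
  have := ge_of_tendsto (hc.tendsto.mono_left (nhdsWithin_le_nhds (s := Set.Ioi 0)))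
    (eventually_nhdsWithin_of_forall fun ε hε => key ε hε)
  simpa using this

lemma Diff.gram_bound {D : Diff n} {x : E n} (hx : x ∈ D.Ω)
    (hdet : (D.a x).det * D.m x ^ 2 = D.m x ^ n) (F : E n → Fin (n + 1) → ℝ)
    {v : Fin (n + 1) → ℝ} (hv : 0 < v ⬝ᵥ v) :
    (jacM v F x).det ^ 2 / D.m x ^ 2 ≤ 2 ^ (n + 1) * (v ⬝ᵥ v)
      * (∑ k, D.Γ (fun y => F y k) (fun y => F y k) x) ^ n := by
  have hm := D.m_pos x hx
  apply real_gram_aux n hv (Finset.sum_nonneg fun k _ => Diff.ip_self_nonneg hx _)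
  intro s hs
  set A : Matrix (Fin n) (Fin n) ℝ := (D.m x)⁻¹ • D.a x with hA
  have hApsd : A.PosSemidef := (D.a_pos x hx).posSemidef.smul (inv_nonneg.2 hm.le)
  have hAdet : A.det = (D.m x ^ 2)⁻¹ := by
    rw [hA, det_smul, Fintype.card_fin]
    field_simp
    rw [div_pow, one_pow]
    field_simp
    linarith
  have hCpsd : (cons1 s A).PosSemidef := by
    refine psd_of_quad (fun i j => ?_) (fun w => ?_)
    · refine Fin.cases ?_ (fun i => ?_) i <;> refine Fin.cases ?_ (fun j => ?_) j <;>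
        simp [cons1, psd_symm hApsd]
    · rw [cons1_mulVec, dotProduct, Fin.sum_univ_succ]
      simp only [Fin.cons_zero, Fin.cons_succ]
      have := psd_quad_nonneg hApsd (fun i => w i.succ)
      have h2 : 0 ≤ w 0 * (s * w 0) := by nlinarith [mul_self_nonneg (w 0)]
      exact add_nonneg h2 this
  have h1 := det_le_trace_pow (psd_conj hCpsd (jacM v F x)ᵀ)
  rw [det_mul, det_mul, transpose_transpose, det_transpose, cons1_det, hAdet,
    Fintype.card_fin] at h1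
  have h2 : (jacM v F x * cons1 s A * (jacM v F x)ᵀ).trace
      = s * (v ⬝ᵥ v) + ∑ k, D.Γ (fun y => F y k) (fun y => F y k) x := by
    simp only [trace, diag_apply, dotProduct, Finset.mul_sum, ← Finset.sum_add_distrib]
    refine Finset.sum_congr rfl fun k _ => ?_
    have h3 : (jacM v F x * cons1 s A * (jacM v F x)ᵀ) k k
        = (jacM v F x k) ⬝ᵥ (cons1 s A *ᵥ (jacM v F x k)) := by
      rw [Matrix.mul_assoc, mul_apply]
      rfl
    rw [h3, cons1_mulVec, dotProduct, Fin.sum_univ_succ]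
    simp only [Fin.cons_zero, Fin.cons_succ, jacM, Matrix.of_apply, Fin.cases_zero,
      Fin.cases_succ, Diff.Γ, Diff.ip, hA, smul_mulVec, Pi.smul_apply, smul_eq_mul, dotProduct]
    rw [Finset.sum_div]
    congr 1
    · ring
    · refine Finset.sum_congr rfl fun i _ => ?_
      simp only [grad]
      rw [div_eq_mul_inv]
      change _ * (_ * (D.a x *ᵥ grad (fun y => F y k) x) i) = _
      ring
  rw [h2] at h1
  calc s * ((jacM v F x).det ^ 2 / D.m x ^ 2)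
      = (jacM v F x).det * (s * (D.m x ^ 2)⁻¹) * (jacM v F x).det := by ring
    _ ≤ _ := h1

namespace AS
variable (S : AS n)

/-- An affine-linear function of the position. -/
noncomputable def Xf (ξ : Fin (n + 1) → ℝ) (x : E n) : ℝ := ξ ⬝ᵥ S.X x

/-- A component of the conormal. -/
noncomputable def Nf (v : Fin (n + 1) → ℝ) (x : E n) : ℝ := S.N x ⬝ᵥ v

variable {S}

lemma X_at {x : E n} (hx : x ∈ S.Ω) (k : Fin (n + 1)) : ContDiffAt ℝ 2 (fun y => S.X y k) x :=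
  (S.X_smooth k).contDiffAt (S.isOpen.mem_nhds hx)

lemma N_at {x : E n} (hx : x ∈ S.Ω) (k : Fin (n + 1)) : ContDiffAt ℝ 2 (fun y => S.N y k) x :=
  (S.N_smooth k).contDiffAt (S.isOpen.mem_nhds hx)

lemma jet_X {x : E n} (hx : x ∈ S.Ω) (k : Fin (n + 1)) :
    S.toDiff.Jet (fun y => S.X y k) x (grad (fun y => S.X y k) x) (n * S.Y x k) :=
  ⟨X_at hx k, rfl, S.lapX x hx k⟩

lemma jet_N {x : E n} (hx : x ∈ S.Ω) (k : Fin (n + 1)) :
    S.toDiff.Jet (fun y => S.N y k) x (grad (fun y => S.N y k) x) 0 :=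
  ⟨N_at hx k, rfl, S.lapN x hx k⟩

lemma jet_Xf' {x : E n} (hx : x ∈ S.Ω) (ξ : Fin (n + 1) → ℝ) :
    S.toDiff.Jet (S.Xf ξ) x (∑ k, ξ k • grad (fun y => S.X y k) x) (n * (ξ ⬝ᵥ S.Y x)) :=
  (Diff.Jet.sum Finset.univ hx fun k => (jet_X hx k).const_mul hx (ξ k)).congr rfl (by
    simp only [dotProduct, Finset.mul_sum]
    exact Finset.sum_congr rfl fun k _ => by ring)

lemma jet_Nf' {x : E n} (hx : x ∈ S.Ω) (v : Fin (n + 1) → ℝ) :
    S.toDiff.Jet (S.Nf v) x (∑ k, v k • grad (fun y => S.N y k) x) 0 :=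
  ((Diff.Jet.sum Finset.univ hx fun k => (jet_N hx k).const_mul hx (v k)).congr_fun
    (Filter.Eventually.of_forall fun y => by
      simp only [Nf, dotProduct, mul_comm])).congr rfl (by simp)

lemma jet_Xf {x : E n} (hx : x ∈ S.Ω) (ξ : Fin (n + 1) → ℝ) :
    S.toDiff.Jet (S.Xf ξ) x (grad (S.Xf ξ) x) (n * (ξ ⬝ᵥ S.Y x)) :=
  (jet_Xf' hx ξ).congr (jet_Xf' hx ξ).2.1.symm rfl

lemma jet_Nf {x : E n} (hx : x ∈ S.Ω) (v : Fin (n + 1) → ℝ) :
    S.toDiff.Jet (S.Nf v) x (grad (S.Nf v) x) 0 :=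
  (jet_Nf' hx v).congr (jet_Nf' hx v).2.1.symm rfl

lemma Xf_at {x : E n} (hx : x ∈ S.Ω) (ξ : Fin (n + 1) → ℝ) : ContDiffAt ℝ 2 (S.Xf ξ) x :=
  (jet_Xf hx ξ).1

lemma Nf_at {x : E n} (hx : x ∈ S.Ω) (v : Fin (n + 1) → ℝ) : ContDiffAt ℝ 2 (S.Nf v) x :=
  (jet_Nf hx v).1

lemma Xf_single (k : Fin (n + 1)) : S.Xf (Pi.single k 1) = fun y => S.X y k := by
  funext y; simp [Xf]

lemma Nf_single (k : Fin (n + 1)) : S.Nf (Pi.single k 1) = fun y => S.N y k := by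
  funext y; simp [Nf]

lemma ip_NX {x : E n} (hx : x ∈ S.Ω) (v ξ : Fin (n + 1) → ℝ) :
    S.toDiff.ip x (grad (S.Nf v) x) (grad (S.Xf ξ) x)
      = S.Nf v x * (ξ ⬝ᵥ S.Y x) - ξ ⬝ᵥ v := by
  rw [(jet_Nf' hx v).2.1, (jet_Xf' hx ξ).2.1]
  simp only [Diff.ip_sum_left, Diff.ip_sum_right, Diff.ip_smul_left, Diff.ip_smul_right]
  have h := S.ΓNX x hx
  simp only [Diff.Γ] at h
  simp only [h, mul_sub, Finset.sum_sub_distrib, mul_ite, mul_one, mul_zero, Finset.sum_ite_eq',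
    Finset.mem_univ, if_true, Nf, dotProduct, Finset.mul_sum, Finset.sum_mul]
  congr 1
  exact Finset.sum_congr rfl fun i _ => Finset.sum_congr rfl fun j _ => by ring

lemma gram_X {x : E n} (hx : x ∈ S.Ω) {v : Fin (n + 1) → ℝ} (hv : 0 < v ⬝ᵥ v) :
    S.Nf v x ^ 2 ≤ 2 ^ (n + 1) * (v ⬝ᵥ v)
      * (∑ k, S.toDiff.Γ (fun y => S.X y k) (fun y => S.X y k) x) ^ n := by
  have h := Diff.gram_bound hx (S.det_a x hx) S.X hv
  have hm := (S.m_pos x hx).ne'
  rw [← sq_abs, S.jacX x hx, mul_pow, sq_abs] at h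
  rwa [mul_div_cancel_left₀ _ (pow_ne_zero 2 hm)] at h

lemma hasGrad_slope {x : E n} (hx : x ∈ S.Ω) {e : Fin (n + 1) → ℝ} (he : S.Nf e x ≠ 0)
    (v : Fin (n + 1) → ℝ) :
    HasGrad (fun y => S.Nf v y * (S.Nf e y)⁻¹) x
      ((S.Nf e x)⁻¹ • grad (S.Nf v) x - (S.Nf v x * (S.Nf e x ^ 2)⁻¹) • grad (S.Nf e) x) :=
  ((jet_Nf hx v).hasGrad.mul' ((jet_Nf hx e).hasGrad.inv he)).congr' (by
    ext i; simp; ring)

lemma gram_slope {x : E n} (hx : x ∈ S.Ω) {e : Fin (n + 1) → ℝ} (he : S.Nf e x ≠ 0) :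
    1 ≤ 2 ^ (n + 1) * (∑ k, (S.N x k * (S.Nf e x)⁻¹) ^ 2) * S.Nf e x ^ (2 * (n + 1))
      * (∑ k, S.toDiff.Γ (fun y => S.N y k * (S.Nf e y)⁻¹)
        (fun y => S.N y k * (S.Nf e y)⁻¹) x) ^ n := by
  have hm := (S.m_pos x hx).ne'
  set y0 : Fin (n + 1) → ℝ := fun k => S.N x k * (S.Nf e x)⁻¹ with hy0
  have hN0 : S.N x ≠ 0 := fun h => he (by simp [Nf, h])
  have hv : 0 < y0 ⬝ᵥ y0 := by
    refine lt_of_le_of_ne (Finset.sum_nonneg fun k _ => mul_self_nonneg _) fun h' => ?_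
    have h := dotProduct_self_eq_zero.1 h'.symm
    apply hN0
    funext k
    have := congrFun h k
    simpa [hy0, he] using this
  have h := Diff.gram_bound hx (S.det_a x hx) (fun y k => S.N y k * (S.Nf e y)⁻¹) hv
  let T : Matrix (Fin (n + 1)) (Fin (n + 1)) ℝ := Matrix.of fun k l =>
    Fin.cases (Fin.cases 1 (fun i => -((S.Nf e x)⁻¹ * pd i (S.Nf e) x)) l)
      (fun k' => if k'.succ = l then 1 else 0) k
  have hT : T.det = 1 := by
    rw [Matrix.det_succ_column_zero, Fin.sum_univ_succ]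
    have : T.submatrix Fin.succ Fin.succ = 1 := by
      ext i j; simp [T, Matrix.one_apply]
    simp [T, this]
  have hJ : jacM y0 (fun y k => S.N y k * (S.Nf e y)⁻¹) x
      = (S.Nf e x)⁻¹ • (jacM (S.N x) S.N x * T) := by
    ext k l
    refine Fin.cases ?_ (fun i => ?_) l
    · simp [jacM, T, mul_apply, Fin.sum_univ_succ, hy0, mul_comm]
    · have h1 := (hasGrad_slope hx he (Pi.single k 1)).2 i
      rw [Nf_single] at h1
      simp only [jacM, Matrix.of_apply, Fin.cases_succ, h1, Matrix.smul_apply, mul_apply,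
        Fin.sum_univ_succ, T, Fin.cases_zero, Fin.succ_inj, mul_ite, mul_one, mul_zero,
        Finset.sum_ite_eq', Finset.mem_univ, if_true, smul_eq_mul, Pi.sub_apply, Pi.smul_apply,
        grad]
      ring
  rw [hJ, det_smul, det_mul, hT, mul_one, mul_pow, ← sq_abs (jacM (S.N x) S.N x).det,
    S.jacN x hx, Fintype.card_fin, mul_div_assoc, div_self (pow_ne_zero 2 hm), mul_one] at h
  have h2 : y0 ⬝ᵥ y0 = ∑ k, (S.N x k * (S.Nf e x)⁻¹) ^ 2 := by simp only [dotProduct, hy0, sq]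
  rw [h2] at h
  have h3 : 0 < S.Nf e x ^ (2 * (n + 1)) := by rw [pow_mul]; positivity
  have h4 := mul_le_mul_of_nonneg_right h h3.le
  have h5 : ((S.Nf e x)⁻¹ ^ (n + 1)) ^ 2 * S.Nf e x ^ (2 * (n + 1)) = 1 := by
    rw [← pow_mul, mul_comm (n + 1) 2, ← mul_pow, inv_mul_cancel₀ he, one_pow]
  rw [h5] at h4
  linarith

end AS

/-- Rescaling of a diffusion structure. -/
noncomputable def Diff.scale (D : Diff n) (α μ : ℝ) (hα : 0 < α) (hμ : 0 < μ) : Diff n where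
  Ω := D.Ω
  a := fun x => α • D.a x
  m := fun x => μ * D.m x
  isOpen := D.isOpen
  a_pos := fun x hx => (D.a_pos x hx).smul hα
  m_pos := fun x hx => mul_pos hμ (D.m_pos x hx)
  a_smooth := fun i j => contDiffOn_const.mul (D.a_smooth i j)
  m_cont := continuousOn_const.mul D.m_cont

lemma Diff.scale_ip (D : Diff n) {α μ : ℝ} (hα : 0 < α) (hμ : 0 < μ) (x : E n)
    (v w : Fin n → ℝ) : (D.scale α μ hα hμ).ip x v w = α / μ * D.ip x v w := by
  simp only [Diff.ip, Diff.scale, smul_mulVec, dotProduct_smul, smul_eq_mul]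
  rw [mul_div_mul_comm]

lemma Diff.scale_lap (D : Diff n) {α μ : ℝ} (hα : 0 < α) (hμ : 0 < μ) (x : E n)
    (g : E n → ℝ) : (D.scale α μ hα hμ).lap g x = α / μ * D.lap g x := by
  simp only [Diff.lap, Diff.scale, Matrix.smul_apply, smul_eq_mul, mul_assoc, ← Finset.mul_sum]
  rw [← mul_div_mul_comm, Finset.mul_sum]
  congr 1
  refine Finset.sum_congr rfl fun i _ => ?_
  simp only [pd]
  rw [show (fun y => α * ∑ j, D.a y i j * (fderiv ℝ g y) (EuclideanSpace.single j 1))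
    = α • fun y => ∑ j, D.a y i j * (fderiv ℝ g y) (EuclideanSpace.single j 1) from rfl,
    fderiv_const_smul_field]
  simp

/-- The normalizing factor of a frame. -/
noncomputable def tau (n : ℕ) (B : Matrix (Fin (n + 1)) (Fin (n + 1)) ℝ) : ℝ :=
  |B.det| ^ (-(1:ℝ) / ((n:ℝ) + 2))

lemma tau_pos {B : Matrix (Fin (n + 1)) (Fin (n + 1)) ℝ} (hB : B.det ≠ 0) : 0 < tau n B :=
  Real.rpow_pos_of_pos (abs_pos.2 hB) _

lemma tau_pow {B : Matrix (Fin (n + 1)) (Fin (n + 1)) ℝ} (hB : B.det ≠ 0) :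
    tau n B ^ (n + 2) * |B.det| = 1 := by
  have h := abs_pos.2 hB
  rw [tau, ← Real.rpow_natCast, ← Real.rpow_mul h.le]
  have : -(1:ℝ) / ((n:ℝ) + 2) * ((n + 2 : ℕ) : ℝ) = -1 := by push_cast; field_simp
  rw [this, Real.rpow_neg_one, inv_mul_cancel₀ h.ne']

lemma jacM_comp {x : E n} {F G : E n → Fin (n + 1) → ℝ} (C : Matrix (Fin (n + 1)) (Fin (n + 1)) ℝ)
    (hF : ∀ k, DifferentiableAt ℝ (fun y => F y k) x) (c : Fin (n + 1) → ℝ)
    (hG : ∀ y, G y = C *ᵥ F y + c) (v : Fin (n + 1) → ℝ) :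
    jacM (C *ᵥ v) G x = C * jacM v F x := by
  ext k l
  refine Fin.cases ?_ (fun i => ?_) l
  · simp [jacM, mul_apply, mulVec, dotProduct]
  · have h := ((HasGrad.sum Finset.univ fun j =>
      (hasGrad_of_diff (hF j)).const_mul (C k j)).add (hasGrad_const (c k) x)).2 i
    simp only [jacM, Matrix.of_apply, Fin.cases_succ, mul_apply, hG, Pi.add_apply, mulVec,
      dotProduct]
    rw [h]; simp [grad]

namespace AS
variable (S : AS n) (O : Fin (n + 1) → ℝ) {B : Matrix (Fin (n + 1)) (Fin (n + 1)) ℝ}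

lemma frame_X_eq (k : Fin (n + 1)) : (fun y => (B⁻¹ *ᵥ (S.X y - O)) k)
    = fun y => S.Xf (B⁻¹ k) y + -(B⁻¹ k ⬝ᵥ O) := by
  funext y; rw [mulVec_sub, sub_eq_add_neg]; rfl

lemma frame_N_eq (c : ℝ) (k : Fin (n + 1)) : (fun y => (c • (Bᵀ *ᵥ S.N y)) k)
    = fun y => c * S.Nf (fun l => B l k) y := by
  funext y; simp only [Pi.smul_apply, smul_eq_mul, Nf, mulVec, dotProduct, transpose_apply,
    mul_comm]

lemma frame_back (hB : B.det ≠ 0) (Z : Fin (n + 1) → ℝ) : O + B *ᵥ (B⁻¹ *ᵥ (Z - O)) = Z := by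
  rw [mulVec_mulVec, Matrix.mul_nonsing_inv _ (isUnit_iff_ne_zero.2 hB), one_mulVec]; ring

lemma frame_back' (hB : B.det ≠ 0) (Z : Fin (n + 1) → ℝ) : B⁻¹ *ᵥ (O + B *ᵥ Z - O) = Z := by
  rw [add_sub_cancel_left, mulVec_mulVec, Matrix.nonsing_inv_mul _ (isUnit_iff_ne_zero.2 hB),
    one_mulVec]

/-- The frame map as a homeomorphism. -/
noncomputable def frameHomeo (hB : B.det ≠ 0) : (Fin (n + 1) → ℝ) ≃ₜ (Fin (n + 1) → ℝ) where
  toFun := fun Z => O + B *ᵥ Z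
  invFun := fun Z => B⁻¹ *ᵥ (Z - O)
  left_inv := frame_back' O hB
  right_inv := frame_back O hB
  continuous_toFun := by fun_prop
  continuous_invFun := by fun_prop

/-- The rescaled diffusion structure of a frame. -/
noncomputable def frameDiff (hB : B.det ≠ 0) : Diff n :=
  S.toDiff.scale (tau n B ^ n / tau n B ^ 2) (tau n B ^ n)
    (by have := tau_pos hB; positivity) (by have := tau_pos hB; positivity)

lemma frame_lapN (hB : B.det ≠ 0) (x : E n) (hx : x ∈ S.Ω) (k : Fin (n + 1)) :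
    (frameDiff S hB).lap (fun y => (tau n B ^ 2 • (Bᵀ *ᵥ S.N y)) k) x = 0 := by
  unfold frameDiff
  rw [frame_N_eq, Diff.scale_lap, ((jet_Nf hx _).const_mul hx _).2.2]; simp

lemma frame_lapX (hB : B.det ≠ 0) (x : E n) (hx : x ∈ S.Ω) (k : Fin (n + 1)) :
    (frameDiff S hB).lap (fun y => (B⁻¹ *ᵥ (S.X y - O)) k) x
      = n * ((tau n B ^ 2)⁻¹ • (B⁻¹ *ᵥ S.Y x)) k := by
  unfold frameDiff
  have := tau_pos hB
  rw [frame_X_eq, Diff.scale_lap, ((jet_Xf hx _).add hx (Diff.jet_const _ x)).2.2]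
  simp only [Pi.smul_apply, smul_eq_mul, mulVec]
  field_simp
  ring

lemma frame_ΓNX (hB : B.det ≠ 0) (x : E n) (hx : x ∈ S.Ω) (k l : Fin (n + 1)) :
    (frameDiff S hB).Γ (fun y => (tau n B ^ 2 • (Bᵀ *ᵥ S.N y)) k)
      (fun y => (B⁻¹ *ᵥ (S.X y - O)) l) x = (tau n B ^ 2 • (Bᵀ *ᵥ S.N x)) k
        * ((tau n B ^ 2)⁻¹ • (B⁻¹ *ᵥ S.Y x)) l - if k = l then 1 else 0 := by
  unfold frameDiff
  have := tau_pos hB
  rw [frame_X_eq, frame_N_eq, Diff.Γ, Diff.scale_ip, ((jet_Nf hx _).const_mul hx _).2.1,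
    ((jet_Xf hx _).add hx (Diff.jet_const _ x)).2.1, add_zero, Diff.ip_smul_left, ip_NX hx]
  have h1 : B⁻¹ l ⬝ᵥ (fun l => B l k) = if k = l then 1 else 0 := by
    have := congrFun (congrFun (Matrix.nonsing_inv_mul B (isUnit_iff_ne_zero.2 hB)) l) k
    rw [Matrix.one_apply, mul_apply] at this
    simp only [dotProduct, this, eq_comm]
  rw [h1]
  have h2 : (Bᵀ *ᵥ S.N x) k = S.Nf (fun l => B l k) x := by
    simp only [Nf, mulVec, dotProduct, transpose_apply, mul_comm]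
  simp only [Pi.smul_apply, smul_eq_mul]
  rw [h2]
  change _ = _ * (_ * (B⁻¹ l ⬝ᵥ S.Y x)) - _
  field_simp

lemma frame_orth (hB : B.det ≠ 0) (x : E n) (hx : x ∈ S.Ω) (i : Fin n) :
    ∑ k, (tau n B ^ 2 • (Bᵀ *ᵥ S.N x)) k * pd i (fun y => (B⁻¹ *ᵥ (S.X y - O)) k) x = 0 := by
  have h1 : ∀ k, pd i (fun y => (B⁻¹ *ᵥ (S.X y - O)) k) x
      = (B⁻¹ *ᵥ fun l => pd i (fun y => S.X y l) x) k := fun k => by
    rw [frame_X_eq, ((jet_Xf' hx _).hasGrad.add' (hasGrad_const' _ x)).2 i]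
    simp [mulVec, dotProduct, grad]
  simp only [h1]
  change (tau n B ^ 2 • (Bᵀ *ᵥ S.N x)) ⬝ᵥ _ = 0
  rw [smul_dotProduct, mulVec_transpose, ← dotProduct_mulVec, mulVec_mulVec,
    Matrix.mul_nonsing_inv _ (isUnit_iff_ne_zero.2 hB), one_mulVec]
  have := S.orth x hx i
  simp only [dotProduct, this, smul_zero]

lemma frame_jacX (hB : B.det ≠ 0) (x : E n) (hx : x ∈ S.Ω) (v : Fin (n + 1) → ℝ) :
    |(jacM v (fun y => B⁻¹ *ᵥ (S.X y - O)) x).det|
      = tau n B ^ n * S.m x * |(tau n B ^ 2 • (Bᵀ *ᵥ S.N x)) ⬝ᵥ v| := by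
  have ht := tau_pos hB
  have h1 := jacM_comp B⁻¹ (fun k => (X_at hx k).differentiableAt (by simp)) (-(B⁻¹ *ᵥ O))
    (G := fun y => B⁻¹ *ᵥ (S.X y - O)) (fun y => by rw [mulVec_sub, sub_eq_add_neg]) (B *ᵥ v)
  rw [mulVec_mulVec, Matrix.nonsing_inv_mul _ (isUnit_iff_ne_zero.2 hB), one_mulVec] at h1
  rw [h1, det_mul, abs_mul, S.jacX x hx, det_nonsing_inv, Ring.inverse_eq_inv', abs_inv,
    smul_dotProduct, mulVec_transpose, ← dotProduct_mulVec, smul_eq_mul, abs_mul,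
    abs_of_pos (pow_pos ht 2)]
  have h2 := tau_pow hB
  have h3 := abs_pos.2 hB
  field_simp
  rw [pow_add] at h2
  linear_combination (-(S.m x * |S.N x ⬝ᵥ B *ᵥ v|)) * h2

lemma frame_jacN (hB : B.det ≠ 0) (x : E n) (hx : x ∈ S.Ω) :
    |(jacM (tau n B ^ 2 • (Bᵀ *ᵥ S.N x)) (fun y => tau n B ^ 2 • (Bᵀ *ᵥ S.N y)) x).det|
      = tau n B ^ n * S.m x := by
  have ht := tau_pos hB
  have h1 := jacM_comp (tau n B ^ 2 • Bᵀ) (fun k => (N_at hx k).differentiableAt (by simp)) 0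
    (G := fun y => tau n B ^ 2 • (Bᵀ *ᵥ S.N y)) (fun y => by rw [smul_mulVec, add_zero]) (S.N x)
  rw [smul_mulVec] at h1
  rw [h1, det_mul, abs_mul, S.jacN x hx, det_smul, det_transpose, abs_mul, Fintype.card_fin,
    abs_of_pos (by positivity)]
  have h2 := tau_pow hB
  rw [← pow_mul, show 2 * (n + 1) = n + (n + 2) by ring, pow_add, mul_assoc (tau n B ^ n), h2,
    mul_one]

lemma frame_det_a (hB : B.det ≠ 0) (x : E n) (hx : x ∈ S.Ω) :
    ((tau n B ^ n / tau n B ^ 2) • S.a x).det * (tau n B ^ n * S.m x) ^ 2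
      = (tau n B ^ n * S.m x) ^ n := by
  have ht := tau_pos hB
  rw [det_smul, Fintype.card_fin, mul_pow, mul_pow, ← S.det_a x hx, div_pow, ← pow_mul _ 2 n,
    ← pow_mul _ n 2, mul_comm n 2]
  field_simp

omit S in
lemma frame_convex {K : Set (Fin (n + 1) → ℝ)} (hK : Convex ℝ K) : Convex ℝ (frame K O B) := by
  intro Z hZ W hW a b ha hb hab
  have := hK hZ hW ha hb hab
  change O + B *ᵥ (a • Z + b • W) ∈ K
  convert this using 1
  rw [mulVec_add, mulVec_smul, mulVec_smul, smul_add, smul_add]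
  have : O = a • O + b • O := by rw [← add_smul, hab, one_smul]
  conv_lhs => rw [this]
  abel

lemma frame_supp (hB : B.det ≠ 0) (x : E n) (hx : x ∈ S.Ω) (Z : Fin (n + 1) → ℝ)
    (hZ : Z ∈ frame S.K O B) :
    0 ≤ (tau n B ^ 2 • (Bᵀ *ᵥ S.N x)) ⬝ᵥ (Z - B⁻¹ *ᵥ (S.X x - O)) := by
  have := S.supp x hx _ hZ
  rw [smul_dotProduct, mulVec_transpose, ← dotProduct_mulVec, mulVec_sub, mulVec_mulVec,
    Matrix.mul_nonsing_inv _ (isUnit_iff_ne_zero.2 hB), one_mulVec, smul_eq_mul]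
  refine mul_nonneg (sq_nonneg _) ?_
  have e : B *ᵥ Z - (S.X x - O) = O + B *ᵥ Z - S.X x := by abel
  rw [e]; exact this

lemma frame_bdry (hB : B.det ≠ 0) (Z : Fin (n + 1) → ℝ) (hZ : Z ∈ frontier (frame S.K O B)) :
    ∃ x ∈ S.Ω, B⁻¹ *ᵥ (S.X x - O) = Z := by
  have h1 : (frameHomeo O hB) Z ∈ frontier S.K := by
    rw [← Set.mem_preimage, (frameHomeo O hB).preimage_frontier]; exact hZ
  obtain ⟨x, hx, hxZ⟩ := S.bdry _ h1
  refine ⟨x, hx, ?_⟩
  rw [hxZ]; exact frame_back' O hB Z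

lemma frame_proper (hB : B.det ≠ 0) (R : ℝ) :
    IsCompact {x | x ∈ S.Ω ∧ ‖B⁻¹ *ᵥ (S.X x - O)‖ ≤ R} := by
  obtain ⟨R', hR'⟩ := ((isCompact_closedBall (0 : Fin (n + 1) → ℝ) R).image
    (frameHomeo O hB).continuous).isBounded.exists_norm_le
  have hsub : {x | x ∈ S.Ω ∧ ‖B⁻¹ *ᵥ (S.X x - O)‖ ≤ R} ⊆ {x | x ∈ S.Ω ∧ ‖S.X x‖ ≤ R'} :=
    fun x hx => ⟨hx.1, hR' _ ⟨_, mem_closedBall_zero_iff.2 hx.2, frame_back O hB _⟩⟩
  have hc : ContinuousOn (fun x => ‖B⁻¹ *ᵥ (S.X x - O)‖) {x | x ∈ S.Ω ∧ ‖S.X x‖ ≤ R'} := by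
    refine ContinuousOn.norm ((frameHomeo O hB).symm.continuous.comp_continuousOn ?_)
    exact continuousOn_pi.2 fun k x hx => (X_at hx.1 k).continuousAt.continuousWithinAt
  have hcl := hc.preimage_isClosed_of_isClosed (S.proper R').isClosed (isClosed_Iic (a := R))
  refine (S.proper R').of_isClosed_subset ?_ hsub
  convert hcl using 1
  ext x
  exact ⟨fun hx => ⟨hsub hx, hx.2⟩, fun hx => ⟨hx.1.1, hx.2⟩⟩

/-- The hypersurface in a new affine frame. -/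
noncomputable def toFrame (hB : B.det ≠ 0) : AS n where
  toDiff := frameDiff S hB
  X := fun y => B⁻¹ *ᵥ (S.X y - O)
  N := fun y => tau n B ^ 2 • (Bᵀ *ᵥ S.N y)
  Y := fun y => (tau n B ^ 2)⁻¹ • (B⁻¹ *ᵥ S.Y y)
  K := frame S.K O B
  X_smooth := fun k x (hx : x ∈ S.Ω) => by
    rw [frame_X_eq]; exact ((Xf_at hx _).add contDiffAt_const).contDiffWithinAt
  N_smooth := fun k x (hx : x ∈ S.Ω) => by
    rw [frame_N_eq]; exact (contDiffAt_const.mul (Nf_at hx _)).contDiffWithinAt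
  lapN := frame_lapN S hB
  lapX := frame_lapX S O hB
  ΓNX := frame_ΓNX S O hB
  orth := frame_orth S O hB
  jacX := frame_jacX S O hB
  jacN := frame_jacN S hB
  det_a := frame_det_a S hB
  K_closed := S.K_closed.preimage (frameHomeo O hB).continuous
  K_convex := frame_convex O S.K_convex
  X_mem := fun x hx => by
    change O + B *ᵥ (B⁻¹ *ᵥ (S.X x - O)) ∈ S.K
    rw [frame_back O hB]; exact S.X_mem x hx
  supp := frame_supp S O hB
  bdry := frame_bdry S O hB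
  inj := fun x hx y hy h => by
    apply S.inj hx hy
    have := congrArg (fun Z => O + B *ᵥ Z) h
    simpa only [frame_back O hB] using this
  proper := frame_proper S O hB

variable (hB : B.det ≠ 0)

@[simp] lemma toFrame_Ω : (S.toFrame O hB).Ω = S.Ω := rfl
@[simp] lemma toFrame_K : (S.toFrame O hB).K = frame S.K O B := rfl
lemma toFrame_X (x : E n) : (S.toFrame O hB).X x = B⁻¹ *ᵥ (S.X x - O) := rfl
lemma toFrame_N (x : E n) : (S.toFrame O hB).N x = tau n B ^ 2 • (Bᵀ *ᵥ S.N x) := rfl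
lemma toFrame_m (x : E n) : (S.toFrame O hB).m x = tau n B ^ n * S.m x := rfl
lemma toFrame_ip (x : E n) (v w : Fin n → ℝ) :
    (S.toFrame O hB).toDiff.ip x v w = (tau n B ^ 2)⁻¹ * S.toDiff.ip x v w := by
  have := tau_pos hB
  change (frameDiff S hB).ip x v w = _
  rw [frameDiff, Diff.scale_ip]
  field_simp

lemma toFrame_Nf (v : Fin (n + 1) → ℝ) (x : E n) :
    (S.toFrame O hB).Nf v x = tau n B ^ 2 * S.Nf (B *ᵥ v) x := by
  rw [Nf, toFrame_N, smul_dotProduct, mulVec_transpose, ← dotProduct_mulVec]; rfl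

end AS

end Vale.Agent.P252
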