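import Vale.Agent.P252.ConvexDefs

open Matrix MeasureTheory

namespace Vale.Agent.P252

/-- TASK Convex (file Vale/Agent/P252/Dichotomy.lean). -/
theorem dichotomy_blue (m : ℕ) (K : Set (Fin (m + 2) → ℝ)) (hcl : IsClosed K) (hcv : Convex ℝ K)
    (h0 : (0 : Fin (m + 2) → ℝ) ∈ K) (hpos : ∀ Z ∈ K, 0 ≤ Z 0)
    (hrec : ∀ Z ∈ K, ∀ s : ℝ, 0 ≤ s → Z + s • e0 (m + 1) ∈ K)
    (hbdd : ∀ h : ℝ, ∃ R : ℝ, ∀ Z ∈ K, Z 0 ≤ h → ‖Z‖ ≤ R)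
    (hint : (interior K).Nonempty) :
    (∃ C η : ℝ, 0 < C ∧ 0 < η ∧ ∀ h : ℝ, 0 < h →
      ∃ A : Matrix (Fin (m + 1)) (Fin (m + 1)) ℝ, A.det ≠ 0 ∧
        CapHyp (frame K 0 (cons1 h A)) (e0 (m + 1)) 1 C ∧ DualHyp (frame K 0 (cons1 h A)) η) ∨
    (∃ C : ℝ, 0 < C ∧ ∀ L : ℕ, ∃ (O : Fin (m + 2) → ℝ) (B : Matrix (Fin (m + 2)) (Fin (m + 2)) ℝ),
      B.det ≠ 0 ∧ WedgeHyp (frame K O B) C L) := by
  sorry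

/-- TASK Poincare (file Vale/Agent/P252/Poincare.lean). -/
theorem poincare_blue {n : ℕ} (S : Set (EuclideanSpace ℝ (Fin n))) (hS : IsCompact S)
    (hcv : Convex ℝ S) (f g : EuclideanSpace ℝ (Fin n) → ℝ)
    (hf : ∀ x ∈ S, ContDiffAt ℝ 1 f x) (hg : ContinuousOn g S)
    (hfg : ∀ x ∈ S, ∀ y ∈ S, ∀ y' ∈ S, |fderiv ℝ f x (y - y')| ≤ g x)
    (A B : Set (EuclideanSpace ℝ (Fin n))) (hA : MeasurableSet A) (hB : MeasurableSet B)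
    (hAS : A ⊆ S) (hBS : B ⊆ S) (s T : ℝ) (hT : 0 ≤ T)
    (hfA : ∀ x ∈ A, f x ≤ s) (hfB : ∀ x ∈ B, s + T ≤ f x) :
    T * (volume.real A * volume.real B) ≤ 2 ^ (n + 1) * volume.real S * ∫ x in S, g x := by
  sorry

end Vale.Agent.P252
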