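import Vale.Agent.P252.Defs

namespace Vale.Agent.P252

/-- Length of the curve `γ : [0,1] → Ω` for the metric `g_{ij} = δ_{ij} + u_i u_j` induced on the
graph of `u` by the Euclidean metric of `ℝ^{n+1}`. -/
noncomputable def graphLength {n : ℕ} (u : EuclideanSpace ℝ (Fin n) → ℝ)
    (γ : ℝ → EuclideanSpace ℝ (Fin n)) : ℝ :=
  ∫ t in (0 : ℝ)..1, √(∑ i, ∑ j,
    ((if i = j then 1 else 0) + pd i u (γ t) * pd j u (γ t)) * deriv γ t i * deriv γ t j)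

/-- The Riemannian distance of that metric: infimum of lengths of `C¹` curves in `Ω`. -/
noncomputable def graphDist {n : ℕ} (Ω : Set (EuclideanSpace ℝ (Fin n)))
    (u : EuclideanSpace ℝ (Fin n) → ℝ) (x y : EuclideanSpace ℝ (Fin n)) : ℝ :=
  sInf {l | ∃ γ : ℝ → EuclideanSpace ℝ (Fin n), ContDiff ℝ 1 γ ∧
    (∀ t ∈ Set.Icc (0 : ℝ) 1, γ t ∈ Ω) ∧ γ 0 = x ∧ γ 1 = y ∧ l = graphLength u γ}

/-- The graph of `u` over `Ω` is Euclidean complete: every Cauchy sequence for `graphDist`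
converges, for `graphDist`, to a point of `Ω`. -/
def EuclideanComplete {n : ℕ} (Ω : Set (EuclideanSpace ℝ (Fin n)))
    (u : EuclideanSpace ℝ (Fin n) → ℝ) : Prop :=
  ∀ x : ℕ → EuclideanSpace ℝ (Fin n), (∀ k, x k ∈ Ω) →
    (∀ ε : ℝ, 0 < ε → ∃ N, ∀ k ≥ N, ∀ l ≥ N, graphDist Ω u (x k) (x l) < ε) →
    ∃ y ∈ Ω, Filter.Tendsto (fun k => graphDist Ω u (x k) y) Filter.atTop (nhds 0)

end Vale.Agent.P252
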