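import Vale.Agent.P252.ASDefs
import Vale.Agent.P252.CompleteDefs

open scoped ContDiff
open Matrix

namespace Vale.Agent.P252

/-- TASK Complete (file Vale/Agent/P252/Complete.lean), part 1. -/
theorem convexOn_of_hess_blue {n : ℕ} {Ω : Set (E n)} {u : E n → ℝ} (ho : IsOpen Ω)
    (hc : Convex ℝ Ω) (hs : ContDiffOn ℝ ∞ u Ω) (hp : ∀ x ∈ Ω, (hess u x).PosDef) :
    StrictConvexOn ℝ Ω u ∧ ∀ x ∈ Ω, ∀ y ∈ Ω, y ≠ x →
      u x + ∑ i, pd i u x * (y i - x i) < u y := by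
  sorry

/-- TASK Complete, part 2. -/
theorem isClosed_epi_blue {n : ℕ} {Ω : Set (E n)} {u : E n → ℝ} (ho : IsOpen Ω)
    (hc : Convex ℝ Ω) (hs : ContDiffOn ℝ ∞ u Ω) (hp : ∀ x ∈ Ω, (hess u x).PosDef)
    (hcomp : EuclideanComplete Ω u) : IsClosed (epi Ω u) := by
  sorry

/-- TASK Complete, part 3. -/
theorem complete_univ_blue {n : ℕ} {u : E n → ℝ} (hs : ContDiff ℝ ∞ u) :
    EuclideanComplete Set.univ u := by
  sorry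

/-- TASK Complete, part 4: sections are compact. -/
theorem isCompact_section_blue {n : ℕ} {Ω : Set (E n)} {u : E n → ℝ} (ho : IsOpen Ω)
    (hc : Convex ℝ Ω) (hs : ContDiffOn ℝ ∞ u Ω) (hp : ∀ x ∈ Ω, (hess u x).PosDef)
    (hcl : IsClosed (epi Ω u)) {x0 : E n} (hx0 : x0 ∈ Ω) (h : ℝ) :
    IsCompact {x | x ∈ Ω ∧ u x - u x0 - ∑ i, pd i u x0 * (x i - x0 i) ≤ h} := by
  sorry

/-- TASK Complete, part 5: constant Hessian and closed epigraph give a paraboloid. -/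
theorem paraboloid_of_const_hess_blue {n : ℕ} {Ω : Set (E n)} {u : E n → ℝ} (ho : IsOpen Ω)
    (hne : Ω.Nonempty) (hc : Convex ℝ Ω) (hs : ContDiffOn ℝ ∞ u Ω)
    (hcl : IsClosed (epi Ω u)) (A : Matrix (Fin n) (Fin n) ℝ) (hA : ∀ x ∈ Ω, hess u x = A) :
    Ω = Set.univ ∧ ∃ (b : Fin n → ℝ) (c : ℝ), ∀ x : E n,
      u x = (1 / 2) * (∑ i, ∑ j, A i j * x i * x j) + (∑ i, b i * x i) + c := by
  sorry

/-- TASK Build (file Vale/Agent/P252/Build.lean). -/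
theorem exists_AS_blue {n : ℕ} {Ω : Set (E n)} {u : E n → ℝ} (ho : IsOpen Ω)
    (hc : Convex ℝ Ω) (hs : ContDiffOn ℝ ∞ u Ω) (hp : ∀ x ∈ Ω, (hess u x).PosDef)
    (ham : ∀ x ∈ Ω, amOp u x = 0) (hcl : IsClosed (epi Ω u)) :
    ∃ S : AS n, S.Ω = Ω ∧ S.K = epi Ω u ∧
      (∀ x, S.X x = Fin.cons (u x) (fun i => x i)) ∧
      (∀ x, S.N x = (hess u x).det ^ (-(1 : ℝ) / ((n : ℝ) + 2)) •
        (Fin.cons 1 (fun i => -pd i u x) : Fin (n + 1) → ℝ)) := by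
  sorry

/-- TASK Liouville (file Vale/Agent/P252/Liouville.lean). -/
theorem liouville_blue {n : ℕ} (hn : 2 ≤ n) {Ω : Set (E n)} {z : E n → ℝ} {x0 : E n} {C : ℝ}
    (H : SecHyp Ω z x0 C) {ι : Type} [Fintype ι] (v : ι → E n → ℝ)
    (hv : ∀ i, ContDiffOn ℝ 2 (v i) Ω) (hv0 : ∀ i, ∀ x ∈ Ω, 0 ≤ v i x)
    (hsup : ∀ i, ∀ x ∈ Ω, ∑ j, ∑ k, (hess z x)⁻¹ j k * hess (v i) x j k ≤ 0)
    (hinf : ∀ i, ∀ ε : ℝ, 0 < ε → ∃ x ∈ Ω, v i x < ε) (δ : ℝ) (hδ : 0 < δ) :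
    ∃ x ∈ Ω, ∀ i, v i x < δ := by
  sorry

/-- TASK Pogorelov (file Vale/Agent/P252/Pogorelov.lean), part 1. -/
theorem hess_bounded_blue {n : ℕ} (hn : 2 ≤ n) {Ω : Set (E n)} {z : E n → ℝ} {x0 : E n} {C : ℝ}
    (H : SecHyp Ω z x0 C) (c : ℝ) (hdet : ∀ x ∈ Ω, (hess z x).det = c) :
    ∃ M : ℝ, ∀ x ∈ Ω, ∀ i j, |hess z x i j| ≤ M := by
  sorry

/-- TASK Pogorelov, part 2 (uses part 1 and `liouville`). -/
theorem hess_const_blue {n : ℕ} (hn : 2 ≤ n) {Ω : Set (E n)} {z : E n → ℝ} {x0 : E n} {C : ℝ}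
    (H : SecHyp Ω z x0 C) (c : ℝ) (hdet : ∀ x ∈ Ω, (hess z x).det = c) :
    ∃ A : Matrix (Fin n) (Fin n) ℝ, ∀ x ∈ Ω, hess z x = A := by
  sorry

end Vale.Agent.P252
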