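import Vale.Agent.P252.Jacobi

/-! The affine structure (position, conormal, affine normal) of an affine maximal graph. -/

open scoped ContDiff Topology
open Matrix Finset

namespace Vale.Agent.P252

variable {n : ℕ}

namespace Build

/-! ### bordered matrices -/

/-- The matrix with corner `a`, first row `b`, first column `c` and lower block `B`. -/
def border (a : ℝ) (b c : Fin n → ℝ) (B : Matrix (Fin n) (Fin n) ℝ) :
    Matrix (Fin (n + 1)) (Fin (n + 1)) ℝ :=
  Matrix.of fun k l => Fin.cases (Fin.cases a b l) (fun j => Fin.cases (c j) (B j) l) k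

lemma det_border_row (a : ℝ) (c : Fin n → ℝ) (B : Matrix (Fin n) (Fin n) ℝ) :
    (border a 0 c B).det = a * B.det := by
  rw [Matrix.det_succ_row_zero, Fin.sum_univ_succ]
  have : (border a 0 c B).submatrix Fin.succ (Fin.succAbove 0) = B := by
    ext i j; simp [border]
  rw [this]
  simp [border]

lemma det_border_col (a : ℝ) (b : Fin n → ℝ) (B : Matrix (Fin n) (Fin n) ℝ) :
    (border a b 0 B).det = a * B.det := by
  rw [Matrix.det_succ_column_zero, Fin.sum_univ_succ]
  have : (border a b 0 B).submatrix (Fin.succAbove 0) Fin.succ = B := by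
    ext i j; simp [border]
  rw [this]
  simp [border]

lemma det_border_one (a : ℝ) (b c : Fin n → ℝ) : (border a b c 1).det = a - b ⬝ᵥ c := by
  have : border a b c 1 = border 1 b 0 1 * border (a - b ⬝ᵥ c) 0 c 1 := by
    ext k l
    rw [Matrix.mul_apply, Fin.sum_univ_succ]
    refine Fin.cases ?_ (fun j => ?_) k <;> refine Fin.cases ?_ (fun i => ?_) l <;>
      simp [border, dotProduct, Matrix.one_apply]
  rw [this, det_mul, det_border_col, det_border_row]
  simp

lemma det_border_low (a : ℝ) (b c : Fin n → ℝ) (B : Matrix (Fin n) (Fin n) ℝ) :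
    (border a b (fun j => c j * a) (Matrix.of fun j i => c j * b i + B j i)).det = a * B.det := by
  have : border a b (fun j => c j * a) (Matrix.of fun j i => c j * b i + B j i)
      = border 1 0 c 1 * border a b 0 B := by
    ext k l
    rw [Matrix.mul_apply, Fin.sum_univ_succ]
    refine Fin.cases ?_ (fun j => ?_) k <;> refine Fin.cases ?_ (fun i => ?_) l <;>
      simp [border, Matrix.one_apply]
  rw [this, det_mul, det_border_col, det_border_row]
  simp

/-! ### the tangent plane inequality -/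

lemma tangent {Ω : Set (E n)} {u : E n → ℝ} (ho : IsOpen Ω)
    (hc : Convex ℝ Ω) (hs : ContDiffOn ℝ ∞ u Ω) (hp : ∀ x ∈ Ω, (hess u x).PosDef)
    {x y : E n} (hx : x ∈ Ω) (hy : y ∈ Ω) : u x + ∑ i, pd i u x * (y i - x i) ≤ u y := by
  let γ : ℝ → E n := fun t => x + t • (y - x)
  have hγ : ∀ t, HasDerivAt γ (y - x) t := fun t =>
    (((hasDerivAt_id t).smul_const (y - x)).const_add x).congr_deriv (by simp)
  have hmem : ∀ t ∈ Set.Icc (0:ℝ) 1, γ t ∈ Ω := fun t ht => hc.add_smul_sub_mem hx hy ht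
  have hat : ∀ t ∈ Set.Icc (0:ℝ) 1, ContDiffAt ℝ ∞ u (γ t) := fun t ht =>
    hs.contDiffAt (ho.mem_nhds (hmem t ht))
  let g1 : ℝ → ℝ := fun t => ∑ j, (y j - x j) * pd j u (γ t)
  have hd1 : ∀ t ∈ Set.Icc (0:ℝ) 1, HasDerivAt (fun t => u (γ t)) (g1 t) t := fun t ht => by
    have := ((hat t ht).differentiableAt (by simp)).hasFDerivAt.comp_hasDerivAt t (hγ t)
    rw [fderiv_eq_sum_pd] at this
    exact this
  have hd2 : ∀ t ∈ Set.Icc (0:ℝ) 1, HasDerivAt g1
      ((fun i => y i - x i) ⬝ᵥ hess u (γ t) *ᵥ (fun i => y i - x i)) t := fun t ht => by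
    have h1 : ∀ j, HasDerivAt (fun t => (y j - x j) * pd j u (γ t))
        ((y j - x j) * ∑ i, (y i - x i) * hess u (γ t) i j) t := fun j => by
      have h2 : DifferentiableAt ℝ (pd j u) (γ t) :=
        (contDiffAt_pd_infty (hat t ht) j).differentiableAt (by simp)
      have := (h2.hasFDerivAt.comp_hasDerivAt t (hγ t)).const_mul (y j - x j)
      rw [fderiv_eq_sum_pd] at this
      exact this
    refine (HasDerivAt.fun_sum (u := Finset.univ) fun j _ => h1 j).congr_deriv ?_
    simp only [dotProduct, mulVec, Finset.mul_sum]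
    rw [Finset.sum_comm]
    exact Finset.sum_congr rfl fun i _ => Finset.sum_congr rfl fun j _ => by ring
  have hmono : MonotoneOn g1 (Set.Icc 0 1) := by
    refine monotoneOn_of_deriv_nonneg (convex_Icc 0 1)
      (fun t ht => (hd2 t ht).continuousAt.continuousWithinAt)
      (fun t ht => (hd2 t (interior_subset ht)).differentiableAt.differentiableWithinAt)
      fun t ht => ?_
    rw [(hd2 t (interior_subset ht)).deriv]
    exact psd_quad_nonneg (hp _ (hmem t (interior_subset ht))).posSemidef _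
  obtain ⟨c, hc1, hc2⟩ := exists_hasDerivAt_eq_slope (fun t => u (γ t)) g1 zero_lt_one
    (fun t ht => (hd1 t ht).continuousAt.continuousWithinAt)
    (fun t ht => hd1 t (Set.Ioo_subset_Icc_self ht))
  have h3 := hmono (Set.left_mem_Icc.2 zero_le_one) (Set.Ioo_subset_Icc_self hc1) hc1.1.le
  have e0 : γ 0 = x := by simp [γ]
  have e1 : γ 1 = y := by simp [γ]
  rw [hc2, e0, e1] at h3
  simp only [g1, e0] at h3
  have : ∑ i, pd i u x * (y i - x i) = ∑ j, (y j - x j) * pd j u x :=
    Finset.sum_congr rfl fun i _ => mul_comm _ _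
  linarith

/-! ### the epigraph -/

/-- The base point of `Z`. -/
def tl (Z : Fin (n + 1) → ℝ) : E n := WithLp.toLp 2 fun i => Z i.succ

lemma continuous_tl : Continuous (tl : (Fin (n + 1) → ℝ) → E n) := by
  unfold tl; fun_prop

lemma tl_cons (a : ℝ) (x : E n) : tl (Fin.cons a (fun i => x i)) = x := by
  ext i; simp [tl]

lemma isOpen_strict {Ω : Set (E n)} {u : E n → ℝ} (ho : IsOpen Ω) (hu : ContinuousOn u Ω) :
    IsOpen {Z : Fin (n + 1) → ℝ | tl Z ∈ Ω ∧ u (tl Z) < Z 0} := by
  rw [isOpen_iff_mem_nhds]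
  rintro Z ⟨h1, h2⟩
  have c1 : ContinuousAt (fun Z : Fin (n + 1) → ℝ => u (tl Z)) Z :=
    (hu.continuousAt (ho.mem_nhds h1)).comp continuous_tl.continuousAt
  filter_upwards [continuous_tl.continuousAt.eventually (ho.mem_nhds h1),
    c1.eventually_lt (continuous_apply 0).continuousAt h2] with W h3 h4
  exact ⟨h3, h4⟩

lemma cons_tl {u : E n → ℝ} {Z : Fin (n + 1) → ℝ} (h : u (tl Z) = Z 0) :
    (Fin.cons (u (tl Z)) (fun i => tl Z i) : Fin (n + 1) → ℝ) = Z := by
  funext k
  refine Fin.cases ?_ (fun j => ?_) k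
  · simpa using h
  · simp [tl]

/-! ### the density -/

/-- `ρ = (det D² u)^(-1/(n+2))`. -/
noncomputable def rho (u : E n → ℝ) (x : E n) : ℝ := (hess u x).det ^ (-(1 : ℝ) / ((n : ℝ) + 2))

section
variable {Ω : Set (E n)} {u : E n → ℝ} (ho : IsOpen Ω) (hs : ContDiffOn ℝ ∞ u Ω)
    (hp : ∀ x ∈ Ω, (hess u x).PosDef)

include hp in
lemma rho_pos {x : E n} (hx : x ∈ Ω) : 0 < rho u x := Real.rpow_pos_of_pos (hp x hx).det_pos _

include hp in
lemma rho_pow {x : E n} (hx : x ∈ Ω) : rho u x ^ (n + 2) * (hess u x).det = 1 := by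
  have h := (hp x hx).det_pos
  rw [rho, ← Real.rpow_natCast, ← Real.rpow_mul h.le]
  have : -(1 : ℝ) / ((n : ℝ) + 2) * ((n + 2 : ℕ) : ℝ) = -1 := by
    push_cast; field_simp
  rw [this, Real.rpow_neg_one, inv_mul_cancel₀ h.ne']

include hp in
lemma wfun_eq {x : E n} (hx : x ∈ Ω) : wfun u x = rho u x ^ (n + 1) := by
  have h := (hp x hx).det_pos
  rw [rho, wfun, ← Real.rpow_natCast, ← Real.rpow_mul h.le]
  congr 1
  push_cast; field_simp

include ho hs in
lemma u_at {x : E n} (hx : x ∈ Ω) : ContDiffAt ℝ ∞ u x := hs.contDiffAt (ho.mem_nhds hx)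

include ho hs hp in
lemma rho_at {x : E n} (hx : x ∈ Ω) : ContDiffAt ℝ ∞ (rho u) x :=
  (contDiffAt_det (contDiffAt_hess_infty (u_at ho hs hx))).rpow_const_of_ne (hp x hx).det_pos.ne'

/-- The Berwald-Blaschke Laplacian. -/
noncomputable def bb : Diff n where
  Ω := Ω
  a := fun x => (rho u x ^ 2)⁻¹ • (hess u x)⁻¹
  m := fun x => (rho u x)⁻¹
  isOpen := ho
  a_pos := fun x hx => (hp x hx).inv.smul (by have := rho_pos hp hx; positivity)
  m_pos := fun x hx => inv_pos.2 (rho_pos hp hx)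
  a_smooth := fun i j x hx => by
    have hH := contDiffAt_hess_infty (u_at ho hs hx)
    exact (((((rho_at ho hs hp hx).pow 2).inv (pow_ne_zero _ (rho_pos hp hx).ne')).mul
      (contDiffAt_inv_entry hH (hp x hx).det_pos.ne' i j)).of_le (by simp)).contDiffWithinAt
  m_cont := fun x hx =>
    ((rho_at ho hs hp hx).continuousAt.inv₀ (rho_pos hp hx).ne').continuousWithinAt

lemma bb_ip {x : E n} (hx : x ∈ Ω) (v w : Fin n → ℝ) :
    (bb ho hs hp).ip x v w = (rho u x)⁻¹ * (v ⬝ᵥ (hess u x)⁻¹ *ᵥ w) := by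
  have := (rho_pos hp hx).ne'
  simp only [Diff.ip, bb, smul_mulVec, dotProduct_smul, smul_eq_mul]
  field_simp

lemma cast_mul_pow_pred (k : ℕ) (t : ℝ) : (k : ℝ) * t ^ (k - 1) * t = k * t ^ k := by
  cases k with
  | zero => simp
  | succ k => simp [pow_succ, mul_assoc]

lemma bb_lap {x : E n} (hx : x ∈ Ω) {g : E n → ℝ} (hg : ContDiffAt ℝ 2 g x) :
    (bb ho hs hp).lap g x = (rho u x)⁻¹ * (maDiff ho hs hp).lap g x
      + n * (rho u x ^ 2)⁻¹ * (grad (rho u) x ⬝ᵥ (hess u x)⁻¹ *ᵥ grad g x) := by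
  have h0 := (rho_pos hp hx).ne'
  have hr : HasGrad (rho u) x (grad (rho u) x) :=
    hasGrad_of_diff ((rho_at ho hs hp hx).differentiableAt (by simp))
  have hrn := hr.comp' (hasDerivAt_pow n (rho u x))
  have h1 := Diff.div_mul_flux (D := maDiff ho hs hp) hx hrn.1 hg
  have h2 : ∀ i, pd i ((bb ho hs hp).flux g i) x
      = pd i (fun y => rho u y ^ n * (maDiff ho hs hp).flux g i y) x := fun i => by
    refine pd_congr ?_ i
    filter_upwards [ho.mem_nhds hx] with y hy
    have e := rho_pow hp hy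
    have e0 := (rho_pos hp hy).ne'
    simp only [Diff.flux, bb, maDiff, Matrix.smul_apply, smul_eq_mul, Finset.mul_sum]
    refine Finset.sum_congr rfl fun j _ => ?_
    have e1 : (rho u y ^ 2)⁻¹ = rho u y ^ n * (hess u y).det := by
      rw [inv_eq_iff_eq_inv, eq_comm, inv_eq_iff_eq_inv]
      field_simp
      rw [← e]; ring
    rw [e1]; ring
  rw [Diff.lap_def]
  simp only [h2]
  rw [h1, Diff.Γ, hrn.grad_eq, Diff.ip_smul_left, maDiff_ip ho hs hp hx]
  have e := rho_pow hp hx
  have e2 := cast_mul_pow_pred n (rho u x)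
  change (_ * (hess u x).det) / (rho u x)⁻¹ = _
  generalize (maDiff ho hs hp).lap g x = L at *
  generalize grad (rho u) x ⬝ᵥ (hess u x)⁻¹ *ᵥ grad g x = P at *
  generalize (n : ℝ) * rho u x ^ (n - 1) = q at *
  have e3 : (hess u x).det = (rho u x ^ (n + 2))⁻¹ := by
    field_simp; linarith
  have e4 : q = n * rho u x ^ n / rho u x := by field_simp; linarith
  rw [e3, e4]
  field_simp
  ring

include ho hs in
lemma grad_pd {x : E n} (hx : x ∈ Ω) (k : Fin n) :
    grad (pd k u) x = hess u x *ᵥ Pi.single k 1 := by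
  funext i
  simp [grad, hess]

include hp in
lemma inv_mul_col {x : E n} (hx : x ∈ Ω) (w : Fin n → ℝ) :
    (hess u x)⁻¹ *ᵥ (hess u x *ᵥ w) = w := by
  rw [mulVec_mulVec, Matrix.nonsing_inv_mul _ (isUnit_iff_ne_zero.2 (hp x hx).det_pos.ne'),
    one_mulVec]

include hp in
lemma col_pair {x : E n} (hx : x ∈ Ω) (v w : Fin n → ℝ) :
    (hess u x *ᵥ v) ⬝ᵥ (hess u x)⁻¹ *ᵥ w = v ⬝ᵥ w := by
  have hsym : (hess u x)ᵀ = hess u x := by
    ext i j; exact psd_symm (hp x hx).posSemidef j i
  rw [← hsym, mulVec_transpose, hsym, ← dotProduct_mulVec, mulVec_mulVec,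
    Matrix.mul_nonsing_inv _ (isUnit_iff_ne_zero.2 (hp x hx).det_pos.ne'), one_mulVec]

lemma ma_lap_u {x : E n} (hx : x ∈ Ω) : (maDiff ho hs hp).lap u x = n := by
  rw [maDiff_lap ho hs hp hx ((u_at ho hs hx).of_le (nat_le_infty 2))]
  have h := Matrix.nonsing_inv_mul _ (isUnit_iff_ne_zero.2 (hp x hx).det_pos.ne')
  have : ∀ j, ∑ k, (hess u x)⁻¹ j k * hess u x j k = 1 := fun j => by
    have := congrFun (congrFun h j) j
    rw [Matrix.mul_apply, Matrix.one_apply_eq] at this
    rw [← this]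
    exact Finset.sum_congr rfl fun k _ => by rw [psd_symm (hp x hx).posSemidef j k]
  simp [this]

lemma hess_coord (i : Fin n) (x : E n) : hess (fun y : E n => y i) x = 0 := by
  ext j k
  have : pd k (fun y : E n => y i) = fun _ => if k = i then 1 else 0 :=
    funext fun y => (hasGrad_coord i y).2 k
  simp only [hess, Matrix.of_apply, this]
  exact (hasGrad_const _ x).2 j

lemma grad_coord (i : Fin n) (x : E n) : grad (fun y : E n => y i) x = Pi.single i 1 := by
  funext j
  rw [(hasGrad_coord i x).grad_eq, Pi.single_apply]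

lemma ma_lap_coord {x : E n} (hx : x ∈ Ω) (i : Fin n) :
    (maDiff ho hs hp).lap (fun y : E n => y i) x = 0 := by
  rw [maDiff_lap ho hs hp hx (contDiff_coord i).contDiffAt, hess_coord]
  simp

/-- The logarithmic derivative of the Hessian determinant. -/
lemma ma_lap_pd {x : E n} (hx : x ∈ Ω) (k : Fin n) :
    (maDiff ho hs hp).lap (pd k u) x
      = ∑ i, ∑ j, (hess u x)⁻¹ i j * pd k (fun y => hess u y j i) x := by
  have h3 : ContDiffAt ℝ 3 u x := (u_at ho hs hx).of_le (nat_le_infty 3)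
  rw [maDiff_lap ho hs hp hx ((contDiffAt_pd_infty (u_at ho hs hx) k).of_le (nat_le_infty 2))]
  refine Finset.sum_congr rfl fun i _ => Finset.sum_congr rfl fun j _ => ?_
  congr 1
  change pd i (fun y => hess u y j k) x = _
  rw [pd_hess_symm h3 i j k, pd_hess_swap h3 i k j, pd_hess_symm h3 k i j]

lemma pd_rho {x : E n} (hx : x ∈ Ω) (k : Fin n) :
    grad (rho u) x k = -(rho u x / ((n : ℝ) + 2)) * (maDiff ho hs hp).lap (pd k u) x := by
  have h0 := (hp x hx).det_pos
  have hd := hasGrad_det (fun a b =>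
    (contDiffAt_hess_infty (u_at ho hs hx) a b).differentiableAt (by simp)) h0.ne'
  have h1 := (hd.comp (Real.hasDerivAt_rpow_const (p := -(1 : ℝ) / ((n : ℝ) + 2))
    (Or.inl h0.ne'))).2 k
  rw [ma_lap_pd ho hs hp hx]
  change pd k (rho u) x = _ at h1
  change pd k (rho u) x = _
  rw [h1, Real.rpow_sub_one h0.ne', rho]
  field_simp

lemma bb_lap_pd {x : E n} (hx : x ∈ Ω) (k : Fin n) :
    (bb ho hs hp).lap (pd k u) x = -2 * (rho u x ^ 2)⁻¹ * grad (rho u) x k := by
  have h0 := (rho_pos hp hx).ne'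
  rw [bb_lap ho hs hp hx ((contDiffAt_pd_infty (u_at ho hs hx) k).of_le (nat_le_infty 2)),
    grad_pd ho hs hx, inv_mul_col hp hx, dotProduct_single, pd_rho ho hs hp hx]
  field_simp
  ring

lemma bb_lap_rho {x : E n} (hx : x ∈ Ω) (ham : amOp u x = 0) :
    (bb ho hs hp).lap (rho u) x = 0 := by
  have h0 := (rho_pos hp hx).ne'
  have hr : ContDiffAt ℝ 2 (rho u) x := (rho_at ho hs hp hx).of_le (nat_le_infty 2)
  have j1 := (Diff.jet_of (D := maDiff ho hs hp) hr).comp hx (φ := fun t => t ^ (n + 1))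
    (φ' := fun t => ((n + 1 : ℕ) : ℝ) * t ^ n) (φ'' := ((n + 1 : ℕ) : ℝ) * (n * rho u x ^ (n - 1)))
    (contDiff_id.pow _).contDiffAt
    (Filter.Eventually.of_forall fun t => by simpa using hasDerivAt_pow (n + 1) t)
    ((hasDerivAt_pow n (rho u x)).const_mul _)
  have e : wfun u =ᶠ[𝓝 x] fun y => rho u y ^ (n + 1) :=
    (ho.eventually_mem hx).mono fun y hy => wfun_eq hp hy
  have j2 := j1.congr_fun e
  have h1 := maDiff_lap ho hs hp hx j2.1
  have h2 : amOp u x = (hess u x).det * (maDiff ho hs hp).lap (wfun u) x := by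
    rw [h1, amOp]
    simp only [Finset.mul_sum, mul_assoc]
  rw [ham, j2.2.2, maDiff_ip ho hs hp hx] at h2
  have h3 := (mul_eq_zero.1 h2.symm).resolve_left (hp x hx).det_pos.ne'
  rw [bb_lap ho hs hp hx hr]
  have e2 := cast_mul_pow_pred n (rho u x)
  generalize (maDiff ho hs hp).lap (rho u) x = L at *
  generalize grad (rho u) x ⬝ᵥ (hess u x)⁻¹ *ᵥ grad (rho u) x = P at *
  generalize (n : ℝ) * rho u x ^ (n - 1) = q at *
  have e4 : q = n * rho u x ^ n / rho u x := by field_simp; linarith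
  have hn : ((n + 1 : ℕ) : ℝ) ≠ 0 := by positivity
  have hrn : rho u x ^ n ≠ 0 := pow_ne_zero _ h0
  have h4 : ((n + 1 : ℕ) : ℝ) * rho u x ^ n * (L + n / rho u x * P) = 0 := by
    rw [← h3, e4]; field_simp
  have h5 := (mul_eq_zero.1 h4).resolve_left (mul_ne_zero hn hrn)
  have : L = -(n / rho u x * P) := by linarith
  rw [this]
  field_simp
  ring

end

end Build

open Build in
theorem exists_AS {n : ℕ} {Ω : Set (E n)} {u : E n → ℝ} (ho : IsOpen Ω)
    (hc : Convex ℝ Ω) (hs : ContDiffOn ℝ ∞ u Ω) (hp : ∀ x ∈ Ω, (hess u x).PosDef)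
    (ham : ∀ x ∈ Ω, amOp u x = 0) (hcl : IsClosed (epi Ω u)) :
    ∃ S : AS n, S.Ω = Ω ∧ S.K = epi Ω u ∧
      (∀ x, S.X x = Fin.cons (u x) (fun i => x i)) ∧
      (∀ x, S.N x = (hess u x).det ^ (-(1 : ℝ) / ((n : ℝ) + 2)) •
        (Fin.cons 1 (fun i => -pd i u x) : Fin (n + 1) → ℝ)) := by
  let X : E n → Fin (n + 1) → ℝ := fun x => Fin.cons (u x) (fun i => x i)
  let N : E n → Fin (n + 1) → ℝ := fun x =>
    rho u x • (Fin.cons 1 (fun i => -pd i u x) : Fin (n + 1) → ℝ)
  let Y : E n → Fin (n + 1) → ℝ := fun x => Fin.cons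
    ((rho u x)⁻¹ + (rho u x ^ 2)⁻¹ * (grad (rho u) x ⬝ᵥ (hess u x)⁻¹ *ᵥ grad u x))
    (fun i => (rho u x ^ 2)⁻¹ * (grad (rho u) x ⬝ᵥ (hess u x)⁻¹ *ᵥ Pi.single i 1))
  have X0 : (fun y => X y 0) = u := rfl
  have XS : ∀ i : Fin n, (fun y => X y i.succ) = fun y : E n => y i := fun i => rfl
  have N0 : (fun y => N y 0) = rho u := funext fun y => by simp [N]
  have NS : ∀ i : Fin n, (fun y => N y i.succ) = fun y => -(rho u y * pd i u y) :=
    fun i => funext fun y => by simp [N]
  have hu2 : ∀ x ∈ Ω, ContDiffAt ℝ 2 u x := fun x hx => (u_at ho hs hx).of_le (nat_le_infty 2)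
  have hr2 : ∀ x ∈ Ω, ContDiffAt ℝ 2 (rho u) x := fun x hx =>
    (rho_at ho hs hp hx).of_le (nat_le_infty 2)
  have hp2 : ∀ x ∈ Ω, ∀ k, ContDiffAt ℝ 2 (pd k u) x := fun x hx k =>
    (contDiffAt_pd_infty (u_at ho hs hx) k).of_le (nat_le_infty 2)
  have gN : ∀ x ∈ Ω, ∀ k : Fin n, grad (fun y => -(rho u y * pd k u y)) x =
      -(pd k u x • grad (rho u) x + rho u x • (hess u x *ᵥ Pi.single k 1)) := fun x hx k => by
    rw [← grad_pd ho hs hx]
    exact ((hasGrad_of_diff ((hr2 x hx).differentiableAt (by simp))).mul'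
      (hasGrad_of_diff ((hp2 x hx k).differentiableAt (by simp)))).neg.grad_eq
  have hmem : ∀ Z, Z ∈ epi Ω u ↔ tl Z ∈ Ω ∧ u (tl Z) ≤ Z 0 := fun Z => Iff.rfl
  have hopen := isOpen_strict ho hs.continuousOn
  refine ⟨{ toDiff := bb ho hs hp, X := X, N := N, Y := Y, K := epi Ω u
            X_smooth := ?_, N_smooth := ?_, lapN := ?_, lapX := ?_, ΓNX := ?_, orth := ?_
            jacX := ?_, jacN := ?_, det_a := ?_, K_closed := hcl, K_convex := ?_, X_mem := ?_
            supp := ?_, bdry := ?_, inj := ?_, proper := ?_ }, rfl, rfl, fun _ => rfl,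
    fun _ => rfl⟩
  · intro k x hx
    refine Fin.cases ?_ (fun i => ?_) k
    · exact (hu2 x hx).contDiffWithinAt
    · exact (contDiff_coord i).contDiffAt.contDiffWithinAt
  · intro k x hx
    refine Fin.cases ?_ (fun i => ?_) k
    · rw [N0]; exact (hr2 x hx).contDiffWithinAt
    · rw [NS]; exact ((hr2 x hx).mul (hp2 x hx i)).neg.contDiffWithinAt
  · intro x hx k
    refine Fin.cases ?_ (fun i => ?_) k
    · rw [N0]; exact bb_lap_rho ho hs hp hx (ham x hx)
    · have h0 := (rho_pos hp hx).ne'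
      rw [NS, (((Diff.jet_of (D := bb ho hs hp) (hr2 x hx)).mul hx
        (Diff.jet_of (hp2 x hx i))).neg hx).2.2, bb_lap_rho ho hs hp hx (ham x hx),
        bb_lap_pd ho hs hp hx, bb_ip ho hs hp hx, grad_pd ho hs hx, inv_mul_col hp hx,
        dotProduct_single]
      field_simp
      ring
  · intro x hx k
    refine Fin.cases ?_ (fun i => ?_) k
    · rw [X0, bb_lap ho hs hp hx (hu2 x hx), ma_lap_u ho hs hp hx]
      simp only [Y, Fin.cons_zero]
      ring
    · rw [XS, bb_lap ho hs hp hx (contDiff_coord i).contDiffAt, ma_lap_coord ho hs hp hx,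
        grad_coord]
      simp only [Y, Fin.cons_succ]
      ring
  · intro x hx k l
    have h0 := (rho_pos hp hx).ne'
    refine Fin.cases ?_ (fun j => ?_) k <;> refine Fin.cases ?_ (fun i => ?_) l
    · rw [N0, X0, Diff.Γ, bb_ip ho hs hp hx]
      simp only [N, Y, Fin.cons_zero, Pi.smul_apply, smul_eq_mul, if_true]
      field_simp
      ring
    · rw [N0, XS, Diff.Γ, bb_ip ho hs hp hx, grad_coord, if_neg (Fin.succ_ne_zero i).symm]
      simp only [N, Y, Fin.cons_zero, Fin.cons_succ, Pi.smul_apply, smul_eq_mul]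
      field_simp
      ring
    · rw [NS, X0, Diff.Γ, bb_ip ho hs hp hx, gN x hx, if_neg (Fin.succ_ne_zero j), neg_dotProduct,
        add_dotProduct, smul_dotProduct, smul_dotProduct, col_pair hp hx, single_dotProduct]
      simp only [N, Y, Fin.cons_zero, Fin.cons_succ, Pi.smul_apply, smul_eq_mul, grad]
      field_simp
      ring
    · rw [NS, XS, Diff.Γ, bb_ip ho hs hp hx, gN x hx, grad_coord, neg_dotProduct,
        add_dotProduct, smul_dotProduct, smul_dotProduct, col_pair hp hx, single_dotProduct]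
      simp only [N, Y, Fin.cons_succ, Pi.smul_apply, smul_eq_mul, Pi.single_apply, Fin.succ_inj]
      field_simp
      ring
  · intro x hx i
    rw [Fin.sum_univ_succ, X0]
    simp only [XS, (hasGrad_coord _ x).2 i]
    simp [N]
  · intro x hx v
    have h0 := rho_pos hp hx
    have e : jacM v X x = border (v 0) (grad u x) (fun j => v j.succ) 1 := by
      ext k l
      refine Fin.cases ?_ (fun j => ?_) k <;> refine Fin.cases ?_ (fun i => ?_) l
      · rfl
      · rfl
      · rfl
      · simp only [jacM, border, Matrix.of_apply, Fin.cases_succ, XS, (hasGrad_coord j x).2 i,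
          Matrix.one_apply, eq_comm]
    have e2 : N x ⬝ᵥ v = rho u x * (v 0 - grad u x ⬝ᵥ fun j => v j.succ) := by
      simp only [N, smul_dotProduct, smul_eq_mul, dotProduct, Fin.sum_univ_succ, Fin.cons_zero,
        Fin.cons_succ, grad, Pi.smul_apply, mul_sub, Finset.mul_sum, sub_eq_add_neg,
        ← Finset.sum_neg_distrib, mul_add]
      congr 1
      · ring
      · exact Finset.sum_congr rfl fun i _ => by ring
    rw [e, det_border_one, e2, abs_mul, abs_of_pos h0]
    change _ = (rho u x)⁻¹ * _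
    field_simp
  · intro x hx
    have h0 := rho_pos hp hx
    have e : jacM (N x) N x = border (rho u x) (grad (rho u) x) (fun j => -pd j u x * rho u x)
        (Matrix.of fun j i => -pd j u x * grad (rho u) x i + ((-rho u x) • hess u x) j i) := by
      ext k l
      refine Fin.cases ?_ (fun j => ?_) k <;> refine Fin.cases ?_ (fun i => ?_) l
      · simp [jacM, border, N]
      · simp only [jacM, border, Matrix.of_apply, Fin.cases_succ, Fin.cases_zero, N0, grad]
      · simp [jacM, border, N, mul_comm]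
      · have := congrFun (gN x hx j) i
        simp only [jacM, border, Matrix.of_apply, Fin.cases_succ, NS]
        simp only [grad] at this ⊢
        rw [this]
        simp [psd_symm (hp x hx).posSemidef j i, grad]
        ring
    have e3 := rho_pow hp hx
    rw [e, det_border_low, Matrix.det_smul, abs_mul, abs_mul, abs_pow, abs_neg, abs_of_pos h0,
      abs_of_pos (hp x hx).det_pos, Fintype.card_fin]
    change _ = (rho u x)⁻¹
    field_simp
    rw [← e3]; ring
  · intro x hx
    have h0 := (rho_pos hp hx).ne'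
    have e3 := rho_pow hp hx
    change ((rho u x ^ 2)⁻¹ • (hess u x)⁻¹).det * (rho u x)⁻¹ ^ 2 = (rho u x)⁻¹ ^ n
    have e4 : (hess u x).det = (rho u x ^ (n + 2))⁻¹ := by
      field_simp; linarith
    rw [Matrix.det_smul, Matrix.det_nonsing_inv, Ring.inverse_eq_inv', Fintype.card_fin, e4]
    simp only [inv_pow, ← pow_mul]
    field_simp
    ring
  · intro Z hZ W hW a b ha hb hab
    rw [hmem] at hZ hW ⊢
    have e : tl (a • Z + b • W) = a • tl Z + b • tl W := by
      ext i; simp [tl]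
    have hm : tl (a • Z + b • W) ∈ Ω := e ▸ hc hZ.1 hW.1 ha hb hab
    refine ⟨hm, ?_⟩
    have t1 := tangent ho hc hs hp hm hZ.1
    have t2 := tangent ho hc hs hp hm hW.1
    set w := tl (a • Z + b • W)
    have e2 : a * ∑ i, pd i u w * (tl Z i - w i) + b * ∑ i, pd i u w * (tl W i - w i) = 0 := by
      simp only [Finset.mul_sum, ← Finset.sum_add_distrib]
      refine Finset.sum_eq_zero fun i _ => ?_
      have : w i = a * tl Z i + b * tl W i := by rw [e]; simp
      have h1 : a * (tl Z i - w i) + b * (tl W i - w i) = 0 := by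
        calc a * (tl Z i - w i) + b * (tl W i - w i)
            = a * tl Z i + b * tl W i - (a + b) * w i := by ring
          _ = 0 := by rw [hab, this]; ring
      calc a * (pd i u w * (tl Z i - w i)) + b * (pd i u w * (tl W i - w i))
          = pd i u w * (a * (tl Z i - w i) + b * (tl W i - w i)) := by ring
        _ = 0 := by rw [h1, mul_zero]
    have h3 := mul_le_mul_of_nonneg_left (t1.trans hZ.2) ha
    have h4 := mul_le_mul_of_nonneg_left (t2.trans hW.2) hb
    have h5 : u w = a * u w + b * u w := by rw [← add_mul, hab, one_mul]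
    simp only [Pi.add_apply, Pi.smul_apply, smul_eq_mul]
    linarith
  · intro x hx
    rw [hmem]
    simp only [X, tl_cons, Fin.cons_zero]
    exact ⟨hx, le_rfl⟩
  · intro x hx Z hZ
    rw [hmem] at hZ
    have t1 := (tangent ho hc hs hp hx hZ.1).trans hZ.2
    have e : N x ⬝ᵥ (Z - X x) = rho u x * (Z 0 - u x - ∑ i, pd i u x * (tl Z i - x i)) := by
      simp only [N, X, smul_dotProduct, smul_eq_mul]
      congr 1
      simp only [dotProduct, Fin.sum_univ_succ, Fin.cons_zero, Fin.cons_succ, Pi.sub_apply, tl,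
        one_mul, neg_mul, Finset.sum_neg_distrib, sub_eq_add_neg]
    rw [e]
    exact mul_nonneg (rho_pos hp hx).le (by linarith)
  · intro Z hZ
    have h1 : Z ∈ epi Ω u := hcl.frontier_subset hZ
    rw [hmem] at h1
    refine ⟨tl Z, h1.1, cons_tl (le_antisymm h1.2 (not_lt.1 fun h => hZ.2 ?_))⟩
    exact interior_maximal (fun W hW => (hmem W).2 ⟨hW.1, hW.2.le⟩) hopen ⟨h1.1, h⟩
  · intro x _ y _ h
    rw [← tl_cons (u x) x, ← tl_cons (u y) y]
    exact congrArg tl h
  · intro R
    have hK : IsCompact (Metric.closedBall (0 : Fin (n + 1) → ℝ) R ∩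
        (epi Ω u ∩ {Z | tl Z ∈ Ω ∧ u (tl Z) < Z 0}ᶜ)) :=
      (isCompact_closedBall _ _).inter_right (hcl.inter hopen.isClosed_compl)
    convert hK.image continuous_tl using 1
    ext x
    constructor
    · rintro ⟨hx, hR⟩
      refine ⟨X x, ⟨mem_closedBall_zero_iff.2 hR, ?_, ?_⟩, tl_cons _ _⟩
      · rw [hmem]
        simp only [X, tl_cons, Fin.cons_zero]
        exact ⟨hx, le_rfl⟩
      · simp [X, tl_cons]
    · rintro ⟨Z, ⟨h1, h2, h3⟩, rfl⟩
      rw [hmem] at h2
      have h4 : u (tl Z) = Z 0 := le_antisymm h2.2 (not_lt.1 fun h => h3 ⟨h2.1, h⟩)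
      refine ⟨h2.1, ?_⟩
      simp only [X]
      rw [cons_tl h4]
      exact mem_closedBall_zero_iff.1 h1

end Vale.Agent.P252
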