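import Mathlib

/-! Matrices of the form `a I + (rank two)`. -/

open Matrix Finset

namespace Vale.Agent.P252

variable {n : ℕ}

/-- Indicator vector. -/
def ev (o : Fin n) (i : Fin n) : ℝ := if i = o then 1 else 0

/-- Structured matrix. -/
def Sm (o : Fin n) (ξ : Fin n → ℝ) (a b c d : ℝ) : Matrix (Fin n) (Fin n) ℝ :=
  Matrix.of fun i j => a * (if i = j then 1 else 0) + b * (ξ i * ξ j)
    + c * (ev o i * ξ j + ξ i * ev o j) + (d - a) * (ev o i * ev o j)

lemma sum_ev_mul (o : Fin n) (v : Fin n → ℝ) : ∑ j, ev o j * v j = v o := by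
  simp [ev]

lemma ev_self (o : Fin n) : ev o o = 1 := by simp [ev]

lemma sum_Sm_mul (o : Fin n) (ξ : Fin n → ℝ) (a b c d : ℝ) (v : Fin n → ℝ) (i : Fin n) :
    ∑ j, Sm o ξ a b c d i j * v j = a * v i + (b * (∑ j, ξ j * v j) + c * v o) * ξ i
      + (c * (∑ j, ξ j * v j) + (d - a) * v o) * ev o i := by
  have h1 : ∀ j, Sm o ξ a b c d i j * v j = a * ((if i = j then 1 else 0) * v j)
      + (b * ξ i + c * ev o i) * (ξ j * v j)
      + (c * ξ i + (d - a) * ev o i) * (ev o j * v j) := fun j => by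
    simp only [Sm, Matrix.of_apply]; ring
  simp only [h1, Finset.sum_add_distrib, ← Finset.mul_sum, sum_ev_mul]
  have h2 : ∑ j, (if i = j then (1:ℝ) else 0) * v j = v i := by simp
  rw [h2]; ring

lemma Sm_symm (o : Fin n) (ξ : Fin n → ℝ) (a b c d : ℝ) (i j : Fin n) :
    Sm o ξ a b c d i j = Sm o ξ a b c d j i := by
  simp only [Sm, Matrix.of_apply, eq_comm (a := i)]; ring

lemma sum_xi_Sm (o : Fin n) {ξ : Fin n → ℝ} (h0 : ξ o = 0) (a b c d : ℝ) (k : Fin n) :
    ∑ j, ξ j * Sm o ξ a b c d j k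
      = (a + b * ∑ j, ξ j * ξ j) * ξ k + c * (∑ j, ξ j * ξ j) * ev o k := by
  have := sum_Sm_mul o ξ a b c d ξ k
  simp only [h0] at this
  simp only [Sm_symm o ξ a b c d _ k, mul_comm (ξ _) (Sm o ξ a b c d k _), this]
  ring

lemma Sm_row_o (o : Fin n) {ξ : Fin n → ℝ} (h0 : ξ o = 0) (a b c d : ℝ) (k : Fin n) :
    Sm o ξ a b c d o k = c * ξ k + d * ev o k := by
  simp only [Sm, Matrix.of_apply, h0, ev_self]
  have : (if o = k then (1:ℝ) else 0) = ev o k := by simp [ev, eq_comm]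
  rw [this]; ring

lemma Sm_inv (o : Fin n) {ξ : Fin n → ℝ} (h0 : ξ o = 0) {a b c d y Δ : ℝ}
    (hy : y = ∑ j, ξ j * ξ j) (hΔ : Δ = (a + b * y) * d - c ^ 2 * y) (ha : a ≠ 0)
    (hΔ0 : Δ ≠ 0) :
    (Sm o ξ a b c d)⁻¹ = Sm o ξ (1 / a) ((c ^ 2 - b * d) / (a * Δ)) (-c / Δ) ((a + b * y) / Δ) := by
  apply Matrix.inv_eq_right_inv
  ext i k
  rw [Matrix.mul_apply, sum_Sm_mul, sum_xi_Sm o h0, Sm_row_o o h0, ← hy, Matrix.one_apply]
  simp only [Sm, Matrix.of_apply]
  generalize (if i = k then (1:ℝ) else 0) = δ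
  field_simp
  rw [hΔ]; ring

lemma Sm_pair (o : Fin n) {ξ : Fin n → ℝ} (h0 : ξ o = 0) {y : ℝ}
    (hy : y = ∑ j, ξ j * ξ j) (a b c d α β γ δ : ℝ) :
    ∑ i, ∑ j, Sm o ξ a b c d i j * Sm o ξ α β γ δ i j
      = ((n:ℝ) - 1) * a * α + a * β * y + b * y * (α + β * y) + 2 * c * γ * y + d * δ := by
  have h1 : ∀ i, ∑ j, Sm o ξ a b c d i j * Sm o ξ α β γ δ i j
      = a * α + (a * β + b * (α + β * y) + c * γ) * (ξ i * ξ i)
        + (2 * a * γ + b * γ * y + c * δ + c * (α + β * y) + (d - a) * γ) * (ev o i * ξ i)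
        + (a * (δ - α) + c * γ * y + (d - a) * δ) * (ev o i * ev o i) := fun i => by
    rw [sum_Sm_mul]
    simp only [Sm_symm o ξ α β γ δ i]
    rw [sum_xi_Sm o h0, Sm_row_o o h0, ← hy]
    simp only [Sm, Matrix.of_apply, if_true]
    ring
  simp only [h1, Finset.sum_add_distrib, ← Finset.mul_sum, sum_ev_mul, h0, ev_self, ← hy,
    Finset.sum_const, Finset.card_univ, Fintype.card_fin, nsmul_eq_mul]
  ring

lemma Sm_det (o : Fin n) {ξ : Fin n → ℝ} (h0 : ξ o = 0) {a b c d y : ℝ}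
    (hy : y = ∑ j, ξ j * ξ j) (ha : a ≠ 0) :
    (Sm o ξ a b c d).det = a ^ n * (((a + b * y) * d - c ^ 2 * y) / a ^ 2) := by
  let U : Matrix (Fin n) (Fin 2) ℝ := Matrix.of fun i k => ![ξ i, ev o i] k
  let V : Matrix (Fin 2) (Fin n) ℝ := Matrix.of fun k j =>
    ![(b * ξ j + c * ev o j) / a, (c * ξ j + (d - a) * ev o j) / a] k
  have e : Sm o ξ a b c d = a • (1 + U * V) := by
    ext i j
    simp only [Sm, Matrix.of_apply, Matrix.smul_apply, Matrix.add_apply, Matrix.mul_apply,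
      Fin.sum_univ_two, U, V, Matrix.one_apply, Matrix.cons_val_zero, Matrix.cons_val_one,
      smul_eq_mul]
    field_simp
    ring
  have h1 : ∑ j, ev o j * ξ j = 0 := by rw [sum_ev_mul, h0]
  have h2 : ∑ j, ev o j * ev o j = 1 := by rw [sum_ev_mul, ev_self]
  have h3 : ∀ r s : ℝ, ∑ j, (r * ξ j + s * ev o j) / a * ξ j = r * y / a := fun r s => by
    have : ∀ j, (r * ξ j + s * ev o j) / a * ξ j
        = r / a * (ξ j * ξ j) + s / a * (ev o j * ξ j) := fun j => by ring
    simp only [this, Finset.sum_add_distrib, ← Finset.mul_sum, h1, ← hy]; ring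
  have h4 : ∀ r s : ℝ, ∑ j, (r * ξ j + s * ev o j) / a * ev o j = s / a := fun r s => by
    have : ∀ j, (r * ξ j + s * ev o j) / a * ev o j
        = r / a * (ev o j * ξ j) + s / a * (ev o j * ev o j) := fun j => by ring
    simp only [this, Finset.sum_add_distrib, ← Finset.mul_sum, h1, h2]; ring
  rw [e, Matrix.det_smul, Matrix.det_one_add_mul_comm, Matrix.det_fin_two, Fintype.card_fin]
  simp only [Matrix.add_apply, Matrix.mul_apply, U, V, Matrix.of_apply, Matrix.cons_val_zero,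
    Matrix.cons_val_one, h3, h4, Matrix.one_apply]
  simp
  left
  field_simp
  ring

lemma Sm_posDef (o : Fin n) {ξ : Fin n → ℝ} (h0 : ξ o = 0) {a b c d y : ℝ}
    (hy : y = ∑ j, ξ j * ξ j) (ha : 0 < a) (hd : 0 < d)
    (hΔ : 0 < (a + b * y) * d - c ^ 2 * y) : (Sm o ξ a b c d).PosDef := by
  rw [Matrix.posDef_iff_dotProduct_mulVec]
  refine ⟨?_, fun v hv => ?_⟩
  · ext i j
    simp [Sm_symm o ξ a b c d j i]
  · set s := ∑ j, ξ j * v j with hs
    let v' : Fin n → ℝ := fun j => v j - v o * ev o j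
    set R := ∑ j, v' j * v' j with hR
    have h1 : ∑ j, ev o j * ξ j = 0 := by rw [sum_ev_mul, h0]
    have h2 : ∑ j, ev o j * ev o j = 1 := by rw [sum_ev_mul, ev_self]
    have hR' : ∑ j, v j * v j = R + v o ^ 2 := by
      have : ∀ j, v' j * v' j = v j * v j - 2 * v o * (ev o j * v j)
          + v o ^ 2 * (ev o j * ev o j) := fun j => by simp only [v']; ring
      rw [hR]
      simp only [this, Finset.sum_add_distrib, Finset.sum_sub_distrib, ← Finset.mul_sum, h2,
        sum_ev_mul]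
      ring
    have hs' : s = ∑ j, ξ j * v' j := by
      have : ∀ j, ξ j * v' j = ξ j * v j - v o * (ev o j * ξ j) := fun j => by
        simp only [v']; ring
      simp only [this, Finset.sum_sub_distrib, ← Finset.mul_sum, h1, hs]; ring
    have hCS : s ^ 2 ≤ y * R := by
      rw [hs', hy, hR]
      have := Finset.sum_mul_sq_le_sq_mul_sq Finset.univ ξ v'
      simpa only [sq] using this
    have hR0 : 0 ≤ R := Finset.sum_nonneg fun j _ => mul_self_nonneg _
    have hq : star v ⬝ᵥ (Sm o ξ a b c d *ᵥ v)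
        = a * R + b * s ^ 2 + 2 * c * s * v o + d * v o ^ 2 := by
      simp only [dotProduct, Matrix.mulVec, star_trivial, sum_Sm_mul, ← hs]
      have : ∀ i, v i * (a * v i + (b * s + c * v o) * ξ i + (c * s + (d - a) * v o) * ev o i)
          = a * (v i * v i) + (b * s + c * v o) * (ξ i * v i)
            + (c * s + (d - a) * v o) * (ev o i * v i) := fun i => by ring
      simp only [this, Finset.sum_add_distrib, ← Finset.mul_sum, sum_ev_mul, hR', ← hs]
      ring
    rw [hq]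
    rcases hR0.eq_or_lt with hR1 | hR1
    · have hs0 : s = 0 := by
        rw [← hR1, mul_zero] at hCS
        exact pow_eq_zero_iff (two_ne_zero) |>.1 (le_antisymm hCS (sq_nonneg s))
      have hvo : v o ≠ 0 := by
        intro hvo
        apply hv
        rw [← hR1, hvo] at hR'
        have h3 : ∑ j, v j * v j = 0 := by simpa using hR'
        rw [Finset.sum_eq_zero_iff_of_nonneg (fun j _ => mul_self_nonneg _)] at h3
        funext j
        exact mul_self_eq_zero.1 (h3 j (Finset.mem_univ j))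
      rw [← hR1, hs0]
      have : 0 < d * v o ^ 2 := by positivity
      linarith
    · have e : d * (a * R + b * s ^ 2 + 2 * c * s * v o + d * v o ^ 2)
          = (d * v o + c * s) ^ 2 + (a * d * R + (b * d - c ^ 2) * s ^ 2) := by ring
      have h3 : 0 < a * d * R + (b * d - c ^ 2) * s ^ 2 := by
        rcases le_or_gt 0 (b * d - c ^ 2) with hk | hk
        · have : 0 < a * d * R := by positivity
          have : 0 ≤ (b * d - c ^ 2) * s ^ 2 := by positivity
          linarith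
        · have h4 := mul_le_mul_of_nonpos_left hCS hk.le
          have h5 := mul_pos hΔ hR1
          nlinarith
      have h4 : 0 < d * (a * R + b * s ^ 2 + 2 * c * s * v o + d * v o ^ 2) := by
        rw [e]; positivity
      exact (mul_pos_iff_of_pos_left hd).1 h4

end Vale.Agent.P252
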