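import Vale.Agent.P252.Defs
import Vale.Agent.P252.Mat

/-! Calculus for functions of `y = |x'|^2` and `t = x_o`. -/

open Finset

namespace Vale.Agent.P252

variable {n : ℕ}

/-- The projection that kills the coordinate `o`. -/
def xi (o : Fin n) (x : EuclideanSpace ℝ (Fin n)) (i : Fin n) : ℝ := x i - x o * ev o i

/-- Squared norm of the projection. -/
def Yf (o : Fin n) (x : EuclideanSpace ℝ (Fin n)) : ℝ := ∑ j, xi o x j * xi o x j

lemma xi_o (o : Fin n) (x : EuclideanSpace ℝ (Fin n)) : xi o x o = 0 := by simp [xi, ev_self]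

lemma Yf_nonneg (o : Fin n) (x : EuclideanSpace ℝ (Fin n)) : 0 ≤ Yf o x :=
  Finset.sum_nonneg fun _ _ => mul_self_nonneg _

lemma contDiff_coord {N : WithTop ℕ∞} (j : Fin n) :
    ContDiff ℝ N (fun x : EuclideanSpace ℝ (Fin n) => x j) := by fun_prop

lemma contDiff_xi {N : WithTop ℕ∞} (o j : Fin n) : ContDiff ℝ N (fun x => xi o x j) :=
  (contDiff_coord j).sub ((contDiff_coord o).mul contDiff_const)

lemma contDiff_Yf {N : WithTop ℕ∞} (o : Fin n) : ContDiff ℝ N (Yf o) :=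
  ContDiff.sum fun j _ => (contDiff_xi o j).mul (contDiff_xi o j)

/-- `g` is differentiable at `x` with gradient `v`. -/
def HasGrad (g : EuclideanSpace ℝ (Fin n) → ℝ) (x : EuclideanSpace ℝ (Fin n))
    (v : Fin n → ℝ) : Prop :=
  DifferentiableAt ℝ g x ∧ ∀ i, pd i g x = v i

lemma HasGrad.congr {g : EuclideanSpace ℝ (Fin n) → ℝ} {x : EuclideanSpace ℝ (Fin n)}
    {v v' : Fin n → ℝ} (h : HasGrad g x v) (e : ∀ i, v i = v' i) : HasGrad g x v' :=
  ⟨h.1, fun i => (h.2 i).trans (e i)⟩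

lemma hasGrad_const (c : ℝ) (x : EuclideanSpace ℝ (Fin n)) :
    HasGrad (fun _ => c) x (fun _ => 0) :=
  ⟨differentiableAt_const c, fun i => by simp [pd]⟩

lemma hasGrad_coord (j : Fin n) (x : EuclideanSpace ℝ (Fin n)) :
    HasGrad (fun x => x j) x (fun i => if i = j then 1 else 0) := by
  have h : HasFDerivAt (fun x : EuclideanSpace ℝ (Fin n) => x j)
      (EuclideanSpace.proj j : EuclideanSpace ℝ (Fin n) →L[ℝ] ℝ) x :=
    (EuclideanSpace.proj j : EuclideanSpace ℝ (Fin n) →L[ℝ] ℝ).hasFDerivAt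
  refine ⟨h.differentiableAt, fun i => ?_⟩
  simp [pd, h.fderiv, eq_comm]

lemma HasGrad.add {g h : EuclideanSpace ℝ (Fin n) → ℝ} {x : EuclideanSpace ℝ (Fin n)}
    {v w : Fin n → ℝ} (hg : HasGrad g x v) (hh : HasGrad h x w) :
    HasGrad (fun x => g x + h x) x (fun i => v i + w i) := by
  refine ⟨hg.1.add hh.1, fun i => ?_⟩
  beta_reduce
  rw [← hg.2 i, ← hh.2 i]
  simp [pd, fderiv_fun_add hg.1 hh.1]

lemma HasGrad.mul {g h : EuclideanSpace ℝ (Fin n) → ℝ} {x : EuclideanSpace ℝ (Fin n)}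
    {v w : Fin n → ℝ} (hg : HasGrad g x v) (hh : HasGrad h x w) :
    HasGrad (fun x => g x * h x) x (fun i => v i * h x + g x * w i) := by
  refine ⟨hg.1.mul hh.1, fun i => ?_⟩
  beta_reduce
  rw [← hg.2 i, ← hh.2 i]
  simp [pd, fderiv_fun_mul hg.1 hh.1]
  ring

lemma HasGrad.comp {g : EuclideanSpace ℝ (Fin n) → ℝ} {x : EuclideanSpace ℝ (Fin n)}
    {v : Fin n → ℝ} (hg : HasGrad g x v) {φ : ℝ → ℝ} {φ' : ℝ} (hφ : HasDerivAt φ φ' (g x)) :
    HasGrad (fun x => φ (g x)) x (fun i => φ' * v i) := by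
  have h := hφ.comp_hasFDerivAt x hg.1.hasFDerivAt
  refine ⟨h.differentiableAt, fun i => ?_⟩
  beta_reduce
  rw [← hg.2 i]
  have h2 : fderiv ℝ (fun x => φ (g x)) x = φ' • fderiv ℝ g x := h.fderiv
  simp [pd, h2]

lemma HasGrad.sum {ι : Type} (s : Finset ι) {g : ι → EuclideanSpace ℝ (Fin n) → ℝ}
    {x : EuclideanSpace ℝ (Fin n)} {v : ι → Fin n → ℝ} (hg : ∀ k, HasGrad (g k) x (v k)) :
    HasGrad (fun x => ∑ k ∈ s, g k x) x (fun i => ∑ k ∈ s, v k i) := by
  classical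
  induction s using Finset.induction_on with
  | empty => simpa using hasGrad_const 0 x
  | insert a s ha ih =>
    simp only [Finset.sum_insert ha]
    exact (hg a).add ih

lemma hasGrad_xi (o j : Fin n) (x : EuclideanSpace ℝ (Fin n)) :
    HasGrad (fun x => xi o x j) x (fun i => (if i = j then 1 else 0) - ev o i * ev o j) := by
  have h := (hasGrad_coord j x).add ((hasGrad_coord o x).mul (hasGrad_const (-ev o j) x))
  have e : (fun x => xi o x j) = fun x : EuclideanSpace ℝ (Fin n) => x j + x o * (-ev o j) := by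
    funext x; simp only [xi]; ring
  rw [e]
  exact h.congr fun i => by simp only [ev]; ring

lemma hasGrad_Yf (o : Fin n) (x : EuclideanSpace ℝ (Fin n)) :
    HasGrad (Yf o) x (fun i => 2 * xi o x i) := by
  have h := HasGrad.sum Finset.univ (fun j => (hasGrad_xi o j x).mul (hasGrad_xi o j x))
  refine h.congr fun i => ?_
  have : ∀ k, ((if i = k then 1 else 0) - ev o i * ev o k) * xi o x k
      + xi o x k * ((if i = k then 1 else 0) - ev o i * ev o k)
      = 2 * ((if i = k then 1 else 0) * xi o x k) - 2 * ev o i * (ev o k * xi o x k) :=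
    fun k => by ring
  simp only [this, Finset.sum_sub_distrib, ← Finset.mul_sum, sum_ev_mul, xi_o]
  simp

/-- `g` has `y`-derivative `α` and `t`-derivative `β` at `x`. -/
def D2 (o : Fin n) (g : EuclideanSpace ℝ (Fin n) → ℝ) (x : EuclideanSpace ℝ (Fin n))
    (α β : ℝ) : Prop :=
  HasGrad g x (fun i => α * (2 * xi o x i) + β * ev o i)

variable {o : Fin n} {x : EuclideanSpace ℝ (Fin n)}

lemma D2.congr {g : EuclideanSpace ℝ (Fin n) → ℝ} {α β α' β' : ℝ} (h : D2 o g x α β)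
    (e₁ : α = α') (e₂ : β = β') : D2 o g x α' β' := by
  rw [← e₁, ← e₂]; exact h

lemma d2_const (c : ℝ) : D2 o (fun _ => c) x 0 0 :=
  (hasGrad_const c x).congr fun i => by ring

lemma d2_t : D2 o (fun x => x o) x 0 1 :=
  (hasGrad_coord o x).congr fun i => by simp [ev]

lemma d2_y {φ : ℝ → ℝ} {φ' : ℝ} (hφ : HasDerivAt φ φ' (Yf o x)) :
    D2 o (fun x => φ (Yf o x)) x φ' 0 :=
  ((hasGrad_Yf o x).comp hφ).congr fun i => by ring

lemma D2.add {g h : EuclideanSpace ℝ (Fin n) → ℝ} {α β α' β' : ℝ} (hg : D2 o g x α β)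
    (hh : D2 o h x α' β') : D2 o (fun x => g x + h x) x (α + α') (β + β') :=
  (HasGrad.add hg hh).congr fun i => by ring

lemma D2.mul {g h : EuclideanSpace ℝ (Fin n) → ℝ} {α β α' β' : ℝ} (hg : D2 o g x α β)
    (hh : D2 o h x α' β') :
    D2 o (fun x => g x * h x) x (α * h x + g x * α') (β * h x + g x * β') :=
  (HasGrad.mul hg hh).congr fun i => by ring

lemma D2.comp {g : EuclideanSpace ℝ (Fin n) → ℝ} {α β : ℝ} (hg : D2 o g x α β)
    {φ : ℝ → ℝ} {φ' : ℝ} (hφ : HasDerivAt φ φ' (g x)) :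
    D2 o (fun x => φ (g x)) x (φ' * α) (φ' * β) :=
  (HasGrad.comp hg hφ).congr fun i => by ring

lemma D2.inv {g : EuclideanSpace ℝ (Fin n) → ℝ} {α β : ℝ} (hg : D2 o g x α β) (h0 : g x ≠ 0) :
    D2 o (fun x => (g x)⁻¹) x (-(g x ^ 2)⁻¹ * α) (-(g x ^ 2)⁻¹ * β) :=
  hg.comp (hasDerivAt_inv h0)

lemma D2.pow {g : EuclideanSpace ℝ (Fin n) → ℝ} {α β : ℝ} (hg : D2 o g x α β) (k : ℕ) :
    D2 o (fun x => g x ^ (k + 1)) x (((k:ℝ) + 1) * g x ^ k * α) (((k:ℝ) + 1) * g x ^ k * β) :=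
  (hg.comp (hasDerivAt_pow (k + 1) (g x))).congr (by simp) (by simp)

lemma hess_eq_Sm {g gy gt : EuclideanSpace ℝ (Fin n) → ℝ} (hg : ∀ z, D2 o g z (gy z) (gt z))
    {yy yt tt : ℝ} (hy : D2 o gy x yy yt) (ht : D2 o gt x yt tt) :
    hess g x = Sm o (xi o x) (2 * gy x) (4 * yy) (2 * yt) tt := by
  ext i j
  have e : pd j g = fun z => gy z * (2 * xi o z j) + gt z * ev o j := funext fun z => (hg z).2 j
  have h := (HasGrad.mul hy ((hasGrad_const 2 x).mul (hasGrad_xi o j x))).add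
    (HasGrad.mul ht (hasGrad_const (ev o j) x))
  simp only [hess, Matrix.of_apply, e, h.2 i, Sm]
  ring

end Vale.Agent.P252
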