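import Vale.Agent.P252.ASFrame

/-! Pointwise bounds on caps: the maximum principle estimates. -/

open scoped ContDiff Topology
open Matrix Finset

namespace Vale.Agent.P252

variable {n : ℕ}

lemma Diff.ip_sum_smul_le {D : Diff n} {x : E n} (hx : x ∈ D.Ω) {ι : Type} [Fintype ι]
    (c : ι → ℝ) (g : ι → Fin n → ℝ) :
    D.ip x (∑ k, c k • g k) (∑ k, c k • g k) ≤ (∑ k, c k ^ 2) * ∑ k, D.ip x (g k) (g k) := by
  simp only [Diff.ip_sum_left, Diff.ip_sum_right, Diff.ip_smul_left, Diff.ip_smul_right,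
    Finset.mul_sum]
  have h : ∀ k l, c k * (c l * D.ip x (g l) (g k))
      ≤ (c l ^ 2 * D.ip x (g k) (g k)) / 2 + (c k ^ 2 * D.ip x (g l) (g l)) / 2 := fun k l => by
    have := Diff.ip_self_nonneg hx (c l • g k - c k • g l)
    simp only [Diff.ip_sub_left, Diff.ip_sub_right, Diff.ip_smul_left, Diff.ip_smul_right,
      Diff.ip_comm hx (g k) (g l)] at this
    nlinarith
  refine (Finset.sum_le_sum fun k _ => Finset.sum_le_sum fun l _ => h k l).trans (le_of_eq ?_)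
  simp only [Finset.sum_add_distrib, ← Finset.sum_div, ← Finset.mul_sum, ← Finset.sum_mul]
  ring

lemma exists_localMin_log {T : Set (E n)} (hT : IsCompact T) {η G : E n → ℝ}
    (hη : ∀ x ∈ T, ContinuousAt η x) (hG : ∀ x ∈ T, ContinuousAt G x)
    (hn : ∀ x ∈ T, 0 < η x → T ∈ 𝓝 x) {x : E n} (hx : x ∈ T) (hx0 : 0 < η x) :
    ∃ x1 ∈ T, 0 < η x1 ∧ IsLocalMin (fun y => G y - Real.log (η y)) x1 ∧
      G x1 - Real.log (η x1) ≤ G x - Real.log (η x) := by
  have hc : ContinuousOn (fun y => η y * Real.exp (-G y)) T := fun y hy =>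
    ((hη y hy).mul (hG y hy).neg.rexp).continuousWithinAt
  obtain ⟨x1, hx1, hmax⟩ := hT.exists_isMaxOn ⟨x, hx⟩ hc
  have h1 : 0 < η x1 := by
    have h2 : η x * Real.exp (-G x) ≤ η x1 * Real.exp (-G x1) := hmax hx
    exact (mul_pos_iff_of_pos_right (Real.exp_pos _)).1
      ((mul_pos hx0 (Real.exp_pos _)).trans_le h2)
  have key : ∀ y ∈ T, 0 < η y → G x1 - Real.log (η x1) ≤ G y - Real.log (η y) := fun y hy h0 => by
    have h2 : η y * Real.exp (-G y) ≤ η x1 * Real.exp (-G x1) := hmax hy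
    have h3 := Real.log_le_log (mul_pos h0 (Real.exp_pos _)) h2
    rw [Real.log_mul h0.ne' (Real.exp_pos _).ne', Real.log_mul h1.ne' (Real.exp_pos _).ne',
      Real.log_exp, Real.log_exp] at h3
    linarith
  refine ⟨x1, hx1, h1, ?_, key x hx hx0⟩
  filter_upwards [hn x1 hx1 h1, (hη x1 hx1).eventually (lt_mem_nhds h1)] with y h2 h3
  exact key y h2 h3

lemma le_max_of_pow_le {t M : ℝ} {k : ℕ} (h : t ^ (k + 1) ≤ M) : t ≤ max 1 M := by
  rcases le_total t 1 with h1 | h1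
  · exact h1.trans (le_max_left _ _)
  · exact ((le_self_pow₀ h1 (Nat.succ_ne_zero k)).trans h).trans (le_max_right _ _)

lemma abs_dot_le {N : ℕ} (v Z : Fin N → ℝ) : |v ⬝ᵥ Z| ≤ (∑ k, |v k|) * ‖Z‖ := by
  rw [dotProduct, Finset.sum_mul]
  refine (Finset.abs_sum_le_sum_abs _ _).trans (Finset.sum_le_sum fun k _ => ?_)
  rw [abs_mul]
  exact mul_le_mul_of_nonneg_left (norm_le_pi_norm Z k) (abs_nonneg _)

namespace AS
variable {S : AS n} {e : Fin (n + 1) → ℝ} {h C : ℝ}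

variable (S) in
/-- The part of the hypersurface below the height `h` in direction `e`. -/
def cap (e : Fin (n + 1) → ℝ) (h : ℝ) : Set (E n) := {x | x ∈ S.Ω ∧ S.Xf e x ≤ h}

lemma N_ne_zero {x : E n} (hx : x ∈ S.Ω) : S.N x ≠ 0 := fun h0 => by
  have h1 := S.jacN x hx
  rw [Matrix.det_eq_zero_of_column_eq_zero 0 (fun i => by simp [jacM, h0]), abs_zero] at h1
  exact (S.m_pos x hx).ne h1

lemma sum_N_gradX {x : E n} (hx : x ∈ S.Ω) :
    ∑ k, S.N x k • grad (fun y => S.X y k) x = 0 := by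
  funext i
  simpa [grad] using S.orth x hx i

lemma NY {x : E n} (hx : x ∈ S.Ω) : S.N x ⬝ᵥ S.Y x = 1 := by
  have h1 := ip_NX hx (S.N x) (S.N x)
  rw [(jet_Xf' hx (S.N x)).2.1, sum_N_gradX hx, Diff.ip_zero_right, Nf] at h1
  have h2 : S.N x ⬝ᵥ S.N x ≠ 0 := fun h => N_ne_zero hx (dotProduct_self_eq_zero.1 h)
  have h3 : S.N x ⬝ᵥ S.N x * (S.N x ⬝ᵥ S.Y x - 1) = 0 := by linarith
  have := (mul_eq_zero.1 h3).resolve_left h2
  linarith

lemma cap_X (H : CapHyp S.K e h C) {x : E n} (hx : x ∈ S.cap e h) : ‖S.X x‖ ≤ C :=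
  H.1 _ (S.X_mem x hx.1) hx.2

lemma cap_N (H : CapHyp S.K e h C) (hC : 0 < C) {x : E n} (hx : x ∈ S.cap e h)
    {W : Fin (n + 1) → ℝ} (hW : ‖W‖ ≤ 1) : |S.Nf W x| ≤ C ^ 2 * S.Nf e x := by
  have key : ∀ W : Fin (n + 1) → ℝ, ‖W‖ ≤ 1 → -S.Nf W x ≤ C ^ 2 * S.Nf e x := fun W hW => by
    have h1 := S.supp x hx.1 _ (H.2 _ (S.X_mem x hx.1) hx.2 W hW)
    rw [add_assoc, add_sub_cancel_left, dotProduct_add, dotProduct_smul, dotProduct_smul,
      smul_eq_mul, smul_eq_mul] at h1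
    have h2 := mul_nonneg hC.le h1
    rw [mul_add, mul_inv_cancel_left₀ hC.ne'] at h2
    simp only [Nf]
    linarith
  have h1 := key W hW
  have h2 := key (-W) (by simpa using hW)
  simp only [Nf, dotProduct_neg, neg_neg] at h1 h2 ⊢
  exact abs_le.2 ⟨by linarith, h2⟩

lemma cap_Nk (H : CapHyp S.K e h C) (hC : 0 < C) {x : E n} (hx : x ∈ S.cap e h)
    (k : Fin (n + 1)) : |S.N x k| ≤ C ^ 2 * S.Nf e x := by
  have := cap_N H hC hx (W := Pi.single k 1) (by rw [Pi.norm_single]; simp)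
  simpa [Nf] using this

lemma cap_Nv (H : CapHyp S.K e h C) (hC : 0 < C) {x : E n} (hx : x ∈ S.cap e h)
    (W : Fin (n + 1) → ℝ) : |S.Nf W x| ≤ ‖W‖ * C ^ 2 * S.Nf e x := by
  rcases eq_or_ne W 0 with rfl | h0
  · simp [Nf]
  have h1 : 0 < ‖W‖ := norm_pos_iff.2 h0
  have := cap_N H hC hx (W := ‖W‖⁻¹ • W) (by rw [norm_smul]; simp [h1.ne'])
  simp only [Nf, dotProduct_smul, smul_eq_mul, abs_mul, abs_inv, abs_norm] at this ⊢
  rw [inv_mul_le_iff₀ h1] at this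
  linarith

lemma cap_pos (H : CapHyp S.K e h C) (hC : 0 < C) {x : E n} (hx : x ∈ S.cap e h) :
    0 < S.Nf e x := by
  by_contra hneg
  apply N_ne_zero hx.1
  funext k
  have h1 := cap_Nk H hC hx k
  have h2 : C ^ 2 * S.Nf e x ≤ 0 := mul_nonpos_of_nonneg_of_nonpos (sq_nonneg _) (not_lt.1 hneg)
  exact abs_nonpos_iff.1 (h1.trans h2)

lemma cap_compact (H : CapHyp S.K e h C) : IsCompact (S.cap e h) := by
  have hc : ContinuousOn (S.Xf e) {x | x ∈ S.Ω ∧ ‖S.X x‖ ≤ C} := fun x hx =>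
    (Xf_at hx.1 e).continuousAt.continuousWithinAt
  have hcl := hc.preimage_isClosed_of_isClosed (S.proper C).isClosed (isClosed_Iic (a := h))
  refine (S.proper C).of_isClosed_subset ?_ fun x hx => ⟨hx.1, cap_X H hx⟩
  convert hcl using 1
  ext x
  exact ⟨fun hx => ⟨⟨hx.1, cap_X H hx⟩, hx.2⟩, fun hx => ⟨hx.1.1, hx.2⟩⟩

lemma cap_nhds {x : E n} (hx : x ∈ S.Ω) (hlt : S.Xf e x < h) : S.cap e h ∈ 𝓝 x := by
  filter_upwards [S.isOpen.mem_nhds hx, (Xf_at hx e).continuousAt.eventually (gt_mem_nhds hlt)]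
    with y h1 h2
  exact ⟨h1, h2.le⟩

lemma cap_eta (H : CapHyp S.K e h C) {x : E n} (hx : x ∈ S.cap e h) :
    h - S.Xf e x ≤ |h| + (∑ k, |e k|) * C := by
  have h1 := abs_dot_le e (S.X x)
  have h2 := mul_le_mul_of_nonneg_left (cap_X H hx)
    (Finset.sum_nonneg fun k (_ : k ∈ Finset.univ) => abs_nonneg (e k))
  have h3 := neg_abs_le (e ⬝ᵥ S.X x)
  have h4 := le_abs_self h
  simp only [Xf]
  linarith

variable (S) in
/-- The slope `N_v / N_e`. -/
noncomputable def sl (e v : Fin (n + 1) → ℝ) (x : E n) : ℝ := S.Nf v x * (S.Nf e x)⁻¹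

lemma grad_sl {x : E n} (hx : x ∈ S.Ω) (he : S.Nf e x ≠ 0) (v : Fin (n + 1) → ℝ) :
    grad (S.sl e v) x = (S.Nf e x)⁻¹ • grad (S.Nf v) x
      - (S.Nf v x * (S.Nf e x ^ 2)⁻¹) • grad (S.Nf e) x :=
  (hasGrad_slope hx he v).grad_eq

lemma jet_sl {x : E n} (hx : x ∈ S.Ω) (he : S.Nf e x ≠ 0) (v : Fin (n + 1) → ℝ) :
    S.toDiff.Jet (S.sl e v) x (grad (S.sl e v) x)
      (-2 * S.toDiff.ip x ((S.Nf e x)⁻¹ • grad (S.Nf e) x) (grad (S.sl e v) x)) := by
  have h := (jet_Nf hx v).mul hx ((jet_Nf hx e).inv hx he)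
  refine Diff.Jet.congr h h.2.1.symm ?_
  rw [grad_sl hx he]
  simp only [Diff.ip_sub_right, Diff.ip_smul_left, Diff.ip_smul_right,
    Diff.ip_comm hx (grad (S.Nf v) x) (grad (S.Nf e) x)]
  field_simp
  ring

lemma ip_X_sl {x : E n} (hx : x ∈ S.Ω) (he : S.Nf e x ≠ 0) (v ξ : Fin (n + 1) → ℝ) :
    S.toDiff.ip x (grad (S.sl e v) x) (grad (S.Xf ξ) x)
      = (S.sl e v x * (ξ ⬝ᵥ e) - ξ ⬝ᵥ v) / S.Nf e x := by
  rw [grad_sl hx he]
  simp only [Diff.ip_sub_left, Diff.ip_smul_left, ip_NX hx, sl]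
  field_simp
  ring

lemma tw_point {x : E n} (hx : x ∈ S.Ω) (he : 0 < S.Nf e x) (hη : S.Xf e x < h) {A : ℝ}
    (hA : 0 < A) (hQ : 4 * A * ∑ k, S.sl e (Pi.single k 1) x ^ 2 ≤ 1)
    (hmin : IsLocalMin (fun y => (Real.log (S.Nf e y)
      - A * ∑ k, S.sl e (Pi.single k 1) y * S.sl e (Pi.single k 1) y)
      - Real.log (h - S.Xf e y)) x) :
    A * ∑ k, S.toDiff.Γ (S.sl e (Pi.single k 1)) (S.sl e (Pi.single k 1)) x
      ≤ 2 * n * (e ⬝ᵥ e) / (S.Nf e x * (h - S.Xf e x)) := by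
  have hη' : 0 < h - S.Xf e x := sub_pos.2 hη
  have J := ((((jet_Nf hx e).log hx he.ne').sub hx ((Diff.Jet.sum Finset.univ hx fun k =>
    (jet_sl hx he.ne' (Pi.single k 1)).mul hx (jet_sl hx he.ne' (Pi.single k 1))).const_mul hx A)).sub
    hx (((Diff.jet_const h x).sub hx (jet_Xf hx e)).log hx hη'.ne'))
  have h1 := grad_eq_zero_of_isLocalMin hmin
  have h2 := Diff.lap_nonneg_of_isLocalMin hx J.1 hmin
  rw [J.2.1] at h1
  rw [J.2.2] at h2
  have hz := ip_NX hx e e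
  have hqz : ∀ k, S.toDiff.ip x (grad (S.sl e (Pi.single k 1)) x) (grad (S.Xf e) x)
      = (S.sl e (Pi.single k 1) x * (e ⬝ᵥ e) - e k) / S.Nf e x := fun k => by
    rw [ip_X_sl hx he.ne']; simp
  have hye : ∑ k, S.sl e (Pi.single k 1) x * e k = 1 := by
    simp only [sl, Nf_single, mul_right_comm _ _ (e _), ← Finset.sum_mul]
    exact mul_inv_cancel₀ he.ne'
  simp only [Diff.Γ]
  generalize S.Nf e x = P at *
  generalize h - S.Xf e x = η at *
  generalize grad (S.Nf e) x = gP at *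
  generalize grad (S.Xf e) x = gz at *
  have hqq := Diff.ip_sum_smul_le hx (fun k => S.sl e (Pi.single k 1) x)
    (fun k => grad (S.sl e (Pi.single k 1)) x)
  set q := ∑ k, S.sl e (Pi.single k 1) x • grad (S.sl e (Pi.single k 1)) x with hq
  have hqz' : S.toDiff.ip x q gz = ((∑ k, S.sl e (Pi.single k 1) x ^ 2) * (e ⬝ᵥ e) - 1) / P := by
    have : ∀ k, S.toDiff.ip x (S.sl e (Pi.single k 1) x • grad (S.sl e (Pi.single k 1)) x) gz
        = S.sl e (Pi.single k 1) x ^ 2 * (e ⬝ᵥ e) / P - S.sl e (Pi.single k 1) x * e k / P :=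
      fun k => by rw [Diff.ip_smul_left, hqz]; ring
    rw [hq, Diff.ip_sum_left]
    simp only [this, Finset.sum_sub_distrib, ← Finset.sum_div, hye, ← Finset.sum_mul]
    ring
  have hL : P⁻¹ • gP = (2 * A) • q - η⁻¹ • gz := by
    rw [Finset.sum_add_distrib, ← hq] at h1
    funext i
    have := congrFun h1 i
    simp only [Pi.sub_apply, Pi.smul_apply, Pi.add_apply, smul_eq_mul, Pi.zero_apply] at this ⊢
    linarith
  have hLq : ∑ k, (S.sl e (Pi.single k 1) x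
      * (-2 * S.toDiff.ip x (P⁻¹ • gP) (grad (S.sl e (Pi.single k 1)) x)))
      = -2 * S.toDiff.ip x (P⁻¹ • gP) q := by
    rw [hq, Diff.ip_sum_right, Finset.mul_sum]
    exact Finset.sum_congr rfl fun k _ => by rw [Diff.ip_smul_right]; ring
  simp only [Finset.sum_add_distrib, hLq, ← Finset.mul_sum] at h2
  have hLL : (P ^ 2)⁻¹ * S.toDiff.ip x gP gP = S.toDiff.ip x (P⁻¹ • gP) (P⁻¹ • gP) := by
    simp only [Diff.ip_smul_left, Diff.ip_smul_right]; field_simp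
  have hY : e ⬝ᵥ S.Y x = S.toDiff.ip x (P⁻¹ • gP) gz + (e ⬝ᵥ e) / P := by
    rw [Diff.ip_smul_left, hz]; field_simp; ring
  rw [hLL, hY, hL] at h2
  simp only [Diff.ip_sub_left, Diff.ip_sub_right, Diff.ip_smul_left, Diff.ip_smul_right,
    Diff.ip_zero_left, Diff.ip_zero_right, Diff.ip_comm hx gz q, hqz'] at h2
  have hzz := Diff.ip_self_nonneg hx gz
  have hW : 0 ≤ ∑ k, S.toDiff.ip x (grad (S.sl e (Pi.single k 1)) x)
    (grad (S.sl e (Pi.single k 1)) x) := Finset.sum_nonneg fun k _ => Diff.ip_self_nonneg hx _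
  generalize ∑ k, S.toDiff.ip x (grad (S.sl e (Pi.single k 1)) x)
    (grad (S.sl e (Pi.single k 1)) x) = W at *
  generalize ∑ k, S.sl e (Pi.single k 1) x ^ 2 = Q at *
  generalize S.toDiff.ip x q q = qq at *
  generalize S.toDiff.ip x gz gz = zz at *
  have hee : 0 ≤ e ⬝ᵥ e := Finset.sum_nonneg fun k _ => mul_self_nonneg _
  generalize e ⬝ᵥ e = ze at *
  have hn : (0:ℝ) ≤ n := Nat.cast_nonneg n
  have h3 : 0 ≤ 4 * A ^ 2 * qq - 2 * A * W + 2 * n * A * (Q * ze - 1) / (P * η)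
      - n * zz / η ^ 2 + n * ze / (P * η) := by
    refine h2.trans (le_of_eq ?_)
    field_simp
    ring
  have h4 : 4 * A ^ 2 * qq ≤ A * W := by
    have := mul_le_mul_of_nonneg_left hqq (by positivity : 0 ≤ 4 * A ^ 2)
    have h5 := mul_le_mul_of_nonneg_right hQ (by positivity : 0 ≤ A * W)
    nlinarith
  have h5 : 2 * n * A * (Q * ze - 1) / (P * η) ≤ n * ze / (P * η) := by
    refine div_le_div_of_nonneg_right ?_ (by positivity)
    have := mul_le_mul_of_nonneg_right hQ (by positivity : 0 ≤ n * ze)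
    nlinarith [mul_nonneg hn hA.le, mul_nonneg hn hee]
  have h6 : 0 ≤ n * zz / η ^ 2 := by positivity
  have h7 : 2 * n * ze / (P * η) = n * ze / (P * η) + n * ze / (P * η) := by ring
  linarith

theorem tw_lower (n : ℕ) (e : Fin (n + 1) → ℝ) (h C : ℝ) (hC : 0 < C) :
    ∃ c : ℝ, 0 < c ∧ ∀ S : AS n, CapHyp S.K e h C → ∀ x ∈ S.cap e h,
      c * (h - S.Xf e x) ≤ S.Nf e x := by
  set Qm : ℝ := (n + 1) * C ^ 4 with hQm
  have hQm0 : 0 < Qm := by positivity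
  set A : ℝ := (4 * Qm)⁻¹ with hA
  have hA0 : 0 < A := by positivity
  have hee : 0 ≤ e ⬝ᵥ e := Finset.sum_nonneg fun k _ => mul_self_nonneg _
  set M : ℝ := max 1 (2 ^ (n + 1) * Qm * (2 * n * (e ⬝ᵥ e) / A) ^ n
    * (|h| + (∑ k, |e k|) * C) ^ 2) with hM
  have hM0 : 0 < M := lt_max_of_lt_left one_pos
  refine ⟨(M * Real.exp 1)⁻¹, by positivity, fun S H x hx => ?_⟩
  have hP := fun y hy => cap_pos (x := y) H hC hy
  rcases le_or_gt (h - S.Xf e x) 0 with h0 | h0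
  · exact (mul_nonpos_of_nonneg_of_nonpos (by positivity) h0).trans (hP x hx).le
  have hQ : ∀ y ∈ S.cap e h, ∑ k, S.sl e (Pi.single k 1) y ^ 2 ≤ Qm := fun y hy => by
    have : ∀ k, S.sl e (Pi.single k 1) y ^ 2 ≤ C ^ 4 := fun k => by
      have h1 := cap_Nk H hC hy k
      have h2 : |S.sl e (Pi.single k 1) y| ≤ C ^ 2 := by
        rw [sl, Nf_single, abs_mul, abs_inv, abs_of_pos (hP y hy), mul_inv_le_iff₀ (hP y hy)]
        exact h1
      rw [← sq_abs]
      exact (pow_le_pow_left₀ (abs_nonneg _) h2 2).trans (le_of_eq (by ring))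
    refine (Finset.sum_le_sum fun k _ => this k).trans (le_of_eq ?_)
    simp [hQm]
  obtain ⟨x1, hx1, h1, hmin, hle⟩ := exists_localMin_log (cap_compact H)
    (η := fun y => h - S.Xf e y) (G := fun y => Real.log (S.Nf e y)
      - A * ∑ k, S.sl e (Pi.single k 1) y * S.sl e (Pi.single k 1) y)
    (fun y hy => continuousAt_const.sub (Xf_at hy.1 e).continuousAt)
    (fun y hy => (((jet_Nf hy.1 e).log hy.1 (hP y hy).ne').sub hy.1
      ((Diff.Jet.sum Finset.univ hy.1 fun k => (jet_sl hy.1 (hP y hy).ne' (Pi.single k 1)).mul hy.1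
      (jet_sl hy.1 (hP y hy).ne' (Pi.single k 1))).const_mul hy.1 A)).1.continuousAt)
    (fun y hy h1 => cap_nhds hy.1 (sub_pos.1 h1)) hx h0
  have hAQ : ∀ y ∈ S.cap e h, 4 * A * ∑ k, S.sl e (Pi.single k 1) y ^ 2 ≤ 1 := fun y hy => by
    have := mul_le_mul_of_nonneg_left (hQ y hy) (by positivity : 0 ≤ 4 * A)
    refine this.trans (le_of_eq ?_)
    rw [hA]; field_simp
  have h2 := tw_point hx1.1 (hP x1 hx1) (sub_pos.1 h1) hA0 (hAQ x1 hx1) hmin
  have h3 := gram_slope hx1.1 (hP x1 hx1).ne'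
  have e1 : ∀ k, (fun y => S.N y k * (S.Nf e y)⁻¹) = S.sl e (Pi.single k 1) := fun k => by
    funext y; rw [sl, Nf_single]
  have e2 : ∀ k, S.N x1 k * (S.Nf e x1)⁻¹ = S.sl e (Pi.single k 1) x1 := fun k =>
    congrFun (e1 k) x1
  simp only [e1, e2] at h3
  have hW : 0 ≤ ∑ k, S.toDiff.Γ (S.sl e (Pi.single k 1)) (S.sl e (Pi.single k 1)) x1 :=
    Finset.sum_nonneg fun k _ => Diff.ip_self_nonneg hx1.1 _
  have hη := cap_eta H hx1
  have hP1 := hP x1 hx1
  have hP0 := hP x hx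
  have hQ1 := hQ x1 hx1
  have hAQ1 := hAQ x1 hx1
  have hQ0 : 0 ≤ A * ∑ k, S.sl e (Pi.single k 1) x * S.sl e (Pi.single k 1) x :=
    mul_nonneg hA0.le (Finset.sum_nonneg fun k _ => mul_self_nonneg _)
  simp only [← sq] at hle hQ0
  generalize ∑ k, S.toDiff.Γ (S.sl e (Pi.single k 1)) (S.sl e (Pi.single k 1)) x1 = W at *
  generalize ∑ k, S.sl e (Pi.single k 1) x1 ^ 2 = Q at *
  generalize ∑ k, S.sl e (Pi.single k 1) x ^ 2 = Q0 at *
  generalize S.Nf e x1 = P at *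
  generalize h - S.Xf e x1 = η at *
  generalize S.Nf e x = P0 at *
  generalize h - S.Xf e x = η0 at *
  have h4 : W ≤ (2 * n * (e ⬝ᵥ e) / A) / (P * η) := by
    rw [div_right_comm, le_div_iff₀ hA0]; linarith
  have h5 : (η / P) ^ (n + 1 + 1) ≤ 2 ^ (n + 1) * Qm * (2 * n * (e ⬝ᵥ e) / A) ^ n
      * (|h| + (∑ k, |e k|) * C) ^ 2 := by
    have h6 : 1 ≤ 2 ^ (n + 1) * Qm * P ^ (2 * (n + 1))
        * ((2 * n * (e ⬝ᵥ e) / A) / (P * η)) ^ n := h3.trans (by gcongr)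
    have h7 := mul_le_mul_of_nonneg_right h6 (by positivity : 0 ≤ (η / P) ^ (n + 1 + 1))
    have h8 : 2 ^ (n + 1) * Qm * P ^ (2 * (n + 1)) * ((2 * n * (e ⬝ᵥ e) / A) / (P * η)) ^ n
        * (η / P) ^ (n + 1 + 1) = 2 ^ (n + 1) * Qm * (2 * n * (e ⬝ᵥ e) / A) ^ n * η ^ 2 := by
      rw [div_pow _ (P * η), div_pow η, mul_pow P η]
      field_simp
      ring
    rw [one_mul, h8] at h7
    exact h7.trans (by gcongr)
  have h6 : η / P ≤ M := le_max_of_pow_le h5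
  have h7 : Real.log (η0 / P0) ≤ Real.log (M * Real.exp 1) := by
    have h8 := Real.log_le_log (by positivity) h6
    rw [Real.log_div h1.ne' hP1.ne'] at h8
    rw [Real.log_div h0.ne' hP0.ne', Real.log_mul hM0.ne' (Real.exp_pos _).ne', Real.log_exp]
    linarith
  have h8 := (Real.log_le_log_iff (by positivity) (by positivity)).1 h7
  rw [div_le_iff₀ hP0] at h8
  rw [inv_mul_le_iff₀ (by positivity)]
  exact h8

variable (S) in
/-- The support function from the point `-c`. -/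
noncomputable def sig (c : Fin (n + 1) → ℝ) (x : E n) : ℝ := ∑ k, S.N x k * (S.X x k + c k)

lemma jet_sig {x : E n} (hx : x ∈ S.Ω) (c : Fin (n + 1) → ℝ) :
    S.toDiff.Jet (S.sig c) x (grad (S.Nf (S.X x + c)) x) (-n) := by
  refine (Diff.Jet.sum Finset.univ hx fun k =>
    (jet_N hx k).mul hx ((jet_X hx k).add hx (Diff.jet_const (c k) x))).congr ?_ ?_
  · simp only [add_zero, Finset.sum_add_distrib, sum_N_gradX hx, (jet_Nf' hx _).2.1, Pi.add_apply]
  · have h1 := S.ΓNX x hx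
    have h2 := NY hx
    simp only [Diff.Γ] at h1
    simp only [add_zero, h1, mul_zero, if_true, Finset.sum_add_distrib, mul_left_comm _ (n:ℝ),
      ← Finset.mul_sum, Finset.sum_sub_distrib]
    simp only [dotProduct] at h2
    simp [h2]
    ring

lemma dual_point {x : E n} (hx : x ∈ S.Ω) {c : Fin (n + 1) → ℝ} (hσ : 0 < S.sig c x) {A : ℝ}
    (hA : 0 < A) (hQ : 4 * (n + 1) * A * ∑ k, (S.X x k + c k) ^ 2 ≤ 1)
    (hmin : IsLocalMin (fun y => (-A * ∑ k, (S.X y k + c k) * (S.X y k + c k))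
      - Real.log (S.sig c y)) x) :
    A * ∑ k, S.toDiff.Γ (fun y => S.X y k) (fun y => S.X y k) x ≤ n / S.sig c x := by
  have J := ((Diff.Jet.sum Finset.univ hx fun k =>
    ((jet_X hx k).add hx (Diff.jet_const (c k) x)).mul hx
    ((jet_X hx k).add hx (Diff.jet_const (c k) x))).const_mul hx (-A)).sub hx
    ((jet_sig hx c).log hx hσ.ne')
  have h1 := grad_eq_zero_of_isLocalMin hmin
  have h2 := Diff.lap_nonneg_of_isLocalMin hx J.1 hmin
  rw [J.2.1] at h1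
  rw [J.2.2] at h2
  have hz := ip_NX hx (S.X x + c) (S.X x + c)
  rw [(jet_Xf' hx _).2.1] at hz
  have hqq := Diff.ip_sum_smul_le hx (fun k => S.X x k + c k) (fun k => grad (fun y => S.X y k) x)
  have e1 : S.Nf (S.X x + c) x = S.sig c x := rfl
  have e2 : (S.X x + c) ⬝ᵥ (S.X x + c) = ∑ k, (S.X x k + c k) ^ 2 := by
    simp only [dotProduct, sq, Pi.add_apply]
  have e3 : ∑ k, (S.X x k + c k) * (n * S.Y x k) = n * ((S.X x + c) ⬝ᵥ S.Y x) := by
    simp only [dotProduct, Pi.add_apply, Finset.mul_sum]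
    exact Finset.sum_congr rfl fun k _ => by ring
  simp only [Diff.Γ, add_zero, Pi.add_apply, e1, e2, Finset.sum_add_distrib, e3,
    ← Finset.mul_sum] at h1 h2 hz hqq ⊢
  clear J hmin e1 e2 e3
  have hW : 0 ≤ ∑ k, S.toDiff.ip x (grad (fun y => S.X y k) x) (grad (fun y => S.X y k) x) :=
    Finset.sum_nonneg fun k _ => Diff.ip_self_nonneg hx _
  generalize ∑ k, S.toDiff.ip x (grad (fun y => S.X y k) x) (grad (fun y => S.X y k) x) = W at *
  generalize ∑ k, (S.X x k + c k) • grad (fun y => S.X y k) x = q at *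
  have hQ0 : 0 ≤ ∑ k, (S.X x k + c k) ^ 2 := Finset.sum_nonneg fun k _ => sq_nonneg _
  generalize ∑ k, (S.X x k + c k) ^ 2 = Q at *
  generalize grad (S.Nf (S.X x + c)) x = g at *
  generalize S.sig c x = σ at *
  generalize (S.X x + c) ⬝ᵥ S.Y x = PY at *
  have hg : g = (-2 * A * σ) • q := by
    funext i
    have := congrFun h1 i
    simp only [Pi.sub_apply, Pi.smul_apply, Pi.add_apply, smul_eq_mul, Pi.zero_apply] at this ⊢
    field_simp at this
    linarith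
  rw [hg] at h2 hz
  simp only [Diff.ip_smul_left, Diff.ip_smul_right] at h2 hz
  generalize S.toDiff.ip x q q = qq at *
  have hn : (0:ℝ) ≤ n := Nat.cast_nonneg n
  have hPY : PY = -2 * A * qq + Q / σ := by field_simp; linarith
  have h3 : 0 ≤ 4 * (n + 1) * A ^ 2 * qq - 2 * n * A * Q / σ - 2 * A * W + n / σ := by
    rw [hPY] at h2
    refine h2.trans (le_of_eq ?_)
    field_simp
    ring
  have h4 : 4 * (n + 1) * A ^ 2 * qq ≤ A * W := by
    have := mul_le_mul_of_nonneg_left hqq (by positivity : 0 ≤ 4 * (n + 1) * A ^ 2)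
    have h5 := mul_le_mul_of_nonneg_right hQ (by positivity : 0 ≤ A * W)
    nlinarith
  have h5 : 0 ≤ 2 * n * A * Q / σ := by positivity
  linarith

theorem tw_upper (n : ℕ) (C η : ℝ) (hC : 0 < C) (hη : 0 < η) :
    ∃ M : ℝ, 0 < M ∧ ∀ S : AS n, CapHyp S.K (e0 n) 1 C → DualHyp S.K η → ∀ x ∈ S.Ω,
      η * S.N x 0 + S.N x ⬝ᵥ S.X x ≤ M := by
  set Qm : ℝ := (n + 1) * (C + η) ^ 2 with hQm
  have hQm0 : 0 < Qm := by positivity
  set A : ℝ := (4 * (n + 1) * Qm)⁻¹ with hA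
  have hA0 : 0 < A := by positivity
  set M : ℝ := max 1 (2 ^ (n + 1) * Qm * (n / A) ^ n) with hM
  have hM0 : 0 < M := lt_max_of_lt_left one_pos
  refine ⟨M * Real.exp 1, by positivity, fun S H HD x hx => ?_⟩
  set c : Fin (n + 1) → ℝ := η • e0 n with hc
  have hsig : ∀ y, S.sig c y = η * S.N y 0 + S.N y ⬝ᵥ S.X y := fun y => by
    simp only [sig, mul_add, Finset.sum_add_distrib, hc, e0, dotProduct]
    simp [Pi.single_apply, add_comm, mul_comm]
  have hlt : ∀ y ∈ S.Ω, 0 < S.sig c y → S.Xf (e0 n) y < 1 := fun y hy h0 => by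
    by_contra hge
    have := HD _ (S.X_mem y hy) (S.N y) (S.supp y hy) (by simpa [Xf, e0] using hge)
    rw [hsig] at h0
    linarith
  rw [← hsig]
  rcases le_or_gt (S.sig c x) 0 with h0 | h0
  · exact h0.trans (by positivity)
  have hQ : ∀ y ∈ S.cap (e0 n) 1, ∑ k, (S.X y k + c k) ^ 2 ≤ Qm := fun y hy => by
    have : ∀ k, (S.X y k + c k) ^ 2 ≤ (C + η) ^ 2 := fun k => by
      have h1 : |S.X y k| ≤ C := (norm_le_pi_norm (S.X y) k).trans (cap_X H hy)
      have h2 : |c k| ≤ η := by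
        simp only [hc, e0, Pi.smul_apply, smul_eq_mul, Pi.single_apply]
        split_ifs <;> simp [abs_of_pos hη, hη.le]
      rw [← sq_abs]
      exact pow_le_pow_left₀ (abs_nonneg _) ((abs_add_le _ _).trans (add_le_add h1 h2)) 2
    refine (Finset.sum_le_sum fun k _ => this k).trans (le_of_eq ?_)
    simp [hQm]
  have hAQ : ∀ y ∈ S.cap (e0 n) 1, 4 * (n + 1) * A * ∑ k, (S.X y k + c k) ^ 2 ≤ 1 :=
    fun y hy => by
      have := mul_le_mul_of_nonneg_left (hQ y hy) (by positivity : 0 ≤ 4 * (n + 1) * A)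
      refine this.trans (le_of_eq ?_)
      rw [hA]; field_simp
  obtain ⟨x1, hx1, h1, hmin, hle⟩ := exists_localMin_log (cap_compact H)
    (η := S.sig c) (G := fun y => -A * ∑ k, (S.X y k + c k) * (S.X y k + c k))
    (fun y hy => (jet_sig hy.1 c).1.continuousAt)
    (fun y hy => continuousAt_const.mul (tendsto_finsetSum _ fun k _ =>
      ((X_at hy.1 k).continuousAt.add continuousAt_const).mul
      ((X_at hy.1 k).continuousAt.add continuousAt_const)))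
    (fun y hy h1 => cap_nhds hy.1 (hlt y hy.1 h1)) ⟨hx, (hlt x hx h0).le⟩ h0
  have h2 := dual_point hx1.1 h1 hA0 (hAQ x1 hx1) hmin
  have e1 : S.Nf (S.X x1 + c) x1 = S.sig c x1 := rfl
  have e2 : (S.X x1 + c) ⬝ᵥ (S.X x1 + c) = ∑ k, (S.X x1 k + c k) ^ 2 := by
    simp only [dotProduct, sq, Pi.add_apply]
  have hv : 0 < (S.X x1 + c) ⬝ᵥ (S.X x1 + c) := by
    refine lt_of_le_of_ne (Finset.sum_nonneg fun k _ => mul_self_nonneg _) fun h' => ?_
    rw [← e1, dotProduct_self_eq_zero.1 h'.symm] at h1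
    simp [Nf] at h1
  have h3 := gram_X hx1.1 hv
  rw [e1, e2] at h3
  have hW : 0 ≤ ∑ k, S.toDiff.Γ (fun y => S.X y k) (fun y => S.X y k) x1 :=
    Finset.sum_nonneg fun k _ => Diff.ip_self_nonneg hx1.1 _
  have hQ1 := hQ x1 hx1
  have hAQ1 := hAQ x1 hx1
  have hQ0 : 0 ≤ A * ∑ k, (S.X x k + c k) ^ 2 :=
    mul_nonneg hA0.le (Finset.sum_nonneg fun k _ => sq_nonneg _)
  have hQ2 : 0 ≤ A * ∑ k, (S.X x1 k + c k) ^ 2 :=
    mul_nonneg hA0.le (Finset.sum_nonneg fun k _ => sq_nonneg _)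
  simp only [← sq] at hle
  generalize ∑ k, S.toDiff.Γ (fun y => S.X y k) (fun y => S.X y k) x1 = W at *
  generalize ∑ k, (S.X x1 k + c k) ^ 2 = Q at *
  generalize ∑ k, (S.X x k + c k) ^ 2 = Q0 at *
  generalize S.sig c x1 = σ at *
  generalize S.sig c x = σ0 at *
  have h4 : W ≤ (n / A) / σ := by
    rw [div_right_comm, le_div_iff₀ hA0]; linarith
  have h5 : σ ^ (n + 1 + 1) ≤ 2 ^ (n + 1) * Qm * (n / A) ^ n := by
    have h6 : σ ^ 2 ≤ 2 ^ (n + 1) * Qm * ((n / A) / σ) ^ n := h3.trans (by gcongr)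
    rw [div_pow _ σ, ← mul_div_assoc, le_div_iff₀ (by positivity)] at h6
    refine (le_of_eq ?_).trans h6
    ring
  have h6 : σ ≤ M := le_max_of_pow_le h5
  have h7 : Real.log σ0 ≤ Real.log (M * Real.exp 1) := by
    have h8 := Real.log_le_log h1 h6
    rw [Real.log_mul hM0.ne' (Real.exp_pos _).ne', Real.log_exp]
    have hn : (0:ℝ) ≤ n := Nat.cast_nonneg n
    nlinarith
  exact (Real.log_le_log_iff h0 (by positivity)).1 h7

end AS

end Vale.Agent.P252
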