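import Vale.Agent.P252.DiffCalc
import Vale.Agent.P252.CompleteDefs

/-! Convexity, completeness and closed epigraphs. -/

open scoped ContDiff Topology
open Matrix Filter Set

namespace Vale.Agent.P252

variable {n : ℕ}

lemma cpl_line (x v : E n) (t : ℝ) : HasDerivAt (fun s : ℝ => x + s • v) v t :=
  (((hasDerivAt_id t).smul_const v).const_add x).congr_deriv (by simp)

lemma cpl_d1 {g : E n → ℝ} (x v : E n) {t : ℝ} (hg : DifferentiableAt ℝ g (x + t • v)) :
    HasDerivAt (fun s : ℝ => g (x + s • v)) (∑ j, v j * pd j g (x + t • v)) t := by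
  have := hg.hasFDerivAt.comp_hasDerivAt t (cpl_line x v t)
  rw [fderiv_eq_sum_pd] at this
  exact this

lemma cpl_d2 {g : E n → ℝ} (x v : E n) {t : ℝ} (hg : ContDiffAt ℝ 2 g (x + t • v)) :
    HasDerivAt (fun s : ℝ => ∑ j, v j * pd j g (x + s • v))
      ((fun i => v i) ⬝ᵥ hess g (x + t • v) *ᵥ (fun i => v i)) t := by
  have h1 : ∀ j, HasDerivAt (fun s : ℝ => v j * pd j g (x + s • v))
      (v j * ∑ i, v i * hess g (x + t • v) i j) t := fun j =>
    (cpl_d1 x v ((contDiffAt_pd_one hg j).differentiableAt (by simp))).const_mul (v j)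
  refine (HasDerivAt.fun_sum (u := Finset.univ) fun j _ => h1 j).congr_deriv ?_
  simp only [dotProduct, mulVec, Finset.mul_sum]
  rw [Finset.sum_comm]
  exact Finset.sum_congr rfl fun i _ => Finset.sum_congr rfl fun j _ => by ring

lemma cpl_at2 {Ω : Set (E n)} {u : E n → ℝ} (ho : IsOpen Ω) (hs : ContDiffOn ℝ ∞ u Ω) {x : E n}
    (hx : x ∈ Ω) : ContDiffAt ℝ 2 u x :=
  (hs.contDiffAt (ho.mem_nhds hx)).of_le
    (WithTop.coe_le_coe.2 (le_top : (2 : ℕ∞) ≤ ⊤))

lemma cpl_at1 {Ω : Set (E n)} {u : E n → ℝ} (ho : IsOpen Ω) (hs : ContDiffOn ℝ ∞ u Ω) {x : E n}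
    (hx : x ∈ Ω) : ContDiffAt ℝ 1 u x := (cpl_at2 ho hs hx).of_le (by norm_num)

lemma cpl_diff {Ω : Set (E n)} {u : E n → ℝ} (ho : IsOpen Ω) (hs : ContDiffOn ℝ ∞ u Ω) {x : E n}
    (hx : x ∈ Ω) : DifferentiableAt ℝ u x := (cpl_at1 ho hs hx).differentiableAt (by simp)

lemma cpl_seg {Ω : Set (E n)} (hc : Convex ℝ Ω) {x y : E n} (hx : x ∈ Ω) (hy : y ∈ Ω) {t : ℝ}
    (ht : t ∈ Icc (0 : ℝ) 1) : x + t • (y - x) ∈ Ω := hc.add_smul_sub_mem hx hy ht

lemma cpl_tangent {Ω : Set (E n)} {u : E n → ℝ} (ho : IsOpen Ω)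
    (hc : Convex ℝ Ω) (hs : ContDiffOn ℝ ∞ u Ω) (hp : ∀ x ∈ Ω, (hess u x).PosDef)
    {x : E n} (hx : x ∈ Ω) {y : E n} (hy : y ∈ Ω) (hne : y ≠ x) :
    u x + ∑ i, pd i u x * (y i - x i) < u y := by
  set v := y - x with hv
  have hv0 : (fun i => v i) ≠ 0 := by
    intro h
    apply hne
    ext i
    have := congrFun h i
    simp only [hv, PiLp.sub_apply, Pi.zero_apply] at this
    linarith
  have hd2 : ∀ t ∈ Icc (0 : ℝ) 1, HasDerivAt (fun s : ℝ => ∑ j, v j * pd j u (x + s • v))
      ((fun i => v i) ⬝ᵥ hess u (x + t • v) *ᵥ (fun i => v i)) t := fun t ht =>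
    cpl_d2 x v (cpl_at2 ho hs (cpl_seg hc hx hy ht))
  have hd1 : ∀ t ∈ Icc (0 : ℝ) 1, HasDerivAt (fun s : ℝ => u (x + s • v))
      (∑ j, v j * pd j u (x + t • v)) t := fun t ht =>
    cpl_d1 x v (cpl_diff ho hs (cpl_seg hc hx hy ht))
  have hmono : StrictMonoOn (fun s : ℝ => ∑ j, v j * pd j u (x + s • v)) (Icc 0 1) := by
    refine strictMonoOn_of_hasDerivWithinAt_pos (convex_Icc 0 1)
      (fun t ht => (hd2 t ht).continuousAt.continuousWithinAt)
      (fun t ht => (hd2 t (interior_subset ht)).hasDerivWithinAt) fun t ht => ?_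
    have := (hp _ (cpl_seg hc hx hy (interior_subset ht))).dotProduct_mulVec_pos hv0
    simpa using this
  obtain ⟨c, hc0, hc1⟩ := exists_hasDerivAt_eq_slope (fun s : ℝ => u (x + s • v))
    (fun t => ∑ j, v j * pd j u (x + t • v)) zero_lt_one
    (fun t ht => (hd1 t ht).continuousAt.continuousWithinAt)
    (fun t ht => hd1 t (Ioo_subset_Icc_self ht))
  have h0 := hmono (left_mem_Icc.2 zero_le_one) (Ioo_subset_Icc_self hc0) hc0.1
  simp only [zero_smul, add_zero, one_smul, sub_zero, div_one] at h0 hc1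
  have hy' : x + v = y := by simp [hv]
  rw [hy'] at hc1
  have : ∑ i, pd i u x * (y i - x i) = ∑ j, v j * pd j u x :=
    Finset.sum_congr rfl fun i _ => by simp [hv, mul_comm]
  linarith

theorem convexOn_of_hess {n : ℕ} {Ω : Set (E n)} {u : E n → ℝ} (ho : IsOpen Ω)
    (hc : Convex ℝ Ω) (hs : ContDiffOn ℝ ∞ u Ω) (hp : ∀ x ∈ Ω, (hess u x).PosDef) :
    StrictConvexOn ℝ Ω u ∧ ∀ x ∈ Ω, ∀ y ∈ Ω, y ≠ x →
      u x + ∑ i, pd i u x * (y i - x i) < u y := by
  refine ⟨⟨hc, fun x hx y hy hxy a b ha hb hab => ?_⟩,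
    fun x hx y hy hne => cpl_tangent ho hc hs hp hx hy hne⟩
  have hz : a • x + b • y ∈ Ω := hc hx hy ha.le hb.le hab
  set z := a • x + b • y with hzdef
  have hzi : ∀ i, z i = a * x i + b * y i := fun i => by simp [hzdef]
  have hxz : x ≠ z := by
    intro h
    apply hxy
    ext i
    have h1 : x i = a * x i + b * y i := by rw [← hzi, ← h]
    have h2 : b * (x i - y i) = 0 := by
      have : a = 1 - b := by linarith
      rw [this] at h1; linarith
    rcases mul_eq_zero.1 h2 with h3 | h3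
    · exact absurd h3 hb.ne'
    · linarith
  have hyz : y ≠ z := by
    intro h
    apply hxy
    ext i
    have h1 : y i = a * x i + b * y i := by rw [← hzi, ← h]
    have h2 : a * (x i - y i) = 0 := by
      have : b = 1 - a := by linarith
      rw [this] at h1; linarith
    rcases mul_eq_zero.1 h2 with h3 | h3
    · exact absurd h3 ha.ne'
    · linarith
  have h1 := cpl_tangent ho hc hs hp hz hx hxz
  have h2 := cpl_tangent ho hc hs hp hz hy hyz
  have h3 : a * ∑ i, pd i u z * (x i - z i) + b * ∑ i, pd i u z * (y i - z i) = 0 := by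
    rw [Finset.mul_sum, Finset.mul_sum, ← Finset.sum_add_distrib]
    refine Finset.sum_eq_zero fun i _ => ?_
    rw [hzi]
    have : a = 1 - b := by linarith
    rw [this]; ring
  have h4 := mul_lt_mul_of_pos_left h1 ha
  have h5 := mul_lt_mul_of_pos_left h2 hb
  have h6 : a * u z + b * u z = u z := by rw [← add_mul, hab, one_mul]
  simp only [smul_eq_mul]
  nlinarith

/-! ### lengths -/

lemma cpl_quad (p : Fin n → ℝ) (w : E n) :
    ∑ i, ∑ j, ((if i = j then 1 else 0) + p i * p j) * w i * w j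
      = ‖w‖ ^ 2 + (∑ j, w j * p j) ^ 2 := by
  rw [EuclideanSpace.real_norm_sq_eq, sq (∑ j, w j * p j), Finset.sum_mul_sum,
    ← Finset.sum_add_distrib]
  refine Finset.sum_congr rfl fun i _ => ?_
  simp only [add_mul, Finset.sum_add_distrib, ite_mul, one_mul, zero_mul, Finset.sum_ite_eq,
    Finset.mem_univ, if_true]
  congr 1
  · ring
  · exact Finset.sum_congr rfl fun j _ => by ring

lemma cpl_length_nonneg (u : E n → ℝ) (γ : ℝ → E n) : 0 ≤ graphLength u γ :=
  intervalIntegral.integral_nonneg zero_le_one fun _ _ => Real.sqrt_nonneg _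

lemma cpl_dist_le {Ω : Set (E n)} (hc : Convex ℝ Ω) (u : E n → ℝ) {x y : E n} (hx : x ∈ Ω)
    (hy : y ∈ Ω) {b : ℝ → ℝ} (hbi : IntervalIntegrable b MeasureTheory.volume 0 1)
    (hb : ∀ r ∈ Icc (0 : ℝ) 1, ‖y - x‖ + |∑ j, (y - x) j * pd j u (x + r • (y - x))| ≤ b r) :
    graphDist Ω u x y ≤ ∫ r in (0 : ℝ)..1, b r := by
  have hcd : ContDiff ℝ 1 (fun s : ℝ => x + s • (y - x)) :=
    contDiff_const.add (contDiff_id.smul contDiff_const)
  refine le_trans (b := graphLength u fun s : ℝ => x + s • (y - x))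
    (csInf_le ⟨0, ?_⟩ ⟨fun s : ℝ => x + s • (y - x), hcd,
      fun t ht => cpl_seg hc hx hy ht, by simp, by simp, rfl⟩) ?_
  · rintro l ⟨γ, -, -, -, -, rfl⟩
    exact cpl_length_nonneg u γ
  · refine (le_abs_self _).trans ?_
    rw [← Real.norm_eq_abs]
    refine intervalIntegral.norm_integral_le_of_norm_le zero_le_one
      (Eventually.of_forall fun r hr => ?_) hbi
    rw [(cpl_line x (y - x) r).deriv, cpl_quad (fun i => pd i u (x + r • (y - x))) (y - x),
      Real.norm_of_nonneg (Real.sqrt_nonneg _)]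
    refine le_trans ?_ (hb r (Ioc_subset_Icc_self hr))
    rw [Real.sqrt_le_left (by positivity), add_sq, sq_abs]
    have : 0 ≤ 2 * ‖y - x‖ * |∑ j, (y - x) j * pd j u (x + r • (y - x))| := by positivity
    linarith

lemma cpl_le_dist {Ω : Set (E n)} (hc : Convex ℝ Ω) {u : E n → ℝ}
    (hu : ∀ x ∈ Ω, ContDiffAt ℝ 1 u x) {x y : E n} (hx : x ∈ Ω) (hy : y ∈ Ω) :
    ‖y - x‖ ≤ graphDist Ω u x y := by
  have hcd : ContDiff ℝ 1 (fun s : ℝ => x + s • (y - x)) :=
    contDiff_const.add (contDiff_id.smul contDiff_const)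
  refine le_csInf ⟨_, fun s : ℝ => x + s • (y - x), hcd,
    fun t ht => cpl_seg hc hx hy ht, by simp, by simp, rfl⟩ ?_
  rintro l ⟨γ, hγ, hm, rfl, rfl, rfl⟩
  have hdc : Continuous (deriv γ) := hγ.continuous_deriv le_rfl
  refine norm_sub_le_integral_of_norm_deriv_le_of_le zero_le_one hγ.continuous.continuousOn
    (hγ.differentiable (by simp)).differentiableOn (Eventually.of_forall fun r _ => ?_) ?_
  · rw [cpl_quad (fun i => pd i u (γ r)) (deriv γ r)]
    refine Real.le_sqrt_of_sq_le ?_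
    have := sq_nonneg (∑ j, deriv γ r j * pd j u (γ r))
    linarith
  · refine ContinuousOn.intervalIntegrable ?_
    rw [uIcc_of_le zero_le_one]
    have h1 : ∀ i, ContinuousOn (fun t => pd i u (γ t)) (Icc 0 1) := fun i t ht =>
      (ContinuousAt.comp (f := γ) (continuousAt_pd (hu _ (hm t ht)) i)
        hγ.continuous.continuousAt).continuousWithinAt
    have h2 : ∀ i, ContinuousOn (fun t => deriv γ t i) (Icc 0 1) := fun i =>
      ((EuclideanSpace.proj i : E n →L[ℝ] ℝ).continuous.comp hdc).continuousOn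
    refine ContinuousOn.sqrt ?_
    refine continuousOn_finsetSum _ fun i _ => continuousOn_finsetSum _ fun j _ => ?_
    exact ((continuousOn_const.add ((h1 i).mul (h1 j))).mul (h2 i)).mul (h2 j)

theorem complete_univ {n : ℕ} {u : E n → ℝ} (hs : ContDiff ℝ ∞ u) :
    EuclideanComplete Set.univ u := by
  intro x _ hx
  have hu1 : ContDiff ℝ 1 u := hs.of_le (by exact_mod_cast le_top)
  have hu : ∀ y ∈ (univ : Set (E n)), ContDiffAt ℝ 1 u y := fun y _ => hu1.contDiffAt
  have hcau : CauchySeq x := by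
    rw [Metric.cauchySeq_iff]
    intro ε hε
    obtain ⟨N, hN⟩ := hx ε hε
    refine ⟨N, fun k hk l hl => ?_⟩
    rw [dist_comm, dist_eq_norm]
    exact (cpl_le_dist convex_univ hu (mem_univ _) (mem_univ _)).trans_lt (hN k hk l hl)
  obtain ⟨y, hy⟩ := cauchySeq_tendsto_of_complete hcau
  refine ⟨y, mem_univ _, ?_⟩
  obtain ⟨M, hM⟩ := (isCompact_closedBall y 1).exists_bound_of_continuousOn
    (hu1.continuous_fderiv (by simp)).continuousOn
  have hlim : Tendsto (fun k => (1 + M) * ‖y - x k‖) atTop (𝓝 0) := by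
    have h1 : Tendsto (fun k => ‖y - x k‖) atTop (𝓝 0) := by
      have := (tendsto_const_nhds (x := y)).sub hy
      simpa using this.norm
    simpa using h1.const_mul (1 + M)
  refine squeeze_zero' (Eventually.of_forall fun k => (norm_nonneg _).trans
    (cpl_le_dist convex_univ hu (mem_univ _) (mem_univ _))) ?_ hlim
  filter_upwards [hy.eventually (Metric.closedBall_mem_nhds y one_pos)] with k hk
  have := cpl_dist_le (Ω := univ) convex_univ u (mem_univ (x k)) (mem_univ y)
    (b := fun _ => (1 + M) * ‖y - x k‖) intervalIntegrable_const fun r hr => by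
      have hm : x k + r • (y - x k) ∈ Metric.closedBall y 1 :=
        (convex_closedBall y 1).add_smul_sub_mem hk (Metric.mem_closedBall_self zero_le_one) hr
      rw [← fderiv_eq_sum_pd, ← Real.norm_eq_abs]
      have h1 := (fderiv ℝ u (x k + r • (y - x k))).le_opNorm (y - x k)
      have h2 := mul_le_mul_of_nonneg_right (hM _ hm) (norm_nonneg (y - x k))
      linarith
  simpa using this

/-! ### epigraphs -/

lemma cpl_cont_cons {f : E n → ℝ} (hf : Continuous f) :
    Continuous fun x : E n => (Fin.cons (f x) (fun i => x i) : Fin (n + 1) → ℝ) := by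
  refine continuous_pi fun k => ?_
  refine Fin.cases ?_ (fun i => ?_) k
  · simpa using hf
  · simpa using (EuclideanSpace.proj i : E n →L[ℝ] ℝ).continuous

lemma cpl_cons_mem {Ω : Set (E n)} {u : E n → ℝ} (c : ℝ) (x : E n) :
    (Fin.cons c (fun i => x i) : Fin (n + 1) → ℝ) ∈ epi Ω u ↔ x ∈ Ω ∧ u x ≤ c := by
  simp [epi]

theorem isClosed_epi {n : ℕ} {Ω : Set (E n)} {u : E n → ℝ} (ho : IsOpen Ω)
    (hc : Convex ℝ Ω) (hs : ContDiffOn ℝ ∞ u Ω) (hp : ∀ x ∈ Ω, (hess u x).PosDef)
    (hcomp : EuclideanComplete Ω u) : IsClosed (epi Ω u) := by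
  have hcv := (convexOn_of_hess ho hc hs hp).1.convexOn
  refine IsSeqClosed.isClosed fun Z Z0 hZ hlim => ?_
  set x : ℕ → E n := fun k => WithLp.toLp 2 fun i => Z k i.succ with hxdef
  set x0 : E n := WithLp.toLp 2 fun i => Z0 i.succ with hx0def
  have hxm : ∀ k, x k ∈ Ω := fun k => (hZ k).1
  have hxu : ∀ k, u (x k) ≤ Z k 0 := fun k => (hZ k).2
  have hxl : Tendsto x atTop (𝓝 x0) := by
    have hc' : Continuous fun W : Fin (n + 1) → ℝ => (WithLp.toLp 2 fun i => W i.succ : E n) :=
      (PiLp.continuous_toLp 2 _).comp (continuous_pi fun i => continuous_apply _)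
    exact (hc'.tendsto Z0).comp hlim
  have hl0 : Tendsto (fun k => Z k 0) atTop (𝓝 (Z0 0)) := ((continuous_apply 0).tendsto Z0).comp hlim
  suffices h : x0 ∈ Ω from
    ⟨h, le_of_tendsto_of_tendsto' ((cpl_diff ho hs h).continuousAt.tendsto.comp hxl) hl0 hxu⟩
  set p := x 0 with hpdef
  have hpm : p ∈ Ω := hxm 0
  set v := x0 - p with hv
  have hx0c : x0 ∈ closure Ω := mem_closure_of_tendsto hxl (Eventually.of_forall hxm)
  have hmem : ∀ t ∈ Ico (0 : ℝ) 1, p + t • v ∈ Ω := fun t ht => by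
    have := hc.combo_interior_closure_mem_interior (x := p) (by rwa [ho.interior_eq]) hx0c
      (a := 1 - t) (b := t) (by linarith [ht.2]) ht.1 (by ring)
    rw [ho.interior_eq] at this
    convert this using 1
    simp only [hv, smul_sub, sub_smul, one_smul]; abel
  have hbd : ∀ t ∈ Ico (0 : ℝ) 1, u (p + t • v) ≤ |u p| + |Z0 0| := fun t ht => by
    have h1 : Tendsto (fun k => u (p + t • (x k - p))) atTop (𝓝 (u (p + t • v))) :=
      (cpl_diff ho hs (hmem t ht)).continuousAt.tendsto.comp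
        (((hxl.sub_const p).const_smul t).const_add p)
    have h2 : Tendsto (fun k => (1 - t) * u p + t * Z k 0) atTop (𝓝 ((1 - t) * u p + t * Z0 0)) :=
      (hl0.const_mul t).const_add _
    have h3 := le_of_tendsto_of_tendsto' h1 h2 fun k => by
      have h4 := hcv.2 hpm (hxm k) (show 0 ≤ 1 - t by linarith [ht.2]) ht.1 (by ring)
      have h5 : p + t • (x k - p) = (1 - t) • p + t • x k := by
        simp only [smul_sub, sub_smul, one_smul]; abel
      rw [h5]
      simp only [smul_eq_mul] at h4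
      have := mul_le_mul_of_nonneg_left (hxu k) ht.1
      linarith
    have h6 := le_abs_self (u p)
    have h7 := le_abs_self (Z0 0)
    have h8 := abs_nonneg (u p)
    have h9 := abs_nonneg (Z0 0)
    nlinarith [ht.1, ht.2]
  set g1 : ℝ → ℝ := fun s => ∑ j, v j * pd j u (p + s • v) with hg1
  have hd2 : ∀ t ∈ Ico (0 : ℝ) 1, HasDerivAt g1
      ((fun i => v i) ⬝ᵥ hess u (p + t • v) *ᵥ (fun i => v i)) t := fun t ht =>
    cpl_d2 p v (cpl_at2 ho hs (hmem t ht))
  have hmono : MonotoneOn g1 (Ico 0 1) := by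
    refine monotoneOn_of_hasDerivWithinAt_nonneg (convex_Ico 0 1)
      (fun t ht => (hd2 t ht).continuousAt.continuousWithinAt)
      (fun t ht => (hd2 t (interior_subset ht)).hasDerivWithinAt) fun t ht => ?_
    exact psd_quad_nonneg (hp _ (hmem t (interior_subset ht))).posSemidef _
  set C : ℝ := ‖v‖ + 2 * |g1 0| with hC
  have hC0 : 0 ≤ C := by positivity
  have hCb : ∀ t ∈ Ico (0 : ℝ) 1, ‖v‖ + |g1 t| ≤ C + g1 t := fun t ht => by
    have h1 := hmono (left_mem_Ico.2 zero_lt_one) ht ht.1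
    have h2 := neg_abs_le (g1 0)
    have h3 := abs_nonneg (g1 0)
    have h4 : |g1 t| ≤ 2 * |g1 0| + g1 t := abs_le.2 ⟨by linarith, by linarith⟩
    linarith
  set G : ℝ → ℝ := fun s => C * s + u (p + s • v) with hG
  have hGd : ∀ t ∈ Ico (0 : ℝ) 1, HasDerivAt G (C + g1 t) t := fun t ht => by
    have h1 := cpl_d1 p v (cpl_diff ho hs (hmem t ht))
    have h2 := ((hasDerivAt_id t).const_mul C).add h1
    rw [mul_one] at h2
    exact h2
  have hGm : MonotoneOn G (Ico 0 1) := by
    refine monotoneOn_of_hasDerivWithinAt_nonneg (convex_Ico 0 1)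
      (fun t ht => (hGd t ht).continuousAt.continuousWithinAt)
      (fun t ht => (hGd t (interior_subset ht)).hasDerivWithinAt) fun t ht => ?_
    have h1 := hCb t (interior_subset ht)
    have h2 : 0 ≤ ‖v‖ + |g1 t| := by positivity
    linarith
  have hdist : ∀ s ∈ Ico (0 : ℝ) 1, ∀ t ∈ Ico (0 : ℝ) 1,
      graphDist Ω u (p + s • v) (p + t • v) ≤ |G t - G s| := fun s hs' t ht => by
    have hin : ∀ r ∈ Icc (0 : ℝ) 1, s + r * (t - s) ∈ Ico (0 : ℝ) 1 := fun r hr =>
      (convex_Ico (0 : ℝ) 1).add_smul_sub_mem hs' ht hr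
    have haff : ∀ r : ℝ, HasDerivAt (fun r : ℝ => s + r * (t - s)) (t - s) r := fun r => by
      simpa using ((hasDerivAt_id r).mul_const (t - s)).const_add s
    have hcont : ContinuousOn (fun r : ℝ => C + g1 (s + r * (t - s))) (uIcc 0 1) := by
      rw [uIcc_of_le zero_le_one]
      exact fun r hr => (continuousAt_const.add (ContinuousAt.comp (f := fun r => s + r * (t - s))
        (hd2 _ (hin r hr)).continuousAt (haff r).continuousAt)).continuousWithinAt
    have hint : ∫ r in (0 : ℝ)..1, (C + g1 (s + r * (t - s))) * (t - s) = G t - G s := by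
      have := intervalIntegral.integral_eq_sub_of_hasDerivAt
        (f := fun r : ℝ => G (s + r * (t - s)))
        (f' := fun r => (C + g1 (s + r * (t - s))) * (t - s)) (a := 0) (b := 1)
        (fun r hr => by
          rw [uIcc_of_le zero_le_one] at hr
          exact HasDerivAt.comp (h := fun r : ℝ => s + r * (t - s)) r (hGd _ (hin r hr)) (haff r))
        (hcont.mul continuousOn_const).intervalIntegrable
      simpa using this
    have hJ : 0 ≤ ∫ r in (0 : ℝ)..1, (C + g1 (s + r * (t - s))) :=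
      intervalIntegral.integral_nonneg zero_le_one fun r hr => by
        have h1 := hCb _ (hin r hr)
        have h2 : 0 ≤ ‖v‖ + |g1 (s + r * (t - s))| := by positivity
        linarith
    have hsub : p + t • v - (p + s • v) = (t - s) • v := by
      rw [sub_smul]; abel
    have key := cpl_dist_le hc u (hmem s hs') (hmem t ht)
      (b := fun r => (C + g1 (s + r * (t - s))) * |t - s|)
      (hcont.mul continuousOn_const).intervalIntegrable fun r hr => by
        have h1 : p + s • v + r • (t - s) • v = p + (s + r * (t - s)) • v := by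
          rw [smul_smul, add_smul, add_assoc]
        rw [hsub, h1, norm_smul, Real.norm_eq_abs]
        have h2 : ∑ j, ((t - s) • v) j * pd j u (p + (s + r * (t - s)) • v)
            = (t - s) * g1 (s + r * (t - s)) := by
          simp only [hg1, Finset.mul_sum, PiLp.smul_apply, smul_eq_mul, mul_assoc]
        rw [h2, abs_mul]
        have := mul_le_mul_of_nonneg_left (hCb _ (hin r hr)) (abs_nonneg (t - s))
        linarith
    rw [intervalIntegral.integral_mul_const] at key hint
    rw [← hint, abs_mul, abs_of_nonneg hJ]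
    exact key
  set τ : ℕ → ℝ := fun k => 1 - 1 / ((k : ℝ) + 1) with hτ
  have hτm : ∀ k, τ k ∈ Ico (0 : ℝ) 1 := fun k => by
    have h1 : (0 : ℝ) < 1 / ((k : ℝ) + 1) := by positivity
    have h2 : 1 / ((k : ℝ) + 1) ≤ 1 := by
      rw [div_le_one (by positivity)]; linarith [Nat.cast_nonneg (α := ℝ) k]
    exact ⟨by simp only [hτ]; linarith, by simp only [hτ]; linarith⟩
  have hτl : Tendsto τ atTop (𝓝 1) := by
    have := (tendsto_const_nhds (x := (1 : ℝ))).sub tendsto_one_div_add_atTop_nhds_zero_nat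
    rw [sub_zero] at this
    exact this
  have hτmono : Monotone τ := fun k l hkl => by
    have : 1 / ((l : ℝ) + 1) ≤ 1 / ((k : ℝ) + 1) :=
      one_div_le_one_div_of_le (by positivity) (by exact_mod_cast Nat.succ_le_succ hkl)
    simp only [hτ]; linarith
  have hGτ : Monotone fun k => G (τ k) := fun k l hkl => hGm (hτm k) (hτm l) (hτmono hkl)
  have hGb : BddAbove (range fun k => G (τ k)) := by
    refine ⟨C + (|u p| + |Z0 0|), ?_⟩
    rintro _ ⟨k, rfl⟩
    have h1 := hbd _ (hτm k)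
    have h2 := mul_le_mul_of_nonneg_left (hτm k).2.le hC0
    simp only [hG]; linarith
  have hcau := (tendsto_atTop_ciSup hGτ hGb).cauchySeq
  rw [Metric.cauchySeq_iff] at hcau
  obtain ⟨y, hy, hyl⟩ := hcomp (fun k => p + τ k • v) (fun k => hmem _ (hτm k)) fun ε hε => by
    obtain ⟨N, hN⟩ := hcau ε hε
    refine ⟨N, fun k hk l hl => (hdist _ (hτm k) _ (hτm l)).trans_lt ?_⟩
    rw [← Real.dist_eq]
    exact hN l hl k hk
  have h1 : Tendsto (fun k => ‖y - (p + τ k • v)‖) atTop (𝓝 0) :=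
    squeeze_zero (fun k => norm_nonneg _)
      (fun k => cpl_le_dist hc (fun z hz => cpl_at1 ho hs hz) (hmem _ (hτm k)) hy) hyl
  have h2 : Tendsto (fun k => ‖y - (p + τ k • v)‖) atTop (𝓝 ‖y - (p + (1 : ℝ) • v)‖) :=
    (((hτl.smul_const v).const_add p).const_sub y).norm
  have h3 := tendsto_nhds_unique h2 h1
  rw [norm_eq_zero, sub_eq_zero] at h3
  have h4 : y = x0 := by rw [h3]; simp [hv]
  exact h4 ▸ hy

theorem isCompact_section {n : ℕ} {Ω : Set (E n)} {u : E n → ℝ} (ho : IsOpen Ω)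
    (hc : Convex ℝ Ω) (hs : ContDiffOn ℝ ∞ u Ω) (hp : ∀ x ∈ Ω, (hess u x).PosDef)
    (hcl : IsClosed (epi Ω u)) {x0 : E n} (hx0 : x0 ∈ Ω) (h : ℝ) :
    IsCompact {x | x ∈ Ω ∧ u x - u x0 - ∑ i, pd i u x0 * (x i - x0 i) ≤ h} := by
  obtain ⟨hsc, htan⟩ := convexOn_of_hess ho hc hs hp
  have hlin : Continuous fun x : E n => ∑ i, pd i u x0 * (x i - x0 i) :=
    continuous_finsetSum _ fun i _ => continuous_const.mul
      ((EuclideanSpace.proj i : E n →L[ℝ] ℝ).continuous.sub continuous_const)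
  refine Metric.isCompact_of_isClosed_isBounded ?_ ?_
  · have := hcl.preimage (cpl_cont_cons (f := fun x => h + u x0 + ∑ i, pd i u x0 * (x i - x0 i))
      (continuous_const.add hlin))
    refine (congrArg IsClosed ?_).mp this
    ext x
    rw [mem_preimage, cpl_cons_mem, mem_ofPred_eq]
    exact and_congr_right fun _ => ⟨fun h => by linarith, fun h => by linarith⟩
  · obtain ⟨r, hr, hrΩ⟩ := Metric.nhds_basis_closedBall.mem_iff.1 (ho.mem_nhds hx0)
    have hsp : Metric.sphere x0 r ⊆ Ω := Metric.sphere_subset_closedBall.trans hrΩ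
    obtain ⟨δ, hδ, hδb⟩ := (isCompact_sphere x0 r).exists_forall_le'
      (f := fun x => u x - u x0 - ∑ i, pd i u x0 * (x i - x0 i)) (a := 0)
      (((hs.continuousOn.mono hsp).sub continuousOn_const).sub hlin.continuousOn)
      fun y hy => by
        have := htan x0 hx0 y (hsp hy) (Metric.ne_of_mem_sphere hy hr.ne')
        linarith
    refine (Metric.isBounded_closedBall (x := x0) (r := max r (r * h / δ))).subset ?_
    rintro x ⟨hx, hxh⟩
    rw [Metric.mem_closedBall, dist_eq_norm]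
    by_contra hlt
    rw [not_le, max_lt_iff] at hlt
    set R := ‖x - x0‖ with hR
    have hR0 : 0 < R := hr.trans hlt.1
    set t := r / R with ht
    have ht0 : 0 < t := by positivity
    have ht1 : t ≤ 1 := by rw [ht, div_le_one hR0]; exact hlt.1.le
    have hy : x0 + t • (x - x0) ∈ Metric.sphere x0 r := by
      rw [mem_sphere_iff_norm, add_sub_cancel_left, norm_smul, Real.norm_of_nonneg ht0.le, ← hR,
        ht, div_mul_cancel₀ _ hR0.ne']
    have h1 := hδb _ hy
    have h2 := hsc.convexOn.2 hx0 hx (show 0 ≤ 1 - t by linarith) ht0.le (by ring)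
    have h3 : x0 + t • (x - x0) = (1 - t) • x0 + t • x := by
      simp only [smul_sub, sub_smul, one_smul]; abel
    have h4 : ∑ i, pd i u x0 * ((x0 + t • (x - x0)) i - x0 i)
        = t * ∑ i, pd i u x0 * (x i - x0 i) := by
      rw [Finset.mul_sum]
      refine Finset.sum_congr rfl fun i _ => ?_
      simp only [PiLp.add_apply, PiLp.smul_apply, PiLp.sub_apply, smul_eq_mul]; ring
    simp only [h4] at h1
    rw [h3] at h1
    simp only [smul_eq_mul] at h2
    have h5 : δ ≤ t * h := by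
      have := mul_le_mul_of_nonneg_left hxh ht0.le
      nlinarith
    have h6 := hlt.2
    rw [div_lt_iff₀ hδ] at h6
    rw [ht, div_mul_eq_mul_div, le_div_iff₀ hR0] at h5
    linarith

theorem paraboloid_of_const_hess {n : ℕ} {Ω : Set (E n)} {u : E n → ℝ} (ho : IsOpen Ω)
    (hne : Ω.Nonempty) (hc : Convex ℝ Ω) (hs : ContDiffOn ℝ ∞ u Ω)
    (hcl : IsClosed (epi Ω u)) (A : Matrix (Fin n) (Fin n) ℝ) (hA : ∀ x ∈ Ω, hess u x = A) :
    Ω = Set.univ ∧ ∃ (b : Fin n → ℝ) (c : ℝ), ∀ x : E n,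
      u x = (1 / 2) * (∑ i, ∑ j, A i j * x i * x j) + (∑ i, b i * x i) + c := by
  obtain ⟨p, hp⟩ := hne
  have hsym : ∀ i j, A i j = A j i := fun i j => by
    rw [← hA p hp]; exact hess_symm (cpl_at2 ho hs hp) i j
  set Q : E n → ℝ := fun x => (1 / 2) * (∑ i, ∑ j, A i j * x i * x j)
    + (∑ i, (pd i u p - ∑ j, A i j * p j) * x i)
    + (u p - ∑ i, pd i u p * p i + (1 / 2) * (∑ i, ∑ j, A i j * p i * p j)) with hQ
  have hco : ∀ i, Continuous fun x : E n => x i := fun i =>
    (EuclideanSpace.proj i : E n →L[ℝ] ℝ).continuous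
  have hQc : Continuous Q :=
    ((continuous_const.mul (continuous_finsetSum _ fun i _ => continuous_finsetSum _ fun j _ =>
      (continuous_const.mul (hco i)).mul (hco j))).add
      (continuous_finsetSum _ fun i _ => continuous_const.mul (hco i))).add continuous_const
  have huQ : ∀ x ∈ Ω, u x = Q x := fun x hx => by
    set v := x - p with hv
    set q : ℝ := (fun i => v i) ⬝ᵥ A *ᵥ (fun i => v i) with hq
    set g1 : ℝ → ℝ := fun s => ∑ j, v j * pd j u (p + s • v) with hg1
    have hd2 : ∀ t ∈ Icc (0 : ℝ) 1, HasDerivAt (fun s => g1 s - s * q) 0 t := fun t ht => by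
      have h1 := cpl_d2 p v (cpl_at2 ho hs (cpl_seg hc hp hx ht))
      rw [hA _ (cpl_seg hc hp hx ht)] at h1
      have h2 := h1.sub ((hasDerivAt_id t).mul_const q)
      rw [one_mul, ← hq, sub_self] at h2
      exact h2
    have h1 := constant_of_has_deriv_right_zero
      (fun t ht => (hd2 t ht).continuousAt.continuousWithinAt)
      (fun t ht => (hd2 t (Ico_subset_Icc_self ht)).hasDerivWithinAt)
    have hd1 : ∀ t ∈ Icc (0 : ℝ) 1,
        HasDerivAt (fun s : ℝ => u (p + s • v) - s * g1 0 - s * s * (q / 2)) 0 t := fun t ht => by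
      have h2 := cpl_d1 p v (cpl_diff ho hs (cpl_seg hc hp hx ht))
      have h3 := (h2.sub ((hasDerivAt_id t).mul_const (g1 0))).sub
        (((hasDerivAt_id t).mul (hasDerivAt_id t)).mul_const (q / 2))
      refine h3.congr_deriv ?_
      have h4 := h1 t ht
      simp only [id, one_mul, mul_one, zero_mul, sub_zero] at h4 ⊢
      change g1 t - g1 0 - (t + t) * (q / 2) = 0
      linarith
    have h2 := constant_of_has_deriv_right_zero
      (fun t ht => (hd1 t ht).continuousAt.continuousWithinAt)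
      (fun t ht => (hd1 t (Ico_subset_Icc_self ht)).hasDerivWithinAt) 1
      (right_mem_Icc.2 zero_le_one)
    have h3 : p + v = x := by simp [hv]
    simp only [one_smul, one_mul, zero_smul, zero_mul, add_zero, sub_zero, h3] at h2
    have h4 : g1 0 = ∑ i, pd i u p * x i - ∑ i, pd i u p * p i := by
      rw [← Finset.sum_sub_distrib]
      refine Finset.sum_congr rfl fun i _ => ?_
      simp only [zero_smul, add_zero, hv, PiLp.sub_apply]; ring
    have h5 : ∑ i, ∑ j, A i j * p i * x j = ∑ i, ∑ j, A i j * p j * x i := by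
      rw [Finset.sum_comm]
      exact Finset.sum_congr rfl fun i _ => Finset.sum_congr rfl fun j _ => by rw [hsym]
    have h6 : q = ∑ i, ∑ j, A i j * x i * x j - ∑ i, ∑ j, A i j * p i * x j
        - ∑ i, ∑ j, A i j * p j * x i + ∑ i, ∑ j, A i j * p i * p j := by
      simp only [hq, dotProduct, mulVec, Finset.mul_sum, ← Finset.sum_sub_distrib,
        ← Finset.sum_add_distrib, hv, PiLp.sub_apply]
      exact Finset.sum_congr rfl fun i _ => Finset.sum_congr rfl fun j _ => by ring
    have h7 : ∑ i, (pd i u p - ∑ j, A i j * p j) * x i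
        = ∑ i, pd i u p * x i - ∑ i, ∑ j, A i j * p j * x i := by
      simp only [sub_mul, Finset.sum_sub_distrib, Finset.sum_mul]
    simp only [hQ]
    rw [h7]
    linarith
  have hcl' : IsClosed Ω := by
    have := hcl.preimage (cpl_cont_cons hQc)
    refine (congrArg IsClosed ?_).mp this
    ext x
    rw [mem_preimage, cpl_cons_mem]
    exact ⟨fun hx => hx.1, fun hx => ⟨hx, (huQ x hx).le⟩⟩
  have hu : Ω = univ := IsClopen.eq_univ ⟨hcl', ho⟩ ⟨p, hp⟩
  exact ⟨hu, _, _, fun x => huQ x (hu ▸ mem_univ x)⟩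

end Vale.Agent.P252
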