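import Mathlib

namespace Vale.Agent.P252

/-- The derivative `∂ u / ∂ x_i` of `u : ℝ^n → ℝ` at `x`. -/
noncomputable def pd {n : ℕ} (i : Fin n) (u : EuclideanSpace ℝ (Fin n) → ℝ)
    (x : EuclideanSpace ℝ (Fin n)) : ℝ :=
  fderiv ℝ u x (EuclideanSpace.single i 1)

/-- The Hessian matrix `D² u (x) = (∂_i ∂_j u (x))`. -/
noncomputable def hess {n : ℕ} (u : EuclideanSpace ℝ (Fin n) → ℝ)
    (x : EuclideanSpace ℝ (Fin n)) : Matrix (Fin n) (Fin n) ℝ :=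
  Matrix.of fun i j => pd i (pd j u) x

/-- `w = (det D² u) ^ (-(n+1)/(n+2))`. -/
noncomputable def wfun {n : ℕ} (u : EuclideanSpace ℝ (Fin n) → ℝ)
    (x : EuclideanSpace ℝ (Fin n)) : ℝ :=
  (hess u x).det ^ (-((n : ℝ) + 1) / ((n : ℝ) + 2))

/-- The left side `∑ U^{ij} ∂_{ij} w` of the affine maximal equation,
`U^{ij} = det (D² u) (D² u)⁻¹_{ij}`. -/
noncomputable def amOp {n : ℕ} (u : EuclideanSpace ℝ (Fin n) → ℝ)
    (x : EuclideanSpace ℝ (Fin n)) : ℝ :=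
  ∑ i, ∑ j, ((hess u x).det * (hess u x)⁻¹ i j) * hess (wfun u) x i j

end Vale.Agent.P252
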