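import Vale.Agent.P252.Dichotomy5

/-! The dichotomy between uniform sections and wedges. -/

open Matrix Filter Topology

namespace Vale.Agent.P252

namespace Dich

variable {m : ℕ}

theorem wedge_case {K K1 : Set (Fin (m + 2) → ℝ)} (hcl : IsClosed K) (hcv : Convex ℝ K) {d : ℕ}
    {C1 : ℝ} {f : Fin d → Fin (m + 2) → ℝ} (H : Base K K1 C1 f)
    (hno : ∀ K', Nice K K' → ¬ FP K' (d + 1)) :
    ∃ C : ℝ, 0 < C ∧ ∀ L : ℕ, ∃ (O : Fin (m + 2) → ℝ) (B : Matrix (Fin (m + 2)) (Fin (m + 2)) ℝ),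
      B.det ≠ 0 ∧ WedgeHyp (frame K O B) C L := by
  have hC1 := H.one_le
  have h1 : ∀ δ h : ℝ, ∃ A : Matrix (Fin m) (Fin m) ℝ, 0 < δ → δ ≤ 1 → 2 * C1 ≤ h → A.det ≠ 0 ∧
      WF K (frame K1 0 (cons1 δ (cons1 h A))) f ((m + 2) * (19 * C1)) δ (C1 / h) := fun δ h => by
    by_cases hh : 0 < δ ∧ δ ≤ 1 ∧ 2 * C1 ≤ h
    · obtain ⟨A, hA⟩ := exists_WF H hh.1 hh.2.1 hh.2.2
      exact ⟨A, fun _ _ _ => hA⟩
    · exact ⟨0, fun a b c => absurd ⟨a, b, c⟩ hh⟩
  choose A hA using h1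
  obtain ⟨C, δs, hs, hC, hδs, hδs1, hhs, hcl'⟩ := wedge_claim hC1 H.li H.f1 hno
    (fun δ h => frame K1 0 (cons1 δ (cons1 h (A δ h)))) fun δ h a b c => (hA δ h a b c).2
  refine ⟨C, by linarith, fun L => ?_⟩
  set E := Real.exp L with hE
  have hE1 : 1 ≤ E := Real.one_le_exp (Nat.cast_nonneg L)
  have hE0 : 0 < E := by linarith
  set s := 1 / (200 * E) with hsdef
  have hs0 : 0 < s := by positivity
  have hsE : s * E = 1 / 200 := by rw [hsdef]; field_simp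
  have hs1 : s ≤ 1 / 200 := by nlinarith
  set D := (8 * E + 1) * 19 with hD
  set δ0 := δs / E with hδ0
  set h0 := hs * E + 2 * C1 * (D + 4) / s with hh0
  have hδ00 : 0 < δ0 := by positivity
  have hδ0E : δ0 * E = δs := by rw [hδ0]; field_simp
  have hq : 0 ≤ 2 * C1 * (D + 4) / s := by positivity
  have hhs0 : 0 < hs := by linarith
  have hh00 : 0 < h0 := by positivity
  have hexp : ∀ i : ℤ, |i| ≤ L → Real.exp i ≤ E ∧ 1 ≤ Real.exp i * E := fun i hi => by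
    have h2 : |(i : ℝ)| ≤ L := by exact_mod_cast hi
    refine ⟨Real.exp_le_exp.2 (abs_le.1 h2).2, ?_⟩
    rw [hE, ← Real.exp_add]
    exact Real.one_le_exp (by linarith [(abs_le.1 h2).1])
  have hcell : ∀ i j : ℤ, |i| ≤ L → |j| ≤ L → 0 < δ0 * Real.exp i ∧ δ0 * Real.exp i ≤ δs ∧
      hs ≤ h0 * Real.exp j := fun i j hi hj => by
    refine ⟨by positivity, hδ0E ▸ mul_le_mul_of_nonneg_left (hexp i hi).1 hδ00.le, ?_⟩
    have := (hexp j hj).2
    have h3 := Real.exp_pos (j : ℝ)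
    calc hs ≤ hs * (Real.exp j * E) := by nlinarith
      _ = hs * E * Real.exp j := by ring
      _ ≤ h0 * Real.exp j := by gcongr; linarith
  have hδ0s : δ0 ≤ δs := by nlinarith
  have hh0s : hs ≤ h0 := by nlinarith
  obtain ⟨hA0, G⟩ := hA δ0 h0 hδ00 (by linarith) (by linarith)
  set K0 := frame K1 0 (cons1 δ0 (cons1 h0 (A δ0 h0))) with hK0
  set Dm : ℤ → ℤ → Matrix (Fin m) (Fin m) ℝ :=
    fun i j => (A δ0 h0)⁻¹ * A (δ0 * Real.exp i) (h0 * Real.exp j) with hDm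
  have hDdet : ∀ i j : ℤ, |i| ≤ L → |j| ≤ L → (Dm i j).det ≠ 0 := fun i j hi hj => by
    obtain ⟨a, b, c⟩ := hcell i j hi hj
    rw [hDm, det_mul, det_nonsing_inv]
    exact mul_ne_zero (by simpa using hA0) (hA _ _ a (by linarith) (by linarith)).1
  have hev : ∀ᶠ t : ℝ in atTop, ∀ p ∈ Finset.Icc (-(L : ℤ)) L ×ˢ Finset.Icc (-(L : ℤ)) L,
      ∀ K1 K2 : Set (Fin (m + 2) → ℝ), Approx K1 K2 t t⁻¹ →
        Approx (frame K1 0 (cons1 (Real.exp p.1) (cons1 (Real.exp p.2) (Dm p.1 p.2))))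
          (frame K2 0 (cons1 (Real.exp p.1) (cons1 (Real.exp p.2) (Dm p.1 p.2)))) (C + 30)
          (1 / (3 * C)) := by
    rw [eventually_all_finset]
    intro p hp
    simp only [Finset.mem_product, Finset.mem_Icc] at hp
    exact approx_frame 0 (cons1_det (Real.exp_pos _).ne' (cons1_det (Real.exp_pos _).ne'
      (hDdet _ _ (abs_le.2 hp.1) (abs_le.2 hp.2)))) _ (by positivity)
  obtain ⟨t, ht, ht1, ht2, ht3, ht4⟩ := (hev.and ((eventually_ge_atTop (C + 30)).and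
    ((eventually_ge_atTop (3 * C)).and ((eventually_ge_atTop (D + 3)).and
      (eventually_ge_atTop (400 * E)))))).exists
  have ht0 : 0 < t := by linarith
  have hti : t⁻¹ ≤ s / 2 := by
    rw [hsdef, show 1 / (200 * E) / 2 = (400 * E)⁻¹ by field_simp; ring]
    exact inv_anti₀ (by positivity) ht4
  obtain ⟨O, B, hB, hAp⟩ := G.cls.2.2 t t⁻¹ (inv_pos.2 ht0)
  set σ : Fin (m + 2) → ℝ := s • e01 m with hσ
  have hσn : ‖σ‖ ≤ 1 / 200 := by
    rw [hσ, norm_smul, Real.norm_eq_abs, abs_of_pos hs0]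
    nlinarith [norm_e01 (m := m), norm_nonneg (e01 m)]
  have hσ0 : σ 0 = s := by simp [hσ, e01]
  have hσ1 : σ 1 = s := by simp [hσ, e01]
  have hmem : ∀ Z, Z ∈ frame K (O - B *ᵥ σ) B ↔ Z - σ ∈ frame K O B := fun Z => by
    rw [mem_frame, mem_frame, mulVec_sub]
    exact Iff.of_eq (congrArg _ (by abel))
  have hclK := frame_closed hcl O B
  have hcvK := frame_convex hcv O B
  have hnear : ∀ P ∈ K0, ‖P‖ ≤ t → ∃ Q ∈ frame K (O - B *ᵥ σ) B, ‖Q - P‖ ≤ 1 / 100 := by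
    intro P hP hPt
    obtain ⟨Q, hQ, hPQ⟩ := hAp.2 P hP hPt
    refine ⟨Q + σ, (hmem _).2 (by simpa using hQ), ?_⟩
    rw [show Q + σ - P = σ - (P - Q) by abel]
    linarith [norm_sub_le σ (P - Q)]
  have hEt : E ≤ t := by linarith
  refine ⟨O - B *ᵥ σ, B, hB, ?_, ?_, ?_, fun Z hZ hZ8 => ?_, ?_, fun i j hi hj => ?_⟩
  · simpa using hnear 0 G.zero (by simpa using ht0.le)
  · obtain ⟨Q, hQ, hQ'⟩ := hnear (Pi.single 0 E) (G.mem0 E hE0.le (by linarith))
      (by rw [Pi.norm_single, Real.norm_eq_abs, abs_of_pos hE0]; exact hEt)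
    exact ⟨Q, hQ, by linarith⟩
  · obtain ⟨Q, hQ, hQ'⟩ := hnear (Pi.single 1 E) (by
        have := G.rec1 0 G.zero E hE0.le
        rwa [zero_add, ← Pi.single_smul, smul_eq_mul, mul_one] at this)
      (by rw [Pi.norm_single, Real.norm_eq_abs, abs_of_pos hE0]; exact hEt)
    exact ⟨Q, hQ, by linarith⟩
  · have hcap := cap_transfer hcvK hAp G.zero abs_e01_le (by linarith) (H := 8 * E) (D := D)
      (by linarith) (by positivity) ht3 fun Z hZ h9 =>
        G.norm_le hZ (by linarith) (by rw [e01_dot] at h9; linarith)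
    have hY := (hmem Z).1 hZ
    have hn := hcap _ hY (by rw [e01_dot]; simp only [Pi.sub_apply, hσ0, hσ1]; linarith)
    obtain ⟨Y, hYK, hYZ⟩ := hAp.1 _ hY (by linarith)
    have a0 := abs_le.1 ((abs_coord_le _ 0).trans hYZ)
    have a1 := abs_le.1 ((abs_coord_le _ 1).trans hYZ)
    simp only [Pi.sub_apply, hσ0, hσ1] at a0 a1
    have b0 := G.pos Y hYK
    have b1 := G.low Y hYK
    have b2 : Y 0 ≤ D + 3 := by
      have := norm_sub_norm_le Y (Z - σ)
      rw [norm_sub_rev] at hYZ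
      linarith [le_abs_self (Y 0), abs_coord_le Y 0]
    have b3 : C1 / h0 * (1 + Y 0) ≤ s / 2 := by
      rw [div_mul_eq_mul_div, div_le_iff₀ hh00]
      have e : s / 2 * (2 * C1 * (D + 4) / s) = C1 * (D + 4) := by field_simp
      have : C1 * (1 + Y 0) ≤ C1 * (D + 4) :=
        mul_le_mul_of_nonneg_left (by linarith) (by linarith)
      have h7 : s / 2 * (2 * C1 * (D + 4) / s) ≤ s / 2 * h0 := by
        gcongr
        have : 0 ≤ hs * E := by positivity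
        linarith
      linarith
    exact ⟨by linarith, by linarith⟩
  · refine capHyp_transfer hclK hcvK hC (hAp.mono ht1 ?_) G.zero G.cap
      (hcl' δ0 h0 hδ00 hδ0s hh0s) (σ := σ) (by linarith) (by rw [hσ0, hσ1]; positivity) hmem
    rw [one_div]
    exact inv_anti₀ (by linarith) ht2
  · obtain ⟨a, b, c⟩ := hcell i j hi hj
    obtain ⟨hAij, Gij⟩ := hA _ _ a (b.trans hδs1) (hhs.trans c)
    have hei := Real.exp_pos (i : ℝ)
    have hej := Real.exp_pos (j : ℝ)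
    have hK : frame K0 0 (cons1 (Real.exp i) (cons1 (Real.exp j) (Dm i j))) =
        frame K1 0 (cons1 (δ0 * Real.exp i) (cons1 (h0 * Real.exp j)
          (A (δ0 * Real.exp i) (h0 * Real.exp j)))) := by
      rw [hK0, frame_frame, cons1_mul, cons1_mul, hDm]
      simp only
      rw [← Matrix.mul_assoc, mul_nonsing_inv _ (Ne.isUnit hA0), Matrix.one_mul]
      simp
    have hAp' := ht (i, j) (by
      simp only [Finset.mem_product, Finset.mem_Icc]; exact ⟨abs_le.1 hi, abs_le.1 hj⟩) _ _ hAp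
    simp only at hAp'
    rw [hK] at hAp'
    set τ : Fin (m + 2) → ℝ :=
      Pi.single 0 (s / Real.exp i) + Pi.single 1 (s / Real.exp j) with hτ
    have hτ0 : τ 0 = s / Real.exp i := by simp [hτ]
    have hτ1 : τ 1 = s / Real.exp j := by simp [hτ]
    have hτ2 : tt τ = 0 := by
      have : tt τ = tt (Pi.single 0 (s / Real.exp i)) + tt (Pi.single 1 (s / Real.exp j)) := rfl
      rw [this, tt_single0, tt_single1, add_zero]
    have hle : ∀ i : ℤ, |i| ≤ L → |s / Real.exp i| ≤ 1 := fun i hi => by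
      have := Real.exp_pos (i : ℝ)
      rw [abs_of_pos (by positivity), div_le_one this]
      nlinarith [(hexp i hi).2]
    have hBτ : cons1 (Real.exp i) (cons1 (Real.exp j) (Dm i j)) *ᵥ τ = σ := by
      refine ext2 ?_ ?_ ?_
      · rw [c2_zero, hτ0, hσ0]; field_simp
      · rw [c2_one, hτ1, hσ1]; field_simp
      · have : tt (e01 m) = tt (Pi.single 0 1) + tt (Pi.single 1 1) := rfl
        rw [c2_tt, hτ2, hσ, tt_smul, this, tt_single0, tt_single1]
        simp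
    refine ⟨Dm i j, hDdet i j hi hj, capHyp_transfer (frame_closed hclK _ _)
      (frame_convex hcvK _ _) hC hAp' Gij.zero Gij.cap (hcl' _ _ a b c) (σ := τ)
      (norm_le3 (hτ0 ▸ hle i hi) (hτ1 ▸ hle j hj) (by rw [hτ2]; simp))
      (by rw [hτ0, hτ1]; positivity) fun Z => ?_⟩
    rw [mem_frame (K := frame K (O - B *ᵥ σ) B), mem_frame (K := frame K O B), hmem, zero_add,
      zero_add, mulVec_sub, hBτ]

end Dich

open Dich in
theorem dichotomy (m : ℕ) (K : Set (Fin (m + 2) → ℝ)) (hcl : IsClosed K) (hcv : Convex ℝ K)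
    (h0 : (0 : Fin (m + 2) → ℝ) ∈ K) (hpos : ∀ Z ∈ K, 0 ≤ Z 0)
    (hrec : ∀ Z ∈ K, ∀ s : ℝ, 0 ≤ s → Z + s • e0 (m + 1) ∈ K)
    (hbdd : ∀ h : ℝ, ∃ R : ℝ, ∀ Z ∈ K, Z 0 ≤ h → ‖Z‖ ≤ R)
    (hint : (interior K).Nonempty) :
    (∃ C η : ℝ, 0 < C ∧ 0 < η ∧ ∀ h : ℝ, 0 < h →
      ∃ A : Matrix (Fin (m + 1)) (Fin (m + 1)) ℝ, A.det ≠ 0 ∧
        CapHyp (frame K 0 (cons1 h A)) (e0 (m + 1)) 1 C ∧ DualHyp (frame K 0 (cons1 h A)) η) ∨
    (∃ C : ℝ, 0 < C ∧ ∀ L : ℕ, ∃ (O : Fin (m + 2) → ℝ) (B : Matrix (Fin (m + 2)) (Fin (m + 2)) ℝ),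
      B.det ≠ 0 ∧ WedgeHyp (frame K O B) C L) := by
  by_cases hno : ∀ K', Nice K K' → ¬ FP K' 1
  · exact Or.inl (good_case hcl hcv h0 hpos hrec hbdd (full_of_interior hint) hno)
  · right
    push Not at hno
    have hex : ∃ d, 1 ≤ d ∧ (∃ K', Nice K K' ∧ FP K' d) ∧ ∀ K', Nice K K' → ¬ FP K' (d + 1) := by
      by_contra hc
      push Not at hc
      have : ∀ d, ∃ K', Nice K K' ∧ FP K' (d + 1) := fun d => by
        induction d with
        | zero => exact hno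
        | succ d ih => exact hc _ (by omega) ih
      obtain ⟨K', -, hK'⟩ := this (m + 2)
      have := hK'.le
      omega
    obtain ⟨d, hd, ⟨K', hN, hF⟩, hmax⟩ := hex
    obtain ⟨K1, C1, f, H⟩ := exists_base hd hN hF
    exact wedge_case hcl hcv H hmax

end Vale.Agent.P252
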