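import Vale.Agent.P252.ConvexDefs

/-! Tools for the dichotomy: frames, local Hausdorff approximation, ultralimits, separation,
Auerbach bases. -/

open Matrix Filter Topology

namespace Vale.Agent.P252

namespace Dich

variable {N : ℕ}

lemma mem_frame {K : Set (Fin N → ℝ)} {O Z : Fin N → ℝ} {B : Matrix (Fin N) (Fin N) ℝ} :
    Z ∈ frame K O B ↔ O + B *ᵥ Z ∈ K := Iff.rfl

lemma frame_frame (K : Set (Fin N → ℝ)) (O O' : Fin N → ℝ) (B B' : Matrix (Fin N) (Fin N) ℝ) :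
    frame (frame K O B) O' B' = frame K (O + B *ᵥ O') (B * B') := by
  ext Z
  simp [mem_frame, mulVec_add, add_assoc]

lemma frame_one (K : Set (Fin N → ℝ)) : frame K 0 1 = K := by
  ext Z; simp [mem_frame]

lemma cont_mulVec (B : Matrix (Fin N) (Fin N) ℝ) : Continuous fun Z : Fin N → ℝ => B *ᵥ Z :=
  continuous_const.matrix_mulVec continuous_id

lemma frame_closed {K : Set (Fin N → ℝ)} (hK : IsClosed K) (O : Fin N → ℝ)
    (B : Matrix (Fin N) (Fin N) ℝ) : IsClosed (frame K O B) :=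
  hK.preimage (continuous_const.add (cont_mulVec B))

lemma frame_convex {K : Set (Fin N → ℝ)} (hK : Convex ℝ K) (O : Fin N → ℝ)
    (B : Matrix (Fin N) (Fin N) ℝ) : Convex ℝ (frame K O B) := by
  intro x hx y hy a b ha hb hab
  have := hK hx hy ha hb hab
  rw [mem_frame, mulVec_add, mulVec_smul, mulVec_smul]
  convert this using 1
  rw [smul_add, smul_add]
  have : O = a • O + b • O := by rw [← add_smul, hab, one_smul]
  conv_lhs => rw [this]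
  abel

lemma norm_mulVec_le (B : Matrix (Fin N) (Fin N) ℝ) {c : ℝ} (hc : 0 ≤ c)
    (hB : ∀ i j, |B i j| ≤ c) (Z : Fin N → ℝ) : ‖B *ᵥ Z‖ ≤ N * c * ‖Z‖ := by
  refine (pi_norm_le_iff_of_nonneg (by positivity)).2 fun i => ?_
  rw [Real.norm_eq_abs, mulVec, dotProduct]
  calc |∑ j, B i j * Z j| ≤ ∑ j, |B i j * Z j| := Finset.abs_sum_le_sum_abs _ _
    _ ≤ ∑ _j : Fin N, c * ‖Z‖ := Finset.sum_le_sum fun j _ => by
        rw [abs_mul]
        exact mul_le_mul (hB i j) (by simpa using norm_le_pi_norm Z j) (abs_nonneg _) hc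
    _ = N * c * ‖Z‖ := by simp [mul_assoc]

lemma exists_bound (B : Matrix (Fin N) (Fin N) ℝ) :
    ∃ c : ℝ, 0 < c ∧ ∀ Z, ‖B *ᵥ Z‖ ≤ c * ‖Z‖ := by
  refine ⟨N * (∑ i, ∑ j, |B i j|) + 1, by positivity, fun Z => ?_⟩
  have := norm_mulVec_le B (c := ∑ i, ∑ j, |B i j|) (by positivity) (fun i j => ?_) Z
  · nlinarith [norm_nonneg Z]
  · calc |B i j| ≤ ∑ j, |B i j| :=
          Finset.single_le_sum (f := fun j => |B i j|) (fun _ _ => abs_nonneg _) (Finset.mem_univ j)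
      _ ≤ _ := Finset.single_le_sum (f := fun i => ∑ j, |B i j|)
          (fun _ _ => by positivity) (Finset.mem_univ i)

lemma mul_inv_vec {B : Matrix (Fin N) (Fin N) ℝ} (hB : B.det ≠ 0) (Z : Fin N → ℝ) :
    B *ᵥ (B⁻¹ *ᵥ Z) = Z := by
  rw [mulVec_mulVec, mul_nonsing_inv _ (Ne.isUnit hB), one_mulVec]

lemma inv_mul_vec {B : Matrix (Fin N) (Fin N) ℝ} (hB : B.det ≠ 0) (Z : Fin N → ℝ) :
    B⁻¹ *ᵥ (B *ᵥ Z) = Z := by
  rw [mulVec_mulVec, nonsing_inv_mul _ (Ne.isUnit hB), one_mulVec]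

/-- One-sided local approximation. -/
def Near (K1 K2 : Set (Fin N → ℝ)) (R ε : ℝ) : Prop :=
  ∀ Z ∈ K1, ‖Z‖ ≤ R → ∃ Z' ∈ K2, ‖Z - Z'‖ ≤ ε

/-- Two-sided local approximation. -/
def Approx (K1 K2 : Set (Fin N → ℝ)) (R ε : ℝ) : Prop := Near K1 K2 R ε ∧ Near K2 K1 R ε

lemma Near.mono {K1 K2 : Set (Fin N → ℝ)} {R ε R' ε' : ℝ} (h : Near K1 K2 R ε) (hR : R' ≤ R)
    (hε : ε ≤ ε') : Near K1 K2 R' ε' := fun Z hZ hn =>
  let ⟨Z', h1, h2⟩ := h Z hZ (hn.trans hR)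
  ⟨Z', h1, h2.trans hε⟩

lemma Approx.mono {K1 K2 : Set (Fin N → ℝ)} {R ε R' ε' : ℝ} (h : Approx K1 K2 R ε) (hR : R' ≤ R)
    (hε : ε ≤ ε') : Approx K1 K2 R' ε' := ⟨h.1.mono hR hε, h.2.mono hR hε⟩

lemma Near.trans {K1 K2 K3 : Set (Fin N → ℝ)} {R ε : ℝ} (h : Near K1 K2 (R + ε) ε)
    (h' : Near K2 K3 (R + ε) ε) (hε : 0 ≤ ε) : Near K1 K3 R (2 * ε) := by
  intro Z hZ hn
  obtain ⟨Z', h1, h2⟩ := h Z hZ (by linarith)
  have : ‖Z'‖ ≤ R + ε := by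
    have := norm_sub_norm_le Z' Z
    rw [norm_sub_rev] at h2
    linarith
  obtain ⟨Z'', h3, h4⟩ := h' Z' h1 this
  refine ⟨Z'', h3, ?_⟩
  have := norm_add_le (Z - Z') (Z' - Z'')
  rw [sub_add_sub_cancel] at this
  linarith

lemma near_frame (O : Fin N → ℝ) {B : Matrix (Fin N) (Fin N) ℝ} (hB : B.det ≠ 0) (R : ℝ) {ε : ℝ}
    (hε : 0 < ε) : ∀ᶠ t : ℝ in atTop, ∀ K1 K2 : Set (Fin N → ℝ), Near K1 K2 t t⁻¹ →
      Near (frame K1 O B) (frame K2 O B) R ε := by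
  obtain ⟨c, hc, hcB⟩ := exists_bound B
  obtain ⟨c', hc', hcB'⟩ := exists_bound B⁻¹
  filter_upwards [eventually_ge_atTop (‖O‖ + c * R), eventually_ge_atTop (c' / ε)] with t ht1 ht2
  intro K1 K2 h Z hZ hn
  have htp : 0 < t := lt_of_lt_of_le (by positivity) ht2
  obtain ⟨Y, hY, hYZ⟩ := h _ hZ (by
    have := norm_add_le O (B *ᵥ Z)
    have h2 := hcB Z
    nlinarith)
  refine ⟨B⁻¹ *ᵥ (Y - O), by rw [mem_frame, mul_inv_vec hB]; simpa using hY, ?_⟩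
  have e : Z - B⁻¹ *ᵥ (Y - O) = B⁻¹ *ᵥ (O + B *ᵥ Z - Y) := by
    rw [show O + B *ᵥ Z - Y = B *ᵥ Z - (Y - O) by abel, mulVec_sub B⁻¹ (B *ᵥ Z), inv_mul_vec hB]
  rw [e]
  refine (hcB' _).trans ?_
  calc c' * ‖O + B *ᵥ Z - Y‖ ≤ c' * t⁻¹ := by gcongr
    _ ≤ ε := by
      rw [div_le_iff₀ hε] at ht2
      rw [← div_eq_mul_inv, div_le_iff₀ htp]; linarith

lemma approx_frame (O : Fin N → ℝ) {B : Matrix (Fin N) (Fin N) ℝ} (hB : B.det ≠ 0) (R : ℝ) {ε : ℝ}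
    (hε : 0 < ε) : ∀ᶠ t : ℝ in atTop, ∀ K1 K2 : Set (Fin N → ℝ), Approx K1 K2 t t⁻¹ →
      Approx (frame K1 O B) (frame K2 O B) R ε := by
  filter_upwards [near_frame O hB R hε] with t ht K1 K2 h
  exact ⟨ht _ _ h.1, ht _ _ h.2⟩

/-- Closed convex local Hausdorff limits of affine images of `K`. -/
def Cls (K K' : Set (Fin N → ℝ)) : Prop :=
  IsClosed K' ∧ Convex ℝ K' ∧ ∀ R ε : ℝ, 0 < ε → ∃ (O : Fin N → ℝ) (B : Matrix (Fin N) (Fin N) ℝ),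
    B.det ≠ 0 ∧ Approx (frame K O B) K' R ε

lemma cls_self {K : Set (Fin N → ℝ)} (hcl : IsClosed K) (hcv : Convex ℝ K) : Cls K K := by
  refine ⟨hcl, hcv, fun R ε hε => ⟨0, 1, by simp, ?_⟩⟩
  rw [frame_one]
  exact ⟨fun Z hZ _ => ⟨Z, hZ, by simpa using hε.le⟩, fun Z hZ _ => ⟨Z, hZ, by simpa using hε.le⟩⟩

lemma Cls.frame {K K' : Set (Fin N → ℝ)} (h : Cls K K') (O : Fin N → ℝ)
    {B : Matrix (Fin N) (Fin N) ℝ} (hB : B.det ≠ 0) : Cls K (frame K' O B) := by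
  refine ⟨frame_closed h.1 O B, frame_convex h.2.1 O B, fun R ε hε => ?_⟩
  obtain ⟨t, ht, htp⟩ := ((approx_frame O hB R hε).and (eventually_gt_atTop 0)).exists
  obtain ⟨O', B', hB', hA⟩ := h.2.2 t t⁻¹ (by positivity)
  refine ⟨O' + B' *ᵥ O, B' * B, by rw [det_mul]; exact mul_ne_zero hB' hB, ?_⟩
  rw [← frame_frame]
  exact ht _ _ hA

/-- The nonprincipal ultrafilter used for all limits. -/
noncomputable abbrev UU : Filter ℕ := (hyperfilter ℕ : Ultrafilter ℕ)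

lemma UU_le : UU ≤ atTop := Nat.hyperfilter_le_atTop

lemma ulim {x : ℕ → Fin N → ℝ} {R : ℝ} (h : ∀ᶠ k in UU, ‖x k‖ ≤ R) :
    ∃ y, Tendsto x UU (𝓝 y) := by
  obtain ⟨y, -, hy⟩ := (isCompact_closedBall (0 : Fin N → ℝ) R).ultrafilter_le_nhds
    ((hyperfilter ℕ).map x) (by
      rw [le_principal_iff]
      change _ ∈ Filter.map x UU
      rw [mem_map]
      filter_upwards [h] with k hk
      simpa using hk)
  exact ⟨y, hy⟩

lemma not_eventually {p : ℕ → Prop} (h : ¬ ∀ᶠ k in UU, p k) : ∀ᶠ k in UU, ¬ p k :=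
  (Ultrafilter.eventually_not (f := hyperfilter ℕ)).2 h

lemma inv_tend : Tendsto (fun k : ℕ => ((k : ℝ) + 1)⁻¹) UU (𝓝 0) := by
  have := tendsto_one_div_add_atTop_nhds_zero_nat (𝕜 := ℝ)
  simpa using this.mono_left UU_le

/-- The ultralimit of a sequence of sets. -/
def ULim (K : ℕ → Set (Fin N → ℝ)) : Set (Fin N → ℝ) :=
  {Z | ∀ ε : ℝ, 0 < ε → ∀ᶠ k in UU, ∃ Z' ∈ K k, ‖Z - Z'‖ < ε}

lemma mem_ulim {K : ℕ → Set (Fin N → ℝ)} {x : ℕ → Fin N → ℝ} {y : Fin N → ℝ}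
    (hx : ∀ᶠ k in UU, x k ∈ K k) (hy : Tendsto x UU (𝓝 y)) : y ∈ ULim K := by
  intro ε hε
  filter_upwards [hx, Metric.tendsto_nhds.1 hy ε hε] with k h1 h2
  exact ⟨x k, h1, by rwa [dist_comm, dist_eq_norm] at h2⟩

lemma mem_ulim_const {K : ℕ → Set (Fin N → ℝ)} {y : Fin N → ℝ}
    (hx : ∀ᶠ k in UU, y ∈ K k) : y ∈ ULim K :=
  mem_ulim (x := fun _ => y) hx tendsto_const_nhds

lemma ulim_seq {K : ℕ → Set (Fin N → ℝ)} {Z : Fin N → ℝ} (hZ : Z ∈ ULim K) :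
    ∃ z : ℕ → Fin N → ℝ, (∀ᶠ k in UU, z k ∈ K k) ∧ Tendsto z UU (𝓝 Z) := by
  have h : ∀ k : ℕ, ∃ z : Fin N → ℝ, (K k).Nonempty →
      z ∈ K k ∧ dist Z z < Metric.infDist Z (K k) + ((k : ℝ) + 1)⁻¹ := by
    intro k
    by_cases hk : (K k).Nonempty
    · obtain ⟨y, hy, hy'⟩ := (Metric.infDist_lt_iff (x := Z)
        (r := Metric.infDist Z (K k) + ((k : ℝ) + 1)⁻¹) hk).1 (by
          have : (0 : ℝ) < ((k : ℝ) + 1)⁻¹ := by positivity
          linarith)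
      exact ⟨y, fun _ => ⟨hy, hy'⟩⟩
    · exact ⟨0, fun h => absurd h hk⟩
  choose z hz using h
  refine ⟨z, ?_, Metric.tendsto_nhds.2 fun ε hε => ?_⟩
  · filter_upwards [hZ 1 one_pos] with k ⟨Z', h1, _⟩
    exact (hz k ⟨Z', h1⟩).1
  · filter_upwards [hZ (ε / 2) (by positivity),
      inv_tend.eventually (gt_mem_nhds (show (0 : ℝ) < ε / 2 by positivity))] with k ⟨Z', h1, h2⟩ h3
    have h4 := (hz k ⟨Z', h1⟩).2
    have h5 := Metric.infDist_le_dist_of_mem (x := Z) h1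
    rw [dist_eq_norm] at h5
    rw [dist_comm]
    linarith

lemma ulim_closed (K : ℕ → Set (Fin N → ℝ)) : IsClosed (ULim K) := by
  refine isClosed_of_closure_subset fun Z hZ ε hε => ?_
  obtain ⟨Y, hY, hYZ⟩ := Metric.mem_closure_iff.1 hZ (ε / 2) (by positivity)
  filter_upwards [hY (ε / 2) (by positivity)] with k ⟨Z', h1, h2⟩
  refine ⟨Z', h1, ?_⟩
  rw [dist_eq_norm] at hYZ
  have := norm_add_le (Z - Y) (Y - Z')
  rw [sub_add_sub_cancel] at this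
  linarith

lemma ulim_convex {K : ℕ → Set (Fin N → ℝ)} (hK : ∀ k, Convex ℝ (K k)) : Convex ℝ (ULim K) := by
  intro x hx y hy a b ha hb hab
  obtain ⟨u, hu, hu'⟩ := ulim_seq hx
  obtain ⟨v, hv, hv'⟩ := ulim_seq hy
  refine mem_ulim (x := fun k => a • u k + b • v k) ?_ ((hu'.const_smul a).add (hv'.const_smul b))
  filter_upwards [hu, hv] with k h1 h2
  exact hK k h1 h2 ha hb hab

lemma ulim_approx (K : ℕ → Set (Fin N → ℝ)) (R : ℝ) {ε : ℝ} (hε : 0 < ε) :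
    ∀ᶠ k in UU, Approx (K k) (ULim K) R ε := by
  refine Eventually.and ?_ ?_
  · by_contra hc
    have h1 := not_eventually hc
    have h2 : ∀ k, ∃ Z, ¬ Near (K k) (ULim K) R ε →
        Z ∈ K k ∧ ‖Z‖ ≤ R ∧ ∀ Z' ∈ ULim K, ε < ‖Z - Z'‖ := by
      intro k
      by_cases hk : Near (K k) (ULim K) R ε
      · exact ⟨0, fun h => absurd hk h⟩
      · simp only [Near, not_forall, not_exists, not_and, not_le] at hk
        obtain ⟨Z, h1, h2, h3⟩ := hk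
        exact ⟨Z, fun _ => ⟨h1, h2, h3⟩⟩
    choose z hz using h2
    obtain ⟨y, hy⟩ := ulim (x := z) (R := R) (h1.mono fun k hk => (hz k hk).2.1)
    have hyU := mem_ulim (h1.mono fun k hk => (hz k hk).1) hy
    obtain ⟨k, hk1, hk2⟩ := (h1.and (Metric.tendsto_nhds.1 hy ε hε)).exists
    have := (hz k hk1).2.2 y hyU
    rw [dist_eq_norm] at hk2
    linarith
  · by_contra hc
    have h1 := not_eventually hc
    have h2 : ∀ k, ∃ Z, ¬ Near (ULim K) (K k) R ε →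
        Z ∈ ULim K ∧ ‖Z‖ ≤ R ∧ ∀ Z' ∈ K k, ε < ‖Z - Z'‖ := by
      intro k
      by_cases hk : Near (ULim K) (K k) R ε
      · exact ⟨0, fun h => absurd hk h⟩
      · simp only [Near, not_forall, not_exists, not_and, not_le] at hk
        obtain ⟨Z, h1, h2, h3⟩ := hk
        exact ⟨Z, fun _ => ⟨h1, h2, h3⟩⟩
    choose z hz using h2
    obtain ⟨y, hy⟩ := ulim (x := z) (R := R) (h1.mono fun k hk => (hz k hk).2.1)
    have hyU : y ∈ ULim K :=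
      (ulim_closed K).mem_of_tendsto hy (h1.mono fun k hk => (hz k hk).1)
    obtain ⟨k, hk1, hk2, Z', hk3, hk4⟩ :=
      (h1.and ((Metric.tendsto_nhds.1 hy (ε / 2) (by positivity)).and
        (hyU (ε / 2) (by positivity)))).exists
    have := (hz k hk1).2.2 Z' hk3
    rw [dist_eq_norm] at hk2
    have h5 := norm_add_le (z k - y) (y - Z')
    rw [sub_add_sub_cancel] at h5
    linarith

lemma cls_ulim {K : Set (Fin N → ℝ)} {Ks : ℕ → Set (Fin N → ℝ)} (h : ∀ k, Cls K (Ks k)) :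
    Cls K (ULim Ks) := by
  refine ⟨ulim_closed _, ulim_convex fun k => (h k).2.1, fun R ε hε => ?_⟩
  obtain ⟨k, hk⟩ := (ulim_approx Ks (R + ε / 2) (ε := ε / 2) (by positivity)).exists
  obtain ⟨O, B, hB, hA⟩ := (h k).2.2 (R + ε / 2) (ε / 2) (by positivity)
  refine ⟨O, B, hB, ?_, ?_⟩
  · have := hA.1.trans hk.1 (by positivity)
    rwa [show 2 * (ε / 2) = ε by ring] at this
  · have := hk.2.trans hA.2 (by positivity)
    rwa [show 2 * (ε / 2) = ε by ring] at this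

end Dich

end Vale.Agent.P252
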