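import Vale.Agent.P252.Dichotomy1

/-! Separation, recession directions, Auerbach bases, block frames. -/

open Matrix Filter Topology

namespace Vale.Agent.P252

namespace Dich

variable {N : ℕ}

lemma dot_le_norm {ξ : Fin N → ℝ} (hξ : ∑ k, |ξ k| = 1) (W : Fin N → ℝ) : |ξ ⬝ᵥ W| ≤ ‖W‖ := by
  rw [dotProduct]
  calc |∑ j, ξ j * W j| ≤ ∑ j, |ξ j * W j| := Finset.abs_sum_le_sum_abs _ _
    _ ≤ ∑ j, |ξ j| * ‖W‖ := Finset.sum_le_sum fun j _ => by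
        rw [abs_mul]
        exact mul_le_mul_of_nonneg_left (by simpa using norm_le_pi_norm W j) (abs_nonneg _)
    _ = ‖W‖ := by rw [← Finset.sum_mul, hξ, one_mul]

lemma abs_le_one {ξ : Fin N → ℝ} (hξ : ∑ k, |ξ k| = 1) (j : Fin N) : |ξ j| ≤ 1 :=
  hξ ▸ Finset.single_le_sum (f := fun j => |ξ j|) (fun _ _ => abs_nonneg _) (Finset.mem_univ j)

lemma norm_le_one {ξ : Fin N → ℝ} (hξ : ∑ k, |ξ k| = 1) : ‖ξ‖ ≤ 1 :=
  (pi_norm_le_iff_of_nonneg zero_le_one).2 fun j => by simpa using abs_le_one hξ j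

lemma normalize {ξ : Fin N → ℝ} (hξ : ξ ≠ 0) : ∃ c : ℝ, 0 < c ∧ ∑ k, |(c • ξ) k| = 1 := by
  have hpos : 0 < ∑ k, |ξ k| := by
    obtain ⟨j, hj⟩ := Function.ne_iff.1 hξ
    exact lt_of_lt_of_le (abs_pos.2 hj)
      (Finset.single_le_sum (f := fun j => |ξ j|) (fun _ _ => abs_nonneg _) (Finset.mem_univ j))
  refine ⟨(∑ k, |ξ k|)⁻¹, inv_pos.2 hpos, ?_⟩
  simp only [Pi.smul_apply, smul_eq_mul, abs_mul, abs_of_pos (inv_pos.2 hpos)]
  rw [← Finset.mul_sum, inv_mul_cancel₀ hpos.ne']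

lemma lin_eq_dot (f : (Fin N → ℝ) →ₗ[ℝ] ℝ) (Z : Fin N → ℝ) :
    f Z = (fun k => f (Pi.single k 1)) ⬝ᵥ Z := by
  rw [LinearMap.pi_apply_eq_sum_univ, dotProduct]
  refine Finset.sum_congr rfl fun i _ => ?_
  rw [smul_eq_mul, mul_comm]
  congr 2
  ext j
  simp [Pi.single_apply, eq_comm]

lemma separate {K : Set (Fin N → ℝ)} (hcl : IsClosed K) (hcv : Convex ℝ K) (hne : K.Nonempty)
    {W : Fin N → ℝ} (hW : W ∉ K) :
    ∃ ξ : Fin N → ℝ, ∑ k, |ξ k| = 1 ∧ ∀ Z ∈ K, ξ ⬝ᵥ W ≤ ξ ⬝ᵥ Z := by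
  obtain ⟨f, u, h1, h2⟩ := geometric_hahn_banach_point_closed hcv hcl hW
  set ξ : Fin N → ℝ := fun k => f (Pi.single k 1) with hξ
  have hf : ∀ Z, f Z = ξ ⬝ᵥ Z := fun Z => lin_eq_dot f.toLinearMap Z
  have hne' : ξ ≠ 0 := by
    intro h
    obtain ⟨Z, hZ⟩ := hne
    have := h2 Z hZ
    rw [hf, h] at this h1
    simp at this h1
    linarith
  obtain ⟨c, hc, hc1⟩ := normalize hne'
  refine ⟨c • ξ, hc1, fun Z hZ => ?_⟩
  rw [smul_dotProduct, smul_dotProduct, ← hf, ← hf]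
  exact mul_le_mul_of_nonneg_left (h1.trans (h2 Z hZ)).le hc.le

/-- `f` is a recession direction of `K`. -/
def Rec (K : Set (Fin N → ℝ)) (f : Fin N → ℝ) : Prop := ∀ Z ∈ K, ∀ s : ℝ, 0 ≤ s → Z + s • f ∈ K

lemma rec_of_one {K : Set (Fin N → ℝ)} (hcl : IsClosed K) (hcv : Convex ℝ K) {x f : Fin N → ℝ}
    (hx : ∀ s : ℝ, 0 ≤ s → x + s • f ∈ K) : Rec K f := by
  intro Z hZ s hs
  have ht : Tendsto (fun k : ℕ => Z + s • f + ((k : ℝ) + 1)⁻¹ • (x - Z)) UU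
      (𝓝 (Z + s • f + (0 : ℝ) • (x - Z))) :=
    tendsto_const_nhds.add (inv_tend.smul_const _)
  rw [zero_smul, add_zero] at ht
  refine hcl.mem_of_tendsto ht (Eventually.of_forall fun k => ?_)
  have hk : (0 : ℝ) < (k : ℝ) + 1 := by positivity
  have h1 : ((k : ℝ) + 1)⁻¹ ≤ 1 := inv_le_one_of_one_le₀ (by linarith [Nat.cast_nonneg (α := ℝ) k])
  have := hcv hZ (hx (s * ((k : ℝ) + 1)) (by positivity)) (sub_nonneg.2 h1) (inv_pos.2 hk).le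
    (by ring)
  convert this using 1
  rw [smul_add, smul_smul, show ((k : ℝ) + 1)⁻¹ * (s * ((k : ℝ) + 1)) = s by field_simp]
  module

lemma Rec.dot_nonneg {K : Set (Fin N → ℝ)} {f ξ : Fin N → ℝ} (h : Rec K f) {X : Fin N → ℝ}
    (hX : X ∈ K) {c : ℝ} (hc : ∀ Z ∈ K, c ≤ ξ ⬝ᵥ Z) : 0 ≤ ξ ⬝ᵥ f := by
  by_contra hn
  push Not at hn
  have h0 := hc X hX
  have := hc _ (h X hX ((ξ ⬝ᵥ X - c + 1) / (-(ξ ⬝ᵥ f))) (div_nonneg (by linarith) (by linarith)))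
  rw [dotProduct_add, dotProduct_smul, smul_eq_mul, div_neg, neg_mul, div_mul_cancel₀ _ hn.ne] at this
  linarith

lemma rec_ulim {K : ℕ → Set (Fin N → ℝ)} {f : ℕ → Fin N → ℝ} {g : Fin N → ℝ}
    (h : ∀ᶠ k in UU, Rec (K k) (f k)) (hf : Tendsto f UU (𝓝 g)) : Rec (ULim K) g := by
  intro Z hZ s hs
  obtain ⟨z, hz, hz'⟩ := ulim_seq hZ
  refine mem_ulim (x := fun k => z k + s • f k) ?_ (hz'.add (hf.const_smul s))
  filter_upwards [h, hz] with k h1 h2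
  exact h1 _ h2 s hs

lemma rec_frame {K : Set (Fin N → ℝ)} {O f : Fin N → ℝ} {B : Matrix (Fin N) (Fin N) ℝ}
    (h : Rec K (B *ᵥ f)) : Rec (frame K O B) f := by
  intro Z hZ s hs
  rw [mem_frame, mulVec_add, mulVec_smul, ← add_assoc]
  exact h _ hZ s hs

lemma Rec.smul {K : Set (Fin N → ℝ)} {f : Fin N → ℝ} (h : Rec K f) {c : ℝ} (hc : 0 ≤ c) :
    Rec K (c • f) := by
  intro Z hZ s hs
  rw [smul_smul]
  exact h Z hZ _ (mul_nonneg hs hc)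

lemma rec_sum {K : Set (Fin N → ℝ)} {ι : Type*} (t : Finset ι) {f : ι → Fin N → ℝ}
    (h : ∀ i ∈ t, Rec K (f i)) : Rec K (∑ i ∈ t, f i) := by
  classical
  induction t using Finset.induction_on with
  | empty => intro Z hZ s _; simpa using hZ
  | insert a t ha ih =>
    intro Z hZ s hs
    rw [Finset.sum_insert ha, smul_add, ← add_assoc]
    exact ih (fun i hi => h i (Finset.mem_insert_of_mem hi)) _
      (h a (Finset.mem_insert_self _ _) Z hZ s hs) s hs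

lemma tend_dot {x y : ℕ → Fin N → ℝ} {a b : Fin N → ℝ} (hx : Tendsto x UU (𝓝 a))
    (hy : Tendsto y UU (𝓝 b)) : Tendsto (fun k => x k ⬝ᵥ y k) UU (𝓝 (a ⬝ᵥ b)) := by
  have : Continuous fun p : (Fin N → ℝ) × (Fin N → ℝ) => p.1 ⬝ᵥ p.2 :=
    continuous_fst.dotProduct continuous_snd
  exact (this.tendsto (a, b)).comp (hx.prodMk_nhds hy)

lemma tend_coord {x : ℕ → Fin N → ℝ} {a : Fin N → ℝ} (hx : Tendsto x UU (𝓝 a)) (j : Fin N) :
    Tendsto (fun k => x k j) UU (𝓝 (a j)) :=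
  ((continuous_apply j).tendsto a).comp hx

/-- Limit of normalised almost supporting functionals. -/
lemma support_limit {K : ℕ → Set (Fin N → ℝ)} {ξ X : ℕ → Fin N → ℝ} {e : ℕ → ℝ} {R : ℝ}
    (hξ : ∀ k, ∑ j, |ξ k j| = 1) (hX : ∀ k, X k ∈ K k) (hR : ∀ k, ‖X k‖ ≤ R)
    (he : Tendsto e UU (𝓝 0)) (hs : ∀ k, ∀ Z ∈ K k, ξ k ⬝ᵥ X k - e k ≤ ξ k ⬝ᵥ Z) :
    ∃ ζ Y : Fin N → ℝ, ζ ≠ 0 ∧ Tendsto ξ UU (𝓝 ζ) ∧ Tendsto X UU (𝓝 Y) ∧ Y ∈ ULim K ∧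
      ∀ Z ∈ ULim K, 0 ≤ ζ ⬝ᵥ (Z - Y) := by
  obtain ⟨ζ, hζ⟩ := ulim (x := ξ) (R := 1) (Eventually.of_forall fun k => norm_le_one (hξ k))
  obtain ⟨Y, hY⟩ := ulim (x := X) (R := R) (Eventually.of_forall hR)
  refine ⟨ζ, Y, ?_, hζ, hY, mem_ulim (Eventually.of_forall hX) hY, fun Z hZ => ?_⟩
  · have h1 : Tendsto (fun k => ∑ j, |ξ k j|) UU (𝓝 (∑ j, |ζ j|)) :=
      tendsto_finsetSum _ fun j _ => (tend_coord hζ j).abs
    have h2 : ∑ j, |ζ j| = 1 := by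
      simp only [hξ] at h1
      exact (tendsto_nhds_unique tendsto_const_nhds h1).symm
    rintro rfl
    simp at h2
  · obtain ⟨z, hz, hz'⟩ := ulim_seq hZ
    have := le_of_tendsto_of_tendsto ((tend_dot hζ hY).sub he) (tend_dot hζ hz')
      (hz.mono fun k hk => hs k _ hk)
    rw [dotProduct_sub]
    linarith

lemma auerbach {r : ℕ} {S : Set (Fin r → ℝ)} (hS : IsCompact S)
    (hfull : ∀ ξ : Fin r → ℝ, (∀ s ∈ S, ξ ⬝ᵥ s = 0) → ξ = 0) :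
    ∃ A : Matrix (Fin r) (Fin r) ℝ, A.det ≠ 0 ∧ (∀ j, A *ᵥ Pi.single j 1 ∈ S) ∧
      ∀ x, A *ᵥ x ∈ S → ‖x‖ ≤ 1 := by
  have hspan : Submodule.span ℝ S = ⊤ := by
    by_contra hne
    obtain ⟨f, hf, hle⟩ := Submodule.exists_le_ker_of_lt_top _ (lt_top_iff_ne_top.2 hne)
    have := hfull (fun k => f (Pi.single k 1)) fun s hs => by
      rw [← lin_eq_dot]; exact hle (Submodule.subset_span hs)
    apply hf
    ext1 Z
    refine LinearMap.ext fun t => ?_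
    simp only [LinearMap.comp_apply, LinearMap.zero_apply]
    rw [lin_eq_dot f, this, zero_dotProduct]
  obtain ⟨f, hfS, -, hfl⟩ := Submodule.exists_fun_fin_finrank_span_eq ℝ S
  have hr : r = Module.finrank ℝ (Submodule.span ℝ S) := by rw [hspan]; simp
  let g : Fin r → Fin r → ℝ := fun i => f (Fin.cast hr i)
  have hg : LinearIndependent ℝ g := hfl.comp _ (Fin.cast_injective hr)
  have hgd : (Matrix.of g).det ≠ 0 := by
    have := (linearIndependent_rows_iff_isUnit (A := Matrix.of g)).1 hg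
    exact ((isUnit_iff_isUnit_det _).1 this).ne_zero
  have hT : IsCompact (Set.pi Set.univ fun _ : Fin r => S) := isCompact_univ_pi fun _ => hS
  have hc : Continuous fun R : Fin r → Fin r → ℝ => |(Matrix.of R).det| :=
    (Continuous.matrix_det (A := fun R : Fin r → Fin r → ℝ => Matrix.of R) continuous_id).abs
  obtain ⟨R, hR, hmax⟩ := hT.exists_isMaxOn ⟨g, fun i _ => hfS _⟩ hc.continuousOn
  have hRd : (Matrix.of R).det ≠ 0 := by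
    have : |(Matrix.of g).det| ≤ |(Matrix.of R).det| := hmax (fun i _ => hfS _)
    intro h
    rw [h, abs_zero] at this
    exact hgd (abs_nonpos_iff.1 this)
  refine ⟨(Matrix.of R)ᵀ, by rwa [det_transpose], fun j => ?_, fun x hx => ?_⟩
  · have := hR j (Set.mem_univ j)
    convert this using 1
    ext i
    simp
  · refine (pi_norm_le_iff_of_nonneg zero_le_one).2 fun i => ?_
    have h1 : |(Matrix.of (Function.update R i ((Matrix.of R)ᵀ *ᵥ x))).det| ≤ |(Matrix.of R).det| :=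
      hmax (fun j _ => by
        by_cases hj : j = i
        · subst hj; simpa using hx
        · simpa [hj] using hR j (Set.mem_univ j))
    have h2 : Matrix.of (Function.update R i ((Matrix.of R)ᵀ *ᵥ x)) =
        (Matrix.of R).updateRow i (∑ k, x k • (Matrix.of R) k) := by
      have : (Matrix.of R)ᵀ *ᵥ x = ∑ k, x k • (Matrix.of R) k := by
        ext l
        simp [mulVec, dotProduct, Finset.sum_apply, mul_comm]
      rw [this]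
      rfl
    rw [h2, det_updateRow_sum, smul_eq_mul, abs_mul] at h1
    have h3 : 0 < |(Matrix.of R).det| := abs_pos.2 hRd
    rw [Real.norm_eq_abs]
    nlinarith

lemma cons1_mulVec (s : ℝ) (A : Matrix (Fin N) (Fin N) ℝ) (Z : Fin (N + 1) → ℝ) :
    cons1 s A *ᵥ Z = Fin.cons (s * Z 0) (A *ᵥ Fin.tail Z) := by
  ext i
  refine Fin.cases ?_ (fun i' => ?_) i
  · simp [cons1, mulVec, dotProduct, Fin.sum_univ_succ]
  · simp [cons1, mulVec, dotProduct, Fin.sum_univ_succ, Fin.tail]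

lemma cons1_zero (s : ℝ) (A : Matrix (Fin N) (Fin N) ℝ) (Z : Fin (N + 1) → ℝ) :
    (cons1 s A *ᵥ Z) 0 = s * Z 0 := by simp [cons1_mulVec]

lemma cons1_tail (s : ℝ) (A : Matrix (Fin N) (Fin N) ℝ) (Z : Fin (N + 1) → ℝ) :
    Fin.tail (cons1 s A *ᵥ Z) = A *ᵥ Fin.tail Z := by simp [cons1_mulVec]

lemma cons1_det {s : ℝ} (hs : s ≠ 0) {A : Matrix (Fin N) (Fin N) ℝ} (hA : A.det ≠ 0) :
    (cons1 s A).det ≠ 0 := by
  intro h
  obtain ⟨v, hv, hv0⟩ := exists_mulVec_eq_zero_iff.2 h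
  have h0 := cons1_zero s A v
  have h1 := cons1_tail s A v
  rw [hv0] at h0 h1
  have h2 : v 0 = 0 := by simpa [hs] using h0.symm
  have h3 : Fin.tail v = 0 := by
    by_contra h3
    exact hA (exists_mulVec_eq_zero_iff.1 ⟨_, h3, h1.symm⟩)
  apply hv
  rw [← Fin.cons_self_tail v, h2, h3]
  ext i
  refine Fin.cases ?_ (fun i' => ?_) i <;> simp

lemma cons1_mul (s t : ℝ) (A B : Matrix (Fin N) (Fin N) ℝ) :
    cons1 s A * cons1 t B = cons1 (s * t) (A * B) := by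
  ext i j
  refine Fin.cases ?_ (fun i' => ?_) i <;> refine Fin.cases ?_ (fun j' => ?_) j <;>
    simp [cons1, Matrix.mul_apply, Fin.sum_univ_succ]

lemma norm_le_of_tail {Z : Fin (N + 1) → ℝ} {c : ℝ} (h0 : |Z 0| ≤ c) (h1 : ‖Fin.tail Z‖ ≤ c) :
    ‖Z‖ ≤ c := by
  refine (pi_norm_le_iff_of_nonneg ((abs_nonneg _).trans h0)).2 fun i => ?_
  refine Fin.cases h0 (fun i' => ?_) i
  exact (norm_le_pi_norm (Fin.tail Z) i').trans h1

lemma norm_tail_le (Z : Fin (N + 1) → ℝ) : ‖Fin.tail Z‖ ≤ ‖Z‖ :=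
  (pi_norm_le_iff_of_nonneg (norm_nonneg _)).2 fun i => norm_le_pi_norm Z i.succ

lemma abs_coord_le (Z : Fin N → ℝ) (i : Fin N) : |Z i| ≤ ‖Z‖ := norm_le_pi_norm Z i

lemma cont_tail : Continuous fun Z : Fin (N + 1) → ℝ => Fin.tail Z :=
  continuous_pi fun i => continuous_apply i.succ

lemma dot_cons_zero (ξ : Fin N → ℝ) (Z : Fin (N + 1) → ℝ) :
    (Fin.cons 0 ξ : Fin (N + 1) → ℝ) ⬝ᵥ Z = ξ ⬝ᵥ Fin.tail Z := by
  simp [dotProduct, Fin.sum_univ_succ, Fin.tail]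

lemma smul_mem {K : Set (Fin N → ℝ)} (hcv : Convex ℝ K) (h0 : (0 : Fin N → ℝ) ∈ K)
    {Z : Fin N → ℝ} (hZ : Z ∈ K) {t : ℝ} (ht0 : 0 ≤ t) (ht1 : t ≤ 1) : t • Z ∈ K :=
  hcv.smul_mem_of_zero_mem h0 hZ ⟨ht0, ht1⟩

/-- Growth of caps. -/
lemma cap_growth {K : Set (Fin N → ℝ)} (hcv : Convex ℝ K) (h0 : (0 : Fin N → ℝ) ∈ K)
    {e : Fin N → ℝ} {H D : ℝ} (hcap : ∀ Z ∈ K, e ⬝ᵥ Z ≤ H → ‖Z‖ ≤ D)
    {Z : Fin N → ℝ} (hZ : Z ∈ K) {s : ℝ} (hs : 1 ≤ s) (hZs : e ⬝ᵥ Z ≤ s * H) : ‖Z‖ ≤ s * D := by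
  have hs0 : 0 < s := by linarith
  have := hcap _ (smul_mem hcv h0 hZ (inv_pos.2 hs0).le (inv_le_one_of_one_le₀ hs)) (by
    rw [dotProduct_smul, smul_eq_mul, inv_mul_le_iff₀ hs0]; exact hZs)
  rwa [norm_smul, Real.norm_eq_abs, abs_of_pos (inv_pos.2 hs0), inv_mul_le_iff₀ hs0] at this

/-- `K` is not contained in a hyperplane. -/
def Full (K : Set (Fin N → ℝ)) : Prop :=
  ∀ (ξ : Fin N → ℝ) (c : ℝ), (∀ Z ∈ K, ξ ⬝ᵥ Z = c) → ξ = 0

lemma full_of_interior {K : Set (Fin N → ℝ)} (h : (interior K).Nonempty) : Full K := by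
  intro ξ c hc
  obtain ⟨x, hx⟩ := h
  have hx' := mem_interior_iff_mem_nhds.1 hx
  have ht : Tendsto (fun k : ℕ => x + ((k : ℝ) + 1)⁻¹ • ξ) UU (𝓝 (x + (0 : ℝ) • ξ)) :=
    tendsto_const_nhds.add (inv_tend.smul_const _)
  rw [zero_smul, add_zero] at ht
  obtain ⟨k, hk⟩ := (ht.eventually hx').exists
  have h1 := hc _ hk
  rw [dotProduct_add, hc x (interior_subset hx), dotProduct_smul, smul_eq_mul] at h1
  have h2 : ((k : ℝ) + 1)⁻¹ * (ξ ⬝ᵥ ξ) = 0 := by linarith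
  rcases mul_eq_zero.1 h2 with h3 | h3
  · exact absurd h3 (by positivity)
  · exact dotProduct_self_eq_zero.1 h3

lemma Full.frame {K : Set (Fin N → ℝ)} (h : Full K) (O : Fin N → ℝ)
    {B : Matrix (Fin N) (Fin N) ℝ} (hB : B.det ≠ 0) : Full (frame K O B) := by
  intro ξ c hc
  have h1 := h (ξ ᵥ* B⁻¹) (c + ξ ⬝ᵥ B⁻¹ *ᵥ O) fun Y hY => by
    have := hc (B⁻¹ *ᵥ (Y - O)) (by rw [mem_frame, mul_inv_vec hB]; simpa using hY)
    rw [← dotProduct_mulVec, ← this, mulVec_sub, dotProduct_sub]; ring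
  have h2 : (ξ ᵥ* B⁻¹) ᵥ* B = ξ := by
    rw [vecMul_vecMul, nonsing_inv_mul _ (Ne.isUnit hB), vecMul_one]
  rw [← h2, h1, zero_vecMul]

/-- Full-dimensional, line-free members of the class. -/
def Nice (K K' : Set (Fin N → ℝ)) : Prop :=
  Cls K K' ∧ Full K' ∧ ∃ (b : Fin N → ℝ) (C : ℝ), 0 < C ∧ ∀ Z ∈ K', ‖Z‖ ≤ C * (b ⬝ᵥ Z + C)

/-- A supporting hyperplane containing `d` independent recession directions. -/
def FP (K' : Set (Fin N → ℝ)) (d : ℕ) : Prop :=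
  ∃ ξ X : Fin N → ℝ, ξ ≠ 0 ∧ X ∈ K' ∧ (∀ Z ∈ K', 0 ≤ ξ ⬝ᵥ (Z - X)) ∧
    ∃ f : Fin d → Fin N → ℝ, LinearIndependent ℝ f ∧ ∀ i, Rec K' (f i) ∧ ξ ⬝ᵥ f i = 0

lemma FP.le {K' : Set (Fin N → ℝ)} {d : ℕ} (h : FP K' d) : d ≤ N := by
  obtain ⟨_, _, -, -, -, f, hf, -⟩ := h
  simpa using hf.fintype_card_le_finrank

end Dich

end Vale.Agent.P252
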