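import Vale.Agent.P252.Dichotomy2

/-! The good case of the dichotomy. -/

open Matrix Filter Topology

namespace Vale.Agent.P252

namespace Dich

variable {n : ℕ}

lemma e0_dot (Z : Fin (n + 1) → ℝ) : e0 n ⬝ᵥ Z = Z 0 := by simp [e0]

lemma dot_e0 (Z : Fin (n + 1) → ℝ) : Z ⬝ᵥ e0 n = Z 0 := by simp [e0]

lemma tail_e0 : Fin.tail (e0 n) = 0 := by
  ext i; simp [e0, Fin.tail]

lemma cons1_e0 (s : ℝ) (A : Matrix (Fin n) (Fin n) ℝ) : cons1 s A *ᵥ e0 n = s • e0 n := by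
  rw [cons1_mulVec, tail_e0]
  ext i
  refine Fin.cases ?_ (fun i' => ?_) i <;> simp [e0]

/-- Normalised frames in the good case. -/
structure GF (K K' : Set (Fin (n + 1) → ℝ)) : Prop where
  cls : Cls K K'
  zero : (0 : Fin (n + 1) → ℝ) ∈ K'
  pos : ∀ Z ∈ K', 0 ≤ Z 0
  rec0 : Rec K' (e0 n)
  cap : ∀ Z ∈ K', Z 0 ≤ 1 → ‖Z‖ ≤ 1
  pts : ∀ j : Fin n, e0 n + Pi.single j.succ 1 ∈ K'

lemma exists_GF {K : Set (Fin (n + 1) → ℝ)} (hcl : IsClosed K) (hcv : Convex ℝ K)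
    (h0 : (0 : Fin (n + 1) → ℝ) ∈ K) (hpos : ∀ Z ∈ K, 0 ≤ Z 0) (hrec : Rec K (e0 n))
    (hbdd : ∀ h : ℝ, ∃ R : ℝ, ∀ Z ∈ K, Z 0 ≤ h → ‖Z‖ ≤ R) (hfull : Full K) {h : ℝ} (hh : 0 < h) :
    ∃ A : Matrix (Fin n) (Fin n) ℝ, A.det ≠ 0 ∧ GF K (frame K 0 (cons1 h A)) := by
  obtain ⟨R, hR⟩ := hbdd h
  have hc : IsCompact {Z | Z ∈ K ∧ Z 0 ≤ h} :=
    (isCompact_closedBall (0 : Fin (n + 1) → ℝ) R).of_isClosed_subset
      (hcl.inter (isClosed_le (continuous_apply 0) continuous_const))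
      fun Z hZ => by simpa using hR Z hZ.1 hZ.2
  obtain ⟨A, hA, hcol, hbd⟩ := auerbach (hc.image cont_tail) fun ξ hξ => by
    have := hfull (Fin.cons 0 ξ) 0 fun Z hZ => by
      have hZ0 := hpos Z hZ
      have ht : 0 < h / (h + Z 0) := by positivity
      have := hξ _ ⟨(h / (h + Z 0)) • Z, ⟨smul_mem hcv h0 hZ ht.le
        (by rw [div_le_one (by positivity)]; linarith), by
          simp only [Pi.smul_apply, smul_eq_mul]
          rw [div_mul_eq_mul_div, div_le_iff₀ (by positivity)]; nlinarith⟩, rfl⟩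
      rw [dot_cons_zero]
      have e : Fin.tail ((h / (h + Z 0)) • Z) = (h / (h + Z 0)) • Fin.tail Z := rfl
      simp only [e, dotProduct_smul, smul_eq_mul] at this
      exact (mul_eq_zero.1 this).resolve_left ht.ne'
    ext i
    simpa using congrFun this i.succ
  have hr : Rec (frame K 0 (cons1 h A)) (e0 n) := rec_frame (by rw [cons1_e0]; exact hrec.smul hh.le)
  have hp : ∀ Z ∈ frame K 0 (cons1 h A), 0 ≤ Z 0 := fun Z hZ => by
    have := hpos _ hZ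
    rw [zero_add, cons1_zero] at this
    exact nonneg_of_mul_nonneg_right this hh
  refine ⟨A, hA, (cls_self hcl hcv).frame 0 (cons1_det hh.ne' hA), by simpa [mem_frame] using h0,
    hp, hr, fun Z hZ hZ1 => ?_, fun j => ?_⟩
  · refine norm_le_of_tail (by rw [abs_of_nonneg (hp Z hZ)]; exact hZ1) (hbd _ ?_)
    refine ⟨cons1 h A *ᵥ Z, ⟨by simpa [mem_frame] using hZ, ?_⟩, cons1_tail _ _ _⟩
    rw [cons1_zero]; nlinarith
  · obtain ⟨Y, ⟨hY, hYh⟩, hYt⟩ := hcol j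
    have := hrec Y hY (h - Y 0) (by linarith)
    rw [mem_frame, zero_add]
    convert this using 1
    rw [cons1_mulVec]
    have e : Fin.tail (e0 n + Pi.single j.succ 1 : Fin (n + 1) → ℝ) = Pi.single j 1 := by
      ext i; simp [e0, Fin.tail, Pi.single_apply]
    rw [e, ← hYt]
    ext i
    refine Fin.cases ?_ (fun i' => ?_) i <;> simp [e0, Fin.tail]

lemma GF.norm_le {K K' : Set (Fin (n + 1) → ℝ)} (h : GF K K') {Z : Fin (n + 1) → ℝ} (hZ : Z ∈ K') :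
    ‖Z‖ ≤ Z 0 + 1 := by
  have := cap_growth h.cls.2.1 h.zero (e := e0 n) (H := 1) (D := 1)
    (fun Z hZ h1 => h.cap Z hZ (by rwa [e0_dot] at h1)) hZ (s := Z 0 + 1)
    (by linarith [h.pos Z hZ]) (by rw [e0_dot]; linarith)
  linarith

lemma nice_ulim {K : Set (Fin (n + 1) → ℝ)} {Ks : ℕ → Set (Fin (n + 1) → ℝ)}
    (h : ∀ k, GF K (Ks k)) : Nice K (ULim Ks) := by
  refine ⟨cls_ulim fun k => (h k).cls, fun ξ c hc => ?_, e0 n, 1, one_pos, fun Z hZ => ?_⟩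
  · have h1 := hc 0 (mem_ulim_const (Eventually.of_forall fun k => (h k).zero))
    have h2 := hc (e0 n) (mem_ulim_const (Eventually.of_forall fun k => by
      simpa using (h k).rec0 0 (h k).zero 1 zero_le_one))
    rw [dotProduct_zero] at h1
    rw [dot_e0, ← h1] at h2
    ext i
    refine Fin.cases h2 (fun j => ?_) i
    have h3 := hc _ (mem_ulim_const (Eventually.of_forall fun k => (h k).pts j))
    rw [dotProduct_add, dot_e0, h2, ← h1] at h3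
    simpa using h3
  · obtain ⟨z, hz, hz'⟩ := ulim_seq hZ
    have := le_of_tendsto_of_tendsto hz'.norm ((tend_coord hz' 0).add_const 1)
      (hz.mono fun k hk => (h k).norm_le hk)
    rw [e0_dot]; linarith

lemma li_one {N : ℕ} {v : Fin N → ℝ} (hv : v ≠ 0) : LinearIndependent ℝ (fun _ : Fin 1 => v) :=
  linearIndependent_unique_iff.2 hv

lemma good_ns {K : Set (Fin (n + 1) → ℝ)} (hno : ∀ K', Nice K K' → ¬ FP K' 1)
    (F : ℝ → Set (Fin (n + 1) → ℝ)) (hF : ∀ h, 0 < h → GF K (F h)) :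
    ∃ C : ℝ, 0 < C ∧ ∀ h, 0 < h → CapHyp (F h) (e0 n) 1 C := by
  by_contra hc
  push Not at hc
  have h1 : ∀ k : ℕ, ∃ h, 0 < h ∧ ∃ X ∈ F h, X 0 ≤ 1 ∧ ∃ ξ : Fin (n + 1) → ℝ, ∑ j, |ξ j| = 1 ∧
      0 ≤ ξ 0 ∧ ξ 0 ≤ ((k : ℝ) + 1)⁻¹ ∧ ∀ Z ∈ F h, ξ ⬝ᵥ X - ((k : ℝ) + 1)⁻¹ ≤ ξ ⬝ᵥ Z := by
    intro k
    have hk : (1 : ℝ) ≤ (k : ℝ) + 1 := by linarith [Nat.cast_nonneg (α := ℝ) k]
    obtain ⟨h, hh, hC⟩ := hc ((k : ℝ) + 1) (by positivity)
    have G := hF h hh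
    rw [CapHyp, not_and] at hC
    have hC' := hC fun Z hZ h1 => (G.cap Z hZ (by rwa [e0_dot] at h1)).trans hk
    push Not at hC'
    obtain ⟨X, hX, hX1, W, hW, hnot⟩ := hC'
    rw [e0_dot] at hX1
    obtain ⟨ξ, hξ, hsep⟩ := separate G.cls.1 G.cls.2.1 ⟨0, G.zero⟩ hnot
    have hξ0 : 0 ≤ ξ 0 := by
      have := G.rec0.dot_nonneg G.zero hsep
      rwa [dot_e0] at this
    have hW' := abs_le.1 ((dot_le_norm hξ W).trans hW)
    have hi : 0 < ((k : ℝ) + 1)⁻¹ := by positivity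
    simp only [dotProduct_add, dotProduct_smul, smul_eq_mul, dot_e0] at hsep
    refine ⟨h, hh, X, hX, hX1, ξ, hξ, hξ0, ?_, fun Z hZ => ?_⟩
    · have := hsep X hX
      nlinarith
    · have := hsep Z hZ
      nlinarith
  choose h hh X hX hX1 ξ hξ hξ0 hξ1 hs using h1
  have G : ∀ k, GF K (F (h k)) := fun k => hF _ (hh k)
  obtain ⟨ζ, Y, hζ, hζt, -, hY, hsup⟩ := support_limit (K := fun k => F (h k)) hξ hX
    (fun k => (G k).cap _ (hX k) (hX1 k)) inv_tend hs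
  refine hno _ (nice_ulim G) ⟨ζ, Y, hζ, hY, hsup, fun _ => e0 n, li_one (by simp [e0]), fun _ =>
    ⟨rec_ulim (f := fun _ => e0 n) (Eventually.of_forall fun k => (G k).rec0) tendsto_const_nhds, ?_⟩⟩
  rw [dot_e0]
  exact le_antisymm (le_of_tendsto_of_tendsto' (tend_coord hζt 0) inv_tend hξ1)
    (ge_of_tendsto' (tend_coord hζt 0) hξ0)

/-- Dual hypothesis at a general height. -/
def DH (K : Set (Fin (n + 1) → ℝ)) (h η : ℝ) : Prop :=
  ∀ Z ∈ K, ∀ ξ : Fin (n + 1) → ℝ, (∀ W ∈ K, 0 ≤ ξ ⬝ᵥ (W - Z)) → h ≤ Z 0 → η * ξ 0 ≤ -(ξ ⬝ᵥ Z)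

lemma DH.frame {K : Set (Fin (n + 1) → ℝ)} {h η s : ℝ} (hs : 0 < s)
    {A : Matrix (Fin n) (Fin n) ℝ} (hA : A.det ≠ 0) (H : DH K (s * h) (s * η)) :
    DH (frame K 0 (cons1 s A)) h η := by
  intro Z hZ ξ hξ hZ0
  have hB := cons1_det hs.ne' hA
  have key : ∀ Y, (ξ ᵥ* (cons1 s A)⁻¹) ⬝ᵥ (cons1 s A *ᵥ Y) = ξ ⬝ᵥ Y := fun Y => by
    rw [← dotProduct_mulVec, inv_mul_vec hB]
  have := H _ hZ (ξ ᵥ* (cons1 s A)⁻¹) (fun W hW => by
    have := hξ ((cons1 s A)⁻¹ *ᵥ W) (by rw [mem_frame, mul_inv_vec hB]; simpa using hW)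
    rw [← key, mulVec_sub, mul_inv_vec hB] at this
    simpa using this) (by rw [zero_add, cons1_zero]; gcongr)
  rw [zero_add, key] at this
  have h2 := key (e0 n)
  rw [cons1_e0, dotProduct_smul, dot_e0, dot_e0, smul_eq_mul] at h2
  rw [← h2]
  linarith

lemma DH.of_frame {K : Set (Fin (n + 1) → ℝ)} {h η s : ℝ} (hs : 0 < s)
    {A : Matrix (Fin n) (Fin n) ℝ} (hA : A.det ≠ 0) (H : DH (P252.frame K 0 (cons1 s A)) h η) :
    DH K (s * h) (s * η) := by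
  have e : P252.frame (P252.frame K 0 (cons1 s A)) 0 (cons1 s⁻¹ A⁻¹) = K := by
    rw [frame_frame, cons1_mul, mul_inv_cancel₀ hs.ne', mul_nonsing_inv _ (Ne.isUnit hA)]
    ext Z
    simp [mem_frame, cons1_mulVec]
  rw [← e]
  refine DH.frame (inv_pos.2 hs) (by rw [det_nonsing_inv]; simpa using hA) ?_
  rwa [← mul_assoc, ← mul_assoc, inv_mul_cancel₀ hs.ne', one_mul, one_mul]

lemma good_dual {K : Set (Fin (n + 1) → ℝ)} (hno : ∀ K', Nice K K' → ¬ FP K' 1)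
    (A : ℝ → Matrix (Fin n) (Fin n) ℝ) (hA : ∀ h, 0 < h → (A h).det ≠ 0)
    (hF : ∀ h, 0 < h → GF K (frame K 0 (cons1 h (A h)))) :
    ∃ η : ℝ, 0 < η ∧ ∀ h, 0 < h → DualHyp (frame K 0 (cons1 h (A h))) η := by
  by_contra hc
  push Not at hc
  have h1 : ∀ k : ℕ, ∃ h, 0 < h ∧ ∃ v : Fin (n + 1) → ℝ, v 0 = 1 ∧
      (∀ s, 0 ≤ s → s ≤ (k : ℝ) + 1 → s • v ∈ frame K 0 (cons1 h (A h))) ∧
      ∃ ξ : Fin (n + 1) → ℝ, ∑ j, |ξ j| = 1 ∧ ξ ⬝ᵥ v ≤ 0 ∧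
      ∀ Z ∈ frame K 0 (cons1 h (A h)), ξ ⬝ᵥ 0 - ((k : ℝ) + 1)⁻¹ ≤ ξ ⬝ᵥ Z := by
    intro k
    have hk : (1 : ℝ) ≤ (k : ℝ) + 1 := by linarith [Nat.cast_nonneg (α := ℝ) k]
    set c : ℝ := (k : ℝ) + 1 with hcdef
    have hc0 : 0 < c := by linarith
    obtain ⟨h, hh, hC⟩ := hc (c⁻¹ * c⁻¹) (by positivity)
    have hh' : 0 < h / c := by positivity
    have hD : ¬ DH (frame K 0 (cons1 (h / c) (A (h / c)))) c c⁻¹ := by
      intro hD
      apply hC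
      have := hD.of_frame hh' (hA _ hh')
      refine DH.frame (h := 1) hh (hA _ hh) ?_
      convert this using 1 <;> field_simp
    have G := hF _ hh'
    simp only [DH, not_forall, not_le] at hD
    obtain ⟨Z, hZ, ξ, hsup, hZ0, hlt⟩ := hD
    have hn := hsup 0 G.zero
    rw [zero_sub, dotProduct_neg] at hn
    have hξ0 : 0 < ξ 0 := by
      have : 0 < c⁻¹ * ξ 0 := by linarith
      exact (mul_pos_iff_of_pos_left (inv_pos.2 hc0)).1 this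
    have hξne : ξ ≠ 0 := by rintro rfl; simp at hξ0
    obtain ⟨a, ha, ha1⟩ := normalize hξne
    have hZp : 0 < Z 0 := by linarith
    refine ⟨h / c, hh', (Z 0)⁻¹ • Z, by simp [hZp.ne'], fun s hs0 hs1 => ?_, a • ξ, ha1, ?_,
      fun W hW => ?_⟩
    · rw [smul_smul]
      exact smul_mem G.cls.2.1 G.zero hZ (by positivity)
        (by rw [← div_eq_mul_inv, div_le_one hZp]; linarith)
    · rw [smul_dotProduct, dotProduct_smul, smul_eq_mul, smul_eq_mul]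
      exact mul_nonpos_of_nonneg_of_nonpos ha.le
        (mul_nonpos_of_nonneg_of_nonpos (inv_pos.2 hZp).le (by linarith))
    · have h2 := hsup W hW
      have h3 := (abs_le.1 (abs_le_one ha1 0)).2
      rw [dotProduct_sub] at h2
      rw [dotProduct_zero, smul_dotProduct, smul_eq_mul]
      simp only [Pi.smul_apply, smul_eq_mul] at h3
      have h4 : a * (-(c⁻¹ * ξ 0)) ≤ a * (ξ ⬝ᵥ W) := mul_le_mul_of_nonneg_left (by linarith) ha.le
      have h5 : c⁻¹ * (a * ξ 0) ≤ c⁻¹ * 1 := mul_le_mul_of_nonneg_left h3 (inv_pos.2 hc0).le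
      nlinarith
  choose h hh v hv0 hvs ξ hξ hξv hs using h1
  have G : ∀ k, GF K (frame K 0 (cons1 (h k) (A (h k)))) := fun k => hF _ (hh k)
  obtain ⟨ζ, Y, hζ, hζt, hYt, hY, hsup⟩ :=
    support_limit (K := fun k => frame K 0 (cons1 (h k) (A (h k)))) (X := fun _ => 0) (R := 0) hξ
      (fun k => (G k).zero) (fun k => by simp) inv_tend hs
  have hY0 : Y = 0 := tendsto_nhds_unique hYt tendsto_const_nhds
  subst hY0
  have hvm : ∀ k, v k ∈ frame K 0 (cons1 (h k) (A (h k))) := fun k => by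
    simpa using hvs k 1 zero_le_one (by linarith [Nat.cast_nonneg (α := ℝ) k])
  obtain ⟨w, hw⟩ := ulim (x := v) (R := 1)
    (Eventually.of_forall fun k => (G k).cap _ (hvm k) (hv0 k).le)
  have hw0 : w 0 = 1 := by
    have := tend_coord hw 0
    simp only [hv0] at this
    exact tendsto_nhds_unique this tendsto_const_nhds
  have hN := nice_ulim G
  have hwr : Rec (ULim fun k => frame K 0 (cons1 (h k) (A (h k)))) w := by
    refine rec_of_one hN.1.1 hN.1.2.1 (x := 0) fun s hs0 => ?_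
    rw [zero_add]
    refine mem_ulim (x := fun k => s • v k) ?_ (hw.const_smul s)
    have : ∀ᶠ k : ℕ in UU, s ≤ (k : ℝ) :=
      (tendsto_natCast_atTop_atTop.eventually_ge_atTop s).filter_mono UU_le
    filter_upwards [this] with k hk
    exact hvs k s hs0 (by linarith)
  refine hno _ hN ⟨ζ, 0, hζ, hY, hsup, fun _ => w, li_one (by rintro rfl; simp at hw0), fun _ =>
    ⟨hwr, le_antisymm (le_of_tendsto' (tend_dot hζt hw) hξv) ?_⟩⟩
  have := hsup _ (hwr 0 hY 1 zero_le_one)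
  simpa using this

theorem good_case {K : Set (Fin (n + 1) → ℝ)} (hcl : IsClosed K) (hcv : Convex ℝ K)
    (h0 : (0 : Fin (n + 1) → ℝ) ∈ K) (hpos : ∀ Z ∈ K, 0 ≤ Z 0) (hrec : Rec K (e0 n))
    (hbdd : ∀ h : ℝ, ∃ R : ℝ, ∀ Z ∈ K, Z 0 ≤ h → ‖Z‖ ≤ R) (hfull : Full K)
    (hno : ∀ K', Nice K K' → ¬ FP K' 1) :
    ∃ C η : ℝ, 0 < C ∧ 0 < η ∧ ∀ h : ℝ, 0 < h →
      ∃ A : Matrix (Fin n) (Fin n) ℝ, A.det ≠ 0 ∧
        CapHyp (frame K 0 (cons1 h A)) (e0 n) 1 C ∧ DualHyp (frame K 0 (cons1 h A)) η := by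
  have h1 : ∀ h : ℝ, ∃ A : Matrix (Fin n) (Fin n) ℝ, 0 < h →
      A.det ≠ 0 ∧ GF K (frame K 0 (cons1 h A)) := fun h => by
    by_cases hh : 0 < h
    · obtain ⟨A, hA⟩ := exists_GF hcl hcv h0 hpos hrec hbdd hfull hh
      exact ⟨A, fun _ => hA⟩
    · exact ⟨0, fun h => absurd h hh⟩
  choose A hA using h1
  obtain ⟨C, hC, hCap⟩ := good_ns hno (fun h => frame K 0 (cons1 h (A h))) fun h hh => (hA h hh).2
  obtain ⟨η, hη, hD⟩ := good_dual hno A (fun h hh => (hA h hh).1) fun h hh => (hA h hh).2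
  exact ⟨C, η, hC, hη, fun h hh => ⟨A h, (hA h hh).1, hCap h hh, hD h hh⟩⟩

end Dich

end Vale.Agent.P252
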