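import Vale.Agent.P252.Dichotomy3

/-! The wedge case of the dichotomy: normalised frames. -/

open Matrix Filter Topology

namespace Vale.Agent.P252

namespace Dich

variable {m : ℕ}

/-- Drop the first two coordinates. -/
def tt (Z : Fin (m + 2) → ℝ) : Fin m → ℝ := fun i => Z i.succ.succ

lemma tt_eq (Z : Fin (m + 2) → ℝ) : tt Z = Fin.tail (Fin.tail Z) := rfl

lemma ext2 {Z Y : Fin (m + 2) → ℝ} (h0 : Z 0 = Y 0) (h1 : Z 1 = Y 1) (h2 : tt Z = tt Y) : Z = Y := by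
  ext i
  refine Fin.cases h0 (fun i' => ?_) i
  exact Fin.cases h1 (fun j => congrFun h2 j) i'

lemma c2_zero (δ h : ℝ) (A : Matrix (Fin m) (Fin m) ℝ) (Z : Fin (m + 2) → ℝ) :
    (cons1 δ (cons1 h A) *ᵥ Z) 0 = δ * Z 0 := cons1_zero _ _ _

lemma c2_one (δ h : ℝ) (A : Matrix (Fin m) (Fin m) ℝ) (Z : Fin (m + 2) → ℝ) :
    (cons1 δ (cons1 h A) *ᵥ Z) 1 = h * Z 1 := by
  have := congrFun (cons1_tail δ (cons1 h A) Z) 0
  rw [cons1_zero] at this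
  exact this

lemma c2_tt (δ h : ℝ) (A : Matrix (Fin m) (Fin m) ℝ) (Z : Fin (m + 2) → ℝ) :
    tt (cons1 δ (cons1 h A) *ᵥ Z) = A *ᵥ tt Z := by
  rw [tt_eq, cons1_tail, cons1_tail, tt_eq]

lemma tt_single0 (s : ℝ) : tt (Pi.single 0 s : Fin (m + 2) → ℝ) = 0 := by
  ext i; simp [tt]

lemma succ_succ_ne_one (i : Fin m) : i.succ.succ ≠ (1 : Fin (m + 2)) := by
  intro h
  have := congrArg Fin.val h
  simp at this

lemma tt_single1 (s : ℝ) : tt (Pi.single 1 s : Fin (m + 2) → ℝ) = 0 := by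
  ext i; simp [tt, Pi.single_eq_of_ne (succ_succ_ne_one i)]

lemma tt_smul (s : ℝ) (Z : Fin (m + 2) → ℝ) : tt (s • Z) = s • tt Z := rfl

lemma norm_tt_le (Z : Fin (m + 2) → ℝ) : ‖tt Z‖ ≤ ‖Z‖ :=
  (norm_tail_le _).trans (norm_tail_le Z)

lemma norm_le3 {Z : Fin (m + 2) → ℝ} {c : ℝ} (h0 : |Z 0| ≤ c) (h1 : |Z 1| ≤ c) (h2 : ‖tt Z‖ ≤ c) :
    ‖Z‖ ≤ c := norm_le_of_tail h0 (norm_le_of_tail h1 h2)

lemma e01_dot (Z : Fin (m + 2) → ℝ) : e01 m ⬝ᵥ Z = Z 0 + Z 1 := by simp [e01]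

lemma dot_e01 (Z : Fin (m + 2) → ℝ) : Z ⬝ᵥ e01 m = Z 0 + Z 1 := by simp [e01]

lemma dot_split (ξ Z : Fin (m + 2) → ℝ) : ξ ⬝ᵥ Z = ξ 0 * Z 0 + ξ 1 * Z 1 + tt ξ ⬝ᵥ tt Z := by
  simp [dotProduct, Fin.sum_univ_succ, tt, add_assoc]

lemma biorth {v0 v1 a0 a1 : Fin (m + 2) → ℝ} (h00 : a0 ⬝ᵥ v0 = 1) (h01 : a0 ⬝ᵥ v1 = 0)
    (h10 : a1 ⬝ᵥ v0 = 0) (h11 : a1 ⬝ᵥ v1 = 1) :
    ∃ B : Matrix (Fin (m + 2)) (Fin (m + 2)) ℝ, B.det ≠ 0 ∧ B *ᵥ Pi.single 0 1 = v0 ∧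
      B *ᵥ Pi.single 1 1 = v1 ∧ ∀ Z, a0 ⬝ᵥ B *ᵥ Z = Z 0 ∧ a1 ⬝ᵥ B *ᵥ Z = Z 1 := by
  let φ : (Fin (m + 2) → ℝ) →ₗ[ℝ] ℝ × ℝ :=
    { toFun := fun Z => (a0 ⬝ᵥ Z, a1 ⬝ᵥ Z)
      map_add' := fun x y => by simp
      map_smul' := fun c x => by simp }
  have hs : LinearMap.range φ = ⊤ := by
    rw [LinearMap.range_eq_top]
    rintro ⟨x, y⟩
    exact ⟨x • v0 + y • v1, by simp [φ, h00, h01, h10, h11]⟩
  have hk : Module.finrank ℝ (Fin m → ℝ) = Module.finrank ℝ (LinearMap.ker φ) := by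
    have := φ.finrank_range_add_finrank_ker
    rw [hs] at this
    simp at this ⊢
    omega
  let ψ := LinearEquiv.ofFinrankEq _ _ hk
  let T : (Fin (m + 2) → ℝ) →ₗ[ℝ] (Fin (m + 2) → ℝ) :=
    { toFun := fun Z => Z 0 • v0 + Z 1 • v1 + (ψ (tt Z) : Fin (m + 2) → ℝ)
      map_add' := fun x y => by
        have : tt (x + y) = tt x + tt y := rfl
        rw [this, map_add]
        simp only [Pi.add_apply, add_smul, Submodule.coe_add]
        abel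
      map_smul' := fun c x => by
        rw [tt_smul, map_smul]
        simp [smul_add, smul_smul] }
  have hT : ∀ Z, LinearMap.toMatrix' T *ᵥ Z = T Z := fun Z => by
    rw [← Matrix.toLin'_apply, Matrix.toLin'_toMatrix']
  have hψ : ∀ u, a0 ⬝ᵥ (ψ u : Fin (m + 2) → ℝ) = 0 ∧ a1 ⬝ᵥ (ψ u : Fin (m + 2) → ℝ) = 0 := fun u => by
    have := (ψ u).2
    rw [LinearMap.mem_ker] at this
    exact ⟨congrArg Prod.fst this, congrArg Prod.snd this⟩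
  have hd : ∀ Z, a0 ⬝ᵥ T Z = Z 0 ∧ a1 ⬝ᵥ T Z = Z 1 := fun Z => by
    simp [T, h00, h01, h10, h11, hψ]
  refine ⟨LinearMap.toMatrix' T, fun h => ?_, ?_, ?_, fun Z => by rw [hT]; exact hd Z⟩
  · obtain ⟨v, hv, hv0⟩ := exists_mulVec_eq_zero_iff.2 h
    rw [hT] at hv0
    have h1 := hd v
    rw [hv0, dotProduct_zero, dotProduct_zero] at h1
    have h2 : (ψ (tt v) : Fin (m + 2) → ℝ) = 0 := by
      simpa [T, ← h1.1, ← h1.2] using hv0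
    have h3 : tt v = 0 := by simpa using h2
    exact hv (ext2 h1.1.symm h1.2.symm h3)
  · rw [hT]; simp [T, tt_single0]
  · rw [hT]; simp [T, tt_single1]

/-- The normalised member of the class with a maximal flat. -/
structure Base (K K1 : Set (Fin (m + 2) → ℝ)) {d : ℕ} (C1 : ℝ) (f : Fin d → Fin (m + 2) → ℝ) :
    Prop where
  cls : Cls K K1
  full : Full K1
  zero : (0 : Fin (m + 2) → ℝ) ∈ K1
  mem0 : (Pi.single 0 1 : Fin (m + 2) → ℝ) ∈ K1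
  pos : ∀ Z ∈ K1, 0 ≤ Z 0
  one_le : 1 ≤ C1
  coer : ∀ Z ∈ K1, ‖Z‖ ≤ C1 * (Z 1 + C1 * (1 + Z 0))
  li : LinearIndependent ℝ f
  frec : ∀ i, Rec K1 (f i)
  f0 : ∀ i, f i 0 = 0
  f1 : ∀ i, 0 < f i 1
  fsum : ∑ i, f i = Pi.single 1 1

lemma exists_base {K K' : Set (Fin (m + 2) → ℝ)} {d : ℕ} (hd : 1 ≤ d) (hN : Nice K K')
    (hF : FP K' d) : ∃ K1 C1, ∃ f : Fin d → Fin (m + 2) → ℝ, Base K K1 C1 f := by
  obtain ⟨hcls, hfull, b, C, hC, hb⟩ := hN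
  obtain ⟨ξ, X, hξ, hX, hsup, f, hf, hfr⟩ := hF
  obtain ⟨Z0, hZ0, hZ0'⟩ : ∃ Z0 ∈ K', 0 < ξ ⬝ᵥ (Z0 - X) := by
    by_contra hc
    push Not at hc
    refine hξ (hfull ξ (ξ ⬝ᵥ X) fun Z hZ => ?_)
    have := le_antisymm (hc Z hZ) (hsup Z hZ)
    rw [dotProduct_sub] at this
    linarith
  have hbf : ∀ i, 0 < b ⬝ᵥ f i := fun i => by
    by_contra hc
    push Not at hc
    have hfi : 0 < ‖f i‖ := norm_pos_iff.2 (hf.ne_zero i)
    set s := (C * (b ⬝ᵥ X + C) + ‖X‖ + 1) / ‖f i‖ with hs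
    have hX0 := (norm_nonneg X).trans (hb X hX)
    have hs0 : 0 ≤ s := by positivity
    have h1 := hb _ ((hfr i).1 X hX s hs0)
    have h2 : ‖s • f i‖ ≤ ‖X + s • f i‖ + ‖X‖ := by
      simpa using norm_sub_le (X + s • f i) X
    rw [norm_smul, Real.norm_eq_abs, abs_of_nonneg hs0, hs, div_mul_cancel₀ _ hfi.ne', ← hs] at h2
    rw [dotProduct_add, dotProduct_smul, smul_eq_mul] at h1
    have h3 : C * (s * (b ⬝ᵥ f i)) ≤ 0 :=
      mul_nonpos_of_nonneg_of_nonpos hC.le (mul_nonpos_of_nonneg_of_nonpos hs0 hc)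
    nlinarith
  set v0 := Z0 - X with hv0
  set eb := ∑ i, f i with heb
  have hq : 0 < b ⬝ᵥ eb := by
    rw [heb, dotProduct_sum]
    have : Nonempty (Fin d) := ⟨⟨0, hd⟩⟩
    exact Finset.sum_pos (fun i _ => hbf i) Finset.univ_nonempty
  set q := b ⬝ᵥ eb with hqdef
  set p := ξ ⬝ᵥ v0 with hp
  have hξeb : ξ ⬝ᵥ eb = 0 := by
    rw [heb, dotProduct_sum]; exact Finset.sum_eq_zero fun i _ => (hfr i).2
  set a : Fin (m + 2) → ℝ := p⁻¹ • ξ with ha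
  set b' : Fin (m + 2) → ℝ := q⁻¹ • (b - (b ⬝ᵥ v0) • a) with hb'
  have h00 : a ⬝ᵥ v0 = 1 := by rw [ha, smul_dotProduct, smul_eq_mul, inv_mul_cancel₀ hZ0'.ne']
  have h01 : a ⬝ᵥ eb = 0 := by rw [ha, smul_dotProduct, hξeb, smul_zero]
  obtain ⟨B, hB, hB0, hB1, hBd⟩ := biorth (a0 := a) (a1 := b') (v0 := v0) (v1 := eb) h00 h01
    (by rw [hb', smul_dotProduct, sub_dotProduct, smul_dotProduct, h00]; simp)
    (by rw [hb', smul_dotProduct, sub_dotProduct, smul_dotProduct, h01, smul_zero, sub_zero,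
      smul_eq_mul, inv_mul_cancel₀ hq.ne'])
  have hbB : ∀ Z, b ⬝ᵥ B *ᵥ Z = q * Z 1 + (b ⬝ᵥ v0) * Z 0 := fun Z => by
    have h1 := (hBd Z).2
    rw [hb', smul_dotProduct, sub_dotProduct, smul_dotProduct, (hBd Z).1, smul_eq_mul,
      smul_eq_mul] at h1
    rw [← h1]; field_simp; ring
  have hpos : ∀ Z ∈ frame K' X B, 0 ≤ Z 0 := fun Z hZ => by
    have h1 := hsup _ hZ
    rw [add_sub_cancel_left] at h1
    rw [← (hBd Z).1, ha, smul_dotProduct, smul_eq_mul]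
    positivity
  obtain ⟨c, hc, hcB⟩ := exists_bound B⁻¹
  have hfa : ∀ i, a ⬝ᵥ f i = 0 := fun i => by rw [ha, smul_dotProduct, (hfr i).2, smul_zero]
  set D := (|b ⬝ᵥ X| + |b ⬝ᵥ v0| + C + ‖X‖ / C) / q with hD
  have hD0 : 0 ≤ D := by positivity
  refine ⟨frame K' X B, c * C * q + D + 1, fun i => B⁻¹ *ᵥ f i, hcls.frame X hB, hfull.frame X hB,
    by simpa [mem_frame] using hX, by rw [mem_frame, hB0, hv0]; simpa using hZ0, hpos,
    by have : 0 ≤ c * C * q := by positivity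
       linarith, fun Z hZ => ?_, ?_, fun i => rec_frame (by rw [mul_inv_vec hB]; exact (hfr i).1),
    fun i => ?_, fun i => ?_, ?_⟩
  · have h1 := hb _ hZ
    have hZ0 := hpos Z hZ
    have h2 : ‖Z‖ ≤ c * (‖X + B *ᵥ Z‖ + ‖X‖) := by
      have := hcB (B *ᵥ Z)
      rw [inv_mul_vec hB] at this
      refine this.trans (mul_le_mul_of_nonneg_left ?_ hc.le)
      simpa using norm_sub_le (X + B *ᵥ Z) X
    rw [dotProduct_add, hbB] at h1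
    have h3 : ‖X + B *ᵥ Z‖ + ‖X‖ ≤ C * q * (Z 1 + D * (1 + Z 0)) := by
      have e : C * q * (Z 1 + D * (1 + Z 0)) = C * q * Z 1 +
          (C * (|b ⬝ᵥ X| + |b ⬝ᵥ v0| + C) + ‖X‖) * (1 + Z 0) := by
        rw [hD]; field_simp
      rw [e]
      have i1 := le_abs_self (b ⬝ᵥ X)
      have i2 := le_abs_self (b ⬝ᵥ v0)
      have i3 := abs_nonneg (b ⬝ᵥ X)
      have i4 := abs_nonneg (b ⬝ᵥ v0)
      have i5 := norm_nonneg X
      have j1 : C * (b ⬝ᵥ X) ≤ C * |b ⬝ᵥ X| := by gcongr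
      have j2 : C * ((b ⬝ᵥ v0) * Z 0) ≤ C * (|b ⬝ᵥ v0| * Z 0) := by gcongr
      have j3 : 0 ≤ (C * (|b ⬝ᵥ X| + C) + ‖X‖) * Z 0 := by positivity
      have j4 : 0 ≤ C * |b ⬝ᵥ v0| := by positivity
      nlinarith
    have h4 : 0 ≤ Z 1 + D * (1 + Z 0) := by
      have : 0 ≤ C * q * (Z 1 + D * (1 + Z 0)) := le_trans (by positivity) h3
      exact nonneg_of_mul_nonneg_right this (by positivity)
    calc ‖Z‖ ≤ c * (C * q * (Z 1 + D * (1 + Z 0))) := h2.trans (by gcongr)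
      _ = (c * C * q) * (Z 1 + D * (1 + Z 0)) := by ring
      _ ≤ _ := by
        have : 0 ≤ c * C * q := by positivity
        gcongr <;> linarith
  · refine LinearIndependent.of_comp (Matrix.toLin' B) ?_
    convert hf using 1
    ext1 i
    simp only [Function.comp_apply, Matrix.toLin'_apply]
    exact mul_inv_vec hB _
  · rw [← (hBd (B⁻¹ *ᵥ f i)).1, mul_inv_vec hB, hfa]
  · rw [← (hBd (B⁻¹ *ᵥ f i)).2, mul_inv_vec hB, hb', smul_dotProduct, sub_dotProduct, smul_dotProduct, hfa]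
    have := hbf i
    simp only [smul_eq_mul, mul_zero, sub_zero]
    positivity
  · rw [← mulVec_sum, ← heb, ← hB1, inv_mul_vec hB]

/-- Normalised frames in the wedge case. -/
structure WF (K K' : Set (Fin (m + 2) → ℝ)) {d : ℕ} (f : Fin d → Fin (m + 2) → ℝ) (M δ τ : ℝ) :
    Prop where
  cls : Cls K K'
  zero : (0 : Fin (m + 2) → ℝ) ∈ K'
  pos : ∀ Z ∈ K', 0 ≤ Z 0
  low : ∀ Z ∈ K', -(τ * (1 + Z 0)) ≤ Z 1
  mem0 : ∀ s : ℝ, 0 ≤ s → δ * s ≤ 1 → (Pi.single 0 s : Fin (m + 2) → ℝ) ∈ K'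
  rec1 : Rec K' (Pi.single 1 1)
  cap : ∀ Z ∈ K', Z 0 + Z 1 ≤ 9 → ‖Z‖ ≤ 19
  pts : ∀ j : Fin m, ∃ Z ∈ K', Z 0 + Z 1 ≤ 9 ∧ tt Z = Pi.single j 1
  flat : ∃ g : Fin d → Fin (m + 2) → ℝ, (∀ i, Rec K' (g i) ∧ g i 0 = 0 ∧ g i 1 = 1) ∧
    ∑ i, f i 1 • g i = Pi.single 1 1 ∧
    ∀ c : Fin d → ℝ, ‖∑ i, (c i / f i 1) • f i‖ ≤ M * ‖∑ i, c i • g i‖

lemma cons1_abs_le {N : ℕ} {s c : ℝ} {A : Matrix (Fin N) (Fin N) ℝ} (hs : |s| ≤ c)
    (hA : ∀ i j, |A i j| ≤ c) : ∀ i j, |cons1 s A i j| ≤ c := by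
  have hc := (abs_nonneg s).trans hs
  intro i j
  refine Fin.cases ?_ (fun i' => ?_) i <;> refine Fin.cases ?_ (fun j' => ?_) j <;>
    simp [cons1, hs, hc, hA]

lemma exists_WF {K K1 : Set (Fin (m + 2) → ℝ)} {d : ℕ} {C1 : ℝ} {f : Fin d → Fin (m + 2) → ℝ}
    (H : Base K K1 C1 f) {δ h : ℝ} (hδ : 0 < δ) (hδ1 : δ ≤ 1) (hh : 2 * C1 ≤ h) :
    ∃ A : Matrix (Fin m) (Fin m) ℝ, A.det ≠ 0 ∧
      WF K (frame K1 0 (cons1 δ (cons1 h A))) f ((m + 2) * (19 * C1)) δ (C1 / h) := by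
  have hC := H.one_le
  have hh0 : 0 < h := by linarith
  have hcv := H.cls.2.1
  have hlow : ∀ Y ∈ K1, -(C1 * (1 + Y 0)) ≤ Y 1 := fun Y hY => by
    have := nonneg_of_mul_nonneg_right ((norm_nonneg _).trans (H.coer Y hY)) (by linarith)
    linarith
  have hcap : ∀ Y ∈ K1, Y 0 / δ + Y 1 / h ≤ 9 → Y 0 / δ ≤ 19 ∧ |Y 1 / h| ≤ 19 ∧
      ‖Y‖ ≤ 19 * C1 * h := fun Y hY hY9 => by
    have h0 := H.pos Y hY
    have h1 := hlow Y hY
    have h2 : Y 0 ≤ Y 0 / δ := by rw [le_div_iff₀ hδ]; nlinarith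
    have h3 : -((1 + Y 0) / 2) ≤ Y 1 / h := by rw [le_div_iff₀ hh0]; nlinarith
    have h4 : Y 0 / δ ≤ 19 := by linarith
    have h5 : Y 1 / h ≤ 9 := by linarith
    refine ⟨h4, abs_le.2 ⟨by linarith, by linarith⟩, (H.coer Y hY).trans ?_⟩
    rw [div_le_iff₀ hh0] at h5
    have : C1 * (1 + Y 0) ≤ 10 * h := by nlinarith
    nlinarith
  have hc : IsCompact {Y | Y ∈ K1 ∧ Y 0 / δ + Y 1 / h ≤ 9} :=
    (isCompact_closedBall (0 : Fin (m + 2) → ℝ) (19 * C1 * h)).of_isClosed_subset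
      (H.cls.1.inter (isClosed_le (f := fun Y : Fin (m + 2) → ℝ => Y 0 / δ + Y 1 / h) (by fun_prop)
        continuous_const))
      fun Z hZ => by simpa using (hcap Z hZ.1 hZ.2).2.2
  have hctt : Continuous (tt (m := m)) := cont_tail.comp cont_tail
  obtain ⟨A, hA, hcol, hbd⟩ := auerbach (hc.image hctt) fun ξ hξ => by
    have := H.full (Fin.cons 0 (Fin.cons 0 ξ)) 0 fun Z hZ => by
      set u := Z 0 / δ + Z 1 / h with hu
      have ht : 0 < 9 / (9 + |u|) := by positivity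
      have := hξ _ ⟨(9 / (9 + |u|)) • Z, ⟨smul_mem hcv H.zero hZ ht.le
        (by rw [div_le_one (by positivity)]; linarith [abs_nonneg u]), by
          simp only [Pi.smul_apply, smul_eq_mul]
          rw [mul_div_assoc, mul_div_assoc, ← mul_add, ← hu, div_mul_eq_mul_div,
            div_le_iff₀ (by positivity)]
          linarith [le_abs_self u]⟩, rfl⟩
      rw [dot_cons_zero, dot_cons_zero, ← tt_eq]
      simp only [tt_smul, dotProduct_smul, smul_eq_mul] at this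
      exact (mul_eq_zero.1 this).resolve_left ht.ne'
    ext i
    simpa using congrFun this i.succ.succ
  set B := cons1 δ (cons1 h A) with hBdef
  have hB : B.det ≠ 0 := cons1_det hδ.ne' (cons1_det hh0.ne' hA)
  have hmem : ∀ Z, Z ∈ frame K1 0 B ↔ B *ᵥ Z ∈ K1 := fun Z => by rw [mem_frame, zero_add]
  have hB0 : ∀ Z, (B *ᵥ Z) 0 = δ * Z 0 := c2_zero δ h A
  have hB1 : ∀ Z, (B *ᵥ Z) 1 = h * Z 1 := c2_one δ h A
  have hB2 : ∀ Z, tt (B *ᵥ Z) = A *ᵥ tt Z := c2_tt δ h A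
  have hp : ∀ Z ∈ frame K1 0 B, 0 ≤ Z 0 := fun Z hZ => by
    have := H.pos _ ((hmem Z).1 hZ)
    rw [hB0] at this
    exact nonneg_of_mul_nonneg_right this hδ
  have hBe1 : B *ᵥ Pi.single 1 1 = h • (Pi.single 1 1 : Fin (m + 2) → ℝ) :=
    ext2 (by rw [hB0]; simp) (by rw [hB1]; simp) (by rw [hB2, tt_smul, tt_single1]; simp)
  have hr1 : Rec K1 (Pi.single 1 1) := H.fsum ▸ rec_sum _ fun i _ => H.frec i
  refine ⟨A, hA, H.cls.frame 0 hB, by simpa [mem_frame] using H.zero, hp, fun Z hZ => ?_,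
    fun s hs hs1 => ?_, rec_frame (by rw [hBe1]; exact hr1.smul hh0.le), fun Z hZ hZ9 => ?_,
    fun j => ?_, fun i => B⁻¹ *ᵥ ((h / f i 1) • f i), fun i => ⟨?_, ?_, ?_⟩, ?_, fun c => ?_⟩
  · have h1 := hlow _ ((hmem Z).1 hZ)
    have h2 := hp Z hZ
    rw [hB0, hB1] at h1
    have h3 : C1 * (1 + δ * Z 0) ≤ C1 * (1 + Z 0) := by gcongr; nlinarith
    rw [div_mul_eq_mul_div, ← neg_div, div_le_iff₀ hh0]
    linarith
  · rw [hmem]
    have : B *ᵥ Pi.single 0 s = (δ * s) • (Pi.single 0 1 : Fin (m + 2) → ℝ) :=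
      ext2 (by rw [hB0]; simp) (by rw [hB1]; simp) (by rw [hB2, tt_smul, tt_single0, tt_single0]; simp)
    rw [this]
    exact smul_mem hcv H.zero H.mem0 (by positivity) hs1
  · have h9 : (B *ᵥ Z) 0 / δ + (B *ᵥ Z) 1 / h ≤ 9 := by
      rw [hB0, hB1, mul_div_cancel_left₀ _ hδ.ne', mul_div_cancel_left₀ _ hh0.ne']; exact hZ9
    have h1 := hcap _ ((hmem Z).1 hZ) h9
    rw [hB0, hB1, mul_div_cancel_left₀ _ hδ.ne', mul_div_cancel_left₀ _ hh0.ne'] at h1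
    refine norm_le3 (by rw [abs_of_nonneg (hp Z hZ)]; exact h1.1) h1.2.1 ?_
    exact (hbd _ ⟨B *ᵥ Z, ⟨(hmem Z).1 hZ, h9⟩, hB2 Z⟩).trans (by norm_num)
  · obtain ⟨Y, ⟨hY, hY9⟩, hYt⟩ := hcol j
    have e0 := hB0 (B⁻¹ *ᵥ Y)
    have e1 := hB1 (B⁻¹ *ᵥ Y)
    have e2 := hB2 (B⁻¹ *ᵥ Y)
    rw [mul_inv_vec hB] at e0 e1 e2
    refine ⟨B⁻¹ *ᵥ Y, by rw [hmem, mul_inv_vec hB]; exact hY, ?_, ?_⟩
    · rw [e0, e1, mul_div_cancel_left₀ _ hδ.ne', mul_div_cancel_left₀ _ hh0.ne'] at hY9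
      exact hY9
    · rw [← inv_mul_vec hA (tt _), ← e2, hYt, inv_mul_vec hA]
  · exact rec_frame (by rw [mul_inv_vec hB]; exact (H.frec i).smul (div_pos hh0 (H.f1 i)).le)
  · have := hB0 (B⁻¹ *ᵥ ((h / f i 1) • f i))
    rw [mul_inv_vec hB, Pi.smul_apply, H.f0, smul_zero] at this
    exact (mul_eq_zero.1 this.symm).resolve_left hδ.ne'
  · have := hB1 (B⁻¹ *ᵥ ((h / f i 1) • f i))
    rw [mul_inv_vec hB, Pi.smul_apply, smul_eq_mul, div_mul_cancel₀ _ (H.f1 i).ne'] at this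
    exact (mul_eq_left₀ hh0.ne').1 this.symm
  · have : ∀ i, f i 1 • B⁻¹ *ᵥ ((h / f i 1) • f i) = h • B⁻¹ *ᵥ f i := fun i => by
      rw [mulVec_smul, smul_smul, mul_div_cancel₀ _ (H.f1 i).ne']
    simp only [this]
    rw [← Finset.smul_sum, ← mulVec_sum, H.fsum, ← mulVec_smul, ← hBe1, inv_mul_vec hB]
  · have hAb : ∀ i j, |A i j| ≤ 19 * C1 * h := fun i j => by
      obtain ⟨Y, ⟨hY, hY9⟩, hYt⟩ := hcol j
      have h1 := congrFun hYt i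
      simp only [mulVec_single, Pi.smul_apply, col_apply, MulOpposite.smul_eq_mul_unop,
        MulOpposite.unop_op, mul_one] at h1
      rw [← h1]
      exact (abs_coord_le _ i).trans ((norm_tt_le Y).trans (hcap Y hY hY9).2.2)
    have hBb : ∀ i j, |B i j| ≤ 19 * C1 * h :=
      cons1_abs_le (by rw [abs_of_pos hδ]; nlinarith)
        (cons1_abs_le (by rw [abs_of_pos hh0]; nlinarith) hAb)
    have h1 := norm_mulVec_le B (by positivity) hBb (∑ i, c i • B⁻¹ *ᵥ ((h / f i 1) • f i))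
    have h2 : B *ᵥ (∑ i, c i • B⁻¹ *ᵥ ((h / f i 1) • f i)) = h • ∑ i, (c i / f i 1) • f i := by
      rw [mulVec_sum, Finset.smul_sum]
      refine Finset.sum_congr rfl fun i _ => ?_
      rw [mulVec_smul, mul_inv_vec hB, smul_smul, smul_smul]
      congr 1; ring
    rw [h2, norm_smul, Real.norm_eq_abs, abs_of_pos hh0] at h1
    push_cast at h1
    refine le_of_mul_le_mul_left ?_ hh0
    linarith

end Dich

end Vale.Agent.P252
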