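import Vale.Agent.P252.Dichotomy4

/-! The wedge case of the dichotomy: uniform inner balls and transfer to frames of `K`. -/

open Matrix Filter Topology

namespace Vale.Agent.P252

namespace Dich

variable {m : ℕ}

lemma WF.norm_le {K K' : Set (Fin (m + 2) → ℝ)} {d : ℕ} {f : Fin d → Fin (m + 2) → ℝ} {M δ τ : ℝ}
    (h : WF K K' f M δ τ) {Z : Fin (m + 2) → ℝ} (hZ : Z ∈ K') {s : ℝ} (hs : 1 ≤ s)
    (hZs : Z 0 + Z 1 ≤ s * 9) : ‖Z‖ ≤ s * 19 :=
  cap_growth h.cls.2.1 h.zero (e := e01 m) (fun Z hZ h1 => h.cap Z hZ (by rwa [e01_dot] at h1)) hZ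
    hs (by rwa [e01_dot])

lemma wedge_limit {K : Set (Fin (m + 2) → ℝ)} {d : ℕ} {f : Fin d → Fin (m + 2) → ℝ} {M : ℝ}
    (hli : LinearIndependent ℝ f) (hf1 : ∀ i, 0 < f i 1)
    {Ks : ℕ → Set (Fin (m + 2) → ℝ)} {δ τ : ℕ → ℝ} (H : ∀ k, WF K (Ks k) f M (δ k) (τ k))
    (hδ : Tendsto δ UU (𝓝 0)) (hτ : Tendsto τ UU (𝓝 0)) {ζ Y : Fin (m + 2) → ℝ} (hζ : ζ ≠ 0)
    (hY : Y ∈ ULim Ks) (hsup : ∀ Z ∈ ULim Ks, 0 ≤ ζ ⬝ᵥ (Z - Y)) (hζ0 : ζ 0 = 0) (hζ1 : ζ 1 = 0) :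
    Nice K (ULim Ks) ∧ FP (ULim Ks) (d + 1) := by
  have hcls : Cls K (ULim Ks) := cls_ulim fun k => (H k).cls
  have hz : (0 : Fin (m + 2) → ℝ) ∈ ULim Ks := mem_ulim_const (Eventually.of_forall fun k => (H k).zero)
  have hr0 : Rec (ULim Ks) (Pi.single 0 1) := by
    refine rec_of_one hcls.1 hcls.2.1 (x := 0) fun s hs => ?_
    have : ∀ᶠ k in UU, δ k * s < 1 :=
      (hδ.mul_const s).eventually (gt_mem_nhds (by simp))
    refine mem_ulim_const (this.mono fun k hk => ?_)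
    have h1 := (H k).mem0 s hs hk.le
    rwa [zero_add, ← Pi.single_smul, smul_eq_mul, mul_one]
  have hr1 : Rec (ULim Ks) (Pi.single 1 1) :=
    rec_ulim (f := fun _ => Pi.single 1 1) (Eventually.of_forall fun k => (H k).rec1)
      tendsto_const_nhds
  refine ⟨⟨hcls, fun ξ c hc => ?_, e01 m, 19, by norm_num, fun Z hZ => ?_⟩, ?_⟩
  · have h0 := hc 0 hz
    have h1 := hc _ (hr0 0 hz 1 zero_le_one)
    have h2 := hc _ (hr1 0 hz 1 zero_le_one)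
    rw [dotProduct_zero] at h0
    subst h0
    simp only [one_smul, zero_add, dotProduct_single, mul_one] at h1 h2
    refine ext2 h1 h2 (funext fun j => ?_)
    choose P hP hP9 hPt using fun k => (H k).pts j
    obtain ⟨Q, hQ⟩ := ulim (x := P) (R := 19)
      (Eventually.of_forall fun k => (H k).cap _ (hP k) (hP9 k))
    have h3 := hc Q (mem_ulim (Eventually.of_forall hP) hQ)
    have h4 : tt Q = Pi.single j 1 := by
      have hctt : Continuous (tt (m := m)) := cont_tail.comp cont_tail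
      have := (hctt.tendsto Q).comp hQ
      simp only [Function.comp_def, hPt] at this
      exact tendsto_nhds_unique this tendsto_const_nhds
    rw [dot_split, h1, h2, h4] at h3
    have h5 : tt ξ j = 0 := by simpa using h3
    exact h5
  · obtain ⟨z, hz1, hz2⟩ := ulim_seq hZ
    have h0 : 0 ≤ Z 0 := ge_of_tendsto (tend_coord hz2 0) (hz1.mono fun k hk => (H k).pos _ hk)
    have h1 : 0 ≤ Z 1 := by
      have := le_of_tendsto_of_tendsto (hτ.mul ((tend_coord hz2 0).const_add 1)).neg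
        (tend_coord hz2 1) (hz1.mono fun k hk => (H k).low _ hk)
      simpa using this
    have h2 := le_of_tendsto_of_tendsto hz2.norm
      (((((tend_coord hz2 0).add (tend_coord hz2 1)).abs).const_add 1).mul_const 19)
      (hz1.mono fun k hk => (H k).norm_le hk (by linarith [abs_nonneg (z k 0 + z k 1)])
        (by linarith [abs_nonneg (z k 0 + z k 1), le_abs_self (z k 0 + z k 1)]))
    rw [abs_of_nonneg (by linarith)] at h2
    rw [e01_dot]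
    linarith
  · choose g hg hgs hgM using fun k => (H k).flat
    have hl : ∀ i, ∃ G, Tendsto (fun k => g k i) UU (𝓝 G) := fun i =>
      ulim (R := 19) (Eventually.of_forall fun k => (H k).cap _
        (by simpa using (hg k i).1 0 (H k).zero 1 zero_le_one)
        (by rw [(hg k i).2.1, (hg k i).2.2]; norm_num))
    choose G hG using hl
    have hGr : ∀ i, Rec (ULim Ks) (G i) := fun i =>
      rec_ulim (Eventually.of_forall fun k => (hg k i).1) (hG i)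
    have hG0 : ∀ i, G i 0 = 0 := fun i => by
      have := tend_coord (hG i) 0
      simp only [(hg _ i).2.1] at this
      exact tendsto_nhds_unique this tendsto_const_nhds
    have hsum : ∀ c : Fin d → ℝ, Tendsto (fun k => ∑ i, c i • g k i) UU (𝓝 (∑ i, c i • G i)) :=
      fun c => tendsto_finsetSum _ fun i _ => (hG i).const_smul (c i)
    have hGs : ∑ i, f i 1 • G i = Pi.single 1 1 := by
      have := hsum fun i => f i 1
      simp only [hgs] at this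
      exact tendsto_nhds_unique this tendsto_const_nhds
    have hGl : LinearIndependent ℝ G := by
      rw [Fintype.linearIndependent_iff] at hli ⊢
      intro c hc i
      have h1 := ge_of_tendsto' ((hsum c).norm.const_mul M) fun k => hgM k c
      rw [hc, norm_zero, mul_zero, norm_le_zero_iff] at h1
      have := hli _ h1 i
      exact (div_eq_zero_iff.1 this).resolve_right (hf1 i).ne'
    have hGn : ∀ i, 0 ≤ ζ ⬝ᵥ G i := fun i => by
      simpa using hsup _ (hGr i Y hY 1 zero_le_one)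
    have hGz : ∀ i, ζ ⬝ᵥ G i = 0 := fun i => by
      have h1 : ∑ i, f i 1 * (ζ ⬝ᵥ G i) = 0 := by
        have := congrArg (ζ ⬝ᵥ ·) hGs
        simpa [dotProduct_sum, hζ1] using this
      have := (Finset.sum_eq_zero_iff_of_nonneg fun i _ => mul_nonneg (hf1 i).le (hGn i)).1 h1 i
        (Finset.mem_univ i)
      exact (mul_eq_zero.1 this).resolve_left (hf1 i).ne'
    refine ⟨ζ, Y, hζ, hY, hsup, Fin.cons (Pi.single 0 1) G, ?_, fun i => ?_⟩
    · rw [Fintype.linearIndependent_iff] at hGl ⊢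
      intro c hc
      rw [Fin.sum_univ_succ] at hc
      simp only [Fin.cons_zero, Fin.cons_succ] at hc
      have h0 : c 0 = 0 := by simpa [Finset.sum_apply, hG0] using congrFun hc 0
      rw [h0, zero_smul, zero_add] at hc
      intro i
      exact Fin.cases h0 (fun j => hGl _ hc j) i
    · refine Fin.cases ⟨hr0, by simpa using hζ0⟩ (fun j => ⟨hGr j, hGz j⟩) i

lemma wedge_claim {K : Set (Fin (m + 2) → ℝ)} {d : ℕ} {f : Fin d → Fin (m + 2) → ℝ} {M C1 : ℝ}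
    (hC1 : 1 ≤ C1) (hli : LinearIndependent ℝ f) (hf1 : ∀ i, 0 < f i 1)
    (hno : ∀ K', Nice K K' → ¬ FP K' (d + 1)) (F : ℝ → ℝ → Set (Fin (m + 2) → ℝ))
    (hF : ∀ δ h, 0 < δ → δ ≤ 1 → 2 * C1 ≤ h → WF K (F δ h) f M δ (C1 / h)) :
    ∃ C δs hs : ℝ, 22 ≤ C ∧ 0 < δs ∧ δs ≤ 1 ∧ 2 * C1 ≤ hs ∧ ∀ δ h, 0 < δ → δ ≤ δs → hs ≤ h →
      ∀ Z ∈ F δ h, Z 0 + Z 1 ≤ 9 → ∀ W : Fin (m + 2) → ℝ, ‖W‖ ≤ 1 →
        Z + C • e01 m + (2 / C) • W ∈ F δ h := by
  by_contra hc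
  push Not at hc
  have h1 : ∀ k : ℕ, ∃ δ h, 0 < δ ∧ δ ≤ ((k : ℝ) + 1)⁻¹ ∧ 2 * C1 * ((k : ℝ) + 1) ≤ h ∧
      ∃ X ∈ F δ h, X 0 + X 1 ≤ 9 ∧ ∃ ξ : Fin (m + 2) → ℝ, ∑ j, |ξ j| = 1 ∧
      |ξ 0| ≤ ((k : ℝ) + 1)⁻¹ ∧ |ξ 1| ≤ ((k : ℝ) + 1)⁻¹ ∧
      ∀ Z ∈ F δ h, ξ ⬝ᵥ X - 4 * ((k : ℝ) + 1)⁻¹ ≤ ξ ⬝ᵥ Z := by
    intro k
    have hk : (0 : ℝ) ≤ k := Nat.cast_nonneg k
    set c : ℝ := (k : ℝ) + 22 with hcdef
    have hc22 : 22 ≤ c := by linarith
    have hc0 : 0 < c := by linarith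
    set u := c⁻¹ with hu
    have hu0 : 0 < u := inv_pos.2 hc0
    have huc : u * c = 1 := inv_mul_cancel₀ hc0.ne'
    have hu1 : u ≤ 1 / 22 := by nlinarith
    have huk : u ≤ ((k : ℝ) + 1)⁻¹ := inv_anti₀ (by positivity) (by linarith)
    have hu3 : u * u * u ≤ u := by nlinarith [mul_pos hu0 hu0]
    obtain ⟨δ, h, hδ, hδ1, hh, X, hX, hX9, W, hW, hnot⟩ := hc c (u * u * u) (2 * C1 * (k + 1)) hc22
      (by positivity) (by linarith) (by nlinarith)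
    have G := hF δ h hδ (by linarith) (by nlinarith)
    obtain ⟨ξ, hξ, hsep⟩ := separate G.cls.1 G.cls.2.1 ⟨0, G.zero⟩ hnot
    have hξ1 : 0 ≤ ξ 1 := by simpa using G.rec1.dot_nonneg G.zero hsep
    have hW' := abs_le.1 ((dot_le_norm hξ W).trans hW)
    have hX' := abs_le.1 ((dot_le_norm hξ X).trans (G.cap X hX hX9))
    have hξ0 := abs_le.1 (abs_le_one hξ 0)
    simp only [dotProduct_add, dotProduct_smul, smul_eq_mul, dot_e01, div_eq_mul_inv, ← hu] at hsep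
    have a1 := hsep X hX
    have a2 := hsep _ (G.mem0 δ⁻¹ (inv_pos.2 hδ).le (by rw [mul_inv_cancel₀ hδ.ne']))
    simp only [dotProduct_single] at a2
    have b1 : c * (ξ 0 + ξ 1) ≤ 2 * u := by nlinarith
    have b2 : -(2 * c) ≤ ξ 0 * δ⁻¹ := by nlinarith
    have b3 : -(2 * (u * u)) ≤ ξ 0 := by
      have e : ξ 0 = ξ 0 * δ⁻¹ * δ := by field_simp
      have : -(2 * c) * δ ≤ ξ 0 * δ⁻¹ * δ := mul_le_mul_of_nonneg_right b2 hδ.le
      have h5 : 2 * c * δ ≤ 2 * c * (u * u * u) := by gcongr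
      have h6 : 2 * c * (u * u * u) = 2 * (u * u) := by
        rw [show 2 * c * (u * u * u) = 2 * (u * u) * (u * c) by ring, huc, mul_one]
      linarith
    have b4 : ξ 0 + ξ 1 ≤ 2 * (u * u) := by
      have := mul_le_mul_of_nonneg_left b1 hu0.le
      rw [← mul_assoc, huc] at this
      linarith
    have b5 : 4 * (u * u) ≤ u := by nlinarith
    have b6 : -(2 * u) ≤ c * (ξ 0 + ξ 1) := by
      have : c * (-(2 * (u * u))) ≤ c * (ξ 0 + ξ 1) := by gcongr; linarith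
      rw [show c * (-(2 * (u * u))) = -(2 * u) * (u * c) by ring, huc] at this
      linarith
    refine ⟨δ, h, hδ, by linarith, hh, X, hX, hX9, ξ, hξ, abs_le.2 ⟨by nlinarith, by nlinarith⟩,
      abs_le.2 ⟨by linarith, by linarith⟩, fun Z hZ => ?_⟩
    have := hsep Z hZ
    nlinarith
  choose δ h hδ hδ1 hh X hX hX9 ξ hξ hξ0 hξ1 hs using h1
  have hk1 : ∀ k : ℕ, (1 : ℝ) ≤ k + 1 := fun k => by linarith [Nat.cast_nonneg (α := ℝ) k]
  have G : ∀ k, WF K (F (δ k) (h k)) f M (δ k) (C1 / h k) := fun k =>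
    hF _ _ (hδ k) ((hδ1 k).trans (inv_le_one_of_one_le₀ (hk1 k))) (by nlinarith [hh k, hk1 k])
  obtain ⟨ζ, Y, hζ, hζt, -, hY, hsup⟩ := support_limit (K := fun k => F (δ k) (h k)) hξ hX
    (fun k => (G k).cap _ (hX k) (hX9 k)) (by simpa using inv_tend.const_mul 4) hs
  have hz : ∀ j, (∀ k : ℕ, |ξ k j| ≤ ((k : ℝ) + 1)⁻¹) → ζ j = 0 := fun j hj =>
    abs_nonpos_iff.1 (le_of_tendsto_of_tendsto' (tend_coord hζt j).abs inv_tend hj)
  have := wedge_limit hli hf1 G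
    (squeeze_zero (fun k => (hδ k).le) hδ1 inv_tend)
    (squeeze_zero (fun k => div_nonneg (by linarith) (by nlinarith [hh k, hk1 k])) (fun k => by
      have h1 := hk1 k
      have h2 := hh k
      rw [div_le_iff₀ (by nlinarith), inv_mul_eq_div, le_div_iff₀ (by linarith)]
      nlinarith) inv_tend) hζ hY hsup (hz 0 hξ0) (hz 1 hξ1)
  exact hno _ this.1 this.2

lemma cap_transfer {N : ℕ} {K0 K1 : Set (Fin N → ℝ)} (hcv : Convex ℝ K1) {R ε D H : ℝ}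
    (hA : Approx K1 K0 R ε) (h0 : (0 : Fin N → ℝ) ∈ K0) {e : Fin N → ℝ}
    (he : ∀ W, |e ⬝ᵥ W| ≤ 2 * ‖W‖) (hε : ε ≤ 1 / 4) (hH : 1 ≤ H) (hD : 0 ≤ D) (hR : D + 3 ≤ R)
    (hcap : ∀ Z ∈ K0, e ⬝ᵥ Z ≤ H + 1 → ‖Z‖ ≤ D) : ∀ Z ∈ K1, e ⬝ᵥ Z ≤ H → ‖Z‖ ≤ D + 2 := by
  intro Z hZ hZH
  by_contra hc
  push Not at hc
  obtain ⟨O, hO, hOε⟩ := hA.2 0 h0 (by simp; linarith)
  rw [zero_sub, norm_neg] at hOε
  have hZp : 0 < ‖Z‖ := by linarith
  set t := (D + 2) / ‖Z‖ with ht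
  have ht0 : 0 ≤ t := by positivity
  have ht1 : t ≤ 1 := by rw [ht, div_le_one hZp]; exact hc.le
  have hY := hcv hO hZ (sub_nonneg.2 ht1) ht0 (by ring)
  have n1 : ‖t • Z‖ = D + 2 := by
    rw [norm_smul, Real.norm_eq_abs, abs_of_nonneg ht0, ht, div_mul_cancel₀ _ hZp.ne']
  have n2 : ‖(1 - t) • O‖ ≤ 1 / 4 := by
    rw [norm_smul, Real.norm_eq_abs, abs_of_nonneg (sub_nonneg.2 ht1)]
    nlinarith [norm_nonneg O]
  have n3 := norm_add_le ((1 - t) • O) (t • Z)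
  have n4 : ‖t • Z‖ ≤ ‖(1 - t) • O + t • Z‖ + ‖(1 - t) • O‖ := by
    simpa using norm_sub_le ((1 - t) • O + t • Z) ((1 - t) • O)
  obtain ⟨Y', hY', hYY⟩ := hA.1 _ hY (by linarith)
  have h1 := abs_le.1 (he ((1 - t) • O + t • Z - Y'))
  have h2 := abs_le.1 (he O)
  have h3 : e ⬝ᵥ ((1 - t) • O + t • Z) ≤ H := by
    rw [dotProduct_add, dotProduct_smul, dotProduct_smul, smul_eq_mul, smul_eq_mul]
    have : (1 - t) * (e ⬝ᵥ O) ≤ (1 - t) * H := by gcongr; linarith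
    nlinarith
  rw [dotProduct_sub] at h1
  have h4 := hcap Y' hY' (by linarith)
  have h5 := norm_sub_norm_le ((1 - t) • O + t • Z) Y'
  linarith

lemma inner_transfer {N : ℕ} {K0 K1 : Set (Fin N → ℝ)} (hcl : IsClosed K1) (hcv : Convex ℝ K1)
    {R ε c : ℝ} (hε : 0 < ε) (hA : Near K0 K1 R ε) {Y P : Fin N → ℝ}
    (hball : ∀ Q, ‖Q - Y‖ ≤ c → Q ∈ K0) (hR : ‖Y‖ + c ≤ R) (hP : ‖P - Y‖ ≤ c - 2 * ε) : P ∈ K1 := by
  by_contra hc
  have hc0 : 0 ≤ c := by linarith [norm_nonneg (P - Y)]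
  obtain ⟨Y', hY', -⟩ := hA Y (hball Y (by simpa using hc0)) (by linarith)
  obtain ⟨ξ, hξ, hsep⟩ := separate hcl hcv ⟨Y', hY'⟩ hc
  set σ : Fin N → ℝ := fun k => if 0 ≤ ξ k then 1 else -1 with hσ
  have hσ1 : ‖σ‖ ≤ 1 := (pi_norm_le_iff_of_nonneg zero_le_one).2 fun k => by
    simp only [hσ]; split_ifs <;> simp
  have hσ2 : ξ ⬝ᵥ σ = 1 := by
    rw [← hξ, dotProduct]
    refine Finset.sum_congr rfl fun k _ => ?_
    simp only [hσ]
    split_ifs with h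
    · rw [abs_of_nonneg h, mul_one]
    · rw [abs_of_neg (not_le.1 h)]; ring
  have hQ : ‖P - (2 * ε) • σ - Y‖ ≤ c := by
    rw [sub_right_comm]
    refine (norm_sub_le _ _).trans ?_
    rw [norm_smul, Real.norm_eq_abs, abs_of_pos (by positivity)]
    nlinarith
  obtain ⟨Z, hZ, hZQ⟩ := hA _ (hball _ hQ) (by
    have := norm_sub_norm_le (P - (2 * ε) • σ) Y
    linarith)
  have h1 := abs_le.1 ((dot_le_norm hξ _).trans hZQ)
  have h2 := hsep Z hZ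
  rw [dotProduct_sub, dotProduct_sub, dotProduct_smul, hσ2, smul_eq_mul] at h1
  linarith

lemma abs_e01_le (W : Fin (m + 2) → ℝ) : |e01 m ⬝ᵥ W| ≤ 2 * ‖W‖ := by
  rw [e01_dot]
  linarith [abs_add_le (W 0) (W 1), abs_coord_le W 0, abs_coord_le W 1]

lemma norm_e01 : ‖e01 m‖ ≤ 1 :=
  norm_le3 (by simp [e01]) (by simp [e01]) (by
    have : tt (e01 m) = tt (Pi.single 0 1) + tt (Pi.single 1 1) := rfl
    rw [this, tt_single0, tt_single1]; simp)

lemma capHyp_transfer {K0 K1 K2 : Set (Fin (m + 2) → ℝ)} (hcl : IsClosed K1) (hcv : Convex ℝ K1)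
    {C : ℝ} (hC : 22 ≤ C) (hA : Approx K1 K0 (C + 30) (1 / (3 * C)))
    (h0 : (0 : Fin (m + 2) → ℝ) ∈ K0) (hcap : ∀ Z ∈ K0, Z 0 + Z 1 ≤ 9 → ‖Z‖ ≤ 19)
    (hin : ∀ Z ∈ K0, Z 0 + Z 1 ≤ 9 → ∀ W : Fin (m + 2) → ℝ, ‖W‖ ≤ 1 →
      Z + C • e01 m + (2 / C) • W ∈ K0)
    {σ : Fin (m + 2) → ℝ} (hσ : ‖σ‖ ≤ 1)
    (hσ1 : 0 ≤ σ 0 + σ 1) (hK2 : ∀ Z, Z ∈ K2 ↔ Z - σ ∈ K1) : CapHyp K2 (e01 m) 8 C := by
  have hC0 : 0 < C := by linarith
  have hε : 1 / (3 * C) ≤ 1 / 4 := by gcongr; linarith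
  have hcap1 := cap_transfer hcv hA h0 abs_e01_le hε (H := 8) (D := 19) (by norm_num) (by norm_num)
    (by linarith) fun Z hZ h9 => hcap Z hZ (by rw [e01_dot] at h9; linarith)
  have hb : ∀ Z ∈ K2, e01 m ⬝ᵥ Z ≤ 8 → e01 m ⬝ᵥ (Z - σ) ≤ 8 ∧ ‖Z - σ‖ ≤ 21 := fun Z hZ h8 => by
    have : e01 m ⬝ᵥ (Z - σ) ≤ 8 := by rw [dotProduct_sub, e01_dot σ]; linarith
    exact ⟨this, (hcap1 _ ((hK2 Z).1 hZ) this).trans (by norm_num)⟩
  refine ⟨fun Z hZ h8 => ?_, fun Z hZ h8 W hW => ?_⟩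
  · have := norm_sub_norm_le Z σ
    linarith [(hb Z hZ h8).2]
  · obtain ⟨h1, h2⟩ := hb Z hZ h8
    obtain ⟨Z', hZ', hZZ⟩ := hA.1 _ ((hK2 Z).1 hZ) (by linarith)
    have h3 := abs_le.1 (abs_e01_le (Z - σ - Z'))
    rw [dotProduct_sub, e01_dot Z'] at h3
    have h9 : Z' 0 + Z' 1 ≤ 9 := by linarith
    rw [hK2]
    have h2C : 2 / C ≤ 1 := by rw [div_le_one hC0]; linarith
    refine inner_transfer hcl hcv (by positivity) hA.2 (Y := Z' + C • e01 m) (c := 2 / C)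
      (fun Q hQ => ?_) ?_ ?_
    · have := hin Z' hZ' h9 ((C / 2) • (Q - (Z' + C • e01 m))) (by
        rw [norm_smul, Real.norm_eq_abs, abs_of_pos (by positivity)]
        calc _ ≤ C / 2 * (2 / C) := by gcongr
          _ = 1 := by field_simp)
      rwa [smul_smul, show 2 / C * (C / 2) = 1 by field_simp, one_smul, add_sub_cancel] at this
    · have h4 := norm_add_le Z' (C • e01 m)
      rw [norm_smul, Real.norm_eq_abs, abs_of_pos hC0] at h4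
      have h5 : C * ‖e01 m‖ ≤ C * 1 := by gcongr; exact norm_e01
      linarith [hcap Z' hZ' h9]
    · rw [show Z + C • e01 m + C⁻¹ • W - σ - (Z' + C • e01 m) = (Z - σ - Z') + C⁻¹ • W by abel]
      refine (norm_add_le _ _).trans ?_
      rw [norm_smul, Real.norm_eq_abs, abs_of_pos (inv_pos.2 hC0)]
      have h5 : C⁻¹ * ‖W‖ ≤ C⁻¹ * 1 := by gcongr
      have h6 : 2 / C - 2 * (1 / (3 * C)) = 1 / (3 * C) + C⁻¹ * 1 := by field_simp; ring
      linarith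

end Dich

end Vale.Agent.P252
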