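import Mathlib

/-! Elementary inequalities for positive semidefinite real matrices. -/

open Matrix Finset
open scoped MatrixOrder

namespace Vale.Agent.P252

variable {ι : Type} [Fintype ι] [DecidableEq ι]

lemma psd_exists_factor {M : Matrix ι ι ℝ} (hM : M.PosSemidef) :
    ∃ B : Matrix ι ι ℝ, M = Bᵀ * B := by
  obtain ⟨B, hB⟩ := CStarAlgebra.nonneg_iff_eq_star_mul_self.mp hM.nonneg
  exact ⟨B, hB⟩

lemma pd_exists_factor {M : Matrix ι ι ℝ} (hM : M.PosDef) :
    ∃ B : Matrix ι ι ℝ, B.det ≠ 0 ∧ M = Bᵀ * B := by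
  obtain ⟨B, hB⟩ := psd_exists_factor hM.posSemidef
  refine ⟨B, fun h => ?_, hB⟩
  have := hM.det_pos
  rw [hB, det_mul, h, mul_zero] at this
  exact lt_irrefl _ this

omit [DecidableEq ι] [Fintype ι] in
lemma psd_symm {M : Matrix ι ι ℝ} (hM : M.PosSemidef) (i j : ι) : M i j = M j i := by
  have := hM.1.apply j i
  simpa using this

omit [DecidableEq ι] in
lemma psd_quad_nonneg {M : Matrix ι ι ℝ} (hM : M.PosSemidef) (v : ι → ℝ) :
    0 ≤ v ⬝ᵥ M *ᵥ v := by
  simpa using hM.dotProduct_mulVec_nonneg v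

omit [DecidableEq ι] in
lemma psd_of_quad {M : Matrix ι ι ℝ} (hs : ∀ i j, M i j = M j i)
    (h : ∀ v : ι → ℝ, 0 ≤ v ⬝ᵥ M *ᵥ v) : M.PosSemidef := by
  refine PosSemidef.of_dotProduct_mulVec_nonneg ?_ (fun v => by simpa using h v)
  ext i j; simp [hs j i]

lemma det_le_trace_pow {M : Matrix ι ι ℝ} (hM : M.PosSemidef) :
    M.det ≤ M.trace ^ Fintype.card ι := by
  have h1 := hM.1.det_eq_prod_eigenvalues
  have h2 := hM.1.trace_eq_sum_eigenvalues
  simp only [RCLike.ofReal_real_eq_id, id] at h1 h2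
  rw [h1, h2, ← Finset.card_univ]
  rw [← Finset.prod_const]
  apply Finset.prod_le_prod
  · intro i _; exact hM.eigenvalues_nonneg i
  · intro i _
    exact Finset.single_le_sum (fun j _ => hM.eigenvalues_nonneg j) (Finset.mem_univ i)

omit [DecidableEq ι] in
lemma psd_conj {M : Matrix ι ι ℝ} (hM : M.PosSemidef) {κ : Type} [Fintype κ]
    (B : Matrix ι κ ℝ) : (Bᵀ * M * B).PosSemidef :=
  hM.conjTranspose_mul_mul_same B

/-- The entrywise pairing of two positive semidefinite matrices is nonnegative. -/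
lemma psd_pair_nonneg {M N : Matrix ι ι ℝ} (hM : M.PosSemidef) (hN : N.PosSemidef) :
    0 ≤ ∑ i, ∑ j, M i j * N i j := by
  obtain ⟨B, rfl⟩ := psd_exists_factor hM
  have : ∑ i, ∑ j, (Bᵀ * B) i j * N i j = ∑ k, (B k) ⬝ᵥ N *ᵥ (B k) := by
    simp only [mul_apply, transpose_apply, dotProduct, mulVec, Finset.sum_mul, Finset.mul_sum]
    rw [Finset.sum_comm]
    conv_rhs => rw [Finset.sum_comm]
    conv_lhs => rw [Finset.sum_comm]
    refine Finset.sum_congr rfl fun i _ => ?_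
    rw [Finset.sum_comm]
    refine Finset.sum_congr rfl fun k _ => Finset.sum_congr rfl fun j _ => by ring
  rw [this]
  exact Finset.sum_nonneg fun k _ => psd_quad_nonneg hN _

lemma det_le_det_mul_pair_pow {H M : Matrix ι ι ℝ} (hH : H.PosDef) (hM : M.PosSemidef) :
    M.det ≤ H.det * (∑ i, ∑ j, H⁻¹ i j * M i j) ^ Fintype.card ι := by
  obtain ⟨B, hB, rfl⟩ := pd_exists_factor hH
  have hu : IsUnit B.det := isUnit_iff_ne_zero.2 hB
  have h1 := det_le_trace_pow (psd_conj hM B⁻¹)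
  have h2 : (B⁻¹ᵀ * M * B⁻¹).trace = ∑ i, ∑ j, (Bᵀ * B)⁻¹ i j * M i j := by
    rw [Matrix.trace_mul_cycle, Matrix.mul_inv_rev, ← Matrix.transpose_nonsing_inv]
    simp only [trace, diag_apply, mul_apply (M := B⁻¹ * B⁻¹ᵀ)]
    exact Finset.sum_congr rfl fun i _ => Finset.sum_congr rfl fun j _ => by
      rw [psd_symm hM j i]
  have h3 : (B⁻¹ᵀ * M * B⁻¹).det = M.det / (B.det * B.det) := by
    rw [det_mul, det_mul, det_transpose, det_nonsing_inv, Ring.inverse_eq_inv]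
    field_simp
  rw [h2, h3, div_le_iff₀ (mul_self_pos.2 hB)] at h1
  rw [det_mul, det_transpose, mul_comm]
  exact h1

omit [DecidableEq ι] in
/-- Cauchy-Schwarz for a positive semidefinite form. -/
lemma psd_cs {M : Matrix ι ι ℝ} (hM : M.PosSemidef) (v w : ι → ℝ) :
    (v ⬝ᵥ M *ᵥ w) ^ 2 ≤ (v ⬝ᵥ M *ᵥ v) * (w ⬝ᵥ M *ᵥ w) := by
  have hs : w ⬝ᵥ M *ᵥ v = v ⬝ᵥ M *ᵥ w := by
    simp only [dotProduct, mulVec, Finset.mul_sum]
    rw [Finset.sum_comm]
    exact Finset.sum_congr rfl fun i _ => Finset.sum_congr rfl fun j _ => by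
      rw [psd_symm hM j i]; ring
  have h : ∀ t : ℝ, 0 ≤ (w ⬝ᵥ M *ᵥ w) * (t * t) + (2 * (v ⬝ᵥ M *ᵥ w)) * t + v ⬝ᵥ M *ᵥ v :=
    fun t => by
      have := psd_quad_nonneg hM (v + t • w)
      simp only [mulVec_add, mulVec_smul, add_dotProduct, dotProduct_add, smul_dotProduct,
        dotProduct_smul, smul_eq_mul, hs] at this
      linarith
  have := discrim_le_zero h
  unfold discrim at this
  nlinarith

end Vale.Agent.P252
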