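import Vale.Agent.P252.ASDefs
import Vale.Agent.P252.Calc
import Vale.Agent.P252.MatIneq

/-! Calculus for a diffusion structure. -/

open scoped ContDiff Topology
open Matrix Finset MeasureTheory

namespace Vale.Agent.P252

variable {n : ℕ}

/-! ### first derivatives -/

lemma pd_congr {g h : E n → ℝ} {x : E n} (e : g =ᶠ[𝓝 x] h) (i : Fin n) : pd i g x = pd i h x := by
  simp only [pd, e.fderiv_eq]

lemma pd_congr_ev {g h : E n → ℝ} {x : E n} (e : g =ᶠ[𝓝 x] h) (i : Fin n) :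
    pd i g =ᶠ[𝓝 x] pd i h :=
  e.eventuallyEq_nhds.mono fun _ hy => pd_congr hy i

lemma grad_congr {g h : E n → ℝ} {x : E n} (e : g =ᶠ[𝓝 x] h) : grad g x = grad h x :=
  funext fun i => pd_congr e i

lemma hess_congr {g h : E n → ℝ} {x : E n} (e : g =ᶠ[𝓝 x] h) : hess g x = hess h x := by
  ext i j; exact pd_congr (pd_congr_ev e j) i

lemma hasGrad_of_diff {g : E n → ℝ} {x : E n} (h : DifferentiableAt ℝ g x) :
    HasGrad g x (grad g x) := ⟨h, fun _ => rfl⟩

lemma HasGrad.grad_eq {g : E n → ℝ} {x : E n} {v : Fin n → ℝ} (h : HasGrad g x v) :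
    grad g x = v := funext h.2

lemma HasGrad.congr_fun {g h : E n → ℝ} {x : E n} {v : Fin n → ℝ} (hg : HasGrad g x v)
    (e : h =ᶠ[𝓝 x] g) : HasGrad h x v :=
  ⟨hg.1.congr_of_eventuallyEq e, fun i => (pd_congr e i).trans (hg.2 i)⟩

lemma HasGrad.congr' {g : E n → ℝ} {x : E n} {v v' : Fin n → ℝ} (hg : HasGrad g x v)
    (e : v = v') : HasGrad g x v' := e ▸ hg

lemma HasGrad.add' {g h : E n → ℝ} {x : E n} {v w : Fin n → ℝ} (hg : HasGrad g x v)
    (hh : HasGrad h x w) : HasGrad (fun x => g x + h x) x (v + w) := hg.add hh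

lemma HasGrad.mul' {g h : E n → ℝ} {x : E n} {v w : Fin n → ℝ} (hg : HasGrad g x v)
    (hh : HasGrad h x w) : HasGrad (fun x => g x * h x) x (h x • v + g x • w) :=
  (hg.mul hh).congr fun i => by simp; ring

lemma HasGrad.comp' {g : E n → ℝ} {x : E n} {v : Fin n → ℝ} (hg : HasGrad g x v) {φ : ℝ → ℝ}
    {φ' : ℝ} (hφ : HasDerivAt φ φ' (g x)) : HasGrad (fun x => φ (g x)) x (φ' • v) :=
  hg.comp hφ

lemma hasGrad_const' (c : ℝ) (x : E n) : HasGrad (fun _ => c) x 0 := hasGrad_const c x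

lemma HasGrad.const_mul {g : E n → ℝ} {x : E n} {v : Fin n → ℝ} (hg : HasGrad g x v) (c : ℝ) :
    HasGrad (fun x => c * g x) x (c • v) :=
  ((hasGrad_const c x).mul hg).congr fun i => by simp

lemma HasGrad.neg {g : E n → ℝ} {x : E n} {v : Fin n → ℝ} (hg : HasGrad g x v) :
    HasGrad (fun x => -g x) x (-v) :=
  ((hg.const_mul (-1)).congr_fun (by simp)).congr' (by simp)

lemma HasGrad.sub {g h : E n → ℝ} {x : E n} {v w : Fin n → ℝ} (hg : HasGrad g x v)
    (hh : HasGrad h x w) : HasGrad (fun x => g x - h x) x (v - w) :=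
  ((hg.add' hh.neg).congr_fun (by simp [sub_eq_add_neg])).congr' (by simp [sub_eq_add_neg])

lemma HasGrad.inv {g : E n → ℝ} {x : E n} {v : Fin n → ℝ} (hg : HasGrad g x v) (h0 : g x ≠ 0) :
    HasGrad (fun x => (g x)⁻¹) x ((-(g x ^ 2)⁻¹) • v) := hg.comp' (hasDerivAt_inv h0)

lemma HasGrad.log {g : E n → ℝ} {x : E n} {v : Fin n → ℝ} (hg : HasGrad g x v) (h0 : g x ≠ 0) :
    HasGrad (fun x => Real.log (g x)) x ((g x)⁻¹ • v) := hg.comp' (Real.hasDerivAt_log h0)

lemma HasGrad.sum' {ι : Type} (s : Finset ι) {g : ι → E n → ℝ} {x : E n} {v : ι → Fin n → ℝ}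
    (hg : ∀ k, HasGrad (g k) x (v k)) :
    HasGrad (fun x => ∑ k ∈ s, g k x) x (∑ k ∈ s, v k) :=
  (HasGrad.sum s hg).congr fun i => by simp

lemma contDiffAt_pd {g : E n → ℝ} {x : E n} {N M : WithTop ℕ∞} (hg : ContDiffAt ℝ N g x)
    (h : M + 1 ≤ N) (i : Fin n) : ContDiffAt ℝ M (pd i g) x :=
  (hg.fderiv_right h).clm_apply contDiffAt_const

lemma contDiffAt_pd_one {g : E n → ℝ} {x : E n} (hg : ContDiffAt ℝ 2 g x) (i : Fin n) :
    ContDiffAt ℝ 1 (pd i g) x := contDiffAt_pd hg (by norm_num) i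

lemma continuousAt_pd {g : E n → ℝ} {x : E n} (hg : ContDiffAt ℝ 1 g x) (i : Fin n) :
    ContinuousAt (pd i g) x := (contDiffAt_pd (M := 0) hg (by norm_num) i).continuousAt

lemma continuousAt_grad {g : E n → ℝ} {x : E n} (hg : ContDiffAt ℝ 1 g x) :
    ContinuousAt (grad g) x := continuousAt_pi.2 fun i => continuousAt_pd hg i

lemma ev_diff {g : E n → ℝ} {x : E n} (hg : ContDiffAt ℝ 1 g x) :
    ∀ᶠ y in 𝓝 x, DifferentiableAt ℝ g y :=
  (hg.eventually (by simp)).mono fun _ hy => hy.differentiableAt (by simp)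

lemma fderiv_eq_sum_pd (g : E n → ℝ) (x : E n) (v : E n) :
    fderiv ℝ g x v = ∑ i, v i * pd i g x := by
  have : v = ∑ i, v i • EuclideanSpace.single i (1:ℝ) := by
    ext j; simp [Pi.single_apply]
  conv_lhs => rw [this]
  simp [pd]

lemma pd_comm {g : E n → ℝ} {x : E n} (hg : ContDiffAt ℝ 2 g x) (i j : Fin n) :
    pd i (pd j g) x = pd j (pd i g) x := by
  have hs := hg.isSymmSndFDerivAt (by simp)
  have hd : DifferentiableAt ℝ (fderiv ℝ g) x :=
    (hg.fderiv_right (m := 1) (by norm_num)).differentiableAt (by simp)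
  have key : ∀ v w : E n, fderiv ℝ (fun y => fderiv ℝ g y w) x v = fderiv ℝ (fderiv ℝ g) x v w := by
    intro v w
    rw [fderiv_clm_apply hd (differentiableAt_const w)]
    simp
  unfold pd
  rw [key, key]
  exact hs _ _

lemma hess_symm {g : E n → ℝ} {x : E n} (hg : ContDiffAt ℝ 2 g x) (i j : Fin n) :
    hess g x i j = hess g x j i := pd_comm hg i j

lemma grad_eq_zero_of_isLocalMin {g : E n → ℝ} {x : E n} (h : IsLocalMin g x) : grad g x = 0 := by
  funext i; simp [grad, pd, h.fderiv_eq_zero]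

lemma hess_psd_of_isLocalMin {g : E n → ℝ} {x : E n} (hg : ContDiffAt ℝ 2 g x)
    (h : IsLocalMin g x) : (hess g x).PosSemidef := by
  refine psd_of_quad (hess_symm hg) fun v => ?_
  by_contra hneg
  push Not at hneg
  set w : E n := WithLp.toLp 2 v with hw
  let γ : ℝ → E n := fun t => x + t • w
  have hγ : ∀ t, HasDerivAt γ w t := fun t => by
    exact (((hasDerivAt_id t).smul_const w).const_add x).congr_deriv (by simp)
  have hγ0 : γ 0 = x := by simp [γ]
  have hγc : ContinuousAt γ 0 := (hγ 0).continuousAt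
  have hev : ∀ᶠ t in 𝓝 (0:ℝ), DifferentiableAt ℝ g (γ t) := by
    have := ev_diff (hg.of_le (by norm_num : (1 : WithTop ℕ∞) ≤ 2))
    rw [← hγ0] at this
    exact hγc.eventually this
  have hd1 : ∀ᶠ t in 𝓝 (0:ℝ), HasDerivAt (fun t => -g (γ t)) (-∑ j, v j * pd j g (γ t)) t :=
    hev.mono fun t ht => by
      have := (ht.hasFDerivAt.comp_hasDerivAt t (hγ t)).neg
      rw [fderiv_eq_sum_pd] at this
      exact this
  have hd2 : HasDerivAt (fun t => -∑ j, v j * pd j g (γ t)) (-(v ⬝ᵥ hess g x *ᵥ v)) 0 := by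
    have h1 : ∀ j, HasDerivAt (fun t => v j * pd j g (γ t)) (v j * ∑ i, v i * hess g x i j) 0 :=
      fun j => by
        have h2 : DifferentiableAt ℝ (pd j g) (γ 0) := by
          rw [hγ0]; exact (contDiffAt_pd_one hg j).differentiableAt (by simp)
        have := (h2.hasFDerivAt.comp_hasDerivAt 0 (hγ 0)).const_mul (v j)
        rw [fderiv_eq_sum_pd, hγ0] at this
        exact this
    have := (HasDerivAt.fun_sum (u := Finset.univ) fun j _ => h1 j).neg
    refine this.congr_deriv ?_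
    simp only [dotProduct, mulVec, Finset.mul_sum, neg_inj]
    rw [Finset.sum_comm]
    exact Finset.sum_congr rfl fun i _ => Finset.sum_congr rfl fun j _ => by ring
  have hderiv : deriv (fun t => -g (γ t)) =ᶠ[𝓝 0] fun t => -∑ j, v j * pd j g (γ t) :=
    hd1.mono fun t ht => ht.deriv
  have h0 : deriv (fun t => -g (γ t)) 0 = 0 := by
    rw [hderiv.eq_of_nhds, hγ0]
    have := grad_eq_zero_of_isLocalMin h
    simp [show ∀ j, pd j g x = 0 from fun j => congrFun this j]
  have h2 : deriv (deriv fun t => -g (γ t)) 0 > 0 := by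
    rw [hderiv.deriv_eq, hd2.deriv]; linarith
  have hmin := isLocalMin_of_deriv_deriv_pos h2 h0 hd1.self_of_nhds.continuousAt
  have hmax : IsLocalMin (fun t => g (γ t)) 0 := by
    have : IsLocalMin g (γ 0) := by rw [hγ0]; exact h
    exact this.comp_continuous hγc
  have hconst : (fun t => -g (γ t)) =ᶠ[𝓝 0] fun _ => -g (γ 0) := by
    filter_upwards [hmin, hmax] with t h1 h2
    linarith
  have : deriv (deriv fun t => -g (γ t)) 0 = 0 := by
    rw [hconst.deriv.deriv_eq]; simp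
  linarith

/-! ### the inner product -/

namespace Diff
variable (D : Diff n)

lemma ip_add_left (x : E n) (u v w : Fin n → ℝ) : D.ip x (u + v) w = D.ip x u w + D.ip x v w := by
  simp only [ip, add_dotProduct]; ring
lemma ip_add_right (x : E n) (u v w : Fin n → ℝ) : D.ip x u (v + w) = D.ip x u v + D.ip x u w := by
  simp only [ip, mulVec_add, dotProduct_add]; ring
lemma ip_sub_left (x : E n) (u v w : Fin n → ℝ) : D.ip x (u - v) w = D.ip x u w - D.ip x v w := by
  simp only [ip, sub_dotProduct]; ring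
lemma ip_sub_right (x : E n) (u v w : Fin n → ℝ) : D.ip x u (v - w) = D.ip x u v - D.ip x u w := by
  simp only [ip, mulVec_sub, dotProduct_sub]; ring
lemma ip_neg_left (x : E n) (u w : Fin n → ℝ) : D.ip x (-u) w = -D.ip x u w := by
  simp only [ip, neg_dotProduct]; ring
lemma ip_neg_right (x : E n) (u w : Fin n → ℝ) : D.ip x u (-w) = -D.ip x u w := by
  simp only [ip, mulVec_neg, dotProduct_neg]; ring
lemma ip_smul_left (x : E n) (c : ℝ) (u w : Fin n → ℝ) : D.ip x (c • u) w = c * D.ip x u w := by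
  simp only [ip, smul_dotProduct, smul_eq_mul]; ring
lemma ip_smul_right (x : E n) (c : ℝ) (u w : Fin n → ℝ) : D.ip x u (c • w) = c * D.ip x u w := by
  simp only [ip, mulVec_smul, dotProduct_smul, smul_eq_mul]; ring
lemma ip_zero_left (x : E n) (w : Fin n → ℝ) : D.ip x 0 w = 0 := by simp [ip]
lemma ip_zero_right (x : E n) (w : Fin n → ℝ) : D.ip x w 0 = 0 := by simp [ip]
lemma ip_sum_left {ι : Type} (s : Finset ι) (x : E n) (u : ι → Fin n → ℝ) (w : Fin n → ℝ) :
    D.ip x (∑ k ∈ s, u k) w = ∑ k ∈ s, D.ip x (u k) w := by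
  simp only [ip, sum_dotProduct, Finset.sum_div]
lemma ip_sum_right {ι : Type} (s : Finset ι) (x : E n) (u : ι → Fin n → ℝ) (w : Fin n → ℝ) :
    D.ip x w (∑ k ∈ s, u k) = ∑ k ∈ s, D.ip x w (u k) := by
  simp only [ip, mulVec_sum, dotProduct_sum, Finset.sum_div]

variable {D}

lemma ip_comm {x : E n} (hx : x ∈ D.Ω) (u w : Fin n → ℝ) : D.ip x u w = D.ip x w u := by
  simp only [ip, dotProduct, mulVec, Finset.mul_sum]
  rw [Finset.sum_comm]
  congr 1
  exact Finset.sum_congr rfl fun i _ => Finset.sum_congr rfl fun j _ => by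
    rw [psd_symm (D.a_pos x hx).posSemidef j i]; ring

lemma ip_self_nonneg {x : E n} (hx : x ∈ D.Ω) (u : Fin n → ℝ) : 0 ≤ D.ip x u u :=
  div_nonneg (psd_quad_nonneg (D.a_pos x hx).posSemidef u) (D.m_pos x hx).le

lemma ip_cs {x : E n} (hx : x ∈ D.Ω) (u w : Fin n → ℝ) :
    D.ip x u w ^ 2 ≤ D.ip x u u * D.ip x w w := by
  simp only [ip, div_pow, div_mul_div_comm, ← sq]
  exact div_le_div_of_nonneg_right (psd_cs (D.a_pos x hx).posSemidef u w) (sq_nonneg _)

/-- `2 |<u,w>| ≤ t |u|² + |w|² / t`. -/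
lemma two_abs_ip_le {x : E n} (hx : x ∈ D.Ω) (u w : Fin n → ℝ) {t : ℝ} (ht : 0 < t) :
    2 * |D.ip x u w| ≤ t * D.ip x u u + D.ip x w w / t := by
  have h1 := ip_self_nonneg hx (t • u + w)
  have h2 := ip_self_nonneg hx (t • u - w)
  simp only [ip_add_left, ip_add_right, ip_sub_left, ip_sub_right, ip_smul_left, ip_smul_right,
    ip_comm hx w u] at h1 h2
  have h3 : t * D.ip x u u + D.ip x w w / t = (t * (t * D.ip x u u) + D.ip x w w) / t := by
    field_simp
  rw [h3, le_div_iff₀ ht]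
  rcases abs_cases (D.ip x u w) with h | h <;> rw [h.1] <;> nlinarith

lemma ip_add_le {x : E n} (hx : x ∈ D.Ω) (u w : Fin n → ℝ) :
    D.ip x (u + w) (u + w) ≤ 2 * D.ip x u u + 2 * D.ip x w w := by
  have h2 := ip_self_nonneg hx (u - w)
  simp only [ip_add_left, ip_add_right, ip_sub_left, ip_sub_right, ip_comm hx w u] at h2 ⊢
  linarith

lemma ip_sub_le {x : E n} (hx : x ∈ D.Ω) (u w : Fin n → ℝ) :
    D.ip x (u - w) (u - w) ≤ 2 * D.ip x u u + 2 * D.ip x w w := by
  have h2 := ip_self_nonneg hx (u + w)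
  simp only [ip_add_left, ip_add_right, ip_sub_left, ip_sub_right, ip_comm hx w u] at h2 ⊢
  linarith

lemma a_at {x : E n} (hx : x ∈ D.Ω) (i j : Fin n) : ContDiffAt ℝ 1 (fun x => D.a x i j) x :=
  (D.a_smooth i j).contDiffAt (D.isOpen.mem_nhds hx)

lemma m_at {x : E n} (hx : x ∈ D.Ω) : ContinuousAt D.m x :=
  D.m_cont.continuousAt (D.isOpen.mem_nhds hx)

lemma continuousAt_ip {x : E n} (hx : x ∈ D.Ω) {u w : E n → Fin n → ℝ} (hu : ContinuousAt u x)
    (hw : ContinuousAt w x) : ContinuousAt (fun y => D.ip y (u y) (w y)) x := by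
  simp only [ip, dotProduct, mulVec]
  refine ContinuousAt.div ?_ (m_at hx) (D.m_pos x hx).ne'
  refine tendsto_finsetSum _ fun i _ => ContinuousAt.mul (continuousAt_pi.1 hu i) ?_
  exact tendsto_finsetSum _ fun j _ =>
    ContinuousAt.mul (a_at hx i j).continuousAt (continuousAt_pi.1 hw j)

lemma continuousAt_Γ {x : E n} (hx : x ∈ D.Ω) {g h : E n → ℝ} (hg : ContDiffAt ℝ 1 g x)
    (hh : ContDiffAt ℝ 1 h x) : ContinuousAt (D.Γ g h) x :=
  continuousAt_ip hx (continuousAt_grad hg) (continuousAt_grad hh)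

/-! ### the operator -/

variable (D) in
/-- The flux `a ∇ g`. -/
noncomputable def flux (g : E n → ℝ) (i : Fin n) (y : E n) : ℝ := ∑ j, D.a y i j * pd j g y

lemma lap_def (g : E n → ℝ) (x : E n) : D.lap g x = (∑ i, pd i (D.flux g i) x) / D.m x := rfl

lemma contDiffAt_flux {x : E n} (hx : x ∈ D.Ω) {g : E n → ℝ} (hg : ContDiffAt ℝ 2 g x)
    (i : Fin n) : ContDiffAt ℝ 1 (D.flux g i) x :=
  ContDiffAt.sum fun j _ => (a_at hx i j).mul (contDiffAt_pd_one hg j)

lemma continuousAt_lap {x : E n} (hx : x ∈ D.Ω) {g : E n → ℝ} (hg : ContDiffAt ℝ 2 g x) :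
    ContinuousAt (D.lap g) x := by
  refine ContinuousAt.div ?_ (m_at hx) (D.m_pos x hx).ne'
  exact tendsto_finsetSum _ fun i _ => continuousAt_pd (contDiffAt_flux hx hg i) i

lemma lap_congr {g h : E n → ℝ} {x : E n} (e : g =ᶠ[𝓝 x] h) : D.lap g x = D.lap h x := by
  simp only [lap_def]
  congr 1
  refine Finset.sum_congr rfl fun i _ => pd_congr ?_ i
  filter_upwards [e.eventuallyEq_nhds] with y hy
  simp only [flux, pd_congr hy]

lemma div_mul_flux {x : E n} (hx : x ∈ D.Ω) {c g : E n → ℝ} (hc : DifferentiableAt ℝ c x)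
    (hg : ContDiffAt ℝ 2 g x) :
    ∑ i, pd i (fun y => c y * D.flux g i y) x = (c x * D.lap g x + D.Γ c g x) * D.m x := by
  have hm := (D.m_pos x hx).ne'
  have h1 : ∀ i, pd i (fun y => c y * D.flux g i y) x
      = pd i c x * D.flux g i x + c x * pd i (D.flux g i) x := fun i =>
    ((hasGrad_of_diff hc).mul
      (hasGrad_of_diff ((contDiffAt_flux hx hg i).differentiableAt (by simp)))).2 i
  simp only [h1, Finset.sum_add_distrib, ← Finset.mul_sum, lap_def, Γ, ip]
  field_simp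
  simp only [dotProduct, mulVec, flux, grad]
  ring

lemma lap_eq {x : E n} (hx : x ∈ D.Ω) {g : E n → ℝ} (hg : ContDiffAt ℝ 2 g x) :
    D.lap g x = ((∑ i, ∑ j, D.a x i j * hess g x i j)
      + ∑ i, ∑ j, pd i (fun y => D.a y i j) x * pd j g x) / D.m x := by
  rw [lap_def, ← Finset.sum_add_distrib]
  congr 1
  refine Finset.sum_congr rfl fun i _ => ?_
  have := (HasGrad.sum Finset.univ fun j =>
    (hasGrad_of_diff ((a_at hx i j).differentiableAt (by simp))).mul
    (hasGrad_of_diff ((contDiffAt_pd_one hg j).differentiableAt (by simp)))).2 i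
  unfold flux
  rw [this, ← Finset.sum_add_distrib]
  refine Finset.sum_congr rfl fun j _ => ?_
  simp only [grad, hess, Matrix.of_apply]; ring

lemma lap_nonneg_of_isLocalMin {x : E n} (hx : x ∈ D.Ω) {g : E n → ℝ} (hg : ContDiffAt ℝ 2 g x)
    (h : IsLocalMin g x) : 0 ≤ D.lap g x := by
  rw [lap_eq hx hg]
  have h0 : ∀ j, pd j g x = 0 := fun j => congrFun (grad_eq_zero_of_isLocalMin h) j
  simp only [h0, mul_zero, Finset.sum_const_zero, add_zero]
  exact div_nonneg (psd_pair_nonneg (D.a_pos x hx).posSemidef (hess_psd_of_isLocalMin hg h))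
    (D.m_pos x hx).le

variable (D) in
/-- `g` is `C²` at `x` with gradient `v` and `lap g x = l`. -/
def Jet (g : E n → ℝ) (x : E n) (v : Fin n → ℝ) (l : ℝ) : Prop :=
  ContDiffAt ℝ 2 g x ∧ grad g x = v ∧ D.lap g x = l

lemma jet_of {g : E n → ℝ} {x : E n} (hg : ContDiffAt ℝ 2 g x) :
    D.Jet g x (grad g x) (D.lap g x) := ⟨hg, rfl, rfl⟩

lemma Jet.hasGrad {g : E n → ℝ} {x : E n} {v : Fin n → ℝ} {l : ℝ} (h : D.Jet g x v l) :
    HasGrad g x v := h.2.1 ▸ hasGrad_of_diff (h.1.differentiableAt (by simp))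

lemma Jet.congr {g : E n → ℝ} {x : E n} {v v' : Fin n → ℝ} {l l' : ℝ} (h : D.Jet g x v l)
    (e₁ : v = v') (e₂ : l = l') : D.Jet g x v' l' := ⟨h.1, h.2.1.trans e₁, h.2.2.trans e₂⟩

lemma Jet.congr_fun {g h : E n → ℝ} {x : E n} {v : Fin n → ℝ} {l : ℝ} (hg : D.Jet g x v l)
    (e : h =ᶠ[𝓝 x] g) : D.Jet h x v l :=
  ⟨hg.1.congr_of_eventuallyEq e, (grad_congr e).trans hg.2.1, (lap_congr e).trans hg.2.2⟩

lemma jet_const (c : ℝ) (x : E n) : D.Jet (fun _ => c) x 0 0 := by
  refine ⟨contDiffAt_const, (hasGrad_const' c x).grad_eq, ?_⟩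
  have : ∀ i, D.flux (fun _ => c) i = fun _ => 0 := fun i => by
    funext y; simp [flux, pd]
  simp [lap_def, this, pd]

lemma Jet.add {g h : E n → ℝ} {x : E n} {v w : Fin n → ℝ} {l k : ℝ} (hx : x ∈ D.Ω)
    (hg : D.Jet g x v l) (hh : D.Jet h x w k) : D.Jet (fun y => g y + h y) x (v + w) (l + k) := by
  refine ⟨hg.1.add hh.1, (hg.hasGrad.add' hh.hasGrad).grad_eq, ?_⟩
  rw [← hg.2.2, ← hh.2.2]
  simp only [lap_def, ← add_div, ← Finset.sum_add_distrib]
  congr 1
  refine Finset.sum_congr rfl fun i _ => ?_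
  have e : D.flux (fun y => g y + h y) i =ᶠ[𝓝 x] fun y => D.flux g i y + D.flux h i y := by
    filter_upwards [ev_diff (hg.1.of_le (by norm_num)), ev_diff (hh.1.of_le (by norm_num))]
      with y h1 h2
    simp only [flux, ← Finset.sum_add_distrib]
    refine Finset.sum_congr rfl fun j _ => ?_
    rw [((hasGrad_of_diff h1).add (hasGrad_of_diff h2)).2 j]; simp only [grad]; ring
  rw [pd_congr e]
  exact ((hasGrad_of_diff ((contDiffAt_flux hx hg.1 i).differentiableAt (by simp))).add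
    (hasGrad_of_diff ((contDiffAt_flux hx hh.1 i).differentiableAt (by simp)))).2 i

lemma Jet.mul {g h : E n → ℝ} {x : E n} {v w : Fin n → ℝ} {l k : ℝ} (hx : x ∈ D.Ω)
    (hg : D.Jet g x v l) (hh : D.Jet h x w k) :
    D.Jet (fun y => g y * h y) x (h x • v + g x • w) (g x * k + h x * l + 2 * D.ip x v w) := by
  refine ⟨hg.1.mul hh.1, (hg.hasGrad.mul' hh.hasGrad).grad_eq, ?_⟩
  have hm := (D.m_pos x hx).ne'
  have h1 := div_mul_flux hx hg.hasGrad.1 hh.1
  have h2 := div_mul_flux hx hh.hasGrad.1 hg.1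
  simp only [Γ, hg.2.1, hh.2.1, hg.2.2, hh.2.2] at h1 h2
  rw [lap_def, div_eq_iff hm]
  have h3 : ∀ i, pd i (D.flux (fun y => g y * h y) i) x
      = pd i (fun y => g y * D.flux h i y) x + pd i (fun y => h y * D.flux g i y) x := fun i => by
    have e : D.flux (fun y => g y * h y) i
        =ᶠ[𝓝 x] fun y => g y * D.flux h i y + h y * D.flux g i y := by
      filter_upwards [ev_diff (hg.1.of_le (by norm_num)), ev_diff (hh.1.of_le (by norm_num))]
        with y h1 h2
      simp only [flux, Finset.mul_sum, ← Finset.sum_add_distrib]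
      refine Finset.sum_congr rfl fun j _ => ?_
      rw [((hasGrad_of_diff h1).mul (hasGrad_of_diff h2)).2 j]; simp only [grad]; ring
    rw [pd_congr e]
    exact ((hasGrad_of_diff (hg.hasGrad.1.mul
      ((contDiffAt_flux hx hh.1 i).differentiableAt (by simp)))).add
      (hasGrad_of_diff (hh.hasGrad.1.mul
      ((contDiffAt_flux hx hg.1 i).differentiableAt (by simp))))).2 i
  simp only [h3, Finset.sum_add_distrib, h1, h2, ip_comm hx w v]
  ring

lemma Jet.comp {g : E n → ℝ} {x : E n} {v : Fin n → ℝ} {l : ℝ} (hx : x ∈ D.Ω)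
    (hg : D.Jet g x v l) {φ φ' : ℝ → ℝ} {φ'' : ℝ} (hφ : ContDiffAt ℝ 2 φ (g x))
    (h1 : ∀ᶠ t in 𝓝 (g x), HasDerivAt φ (φ' t) t) (h2 : HasDerivAt φ' φ'' (g x)) :
    D.Jet (fun y => φ (g y)) x (φ' (g x) • v) (φ' (g x) * l + φ'' * D.ip x v v) := by
  refine ⟨hφ.comp x hg.1, (hg.hasGrad.comp' h1.self_of_nhds).grad_eq, ?_⟩
  have hm := (D.m_pos x hx).ne'
  have hc := hg.hasGrad.comp' h2
  have h3 := div_mul_flux hx hc.1 hg.1
  simp only [Γ, hg.2.1, hg.2.2, hc.grad_eq, ip_smul_left] at h3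
  rw [lap_def, div_eq_iff hm, ← h3]
  refine Finset.sum_congr rfl fun i _ => pd_congr ?_ i
  filter_upwards [ev_diff (hg.1.of_le (by norm_num)), hg.1.continuousAt.eventually h1]
    with y h4 h5
  simp only [flux, Finset.mul_sum]
  refine Finset.sum_congr rfl fun j _ => ?_
  rw [((hasGrad_of_diff h4).comp h5).2 j]; simp only [grad]; ring

lemma Jet.const_mul {g : E n → ℝ} {x : E n} {v : Fin n → ℝ} {l : ℝ} (hx : x ∈ D.Ω)
    (hg : D.Jet g x v l) (c : ℝ) : D.Jet (fun y => c * g y) x (c • v) (c * l) :=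
  ((jet_const c x).mul hx hg).congr (by simp) (by simp [ip_zero_left])

lemma Jet.neg {g : E n → ℝ} {x : E n} {v : Fin n → ℝ} {l : ℝ} (hx : x ∈ D.Ω)
    (hg : D.Jet g x v l) : D.Jet (fun y => -g y) x (-v) (-l) :=
  ((hg.const_mul hx (-1)).congr_fun (by simp)).congr (by simp) (by simp)

lemma Jet.sub {g h : E n → ℝ} {x : E n} {v w : Fin n → ℝ} {l k : ℝ} (hx : x ∈ D.Ω)
    (hg : D.Jet g x v l) (hh : D.Jet h x w k) : D.Jet (fun y => g y - h y) x (v - w) (l - k) :=
  ((hg.add hx (hh.neg hx)).congr_fun (by simp [sub_eq_add_neg])).congr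
    (by simp [sub_eq_add_neg]) (by simp [sub_eq_add_neg])

lemma Jet.sum {ι : Type} (s : Finset ι) {g : ι → E n → ℝ} {x : E n} {v : ι → Fin n → ℝ}
    {l : ι → ℝ} (hx : x ∈ D.Ω) (hg : ∀ k, D.Jet (g k) x (v k) (l k)) :
    D.Jet (fun y => ∑ k ∈ s, g k y) x (∑ k ∈ s, v k) (∑ k ∈ s, l k) := by
  classical
  induction s using Finset.induction_on with
  | empty => simpa using jet_const 0 x
  | insert a s ha ih =>
    simp only [Finset.sum_insert ha]
    exact (hg a).add hx ih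

lemma Jet.log {g : E n → ℝ} {x : E n} {v : Fin n → ℝ} {l : ℝ} (hx : x ∈ D.Ω)
    (hg : D.Jet g x v l) (h0 : g x ≠ 0) :
    D.Jet (fun y => Real.log (g y)) x ((g x)⁻¹ • v) ((g x)⁻¹ * l - (g x ^ 2)⁻¹ * D.ip x v v) :=
  (hg.comp hx (φ' := fun t => t⁻¹) (Real.contDiffAt_log.2 h0)
    ((eventually_ne_nhds h0).mono fun _ ht => Real.hasDerivAt_log ht)
    (hasDerivAt_inv h0)).congr rfl (by ring)

lemma Jet.inv {g : E n → ℝ} {x : E n} {v : Fin n → ℝ} {l : ℝ} (hx : x ∈ D.Ω)
    (hg : D.Jet g x v l) (h0 : g x ≠ 0) :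
    D.Jet (fun y => (g y)⁻¹) x ((-(g x ^ 2)⁻¹) • v)
      (-(g x ^ 2)⁻¹ * l + 2 * (g x ^ 3)⁻¹ * D.ip x v v) := by
  have h2 : HasDerivAt (fun t : ℝ => -(t ^ 2)⁻¹) (2 * (g x ^ 3)⁻¹) (g x) := by
    have := ((hasDerivAt_pow 2 (g x)).inv (pow_ne_zero 2 h0)).neg
    refine this.congr_deriv ?_
    field_simp
    simp [mul_comm]
  exact hg.comp hx (φ' := fun t => -(t ^ 2)⁻¹) (contDiffAt_inv ℝ h0)
    ((eventually_ne_nhds h0).mono fun _ ht => hasDerivAt_inv ht) h2

end Diff

/-! ### integration by parts -/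

lemma integral_div_eq_zero {O S : Set (E n)} (hO : IsOpen O) (hS : IsCompact S) (hSO : S ⊆ O)
    {V : Fin n → E n → ℝ} (hV : ∀ i, ∀ x ∈ O, ContDiffAt ℝ 1 (V i) x)
    (h0 : ∀ i, ∀ x ∈ O, x ∉ S → V i x = 0) :
    ∫ x in S, ∑ i, pd i (V i) x = 0 := by
  have hint : ∀ i, IntegrableOn (pd i (V i)) S := fun i =>
    ContinuousOn.integrableOn_compact hS fun x hx =>
      (continuousAt_pd (hV i x (hSO hx)) i).continuousWithinAt
  rw [integral_finsetSum _ fun i _ => hint i]
  refine Finset.sum_eq_zero fun i _ => ?_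
  set W : E n → ℝ := O.indicator (V i) with hW
  have hW0 : ∀ x, x ∉ S → W x = 0 := fun x hx => by
    by_cases h : x ∈ O
    · simp [hW, h, h0 i x h hx]
    · simp [hW, h]
  have hWO : ∀ x ∈ O, W =ᶠ[𝓝 x] V i := fun x hx =>
    (hO.eventually_mem hx).mono fun y hy => by simp [hW, hy]
  have hWS : ∀ x, x ∉ S → W =ᶠ[𝓝 x] fun _ => 0 := fun x hx =>
    (hS.isClosed.isOpen_compl.eventually_mem hx).mono fun y hy => hW0 y hy
  have hWc : ContDiff ℝ 1 W := by
    rw [contDiff_iff_contDiffAt]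
    intro x
    by_cases hx : x ∈ S
    · exact (hV i x (hSO hx)).congr_of_eventuallyEq (hWO x (hSO hx))
    · exact contDiffAt_const.congr_of_eventuallyEq (hWS x hx)
  have hWs : HasCompactSupport W := HasCompactSupport.intro hS hW0
  have hpc : Continuous (pd i W) :=
    continuous_iff_continuousAt.2 fun x => continuousAt_pd hWc.contDiffAt i
  have hp0 : ∀ x, x ∉ S → pd i W x = 0 := fun x hx => by
    rw [pd_congr (hWS x hx)]; simp [pd]
  have hps : HasCompactSupport (pd i W) := HasCompactSupport.intro hS hp0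
  have key := integral_mul_fderiv_eq_neg_fderiv_mul_of_integrable (μ := volume)
    (f := fun _ : E n => (1:ℝ)) (g := W) (v := EuclideanSpace.single i 1) (by simp)
    (by simp only [one_mul]; exact hpc.integrable_of_hasCompactSupport hps)
    (by simpa using hWc.continuous.integrable_of_hasCompactSupport hWs)
    (fun _ _ => differentiableAt_const _) (fun x _ => hWc.differentiable (by simp) x)
  have h1 : ∫ x, pd i W x = 0 := by simpa [pd] using key
  rw [← h1, ← setIntegral_eq_integral_of_forall_compl_eq_zero hp0]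
  exact setIntegral_congr_fun hS.measurableSet fun x hx => (pd_congr (hWO x (hSO hx)) i).symm

/-- Integration by parts against a `C¹` function `c` that vanishes outside the compact set `S`. -/
theorem Diff.ibp {D : Diff n} {O S : Set (E n)} (hO : IsOpen O) (hOΩ : O ⊆ D.Ω) (hS : IsCompact S)
    (hSO : S ⊆ O) {c g : E n → ℝ} (hc : ∀ x ∈ O, ContDiffAt ℝ 1 c x)
    (h0 : ∀ x ∈ O, x ∉ S → c x = 0) (hg : ∀ x ∈ O, ContDiffAt ℝ 2 g x) :
    ∫ x in S, (c x * D.lap g x + D.Γ c g x) * D.m x = 0 := by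
  rw [← integral_div_eq_zero hO hS hSO (V := fun i y => c y * D.flux g i y)
    (fun i x hx => (hc x hx).mul (Diff.contDiffAt_flux (hOΩ hx) (hg x hx) i))
    (fun i x hx hx' => by simp [h0 x hx hx'])]
  exact setIntegral_congr_fun hS.measurableSet fun x hx =>
    (Diff.div_mul_flux (hOΩ (hSO hx)) ((hc x (hSO hx)).differentiableAt (by simp))
      (hg x (hSO hx))).symm

/-- The positive part to a power at least two is `C¹`. -/
lemma hasDerivAt_pos_pow (k : ℕ) (t : ℝ) :
    HasDerivAt (fun s : ℝ => max s 0 ^ (k + 2)) (((k:ℝ) + 2) * max t 0 ^ (k + 1)) t := by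
  rcases lt_trichotomy t 0 with h | h | h
  · have e : (fun s : ℝ => max s 0 ^ (k + 2)) =ᶠ[𝓝 t] fun _ => 0 :=
      (eventually_lt_nhds h).mono fun s hs => by simp [max_eq_right hs.le]
    rw [max_eq_right h.le]
    simpa using (hasDerivAt_const t (0:ℝ)).congr_of_eventuallyEq e
  · subst h
    rw [hasDerivAt_iff_isLittleO_nhds_zero]
    simp only [max_self, zero_add, ne_eq, Nat.add_eq_zero_iff, one_ne_zero, and_false,
      not_false_eq_true, zero_pow, mul_zero, smul_zero, sub_zero, OfNat.ofNat_ne_zero]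
    refine Asymptotics.IsBigO.trans_isLittleO (g := fun s : ℝ => s ^ (k + 2)) ?_
      (Asymptotics.isLittleO_pow_id (by omega))
    refine Asymptotics.IsBigO.of_bound 1 (Filter.Eventually.of_forall fun s => ?_)
    simp only [Real.norm_eq_abs, abs_pow, one_mul]
    apply pow_le_pow_left₀ (abs_nonneg _)
    rcases le_total s 0 with h | h
    · simp [max_eq_right h]
    · simp [max_eq_left h]
  · have e : (fun s : ℝ => max s 0 ^ (k + 2)) =ᶠ[𝓝 t] fun s => s ^ (k + 2) :=
      (eventually_gt_nhds h).mono fun s hs => by simp [max_eq_left hs.le]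
    rw [max_eq_left h.le]
    exact ((hasDerivAt_pow (k + 2) t).congr_of_eventuallyEq e).congr_deriv (by simp)

lemma contDiff_pos_pow (k : ℕ) : ContDiff ℝ 1 (fun s : ℝ => max s 0 ^ (k + 2)) := by
  rw [contDiff_one_iff_deriv]
  refine ⟨fun t => (hasDerivAt_pos_pow k t).differentiableAt, ?_⟩
  have : deriv (fun s : ℝ => max s 0 ^ (k + 2)) = fun t => ((k:ℝ) + 2) * max t 0 ^ (k + 1) :=
    funext fun t => (hasDerivAt_pos_pow k t).deriv
  rw [this]; fun_prop

end Vale.Agent.P252
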