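import Vale.Agent.P252.Cap

/-! Integral estimates on caps. -/

open scoped ContDiff Topology
open Matrix Finset MeasureTheory

namespace Vale.Agent.P252

variable {n : ℕ}

/-- `f` is integrable on `T` with integral zero. -/
def Null (T : Set (E n)) (f : E n → ℝ) : Prop := IntegrableOn f T ∧ ∫ x in T, f x = 0

lemma Null.add {T : Set (E n)} {f g : E n → ℝ} (hf : Null T f) (hg : Null T g) :
    Null T (fun x => f x + g x) :=
  ⟨hf.1.add hg.1, by rw [integral_add hf.1 hg.1, hf.2, hg.2, add_zero]⟩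

lemma Null.const_mul {T : Set (E n)} {f : E n → ℝ} (hf : Null T f) (c : ℝ) :
    Null T (fun x => c * f x) :=
  ⟨hf.1.const_mul c, by rw [integral_const_mul, hf.2, mul_zero]⟩

lemma Null.sum {T : Set (E n)} {ι : Type} (s : Finset ι) {f : ι → E n → ℝ}
    (hf : ∀ i, Null T (f i)) : Null T (fun x => ∑ i ∈ s, f i x) :=
  ⟨integrable_finsetSum s fun i _ => (hf i).1, by
    rw [integral_finsetSum s fun i _ => (hf i).1]
    exact Finset.sum_eq_zero fun i _ => (hf i).2⟩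

lemma Null.congr {T : Set (E n)} (hT : MeasurableSet T) {f g : E n → ℝ} (hf : Null T f)
    (e : ∀ x ∈ T, f x = g x) : Null T g :=
  ⟨hf.1.congr_fun e hT, by rw [← setIntegral_congr_fun hT e, hf.2]⟩

lemma Null.le {T : Set (E n)} (hT : MeasurableSet T) {f g k : E n → ℝ} (hf : Null T f)
    (hg : IntegrableOn g T) (hk : IntegrableOn k T) (hle : ∀ x ∈ T, g x ≤ f x + k x) :
    ∫ x in T, g x ≤ ∫ x in T, k x := by
  have := setIntegral_mono_on hg (hf.1.add hk) hT hle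
  simp only [Pi.add_apply] at this
  rwa [integral_add hf.1 hk, hf.2, zero_add] at this

lemma integrableOn_of_at {T : Set (E n)} (hT : IsCompact T) {f : E n → ℝ}
    (hf : ∀ x ∈ T, ContinuousAt f x) : IntegrableOn f T :=
  ContinuousOn.integrableOn_compact hT fun x hx => (hf x hx).continuousWithinAt

lemma Diff.null_ibp {D : Diff n} {O S : Set (E n)} (hO : IsOpen O) (hOΩ : O ⊆ D.Ω)
    (hS : IsCompact S) (hSO : S ⊆ O) {c g : E n → ℝ} (hc : ∀ x ∈ O, ContDiffAt ℝ 1 c x)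
    (h0 : ∀ x ∈ O, x ∉ S → c x = 0) (hg : ∀ x ∈ O, ContDiffAt ℝ 2 g x) :
    Null S (fun x => (c x * D.lap g x + D.Γ c g x) * D.m x) :=
  ⟨integrableOn_of_at hS fun x hx => by
    have h1 := hOΩ (hSO hx)
    exact (((hc x (hSO hx)).continuousAt.mul (Diff.continuousAt_lap h1 (hg x (hSO hx)))).add
      (Diff.continuousAt_Γ h1 (hc x (hSO hx)) ((hg x (hSO hx)).of_le (by norm_num)))).mul
      (Diff.m_at h1), Diff.ibp hO hOΩ hS hSO hc h0 hg⟩

/-- Integration by parts against `max η 0 ^ 2 * f`. -/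
lemma Diff.null_ibp_pos {D : Diff n} {O S : Set (E n)} (hO : IsOpen O) (hOΩ : O ⊆ D.Ω)
    (hS : IsCompact S) (hSO : S ⊆ O) {η f g : E n → ℝ} (hη : ∀ x ∈ O, ContDiffAt ℝ 1 η x)
    (hS0 : ∀ x ∈ O, x ∈ S ↔ 0 ≤ η x) (hf : ∀ x ∈ O, ContDiffAt ℝ 1 f x)
    (hg : ∀ x ∈ O, ContDiffAt ℝ 2 g x) :
    Null S (fun x => (η x ^ 2 * f x * D.lap g x + η x ^ 2 * D.Γ f g x
      + 2 * η x * f x * D.Γ η g x) * D.m x) := by
  refine (Diff.null_ibp hO hOΩ hS hSO (c := fun x => max (η x) 0 ^ (0 + 2) * f x)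
    (fun x hx => ((contDiff_pos_pow 0).contDiffAt.comp x (hη x hx)).mul (hf x hx))
    (fun x hx hx' => ?_) hg).congr hS.measurableSet fun x hx => ?_
  · have := not_le.1 (mt (hS0 x hx).2 hx')
    simp [max_eq_right this.le]
  · have h1 := (hS0 x (hSO hx)).1 hx
    have h2 := (((hasGrad_of_diff ((hη x (hSO hx)).differentiableAt (by simp))).comp'
      (hasDerivAt_pos_pow 0 (η x))).mul'
      (hasGrad_of_diff ((hf x (hSO hx)).differentiableAt (by simp)))).grad_eq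
    simp only [Diff.Γ, h2, Diff.ip_add_left, Diff.ip_smul_left, max_eq_left h1]
    push_cast
    ring

lemma hasFDerivAt_toLp {F : Fin n → E n → ℝ} {x : E n} (hF : ∀ i, DifferentiableAt ℝ (F i) x) :
    ∃ L : E n →L[ℝ] E n, HasFDerivAt (fun y => (WithLp.toLp 2 fun i => F i y : E n)) L x ∧
      L.det = (Matrix.of fun i j => pd j (F i) x).det := by
  have h1 : DifferentiableAt ℝ (fun y => (WithLp.toLp 2 fun i => F i y : E n)) x :=
    differentiableAt_euclidean.2 hF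
  refine ⟨_, h1.hasFDerivAt, ?_⟩
  rw [ContinuousLinearMap.det, ← LinearMap.det_toMatrix (EuclideanSpace.basisFun (Fin n) ℝ).toBasis]
  congr 1
  ext i j
  have h2 := ((EuclideanSpace.proj i : E n →L[ℝ] ℝ).hasFDerivAt.comp x h1.hasFDerivAt).fderiv
  have h3 : fderiv ℝ (F i) x = _ := h2
  simp [LinearMap.toMatrix_apply, pd, h3]

namespace AS
variable {S : AS n} {e : Fin (n + 1) → ℝ} {h C : ℝ}

lemma isOpen_pos (e : Fin (n + 1) → ℝ) : IsOpen {x | x ∈ S.Ω ∧ 0 < S.Nf e x} :=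
  isOpen_iff_mem_nhds.2 fun x hx => by
    filter_upwards [S.isOpen.mem_nhds hx.1,
      (Nf_at hx.1 e).continuousAt.eventually (lt_mem_nhds hx.2)] with y h1 h2
    exact ⟨h1, h2⟩

lemma cap_ibp (H : CapHyp S.K e h C) (hC : 0 < C) {f g : E n → ℝ}
    (hf : ∀ x ∈ S.Ω, 0 < S.Nf e x → ContDiffAt ℝ 1 f x) (hg : ∀ x ∈ S.Ω, ContDiffAt ℝ 2 g x) :
    Null (S.cap e h) (fun x => ((h - S.Xf e x) ^ 2 * f x * S.toDiff.lap g x
      + (h - S.Xf e x) ^ 2 * S.toDiff.Γ f g x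
      - 2 * (h - S.Xf e x) * f x * S.toDiff.Γ (S.Xf e) g x) * S.m x) := by
  refine (Diff.null_ibp_pos (D := S.toDiff) (isOpen_pos e) (fun x hx => hx.1) (cap_compact H)
    (fun x hx => ⟨hx.1, cap_pos H hC hx⟩) (η := fun x => h - S.Xf e x)
    (fun x hx => contDiffAt_const.sub ((Xf_at hx.1 e).of_le (by norm_num)))
    (fun x hx => ⟨fun h1 => sub_nonneg.2 h1.2, fun h1 => ⟨hx.1, sub_nonneg.1 h1⟩⟩)
    (fun x hx => hf x hx.1 hx.2) (fun x hx => hg x hx.1)).congr (cap_compact H).measurableSet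
    fun x hx => ?_
  have h1 := ((hasGrad_const' h x).sub (jet_Xf hx.1 e).hasGrad).grad_eq
  simp only [Diff.Γ, h1, zero_sub, Diff.ip_neg_left]
  ring

lemma null_E1 (H : CapHyp S.K e h C) (hC : 0 < C) (ξ : Fin (n + 1) → ℝ) (κ : ℝ) :
    Null (S.cap e h) (fun x => (S.Nf e x * (h - S.Xf e x) ^ 3 * S.toDiff.Γ (S.Xf ξ) (S.Xf ξ) x
      - 6 * S.Nf e x * (h - S.Xf e x) ^ 2 * (S.Xf ξ x + κ) * S.toDiff.Γ (S.Xf e) (S.Xf ξ) x
      + 3 * S.Nf e x * (h - S.Xf e x) * (S.Xf ξ x + κ) ^ 2 * S.toDiff.Γ (S.Xf e) (S.Xf e) x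
      + n * (h - S.Xf e x) ^ 3 * (S.Xf ξ x + κ) * (ξ ⬝ᵥ e)
      - 3 * n / 2 * (h - S.Xf e x) ^ 2 * (S.Xf ξ x + κ) ^ 2 * (e ⬝ᵥ e)) * S.m x) := by
  have c1 : ∀ x ∈ S.Ω, ∀ v, ContDiffAt ℝ 1 (S.Xf v) x := fun x hx v =>
    (Xf_at hx v).of_le (by norm_num)
  have c2 : ∀ x ∈ S.Ω, ∀ v, ContDiffAt ℝ 1 (S.Nf v) x := fun x hx v =>
    (Nf_at hx v).of_le (by norm_num)
  have n1 := cap_ibp H hC (f := fun y => (h - S.Xf e y) * (S.Xf ξ y + κ) * S.Nf e y)
    (g := S.Xf ξ) (fun x hx _ => ((contDiffAt_const.sub (c1 x hx e)).mul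
      ((c1 x hx ξ).add contDiffAt_const)).mul (c2 x hx e)) (fun x hx => Xf_at hx ξ)
  have n2 := cap_ibp H hC (f := fun y => (h - S.Xf e y) * ((S.Xf ξ y + κ) * (S.Xf ξ y + κ)))
    (g := S.Nf e) (fun x hx _ => (contDiffAt_const.sub (c1 x hx e)).mul
      (((c1 x hx ξ).add contDiffAt_const).mul ((c1 x hx ξ).add contDiffAt_const)))
      (fun x hx => Nf_at hx e)
  have n3 := cap_ibp H hC (f := fun y => (S.Xf ξ y + κ) * (S.Xf ξ y + κ) * S.Nf e y)
    (g := S.Xf e) (fun x hx _ => (((c1 x hx ξ).add contDiffAt_const).mul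
      ((c1 x hx ξ).add contDiffAt_const)).mul (c2 x hx e)) (fun x hx => Xf_at hx e)
  refine ((n1.add (n2.const_mul (-((n:ℝ) + 1) / 2))).add (n3.const_mul (-3 / 2))).congr
    (cap_compact H).measurableSet fun x hx => ?_
  have g0 := (hasGrad_const' h x).sub (jet_Xf hx.1 e).hasGrad
  have g1 := (jet_Xf hx.1 ξ).hasGrad.add' (hasGrad_const' κ x)
  have g2 := (jet_Nf hx.1 e).hasGrad
  simp only [Diff.Γ, ((g0.mul' g1).mul' g2).grad_eq, (g0.mul' (g1.mul' g1)).grad_eq,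
    ((g1.mul' g1).mul' g2).grad_eq, (jet_Xf hx.1 _).2.2, (jet_Nf hx.1 _).2.2, zero_sub, add_zero,
    Diff.ip_add_left, Diff.ip_smul_left, Diff.ip_neg_left,
    Diff.ip_comm hx.1 (grad (S.Xf _) x) (grad (S.Nf e) x), ip_NX hx.1,
    Diff.ip_comm hx.1 (grad (S.Xf ξ) x) (grad (S.Xf e) x)]
  ring

lemma null_E2 (H : CapHyp S.K e h C) (hC : 0 < C) (v : Fin (n + 1) → ℝ) {ψ ψ' : ℝ → ℝ}
    (hψ : ContDiff ℝ 1 ψ) (hψ' : ∀ t, HasDerivAt ψ (ψ' t) t) :
    Null (S.cap e h) (fun x => (S.Nf e x ^ 2 * ψ' (S.sl e v x) * (h - S.Xf e x) ^ 2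
      * S.toDiff.Γ (S.sl e v) (S.sl e v) x
      - 2 * S.Nf e x * ψ (S.sl e v x) * (h - S.Xf e x) * (S.sl e v x * (e ⬝ᵥ e) - e ⬝ᵥ v))
      * S.m x) := by
  have c2 : ∀ x ∈ S.Ω, ∀ v, ContDiffAt ℝ 1 (S.Nf v) x := fun x hx v =>
    (Nf_at hx v).of_le (by norm_num)
  have c3 : ∀ x ∈ S.Ω, 0 < S.Nf e x → ContDiffAt ℝ 1 (fun y => ψ (S.sl e v y)) x :=
    fun x hx h0 => hψ.contDiffAt.comp x ((jet_sl hx h0.ne' v).1.of_le (by norm_num))
  have n1 := cap_ibp H hC (f := fun y => ψ (S.sl e v y) * S.Nf e y) (g := S.Nf v)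
    (fun x hx h0 => (c3 x hx h0).mul (c2 x hx e)) (fun x hx => Nf_at hx v)
  have n2 := cap_ibp H hC (f := fun y => ψ (S.sl e v y) * S.Nf v y) (g := S.Nf e)
    (fun x hx h0 => (c3 x hx h0).mul (c2 x hx v)) (fun x hx => Nf_at hx e)
  refine (n1.add (n2.const_mul (-1))).congr (cap_compact H).measurableSet fun x hx => ?_
  have h0 := (cap_pos H hC hx).ne'
  have g0 := (jet_sl hx.1 h0 v).hasGrad.comp' (hψ' _)
  simp only [Diff.Γ, (g0.mul' (jet_Nf hx.1 _).hasGrad).grad_eq, (jet_Nf hx.1 _).2.2,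
    Diff.ip_add_left, Diff.ip_smul_left, Diff.ip_comm hx.1 (grad (S.Xf _) x), ip_NX hx.1]
  generalize hg : grad (S.sl e v) x = g
  nth_rw 4 [← hg]
  rw [grad_sl hx.1 h0]
  simp only [Diff.ip_sub_right, Diff.ip_smul_right,
    Diff.ip_comm hx.1 (grad (S.Nf v) x) (grad (S.Nf e) x)]
  generalize ψ (S.sl e v x) = a
  generalize ψ' (S.sl e v x) = b
  simp only [sl]
  field_simp
  ring

variable (S) in
/-- Projection of the position along `e` (for `e 0 = 1`). -/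
noncomputable def proj (e : Fin (n + 1) → ℝ) (x : E n) : E n :=
  WithLp.toLp 2 fun i => S.X x i.succ - e i.succ * S.X x 0

lemma det_proj {x : E n} (hx : x ∈ S.Ω) (he : e 0 = 1) :
    |(Matrix.of fun i j => pd j (fun y => S.X y i.succ - e i.succ * S.X y 0) x :
      Matrix (Fin n) (Fin n) ℝ).det| = S.m x * |S.Nf e x| := by
  let T : Matrix (Fin (n + 1)) (Fin (n + 1)) ℝ := Matrix.of fun k l =>
    Fin.cases (Fin.cases 1 (fun _ => 0) l)
      (fun k' => Fin.cases (-e k'.succ) (fun l' => if k' = l' then 1 else 0) l) k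
  have hT : T.det = 1 := by
    rw [Matrix.det_succ_row_zero, Fin.sum_univ_succ]
    have : T.submatrix Fin.succ Fin.succ = 1 := by
      ext i j; simp [T, Matrix.one_apply]
    simp [T, this]
  have hd : ∀ k, DifferentiableAt ℝ (fun y => S.X y k) x := fun k =>
    (X_at hx k).differentiableAt (by simp)
  have h1 : (T * jacM e S.X x).det = (Matrix.of fun i j =>
      pd j (fun y => S.X y i.succ - e i.succ * S.X y 0) x : Matrix (Fin n) (Fin n) ℝ).det := by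
    rw [Matrix.det_succ_column_zero, Fin.sum_univ_succ]
    have h2 : (T * jacM e S.X x).submatrix Fin.succ Fin.succ = Matrix.of fun i j =>
        pd j (fun y => S.X y i.succ - e i.succ * S.X y 0) x := by
      ext i j
      have := ((hasGrad_of_diff (hd i.succ)).sub
        ((hasGrad_of_diff (hd 0)).const_mul (e i.succ))).2 j
      simp [T, jacM, mul_apply, Fin.sum_univ_succ, this, grad]
      ring
    have h3 : ∀ i : Fin n, (T * jacM e S.X x) i.succ 0 = 0 := fun i => by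
      simp [T, jacM, mul_apply, Fin.sum_univ_succ, he]
    have h4 : (T * jacM e S.X x) 0 0 = 1 := by
      simp [T, jacM, mul_apply, Fin.sum_univ_succ, he]
    simp [h2, h3, h4]
  rw [← h1, det_mul, hT, one_mul, S.jacX x hx]
  rfl

lemma area_eq (he : e 0 = 1) {T : Set (E n)} (hT : MeasurableSet T)
    (hTΩ : ∀ x ∈ T, x ∈ S.Ω ∧ 0 < S.Nf e x) :
    ∫ x in T, S.Nf e x * S.m x = volume.real (S.proj e '' T) := by
  have hd : ∀ x ∈ T, ∀ i : Fin n,
      DifferentiableAt ℝ (fun y => S.X y i.succ - e i.succ * S.X y 0) x := fun x hx i =>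
    ((X_at (hTΩ x hx).1 _).differentiableAt (by simp)).sub
      (((X_at (hTΩ x hx).1 _).differentiableAt (by simp)).const_mul _)
  choose! L hL using fun x hx => hasFDerivAt_toLp (hd x hx)
  have hinj : Set.InjOn (S.proj e) T := by
    intro x hx y hy hxy
    have h1 : S.X y - S.X x = (S.X y 0 - S.X x 0) • e := by
      funext k
      refine Fin.cases (by simp [he]) (fun i => ?_) k
      have := congrArg (fun w : E n => w i) hxy
      simp only [proj] at this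
      simp only [Pi.sub_apply, Pi.smul_apply, smul_eq_mul]
      linarith
    have h2 := S.supp x (hTΩ x hx).1 _ (S.X_mem y (hTΩ y hy).1)
    have h3 := S.supp y (hTΩ y hy).1 _ (S.X_mem x (hTΩ x hx).1)
    rw [← neg_sub, h1, dotProduct_neg, dotProduct_smul, smul_eq_mul] at h3
    rw [h1, dotProduct_smul, smul_eq_mul] at h2
    have h4 := (hTΩ x hx).2
    have h5 := (hTΩ y hy).2
    simp only [Nf] at h4 h5
    have h6 : S.X y 0 - S.X x 0 = 0 := le_antisymm (by nlinarith) (by nlinarith)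
    rw [h6, zero_smul, sub_eq_zero] at h1
    exact S.inj (hTΩ x hx).1 (hTΩ y hy).1 h1.symm
  have key := integral_image_eq_integral_abs_det_fderiv_smul volume hT
    (fun x hx => (hL x hx).1.hasFDerivWithinAt) hinj (fun _ => (1:ℝ))
  simp only [integral_const, smul_eq_mul, mul_one, MeasurableSet.univ, measureReal_restrict_apply,
    Set.univ_inter] at key
  change volume.real (S.proj e '' T) = _ at key
  rw [key]
  refine setIntegral_congr_fun hT fun x hx => ?_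
  rw [(hL x hx).2, det_proj (hTΩ x hx).1 he, abs_of_pos (hTΩ x hx).2, mul_comm]

lemma proj_subset (H : CapHyp S.K e h C) :
    S.proj e '' S.cap e h ⊆ WithLp.toLp 2 '' Metric.closedBall (0 : Fin n → ℝ) (C + ‖e‖ * C) := by
  rintro _ ⟨x, hx, rfl⟩
  refine ⟨_, ?_, rfl⟩
  have h1 := cap_X H hx
  have h0 : 0 ≤ C := (norm_nonneg _).trans h1
  rw [mem_closedBall_zero_iff, pi_norm_le_iff_of_nonneg (by positivity)]
  intro i
  refine (norm_sub_le _ _).trans (add_le_add ((norm_le_pi_norm _ _).trans h1) ?_)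
  rw [norm_mul]
  exact mul_le_mul (norm_le_pi_norm _ _) ((norm_le_pi_norm _ _).trans h1) (norm_nonneg _)
    (norm_nonneg _)

lemma box_finite (n : ℕ) (R : ℝ) :
    volume (WithLp.toLp 2 '' Metric.closedBall (0 : Fin n → ℝ) R : Set (E n)) ≠ ⊤ :=
  ((isCompact_closedBall _ _).image (PiLp.continuous_toLp 2 _)).measure_lt_top.ne

theorem area_le (n : ℕ) (e : Fin (n + 1) → ℝ) (he : e 0 = 1) (h C : ℝ) (hC : 0 < C) :
    ∃ C0 : ℝ, 0 < C0 ∧ ∀ S : AS n, CapHyp S.K e h C →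
      ∫ x in S.cap e h, S.Nf e x * S.m x ≤ C0 := by
  refine ⟨volume.real (WithLp.toLp 2 '' Metric.closedBall (0 : Fin n → ℝ) (C + ‖e‖ * C) :
    Set (E n)) + 1, by positivity, fun S H => ?_⟩
  rw [area_eq he (cap_compact H).measurableSet fun x hx => ⟨hx.1, cap_pos H hC hx⟩]
  exact (measureReal_mono (proj_subset H) (box_finite n _)).trans (by linarith)

variable (S) in
/-- Sum of the squared gradients of the coordinates. -/
noncomputable def WX (x : E n) : ℝ := ∑ k, S.toDiff.Γ (fun y => S.X y k) (fun y => S.X y k) x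

lemma WX_nonneg {x : E n} (hx : x ∈ S.Ω) : 0 ≤ S.WX x :=
  Finset.sum_nonneg fun _ _ => Diff.ip_self_nonneg hx _

variable (S) in
/-- Weight one energy density. -/
noncomputable def I1 (e : Fin (n + 1) → ℝ) (h : ℝ) (x : E n) : ℝ :=
  S.Nf e x * (h - S.Xf e x) ^ 3 * S.WX x * S.m x

variable (S) in
/-- Weight two energy density. -/
noncomputable def I2 (e v : Fin (n + 1) → ℝ) (h : ℝ) (ψ' : ℝ → ℝ) (x : E n) : ℝ :=
  S.Nf e x ^ 2 * ψ' (S.sl e v x) * (h - S.Xf e x) ^ 2 * S.toDiff.Γ (S.sl e v) (S.sl e v) x * S.m x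

lemma I0_int (H : CapHyp S.K e h C) : IntegrableOn (fun x => S.Nf e x * S.m x) (S.cap e h) :=
  integrableOn_of_at (cap_compact H) fun _ hx => (Nf_at hx.1 e).continuousAt.mul (Diff.m_at hx.1)

lemma I1_int (H : CapHyp S.K e h C) : IntegrableOn (S.I1 e h) (S.cap e h) :=
  integrableOn_of_at (cap_compact H) fun _ hx => (((Nf_at hx.1 e).continuousAt.mul
    ((continuousAt_const.sub (Xf_at hx.1 e).continuousAt).pow 3)).mul
    (tendsto_finsetSum _ fun k _ => Diff.continuousAt_Γ hx.1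
      ((X_at hx.1 k).of_le (by norm_num)) ((X_at hx.1 k).of_le (by norm_num)))).mul (Diff.m_at hx.1)

lemma I1_nonneg (H : CapHyp S.K e h C) (hC : 0 < C) {x : E n} (hx : x ∈ S.cap e h) :
    0 ≤ S.I1 e h x :=
  mul_nonneg (mul_nonneg (mul_nonneg (cap_pos H hC hx).le (pow_nonneg (sub_nonneg.2 hx.2) 3))
    (WX_nonneg hx.1)) (S.m_pos x hx.1).le

lemma I2_int (H : CapHyp S.K e h C) (hC : 0 < C) (v : Fin (n + 1) → ℝ) {ψ' : ℝ → ℝ}
    (hψ : Continuous ψ') : IntegrableOn (S.I2 e v h ψ') (S.cap e h) :=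
  integrableOn_of_at (cap_compact H) fun _ hx => by
    have h1 := (jet_sl hx.1 (cap_pos H hC hx).ne' v).1
    exact (((((Nf_at hx.1 e).continuousAt.pow 2).mul (hψ.continuousAt.comp h1.continuousAt)).mul
      ((continuousAt_const.sub (Xf_at hx.1 e).continuousAt).pow 2)).mul
      (Diff.continuousAt_Γ hx.1 (h1.of_le (by norm_num)) (h1.of_le (by norm_num)))).mul
      (Diff.m_at hx.1)

lemma I2_nonneg (v : Fin (n + 1) → ℝ) {ψ' : ℝ → ℝ} (hψ : ∀ t, 0 ≤ ψ' t) {x : E n}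
    (hx : x ∈ S.Ω) : 0 ≤ S.I2 e v h ψ' x :=
  mul_nonneg (mul_nonneg (mul_nonneg (mul_nonneg (sq_nonneg _) (hψ _)) (sq_nonneg _))
    (Diff.ip_self_nonneg hx _)) (S.m_pos x hx).le

lemma energy2 (H : CapHyp S.K e h C) (hC : 0 < C) (v : Fin (n + 1) → ℝ) {ψ ψ' : ℝ → ℝ}
    (hψ : ContDiff ℝ 1 ψ) (hψ' : ∀ t, HasDerivAt ψ (ψ' t) t) (hψc : Continuous ψ') {B C0 : ℝ}
    (hB : 0 ≤ B) (hb : ∀ x ∈ S.cap e h,
      2 * ψ (S.sl e v x) * (h - S.Xf e x) * (S.sl e v x * (e ⬝ᵥ e) - e ⬝ᵥ v) ≤ B)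
    (h0 : ∫ x in S.cap e h, S.Nf e x * S.m x ≤ C0) :
    ∫ x in S.cap e h, S.I2 e v h ψ' x ≤ B * C0 := by
  refine ((null_E2 H hC v hψ hψ').le (cap_compact H).measurableSet (I2_int H hC v hψc)
    ((I0_int H).const_mul B) fun x hx => ?_).trans ?_
  · have := mul_le_mul_of_nonneg_right (hb x hx)
      (mul_nonneg (cap_pos H hC hx).le (S.m_pos x hx.1).le)
    simp only [I2]
    linarith
  · rw [integral_const_mul]
    exact mul_le_mul_of_nonneg_left h0 hB

theorem energy1 (n : ℕ) (e : Fin (n + 1) → ℝ) (he : e 0 = 1) (h C : ℝ) (hC : 0 < C) :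
    ∃ C1 : ℝ, 0 < C1 ∧ ∀ S : AS n, CapHyp S.K e h C → ∫ x in S.cap e h, S.I1 e h x ≤ C1 := by
  obtain ⟨c, hc, htw⟩ := tw_lower n e h C hC
  obtain ⟨C0, hC0, har⟩ := area_le n e he h C hC
  set Hm : ℝ := |h| + (∑ k, |e k|) * C with hHm
  have hHm0 : 0 ≤ Hm := by positivity
  have hee : 0 ≤ e ⬝ᵥ e := Finset.sum_nonneg fun k _ => mul_self_nonneg _
  set B : ℝ := 2 * (n + 1) * (n * Hm ^ 2 * C * ‖e‖ + 9 * n * Hm * (e ⬝ᵥ e) * C ^ 2) / c with hB
  have hB0 : 0 ≤ B := by positivity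
  refine ⟨B * C0 + 1, by positivity, fun S H => ?_⟩
  have N1 := Null.sum Finset.univ fun k : Fin (n + 1) =>
    ((null_E1 H hC (Pi.single k 1) 0).add ((null_E1 H hC 0 1).const_mul (5 * C ^ 2))).const_mul 2
  refine (N1.le (cap_compact H).measurableSet (I1_int H) ((I0_int H).const_mul B)
    fun x hx => ?_).trans ?_
  swap
  · rw [integral_const_mul]
    have := mul_le_mul_of_nonneg_left (har S H) hB0
    linarith
  have hP := cap_pos H hC hx
  have hm := S.m_pos x hx.1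
  have hη : 0 ≤ h - S.Xf e x := sub_nonneg.2 hx.2
  have hη1 : h - S.Xf e x ≤ Hm := cap_eta H hx
  have hη2 : h - S.Xf e x ≤ S.Nf e x / c := by
    rw [le_div_iff₀ hc, mul_comm]; exact htw S H x hx
  have e0 : S.Xf 0 = fun _ => 0 := by funext y; simp [Xf]
  have e1 : B * (S.Nf e x * S.m x) = ∑ _k : Fin (n + 1), 2 * (n * Hm ^ 2 * C * ‖e‖
      + 9 * n * Hm * (e ⬝ᵥ e) * C ^ 2) * (S.Nf e x / c) * S.m x := by
    simp only [Finset.sum_const, Finset.card_univ, Fintype.card_fin, nsmul_eq_mul, hB]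
    push_cast
    ring
  rw [e1, I1, WX, Finset.mul_sum, Finset.sum_mul, ← Finset.sum_add_distrib]
  refine Finset.sum_le_sum fun k _ => ?_
  simp only [Xf_single, e0, Diff.Γ, (hasGrad_const' (0:ℝ) x).grad_eq, Diff.ip_zero_right,
    zero_dotProduct, single_dotProduct, one_mul, add_zero, zero_add, mul_zero]
  have ht : |S.X x k| ≤ C := (norm_le_pi_norm (S.X x) k).trans (cap_X H hx)
  have hs : |e k| ≤ ‖e‖ := norm_le_pi_norm e k
  have h1 := Diff.ip_self_nonneg hx.1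
    ((h - S.Xf e x) • grad (fun y => S.X y k) x - (6 * S.X x k) • grad (S.Xf e) x)
  simp only [Diff.ip_sub_left, Diff.ip_sub_right, Diff.ip_smul_left, Diff.ip_smul_right,
    Diff.ip_comm hx.1 (grad (fun y => S.X y k) x) (grad (S.Xf e) x)] at h1
  have h2 := Diff.ip_self_nonneg hx.1 (grad (S.Xf e) x)
  generalize S.toDiff.ip x (grad (S.Xf e) x) (grad (S.Xf e) x) = zz at *
  generalize S.toDiff.ip x (grad (S.Xf e) x) (grad (fun y => S.X y k) x) = zt at *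
  generalize S.toDiff.ip x (grad (fun y => S.X y k) x) (grad (fun y => S.X y k) x) = tt at *
  generalize h - S.Xf e x = η at *
  generalize S.X x k = t at *
  generalize S.Nf e x = P at *
  generalize e ⬝ᵥ e = ze at *
  generalize S.m x = μ at *
  have hn : (0:ℝ) ≤ n := Nat.cast_nonneg n
  have ht2 : t ^ 2 ≤ C ^ 2 := sq_le_sq' (abs_le.1 ht).1 (abs_le.1 ht).2
  have h3 : -(η ^ 3 * t * e k) ≤ Hm ^ 2 * C * ‖e‖ * (P / c) := by
    have h4 : |η ^ 3 * t * e k| ≤ Hm ^ 2 * (P / c) * C * ‖e‖ := by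
      rw [abs_mul, abs_mul, abs_of_nonneg (pow_nonneg hη 3), pow_succ η 2]
      gcongr
    have := neg_abs_le (η ^ 3 * t * e k)
    linarith
  have h4 : η ^ 2 * ze * (t ^ 2 + 5 * C ^ 2) ≤ Hm * (P / c) * ze * (6 * C ^ 2) := by
    rw [sq η]
    gcongr
    linarith
  have h5 := mul_nonneg (mul_nonneg hP.le hη) h1
  have h6 := mul_nonneg (mul_nonneg (mul_nonneg hP.le hη) h2) (sub_nonneg.2 ht2)
  have h7 := mul_le_mul_of_nonneg_left h3 hn
  have h8 := mul_le_mul_of_nonneg_left h4 hn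
  have key : P * η ^ 3 * tt ≤ 2 * ((P * η ^ 3 * tt - 6 * P * η ^ 2 * t * zt
      + 3 * P * η * t ^ 2 * zz + n * η ^ 3 * t * e k - 3 * n / 2 * η ^ 2 * t ^ 2 * ze)
      + 5 * C ^ 2 * (3 * P * η * zz - 3 * n / 2 * η ^ 2 * ze))
      + 2 * (n * Hm ^ 2 * C * ‖e‖ + 9 * n * Hm * ze * C ^ 2) * (P / c) := by
    linarith
  have := mul_le_mul_of_nonneg_right key hm.le
  refine this.trans (le_of_eq ?_)
  ring

end AS

end Vale.Agent.P252
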