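import Vale.Agent.P252.SingODE

/-! The profile ODE of the rotationally and hyperbolically symmetric affine maximal graphs. -/

open scoped ContDiff Topology
open Set

namespace Vale.Agent.P252

lemma pos_of_deriv_ge {e : ℝ → ℝ} (he : Differentiable ℝ e) {a b C : ℝ} (hab : a ≤ b)
    (h : ∀ y ∈ Ioo a b, -C * e y ≤ deriv e y) (ha : 0 < e a) : 0 < e b := by
  have hd : ∀ y, HasDerivAt (fun y => e y * Real.exp (C * y))
      (deriv e y * Real.exp (C * y) + e y * (Real.exp (C * y) * C)) y := fun y => by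
    have h1 : HasDerivAt (fun x => C * x) C y := by simpa using (hasDerivAt_id y).const_mul C
    exact (he y).hasDerivAt.mul h1.exp
  have hm : MonotoneOn (fun y => e y * Real.exp (C * y)) (Icc a b) := by
    apply monotoneOn_of_deriv_nonneg (convex_Icc a b)
    · exact fun y _ => (hd y).continuousAt.continuousWithinAt
    · exact fun y _ => (hd y).differentiableAt.differentiableWithinAt
    · intro y hy
      rw [interior_Icc] at hy
      rw [(hd y).deriv]
      have h1 := h y hy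
      have h2 := Real.exp_pos (C * y)
      nlinarith
  have h1 := hm (left_mem_Icc.2 hab) (right_mem_Icc.2 hab) hab
  have h2 : 0 < e a * Real.exp (C * a) := mul_pos ha (Real.exp_pos _)
  exact (mul_pos_iff_of_pos_right (Real.exp_pos _)).1 (h2.trans_le h1)

lemma le_of_deriv_nonpos {e : ℝ → ℝ} (he : Differentiable ℝ e) {a b : ℝ} (hab : a ≤ b)
    (h : ∀ y ∈ Ioo a b, deriv e y ≤ 0) : e b ≤ e a := by
  have hm : AntitoneOn e (Icc a b) := by
    apply antitoneOn_of_deriv_nonpos (convex_Icc a b) he.continuous.continuousOn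
      he.differentiableOn
    intro y hy
    rw [interior_Icc] at hy
    exact h y hy
  exact hm (left_mem_Icc.2 hab) (right_mem_Icc.2 hab) hab

/-- Numerator of the second equation of the planar system. -/
def Nn (m p b : ℝ) : ℝ :=
  (2 * p + 2 * m + 3) + b * (4 * p ^ 2 + (3 * m + 5) * p - m ^ 2 - 2 * m)
    + b ^ 2 * p * (4 * p - m ^ 2 - m)

/-- The vector field. -/
noncomputable def field (m : ℝ) (z : Fin 3 → ℝ) : Fin 3 → ℝ :=
  ![z 0 ^ 2 * (z 2 - 1) / 2, z 0 * (2 + z 1 * (z 2 - 1)) / 2,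
    z 0 * ((m * (2 + z 2 * (4 * z 1 + 3 * m + 5) + z 2 ^ 2 * (4 * z 1 - m ^ 2 - m))
      - 2 * (2 * m + 3 - z 2 * m * (m + 2))) / (m * (2 * z 1 + m))) / 2]

/-- The cutoff. -/
noncomputable def cut : ContDiffBump (![0, 2, 0] : Fin 3 → ℝ) := ⟨3, 4, by norm_num, by norm_num⟩

lemma contDiff_cutfield {m : ℝ} (hm : 9 ≤ m) :
    ContDiff ℝ ∞ (fun z => cut z • field m z) := by
  rw [contDiff_iff_contDiffAt]
  intro z
  by_cases hz : z ∈ tsupport cut
  · rw [ContDiffBump.tsupport_eq] at hz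
    have h1 : dist (z 1) ((![0, 2, 0] : Fin 3 → ℝ) 1) ≤ 4 := (dist_le_pi_dist _ _ 1).trans hz
    have h2 : -2 ≤ z 1 := by
      rw [Real.dist_eq, abs_le] at h1
      have := h1.1
      simp at this
      linarith
    have h3 : m * (2 * z 1 + m) ≠ 0 := by
      have : 0 < 2 * z 1 + m := by linarith
      positivity
    apply ContDiffAt.smul cut.contDiff.contDiffAt
    rw [contDiffAt_pi]
    intro i
    fin_cases i
    · simp only [field]; show ContDiffAt ℝ ∞ (fun z : Fin 3 → ℝ => z 0 ^ 2 * (z 2 - 1) / 2) z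
      fun_prop
    · show ContDiffAt ℝ ∞ (fun z : Fin 3 → ℝ => z 0 * (2 + z 1 * (z 2 - 1)) / 2) z
      fun_prop
    · show ContDiffAt ℝ ∞ (fun z : Fin 3 → ℝ =>
        z 0 * ((m * (2 + z 2 * (4 * z 1 + 3 * m + 5) + z 2 ^ 2 * (4 * z 1 - m ^ 2 - m))
          - 2 * (2 * m + 3 - z 2 * m * (m + 2))) / (m * (2 * z 1 + m))) / 2) z
      fun_prop (disch := assumption)
  · have h0 : (cut : (Fin 3 → ℝ) → ℝ) =ᶠ[𝓝 z] 0 := notMem_tsupport_iff_eventuallyEq.1 hz
    have : (fun z => cut z • field m z) =ᶠ[𝓝 z] fun _ => 0 := by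
      filter_upwards [h0] with w hw
      simp [hw]
    exact contDiffAt_const.congr_of_eventuallyEq this

lemma hasCompactSupport_cutfield (m : ℝ) : HasCompactSupport (fun z => cut z • field m z) :=
  cut.hasCompactSupport.smul_right

/-- The trapping region. -/
def good (z : Fin 3 → ℝ) : Prop :=
  0 < z 0 ∧ z 0 < 2 ∧ -1 < z 1 ∧ z 1 < 9 / 2 ∧ 0 < z 2 ∧ z 2 < 5 / 9

lemma isOpen_good : IsOpen {z | good z} := by
  unfold good
  exact (isOpen_lt continuous_const (continuous_apply 0)).inter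
    ((isOpen_lt (continuous_apply 0) continuous_const).inter
    ((isOpen_lt continuous_const (continuous_apply 1)).inter
    ((isOpen_lt (continuous_apply 1) continuous_const).inter
    ((isOpen_lt continuous_const (continuous_apply 2)).inter
    (isOpen_lt (continuous_apply 2) continuous_const)))))

lemma cut_eq_one {z : Fin 3 → ℝ} (h : good z) : cut z = 1 := by
  obtain ⟨h1, h2, h3, h4, h5, h6⟩ := h
  apply cut.one_of_mem_closedBall
  rw [Metric.mem_closedBall, dist_pi_le_iff (by norm_num [cut])]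
  intro i
  fin_cases i <;> simp [Real.dist_eq, cut, abs_le] <;> constructor <;> linarith

lemma Nn_lower {m p b : ℝ} (hm : 9 ≤ m) (hp : 0 ≤ p) (hp' : p < 9 / 2) (hb : 0 < b)
    (hb' : b < 5 / 9) : -(6 * (m + 2)) * b * (2 * p + m) ≤ Nn m p b := by
  unfold Nn
  have hm0 : 0 ≤ m := by linarith
  have h1 : b * p ≤ 5 / 2 := by nlinarith
  have h2 : 0 ≤ b * p := by positivity
  have h3 : b ^ 2 * p * (m ^ 2 + m) ≤ b * (5 / 2) * (m ^ 2 + m) := by
    apply mul_le_mul_of_nonneg_right _ (by positivity)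
    nlinarith
  have h4 : 0 ≤ b * p * m := by positivity
  have h5 : 0 ≤ b * p ^ 2 := by positivity
  have h6 : 0 ≤ b ^ 2 * p ^ 2 := by positivity
  have h7 : 0 ≤ b * m := by positivity
  have h8 : 0 ≤ b * m ^ 2 := by positivity
  nlinarith

lemma Nn_upper {m p b : ℝ} (hm : 9 ≤ m) (hp : 0 ≤ p) (hp' : p < 9 / 2) (hb : 0 < b)
    (hb' : b < 5 / 9) : -(6 * (m + 2)) * (5 / 9 - b) * (2 * p + m) ≤ -Nn m p b := by
  have hm0 : 0 ≤ m := by linarith
  have e : -Nn m p b = -((1 + 5 / 9 * p) * (2 * p + 2 * m + 3 + 5 / 9 * (6 * p - m ^ 2)))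
      + 5 / 9 * (2 - 4 / 9 * p) * (2 * p + m)
      + (5 / 9 - b) * (4 * p ^ 2 + (3 * m + 5) * p - m ^ 2 - 2 * m
        + (5 / 9 + b) * p * (4 * p - m ^ 2 - m)) := by
    unfold Nn; ring
  have h1 : 2 * p + 2 * m + 3 + 5 / 9 * (6 * p - m ^ 2) ≤ 0 := by nlinarith
  have h2 : (1 + 5 / 9 * p) * (2 * p + 2 * m + 3 + 5 / 9 * (6 * p - m ^ 2)) ≤ 0 :=
    mul_nonpos_of_nonneg_of_nonpos (by positivity) h1
  have h3 : 0 ≤ 5 / 9 * (2 - 4 / 9 * p) * (2 * p + m) := by
    have : 0 ≤ 2 - 4 / 9 * p := by linarith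
    positivity
  have h4 : (5 / 9 + b) * p ≤ 5 := by nlinarith
  have h5 : 0 ≤ (5 / 9 + b) * p := by positivity
  have h6 : -(6 * (m + 2)) * (2 * p + m) ≤ 4 * p ^ 2 + (3 * m + 5) * p - m ^ 2 - 2 * m
        + (5 / 9 + b) * p * (4 * p - m ^ 2 - m) := by
    have h7 : (5 / 9 + b) * p * (m ^ 2 + m) ≤ 5 * (m ^ 2 + m) :=
      mul_le_mul_of_nonneg_right h4 (by positivity)
    have h8 : 0 ≤ (5 / 9 + b) * p * p := by positivity
    have h9 : 0 ≤ m * p := by positivity
    nlinarith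
  have h10 := mul_le_mul_of_nonneg_left h6 (show 0 ≤ 5 / 9 - b by linarith)
  rw [e]
  nlinarith

theorem exists_profile {m : ℝ} (hm : 9 ≤ m) :
    ∃ P b : ℝ → ℝ, ContDiff ℝ ∞ P ∧ ContDiff ℝ ∞ b ∧ ∀ y, 0 ≤ y →
      0 < P y ∧ 0 < b y ∧ deriv P y = P y ^ 2 * (b y - 1) / 2 ∧
      2 * y * deriv b y * (2 * (y * P y) + m) = Nn m (y * P y) (b y) := by
  have hm0 : 0 < m := by linarith
  set b0 : ℝ := (2 * m + 3) / (m * (m + 2)) with hb0
  obtain ⟨Z, hZ, hZ0, h1, h2⟩ := exists_smooth_sol (fun z => cut z • field m z)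
    (contDiff_cutfield hm) (hasCompactSupport_cutfield m) ![1, 0, b0]
    ![fun _ => 1, fun _ => 1, fun τ => τ ^ ((m + 2) / 2)]
    ![fun _ => 0, fun _ => 0, fun τ => (m + 2) / 2 * τ ^ ((m + 2) / 2 - 1)]
    ![0, 0, (m + 2) / 2] (fun i => by
      fin_cases i
      · exact wt_zero
      · exact wt_zero
      · exact wt_rpow (by linarith))
  have hc : ∀ i, ContDiff ℝ ∞ (fun s => Z s i) := contDiff_pi.1 hZ
  have hd : ∀ i, Differentiable ℝ (fun s => Z s i) := fun i => (hc i).differentiable (by simp)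
  have eP : ∀ y, good (Z y) → deriv (fun s => Z s 0) y = Z y 0 ^ 2 * (Z y 2 - 1) / 2 :=
    fun y hy => by
      rw [h2 y 0 rfl]; simp [cut_eq_one hy, field]
  have ep : ∀ y, good (Z y) →
      deriv (fun s => Z s 1) y = Z y 0 * (2 + Z y 1 * (Z y 2 - 1)) / 2 := fun y hy => by
      rw [h2 y 1 rfl]; simp [cut_eq_one hy, field]
  have eb : ∀ y, good (Z y) → Z y 1 = y * Z y 0 →
      2 * y * deriv (fun s => Z s 2) y * (2 * Z y 1 + m) = Nn m (Z y 1) (Z y 2) :=
    fun y hy hp => by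
      have h3 := h1 y 2
      have h4 : 0 < 2 * Z y 1 + m := by have := hy.2.2.1; linarith
      simp only [Pi.smul_apply, cut_eq_one hy, field, smul_eq_mul, one_mul, Matrix.cons_val] at h3
      rw [mul_assoc 2 y, h3]
      have h5 : ∀ w : ℝ, y * (Z y 0 * w / 2) = Z y 1 * w / 2 := fun w => by rw [hp]; ring
      rw [h5, hb0]
      unfold Nn
      field_simp
      ring
  have hb0pos : 0 < b0 := by positivity
  have hb0lt : b0 < 5 / 9 := by
    rw [hb0, div_lt_iff₀ (by positivity)]; nlinarith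
  have good0 : good (Z 0) := by
    rw [hZ0]; refine ⟨?_, ?_, ?_, ?_, ?_, ?_⟩ <;> simp [hb0pos, hb0lt]
  have hdel : ∀ Y, 0 ≤ Y → (∀ y ∈ Ioo 0 Y, good (Z y)) → Z Y 1 = Y * Z Y 0 := by
    intro Y hY H
    have hder : ∀ y, HasDerivAt (fun s => (Z s 1 - s * Z s 0) ^ 2)
        (2 * (Z y 1 - y * Z y 0) * (deriv (fun s => Z s 1) y
          - (Z y 0 + y * deriv (fun s => Z s 0) y))) y := fun y => by
      have h3 := ((hd 1 y).hasDerivAt.sub ((hasDerivAt_id y).mul (hd 0 y).hasDerivAt)).pow 2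
      exact h3.congr_deriv (by simp)
    have h3 := le_of_deriv_nonpos (e := fun s => (Z s 1 - s * Z s 0) ^ 2)
      (fun y => (hder y).differentiableAt) hY (fun y hy => by
        have hg := H y hy
        rw [(hder y).deriv, eP y hg, ep y hg]
        have : 2 * (Z y 1 - y * Z y 0) * (Z y 0 * (2 + Z y 1 * (Z y 2 - 1)) / 2
            - (Z y 0 + y * (Z y 0 ^ 2 * (Z y 2 - 1) / 2)))
            = (Z y 1 - y * Z y 0) ^ 2 * (Z y 0 * (Z y 2 - 1)) := by ring
        rw [this]
        apply mul_nonpos_of_nonneg_of_nonpos (sq_nonneg _)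
        apply mul_nonpos_of_nonneg_of_nonpos hg.1.le
        linarith [hg.2.2.2.2.2])
    simp only [hZ0] at h3
    have h4 : (Z Y 1 - Y * Z Y 0) ^ 2 ≤ 0 := by simpa using h3
    have h5 : Z Y 1 - Y * Z Y 0 = 0 := by nlinarith [sq_nonneg (Z Y 1 - Y * Z Y 0)]
    linarith
  have step : ∀ Y, 0 < Y → (∀ y ∈ Ico 0 Y, good (Z y)) → good (Z Y) := by
    intro Y hY H
    have H' : ∀ y ∈ Ioo 0 Y, good (Z y) := fun y hy => H y (Ioo_subset_Ico_self hy)
    have hpe : ∀ y ∈ Ioo 0 Y, Z y 1 = y * Z y 0 := fun y hy =>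
      hdel y hy.1.le (fun s hs => H' s ⟨hs.1, hs.2.trans hy.2⟩)
    have hp0 : ∀ y ∈ Ioo 0 Y, 0 ≤ Z y 1 := fun y hy => by
      rw [hpe y hy]; exact mul_nonneg hy.1.le (H' y hy).1.le
    have g1 : 0 < Z Y 0 := pos_of_deriv_ge (C := 1) (hd 0) hY.le (fun y hy => by
      obtain ⟨a1, a2, a3, a4, a5, a6⟩ := H' y hy
      rw [eP y (H' y hy)]
      have : 0 ≤ Z y 0 * Z y 2 := by positivity
      nlinarith) good0.1
    have g2 : Z Y 0 < 2 := by
      have := le_of_deriv_nonpos (hd 0) hY.le (fun y hy => by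
        obtain ⟨a1, a2, a3, a4, a5, a6⟩ := H' y hy
        rw [eP y (H' y hy)]
        nlinarith [sq_nonneg (Z y 0)])
      linarith [good0.2.1]
    have g3 : -1 < Z Y 1 := by
      rw [hdel Y hY.le H']
      have := mul_pos hY g1
      linarith
    have g4 : 0 < 9 / 2 - Z Y 1 := pos_of_deriv_ge (e := fun s => 9 / 2 - Z s 1) (C := 1)
      ((hd 1).const_sub _) hY.le (fun y hy => by
        obtain ⟨a1, a2, a3, a4, a5, a6⟩ := H' y hy
        have a7 := hp0 y hy
        rw [deriv_const_sub, ep y (H' y hy)]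
        have e : -(Z y 0 * (2 + Z y 1 * (Z y 2 - 1)) / 2)
            = -(2 / 9) * Z y 0 * (9 / 2 - Z y 1) + Z y 0 * Z y 1 * (5 / 9 - Z y 2) / 2 := by ring
        rw [e]
        have a8 : 0 ≤ Z y 0 * Z y 1 * (5 / 9 - Z y 2) / 2 := by
          have : 0 ≤ 5 / 9 - Z y 2 := by linarith
          positivity
        nlinarith) (by linarith [good0.2.2.2.1])
    have hY2 : Y / 2 ∈ Ico 0 Y := ⟨by positivity, by linarith⟩
    have g5 : 0 < Z Y 2 := pos_of_deriv_ge (C := 6 * (m + 2) / Y) (a := Y / 2) (hd 2)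
      (by linarith) (fun y hy => by
        have hy' : y ∈ Ioo 0 Y := ⟨by linarith [hy.1], hy.2⟩
        obtain ⟨a1, a2, a3, a4, a5, a6⟩ := H' y hy'
        have a7 := hp0 y hy'
        have a8 := eb y (H' y hy') (hpe y hy')
        have a9 := Nn_lower hm a7 a4 a5 a6
        rw [← a8] at a9
        have a10 : -(6 * (m + 2)) * Z y 2 ≤ 2 * y * deriv (fun s => Z s 2) y :=
          le_of_mul_le_mul_right a9 (by linarith)
        have a11 : 0 < 2 * y := by linarith [hy'.1]
        apply le_of_mul_le_mul_left _ a11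
        refine le_trans ?_ a10
        have a12 : 6 * (m + 2) ≤ 2 * y * (6 * (m + 2) / Y) := by
          rw [← mul_div_assoc, le_div_iff₀ hY]
          nlinarith [hy.1]
        nlinarith) (H _ hY2).2.2.2.2.1
    have g6 : 0 < 5 / 9 - Z Y 2 := pos_of_deriv_ge (e := fun s => 5 / 9 - Z s 2)
      (C := 6 * (m + 2) / Y) (a := Y / 2) ((hd 2).const_sub _)
      (by linarith) (fun y hy => by
        have hy' : y ∈ Ioo 0 Y := ⟨by linarith [hy.1], hy.2⟩
        obtain ⟨a1, a2, a3, a4, a5, a6⟩ := H' y hy'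
        have a7 := hp0 y hy'
        have a8 := eb y (H' y hy') (hpe y hy')
        have a9 := Nn_upper hm a7 a4 a5 a6
        rw [← a8] at a9
        have a10 : -(6 * (m + 2)) * (5 / 9 - Z y 2) ≤ 2 * y * (-deriv (fun s => Z s 2) y) := by
          apply le_of_mul_le_mul_right _ (show 0 < 2 * Z y 1 + m by linarith)
          linarith
        have a11 : 0 < 2 * y := by linarith [hy'.1]
        rw [deriv_const_sub]
        apply le_of_mul_le_mul_left _ a11
        refine le_trans ?_ a10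
        have a12 : 6 * (m + 2) ≤ 2 * y * (6 * (m + 2) / Y) := by
          rw [← mul_div_assoc, le_div_iff₀ hY]
          nlinarith [hy.1]
        nlinarith) (by linarith [(H _ hY2).2.2.2.2.2])
    exact ⟨g1, g2, g3, by linarith, g5, by linarith⟩
  have hall : ∀ y, 0 ≤ y → good (Z y) := by
    by_contra hcon
    push Not at hcon
    obtain ⟨y1, hy1, hy1'⟩ := hcon
    set S : Set ℝ := Ici 0 ∩ (Z ⁻¹' {z | good z})ᶜ with hS
    have hSc : IsClosed S :=
      isClosed_Ici.inter (isOpen_good.preimage hZ.continuous).isClosed_compl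
    have hSne : S.Nonempty := ⟨y1, hy1, hy1'⟩
    have hSb : BddBelow S := ⟨0, fun y hy => hy.1⟩
    have hmem := hSc.csInf_mem hSne hSb
    have hpos : 0 < sInf S := by
      rcases (show (0:ℝ) ≤ sInf S from hmem.1).eq_or_lt with h | h
      · exact absurd (show good (Z (sInf S)) from h ▸ good0) hmem.2
      · exact h
    apply hmem.2
    apply step _ hpos
    intro y hy
    by_contra hg
    exact absurd (csInf_le hSb ⟨hy.1, hg⟩) (not_le.2 hy.2)
  refine ⟨fun s => Z s 0, fun s => Z s 2, hc 0, hc 2, fun y hy => ?_⟩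
  have hg := hall y hy
  have hp := hdel y hy (fun s hs => hall s hs.1.le)
  refine ⟨hg.1, hg.2.2.2.2.1, eP y hg, ?_⟩
  have := eb y hg hp
  rw [hp] at this
  exact this

end Vale.Agent.P252
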