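import Vale.Agent.P252.Calc
import Vale.Agent.P252.Trap

/-! A smooth entire non-quadratic affine maximal graph in every dimension `n ≥ 10`. -/

open scoped ContDiff
open Finset

namespace Vale.Agent.P252

/-- The one-variable data, in the form used by the verification. -/
structure Prof (M : ℝ) (P b F p A κ : ℝ → ℝ) : Prop where
  Fsm : ContDiff ℝ ∞ F
  Fpos : ∀ y, 0 < F y
  F0 : F 0 = 1
  Fder : ∀ y, HasDerivAt F (P y * F y) y
  Ppos : ∀ y, 0 ≤ y → 0 < P y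
  bpos : ∀ y, 0 ≤ y → 0 < b y
  pdef : ∀ y, p y = y * P y
  Adef : ∀ y, A y = 1 + b y * p y
  κdef : ∀ y, κ y = -(M + 2) * (P y / 2) * (2 * p y + M - 1 + 2 * A y) * (2 * p y + M)⁻¹
  Pder : ∀ y, 0 ≤ y → HasDerivAt P (P y ^ 2 * (b y - 1) / 2) y
  pder : ∀ y, 0 ≤ y → HasDerivAt p (P y * (2 + p y * (b y - 1)) / 2) y
  Ader : ∀ y, 0 ≤ y → HasDerivAt A
    (P y / 2 * A y * (2 * p y + 2 * M + 3 + b y * (6 * p y - M ^ 2)) / (2 * p y + M)) y

theorem exists_prof {M : ℝ} (hM : 9 ≤ M) : ∃ P b F p A κ : ℝ → ℝ, Prof M P b F p A κ := by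
  obtain ⟨P, b, hP, hb, h⟩ := exists_profile hM
  have hPd : Differentiable ℝ P := hP.differentiable (by simp)
  have hbd : Differentiable ℝ b := hb.differentiable (by simp)
  have h1 : ∀ y, 0 ≤ y → HasDerivAt P (P y ^ 2 * (b y - 1) / 2) y := fun y hy => by
    rw [← (h y hy).2.2.1]; exact (hPd y).hasDerivAt
  have h2 : ∀ y, 0 ≤ y → HasDerivAt (fun y => y * P y)
      (P y * (2 + y * P y * (b y - 1)) / 2) y := fun y hy =>
    ((hasDerivAt_id y).mul (h1 y hy)).congr_deriv (by simp only [id]; ring)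
  refine ⟨P, b, fun y => Real.exp (prim P y), fun y => y * P y, fun y => 1 + b y * (y * P y),
    fun y => -(M + 2) * (P y / 2) * (2 * (y * P y) + M - 1 + 2 * (1 + b y * (y * P y)))
      * (2 * (y * P y) + M)⁻¹, (contDiff_prim hP).exp, fun y => Real.exp_pos _,
    by simp [prim_zero], fun y => (hasDerivAt_prim hP.continuous y).exp.congr_deriv (by ring),
    fun y hy => (h y hy).1, fun y hy => (h y hy).2.1, fun _ => rfl, fun _ => rfl, fun _ => rfl,
    h1, h2, fun y hy => ?_⟩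
  refine (((hbd y).hasDerivAt.mul (h2 y hy)).const_add 1).congr_deriv ?_
  obtain ⟨a1, a2, -, a4⟩ := h y hy
  have a5 : 0 < 2 * (y * P y) + M := by positivity
  have a6 : y * deriv b y = Nn M (y * P y) (b y) / (2 * (2 * (y * P y) + M)) := by
    rw [eq_div_iff (by positivity), ← a4]; ring
  have a7 : deriv b y * (y * P y) = (y * deriv b y) * P y := by ring
  rw [a7, a6]
  unfold Nn
  field_simp
  ring

variable {n : ℕ}

/-- The graph function. -/
noncomputable def uu (o : Fin n) (F : ℝ → ℝ) (x : EuclideanSpace ℝ (Fin n)) : ℝ :=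
  √(F (Yf o x) + x o * x o)

section
variable {M : ℝ} {P b F p A κ : ℝ → ℝ} (h : Prof M P b F p A κ) (o : Fin n)
include h

lemma Prof.s_pos (x : EuclideanSpace ℝ (Fin n)) : 0 < F (Yf o x) + x o * x o :=
  add_pos_of_pos_of_nonneg (h.Fpos _) (mul_self_nonneg _)

lemma Prof.uu_pos (x : EuclideanSpace ℝ (Fin n)) : 0 < uu o F x := Real.sqrt_pos.2 (h.s_pos o x)

lemma Prof.uu_sq (x : EuclideanSpace ℝ (Fin n)) : uu o F x ^ 2 = F (Yf o x) + x o ^ 2 := by
  rw [uu, Real.sq_sqrt (h.s_pos o x).le]; ring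

lemma Prof.contDiff_uu : ContDiff ℝ ∞ (uu o F) :=
  ContDiff.sqrt ((h.Fsm.comp (contDiff_Yf o)).add ((contDiff_coord o).mul (contDiff_coord o)))
    fun x => (h.s_pos o x).ne'

lemma Prof.ppos {y : ℝ} (hy : 0 ≤ y) : 0 ≤ p y := by
  rw [h.pdef]; exact mul_nonneg hy (h.Ppos y hy).le

lemma Prof.Apos {y : ℝ} (hy : 0 ≤ y) : 0 < A y := by
  rw [h.Adef]
  have := h.ppos hy
  have := h.bpos y hy
  positivity

lemma Prof.d2_uu (x : EuclideanSpace ℝ (Fin n)) :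
    D2 o (uu o F) x (P (Yf o x) * F (Yf o x) * (2 * uu o F x)⁻¹) (x o * (uu o F x)⁻¹) := by
  have h1 := ((d2_y (h.Fder (Yf o x))).add (d2_t.mul d2_t)).comp
    (Real.hasDerivAt_sqrt (h.s_pos o x).ne')
  have hu := (h.uu_pos o x).ne'
  refine h1.congr ?_ ?_
  · change 1 / (2 * uu o F x) * _ = _
    field_simp
    ring
  · change 1 / (2 * uu o F x) * _ = _
    field_simp
    ring

lemma Prof.d2_uy (x : EuclideanSpace ℝ (Fin n)) :
    D2 o (fun x => P (Yf o x) * F (Yf o x) * (2 * uu o F x)⁻¹) x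
      (P (Yf o x) ^ 2 * (b (Yf o x) + 1) * F (Yf o x) / (4 * uu o F x)
        - (P (Yf o x) * F (Yf o x)) ^ 2 / (4 * uu o F x ^ 3))
      (-(P (Yf o x) * F (Yf o x) * x o) / (2 * uu o F x ^ 3)) := by
  have hu := (h.uu_pos o x).ne'
  have h1 := ((d2_y (h.Pder _ (Yf_nonneg o x))).mul (d2_y (h.Fder (Yf o x)))).mul
    (((d2_const 2).mul (h.d2_uu o x)).inv (mul_ne_zero two_ne_zero hu))
  refine h1.congr ?_ ?_
  · field_simp
    ring
  · field_simp
    ring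

lemma Prof.d2_ut (x : EuclideanSpace ℝ (Fin n)) :
    D2 o (fun x => x o * (uu o F x)⁻¹) x
      (-(P (Yf o x) * F (Yf o x) * x o) / (2 * uu o F x ^ 3))
      (F (Yf o x) / uu o F x ^ 3) := by
  have hu := (h.uu_pos o x).ne'
  have h1 := d2_t.mul ((h.d2_uu o x).inv hu)
  refine h1.congr ?_ ?_
  · field_simp
    ring
  · have : F (Yf o x) = uu o F x ^ 2 - x o ^ 2 := by rw [h.uu_sq]; ring
    rw [this]
    field_simp
    ring

lemma Prof.hess_uu (x : EuclideanSpace ℝ (Fin n)) :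
    hess (uu o F) x = Sm o (xi o x) (P (Yf o x) * F (Yf o x) / uu o F x)
      (P (Yf o x) ^ 2 * (b (Yf o x) + 1) * F (Yf o x) / uu o F x
        - (P (Yf o x) * F (Yf o x)) ^ 2 / uu o F x ^ 3)
      (-(P (Yf o x) * F (Yf o x) * x o) / uu o F x ^ 3)
      (F (Yf o x) / uu o F x ^ 3) := by
  have hu := (h.uu_pos o x).ne'
  rw [hess_eq_Sm (h.d2_uu o) (h.d2_uy o x) (h.d2_ut o x)]
  congr 1 <;> field_simp

lemma Prof.Delta (x : EuclideanSpace ℝ (Fin n)) :
    F (Yf o x) ^ 2 * P (Yf o x) * A (Yf o x) / uu o F x ^ 4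
      = (P (Yf o x) * F (Yf o x) / uu o F x
        + (P (Yf o x) ^ 2 * (b (Yf o x) + 1) * F (Yf o x) / uu o F x
          - (P (Yf o x) * F (Yf o x)) ^ 2 / uu o F x ^ 3) * Yf o x) * (F (Yf o x) / uu o F x ^ 3)
      - (-(P (Yf o x) * F (Yf o x) * x o) / uu o F x ^ 3) ^ 2 * Yf o x := by
  have hu := (h.uu_pos o x).ne'
  have : F (Yf o x) = uu o F x ^ 2 - x o ^ 2 := by rw [h.uu_sq]; ring
  rw [h.Adef, h.pdef, this]
  field_simp
  ring

lemma Prof.posDef (x : EuclideanSpace ℝ (Fin n)) : (hess (uu o F) x).PosDef := by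
  have hu := h.uu_pos o x
  have hF := h.Fpos (Yf o x)
  have hP := h.Ppos _ (Yf_nonneg o x)
  have hA := h.Apos (Yf_nonneg o x)
  rw [h.hess_uu]
  apply Sm_posDef o (xi_o o x) (y := Yf o x) rfl (by positivity) (by positivity)
  rw [← h.Delta]
  positivity

end

section
variable {m : ℕ} {P b F p A κ : ℝ → ℝ} (h : Prof m P b F p A κ) (o : Fin (m + 1))
include h

lemma Prof.det_uu (x : EuclideanSpace ℝ (Fin (m + 1))) :
    (hess (uu o F) x).det
      = P (Yf o x) ^ m * F (Yf o x) ^ (m + 1) * A (Yf o x) / uu o F x ^ (m + 3) := by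
  have hu := h.uu_pos o x
  have hF := h.Fpos (Yf o x)
  have hP := h.Ppos _ (Yf_nonneg o x)
  rw [h.hess_uu, Sm_det o (xi_o o x) (y := Yf o x) rfl (by positivity), ← h.Delta]
  rw [div_pow, mul_pow]
  field_simp
  ring

/-- The radial factor of `w`. -/
noncomputable def Om (m : ℕ) (P F A : ℝ → ℝ) (y : ℝ) : ℝ :=
  (P y ^ m * F y ^ (m + 1) * A y) ^ (-((m:ℝ) + 2) / ((m:ℝ) + 3))

lemma Prof.wfun_uu : wfun (uu o F) = fun x => uu o F x ^ (m + 1 + 1) * Om m P F A (Yf o x) := by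
  funext x
  have hu := h.uu_pos o x
  have hF := h.Fpos (Yf o x)
  have hP := h.Ppos _ (Yf_nonneg o x)
  have hA := h.Apos (Yf_nonneg o x)
  have e : -(((m + 1 : ℕ) : ℝ) + 1) / (((m + 1 : ℕ) : ℝ) + 2) = -((m:ℝ) + 2) / ((m:ℝ) + 3) := by
    push_cast; congr 1 <;> ring
  rw [wfun, h.det_uu, e, Real.div_rpow (by positivity) (by positivity), Om,
    ← Real.rpow_natCast (uu o F x) (m + 3), ← Real.rpow_mul hu.le]
  have e2 : ((m + 3 : ℕ) : ℝ) * (-((m:ℝ) + 2) / ((m:ℝ) + 3)) = -((m + 1 + 1 : ℕ) : ℝ) := by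
    push_cast; field_simp; ring
  rw [e2, Real.rpow_neg hu.le, Real.rpow_natCast]
  field_simp

lemma Prof.Om_der (hm : 0 < m) {y : ℝ} (hy : 0 ≤ y) :
    HasDerivAt (Om m P F A) (κ y * Om m P F A y) y := by
  have hF := h.Fpos y
  have hP := h.Ppos _ hy
  have hA := h.Apos hy
  have hp := h.ppos hy
  have hM : (0:ℝ) < m := by exact_mod_cast hm
  have hX : 0 < P y ^ m * F y ^ (m + 1) * A y := by positivity
  obtain ⟨k, rfl⟩ : ∃ k, m = k + 1 := ⟨m - 1, by omega⟩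
  have h1 := ((((h.Pder y hy).pow (k + 1)).mul ((h.Fder y).pow (k + 1 + 1))).mul
    (h.Ader y hy)).rpow_const (p := -(((k + 1 : ℕ) : ℝ) + 2) / (((k + 1 : ℕ) : ℝ) + 3))
    (Or.inl hX.ne')
  refine h1.congr_deriv ?_
  simp only [Pi.mul_apply, Pi.pow_apply, Nat.add_sub_cancel]
  rw [Real.rpow_sub_one hX.ne', Om, h.κdef]
  generalize (P y ^ (k + 1) * F y ^ (k + 1 + 1) * A y)
    ^ (-(((k + 1 : ℕ) : ℝ) + 2) / (((k + 1 : ℕ) : ℝ) + 3)) = W
  have hD : 0 < 2 * p y + ((k + 1 : ℕ) : ℝ) := by positivity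
  rw [h.Adef] at hA ⊢
  rw [Nat.cast_succ (k + 1)]
  generalize ((k + 1 : ℕ) : ℝ) = M at *
  have hM3 : 0 < M + 3 := by positivity
  field_simp
  ring

lemma Prof.κ_der (hm : 0 < m) {y : ℝ} (hy : 0 ≤ y) :
    HasDerivAt κ (-((m:ℝ) + 2) * (P y ^ 2 * (b y - 1) / 4 * (2 * p y + m - 1 + 2 * A y)
        / (2 * p y + m)
      + P y / 2 * (P y * (2 + p y * (b y - 1))
        + P y * A y * (2 * p y + 2 * m + 3 + b y * (6 * p y - m ^ 2)) / (2 * p y + m))
        / (2 * p y + m)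
      - P y / 2 * (2 * p y + m - 1 + 2 * A y) * (P y * (2 + p y * (b y - 1)))
        / (2 * p y + m) ^ 2)) y := by
  have hp := h.ppos hy
  have hM : (0:ℝ) < m := by exact_mod_cast hm
  have hD : 0 < 2 * p y + m := by positivity
  have e : κ = fun y => -((m:ℝ) + 2) * (P y / 2) * (2 * p y + m - 1 + 2 * A y)
      * (2 * p y + m)⁻¹ := funext h.κdef
  rw [e]
  have h1 := ((((h.Pder y hy).div_const 2).const_mul (-((m:ℝ) + 2))).mul
    (((((h.pder y hy).const_mul 2).add_const (m:ℝ)).sub_const 1).add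
      ((h.Ader y hy).const_mul 2))).mul
    ((((h.pder y hy).const_mul 2).add_const (m:ℝ)).inv hD.ne')
  refine h1.congr_deriv ?_
  simp only [Pi.mul_apply, Pi.add_apply, Pi.inv_apply]
  field_simp
  ring

lemma Prof.κ_key (hm : 0 < m) {y : ℝ} (hy : 0 ≤ y) : ∃ κ1, HasDerivAt κ κ1 y ∧
    2 * κ y * (((m:ℝ) - 1) * A y + 1) + 4 * y * (κ1 + κ y ^ 2) + 4 * ((m:ℝ) + 2) * p y * κ y
      + ((m:ℝ) + 2) * ((m:ℝ) + 1) * P y * (A y + p y) = 0 := by
  refine ⟨_, h.κ_der hm hy, ?_⟩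
  have hp := h.ppos hy
  have hM : (0:ℝ) < m := by exact_mod_cast hm
  have hD : 2 * p y + m ≠ 0 := by positivity
  rw [h.κdef, h.Adef]
  have hpd := h.pdef y
  generalize p y = q at *
  generalize (m:ℝ) = M at *
  field_simp
  rw [hpd]
  ring

lemma Prof.amOp_uu (hm : 0 < m) (x : EuclideanSpace ℝ (Fin (m + 1))) :
    amOp (uu o F) x = 0 := by
  have hM : (0:ℝ) < m := by exact_mod_cast hm
  obtain ⟨κ1, hκ1, key⟩ := h.κ_key hm (Yf_nonneg o x)
  have hΩ : ∀ z : EuclideanSpace ℝ (Fin (m + 1)), D2 o (fun z => Om m P F A (Yf o z)) z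
      (κ (Yf o z) * Om m P F A (Yf o z)) 0 := fun z => d2_y (h.Om_der hm (Yf_nonneg o z))
  have hw : ∀ z : EuclideanSpace ℝ (Fin (m + 1)),
      D2 o (fun z => uu o F z ^ (m + 1 + 1) * Om m P F A (Yf o z)) z
      ((((m:ℝ) + 2) * (uu o F z ^ (m + 1) * (P (Yf o z) * F (Yf o z) * (2 * uu o F z)⁻¹))
        + uu o F z ^ (m + 1 + 1) * κ (Yf o z)) * Om m P F A (Yf o z))
      (((m:ℝ) + 2) * (uu o F z ^ (m + 1) * (z o * (uu o F z)⁻¹)) * Om m P F A (Yf o z)) :=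
    fun z => (((h.d2_uu o z).pow (m + 1)).mul (hΩ z)).congr (by push_cast; ring)
      (by push_cast; ring)
  have hwy := (((d2_const ((m:ℝ) + 2)).mul (((h.d2_uu o x).pow m).mul (h.d2_uy o x))).add
    (((h.d2_uu o x).pow (m + 1)).mul (d2_y hκ1))).mul (hΩ x)
  have hwt := ((d2_const ((m:ℝ) + 2)).mul (((h.d2_uu o x).pow m).mul (h.d2_ut o x))).mul (hΩ x)
  have hu := h.uu_pos o x
  have hF := h.Fpos (Yf o x)
  have hP := h.Ppos _ (Yf_nonneg o x)
  have hA := h.Apos (Yf_nonneg o x)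
  have hH := hess_eq_Sm hw hwy (hwt.congr (by push_cast; field_simp; ring) rfl)
  have hinv := Sm_inv o (xi_o o x) (y := Yf o x) rfl (h.Delta o x) (by positivity)
    (by positivity)
  unfold amOp
  rw [h.wfun_uu, hH]
  have hfac : ∀ (D : ℝ) (X Y : Matrix (Fin (m + 1)) (Fin (m + 1)) ℝ),
      ∑ i, ∑ j, (D * X i j) * Y i j = D * ∑ i, ∑ j, X i j * Y i j := fun D X Y => by
    simp only [Finset.mul_sum, mul_assoc]
  rw [hfac]
  apply mul_eq_zero_of_right
  rw [h.hess_uu, hinv, Sm_pair o (xi_o o x) (y := Yf o x) rfl]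
  have e : F (Yf o x) = uu o F x ^ 2 - x o ^ 2 := by rw [h.uu_sq]; ring
  have eA := h.Adef (Yf o x)
  rw [h.pdef] at key eA
  rw [pow_succ (uu o F x) (m + 1), pow_succ (uu o F x) m]
  generalize uu o F x ^ m = v
  generalize Om m P F A (Yf o x) = W
  push_cast
  clear hΩ hw hwy hwt hH hinv hfac hκ1
  generalize uu o F x = u at *
  generalize P (Yf o x) = Q at *
  generalize b (Yf o x) = β at *
  generalize κ (Yf o x) = k at *
  generalize A (Yf o x) = a at *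
  generalize F (Yf o x) = f at *
  generalize Yf o x = y at *
  generalize x o = t at *
  generalize (m:ℝ) = M at *
  refine Eq.trans ?_ ((congrArg (fun z => v * W * u ^ 3 / (f * Q * a) * z) key).trans (mul_zero _))
  beta_reduce
  field_simp
  rw [e, eA]
  ring

end

theorem exists_entire (n : ℕ) (hn : 10 ≤ n) :
    ∃ u : EuclideanSpace ℝ (Fin n) → ℝ, ContDiff ℝ ∞ u ∧ (∀ x, (hess u x).PosDef) ∧
      (∀ x, amOp u x = 0) ∧
      ¬ ∃ (A : Matrix (Fin n) (Fin n) ℝ) (b : Fin n → ℝ) (c : ℝ), ∀ x,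
        u x = (1 / 2) * (∑ i, ∑ j, A i j * x i * x j) + (∑ i, b i * x i) + c := by
  obtain ⟨m, rfl⟩ : ∃ m, n = m + 1 := ⟨n - 1, by omega⟩
  have hm : (9:ℝ) ≤ m := by exact_mod_cast (show 9 ≤ m by omega)
  obtain ⟨P, b, F, p, A, κ, h⟩ := exists_prof hm
  refine ⟨uu 0 F, h.contDiff_uu 0, h.posDef 0, h.amOp_uu 0 (by omega), ?_⟩
  rintro ⟨B, v, c, hq⟩
  have key : ∀ t : ℝ, √(1 + t * t) = (1 / 2) * (B 0 0 * t * t) + v 0 * t + c := fun t => by
    have h1 := hq (EuclideanSpace.single 0 t)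
    have h2 : Yf 0 (EuclideanSpace.single (0 : Fin (m + 1)) t) = 0 := by
      apply Finset.sum_eq_zero
      intro j _
      have : xi 0 (EuclideanSpace.single (0 : Fin (m + 1)) t) j = 0 := by
        by_cases hj : j = 0 <;> simp [xi, ev, hj]
      rw [this, mul_zero]
    rw [uu, h2, h.F0] at h1
    simpa [Fin.sum_univ_succ] using h1
  have k0 := key 0
  have k1 := key (3 / 4)
  have k2 := key (-(3 / 4))
  have k3 := key (4 / 3)
  have s0 : √(1 + 0 * 0) = (1:ℝ) := by simp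
  have s1 : √(1 + 3 / 4 * (3 / 4)) = (5 / 4 : ℝ) := by
    rw [Real.sqrt_eq_iff_mul_self_eq (by norm_num) (by norm_num)]; norm_num
  have s2 : √(1 + -(3 / 4) * -(3 / 4)) = (5 / 4 : ℝ) := by
    rw [Real.sqrt_eq_iff_mul_self_eq (by norm_num) (by norm_num)]; norm_num
  have s3 : √(1 + 4 / 3 * (4 / 3)) = (5 / 3 : ℝ) := by
    rw [Real.sqrt_eq_iff_mul_self_eq (by norm_num) (by norm_num)]; norm_num
  rw [s0] at k0; rw [s1] at k1; rw [s2] at k2; rw [s3] at k3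
  linarith

end Vale.Agent.P252
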