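import Vale.Agent.P252.Jacobi

/-! Energy estimates for the Liouville theorem. -/

open scoped ContDiff Topology
open Matrix Finset MeasureTheory

namespace Vale.Agent.P252

variable {n : ℕ}

lemma liou_ibp {D : Diff n} {z g : E n → ℝ} {h : ℝ} (hS : IsCompact {x | x ∈ D.Ω ∧ z x ≤ h})
    (hz : ∀ x ∈ D.Ω, ContDiffAt ℝ 1 z x) (hg : ∀ x ∈ D.Ω, ContDiffAt ℝ 2 g x) (k : ℕ) :
    ∫ x in {x | x ∈ D.Ω ∧ z x ≤ h}, ((h - z x) ^ (k + 2) * D.lap g x
      - ((k:ℝ) + 2) * (h - z x) ^ (k + 1) * D.Γ z g x) * D.m x = 0 := by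
  have key := Diff.ibp D.isOpen subset_rfl hS (fun x hx => hx.1)
    (c := fun x => max (h - z x) 0 ^ (k + 2)) (g := g)
    (fun x hx => (contDiff_pos_pow k).contDiffAt.comp x (contDiffAt_const.sub (hz x hx)))
    (fun x hx hx' => by
      have : h - z x ≤ 0 := by
        by_contra hc
        exact hx' ⟨hx, by linarith⟩
      simp [max_eq_right this]) hg
  rw [← key]
  refine setIntegral_congr_fun hS.measurableSet fun x hx => ?_
  have h0 : max (h - z x) 0 = h - z x := max_eq_left (by linarith [hx.2])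
  have hgr := (((hasGrad_const' h x).sub
    (hasGrad_of_diff ((hz x hx.1).differentiableAt (by simp)))).comp'
    (hasDerivAt_pos_pow k (h - z x))).grad_eq
  simp only [Diff.Γ, hgr, Diff.ip_smul_left, zero_sub, Diff.ip_neg_left, h0]
  ring

lemma liou_int {Ω S : Set (E n)} (hS : IsCompact S) (hSΩ : S ⊆ Ω) {F : E n → ℝ}
    (hF : ∀ x ∈ Ω, ContinuousAt F x) : IntegrableOn F S :=
  ContinuousOn.integrableOn_compact hS fun x hx => (hF x (hSΩ hx)).continuousWithinAt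

/-- Passing from a weighted bound on the large section to a bound on the small one. -/
lemma liou_shrink {Ω : Set (E n)} {z F w : E n → ℝ} {h K κ : ℝ} (hh : 0 < h) (hκ : 0 < κ)
    (hS : IsCompact {x | x ∈ Ω ∧ z x ≤ h}) (hS' : IsCompact {x | x ∈ Ω ∧ z x ≤ h / 2})
    (hF : ∀ x ∈ Ω, ContinuousAt F x) (hw : ∀ x ∈ Ω, ContinuousAt w x)
    (hF0 : ∀ x ∈ Ω, 0 ≤ F x) (hw0 : ∀ x ∈ Ω, z x ≤ h → 0 ≤ w x)
    (hw1 : ∀ x ∈ Ω, z x ≤ h / 2 → κ ≤ w x)
    (hK : ∫ x in {x | x ∈ Ω ∧ z x ≤ h}, w x * F x ≤ K) :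
    ∫ x in {x | x ∈ Ω ∧ z x ≤ h / 2}, F x ≤ K / κ := by
  rw [le_div_iff₀ hκ, mul_comm, ← integral_const_mul]
  have hwF : ∀ x ∈ Ω, ContinuousAt (fun x => w x * F x) x := fun x hx => (hw x hx).mul (hF x hx)
  calc ∫ x in {x | x ∈ Ω ∧ z x ≤ h / 2}, κ * F x
      ≤ ∫ x in {x | x ∈ Ω ∧ z x ≤ h / 2}, w x * F x :=
        setIntegral_mono_on ((liou_int hS' (fun _ hx => hx.1) hF).const_mul κ)
          (liou_int hS' (fun _ hx => hx.1) hwF) hS'.measurableSet fun x hx =>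
          mul_le_mul_of_nonneg_right (hw1 x hx.1 hx.2) (hF0 x hx.1)
    _ ≤ ∫ x in {x | x ∈ Ω ∧ z x ≤ h}, w x * F x := by
        refine setIntegral_mono_set (liou_int hS (fun _ hx => hx.1) hwF)
          ((ae_restrict_iff' hS.measurableSet).2 (Filter.Eventually.of_forall fun x hx =>
            mul_nonneg (hw0 x hx.1 hx.2) (hF0 x hx.1))) (LE.le.eventuallyLE ?_)
        exact fun x hx => ⟨hx.1, by linarith [hx.2]⟩
    _ ≤ K := hK

/-- The logarithmic Caccioppoli estimate. -/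
lemma liou_cacc {D : Diff n} {z f : E n → ℝ} {h C N : ℝ} (hh : 0 < h) (hC : 0 < C) (hN : 0 ≤ N)
    (hS : IsCompact {x | x ∈ D.Ω ∧ z x ≤ h}) (hS' : IsCompact {x | x ∈ D.Ω ∧ z x ≤ h / 2})
    (hz : ∀ x ∈ D.Ω, ContDiffAt ℝ 2 z x) (hf : ∀ x ∈ D.Ω, ContDiffAt ℝ 2 f x)
    (hz0 : ∀ x ∈ D.Ω, 0 ≤ z x) (hlz : ∀ x ∈ D.Ω, D.lap z x = N)
    (hlf : ∀ x ∈ D.Ω, D.lap f x ≤ -D.Γ f f x)
    (hm1 : ∀ x ∈ D.Ω, C⁻¹ ≤ D.m x) (hm2 : ∀ x ∈ D.Ω, D.m x ≤ C) :
    ∫ x in {x | x ∈ D.Ω ∧ z x ≤ h / 2}, D.Γ f f x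
      ≤ 86 * N * C ^ 2 * volume.real {x | x ∈ D.Ω ∧ z x ≤ h} / h := by
  set S := {x | x ∈ D.Ω ∧ z x ≤ h} with hSdef
  have hSΩ : S ⊆ D.Ω := fun x hx => hx.1
  have hz1 : ∀ x ∈ D.Ω, ContDiffAt ℝ 1 z x := fun x hx => (hz x hx).of_le (by norm_num)
  have hf1 : ∀ x ∈ D.Ω, ContDiffAt ℝ 1 f x := fun x hx => (hf x hx).of_le (by norm_num)
  have hη : ∀ k : ℕ, ∀ x ∈ D.Ω, ContinuousAt (fun x => (h - z x) ^ k) x := fun k x hx =>
    (continuousAt_const.sub (hz x hx).continuousAt).pow k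
  have I1 := liou_ibp hS hz1 hf 2
  have I2 := liou_ibp hS hz1 hz 1
  have c1 : ∀ x ∈ D.Ω, ContinuousAt (fun x => ((h - z x) ^ (2 + 2) * D.lap f x
      - (((2:ℕ):ℝ) + 2) * (h - z x) ^ (2 + 1) * D.Γ z f x) * D.m x) x := fun x hx =>
    (((hη _ x hx).mul (Diff.continuousAt_lap hx (hf x hx))).sub
      ((continuousAt_const.mul (hη _ x hx)).mul
        (Diff.continuousAt_Γ hx (hz1 x hx) (hf1 x hx)))).mul (Diff.m_at hx)
  have c2 : ∀ x ∈ D.Ω, ContinuousAt (fun x => ((h - z x) ^ (1 + 2) * D.lap z x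
      - (((1:ℕ):ℝ) + 2) * (h - z x) ^ (1 + 1) * D.Γ z z x) * D.m x) x := fun x hx =>
    (((hη _ x hx).mul (Diff.continuousAt_lap hx (hz x hx))).sub
      ((continuousAt_const.mul (hη _ x hx)).mul
        (Diff.continuousAt_Γ hx (hz1 x hx) (hz1 x hx)))).mul (Diff.m_at hx)
  have cw : ∀ x ∈ D.Ω, ContinuousAt (fun x => (h - z x) ^ 4 * D.m x) x := fun x hx =>
    (hη _ x hx).mul (Diff.m_at hx)
  have cF : ∀ x ∈ D.Ω, ContinuousAt (D.Γ f f) x := fun x hx =>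
    Diff.continuousAt_Γ hx (hf1 x hx) (hf1 x hx)
  have hpt : ∀ x ∈ S, (h - z x) ^ 4 * D.m x * D.Γ f f x ≤ 16 / 3 * N * h ^ 3 * C
      - 2 * (((h - z x) ^ (2 + 2) * D.lap f x
        - (((2:ℕ):ℝ) + 2) * (h - z x) ^ (2 + 1) * D.Γ z f x) * D.m x)
      - 16 / 3 * (((h - z x) ^ (1 + 2) * D.lap z x
        - (((1:ℕ):ℝ) + 2) * (h - z x) ^ (1 + 1) * D.Γ z z x) * D.m x) := fun x hx => by
    have e0 : 0 ≤ h - z x := by linarith [hx.2]
    have e1 : h - z x ≤ h := by linarith [hz0 x hx.1]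
    have hm := D.m_pos x hx.1
    have q1 := Diff.ip_self_nonneg hx.1
      ((h - z x) ^ 2 • grad f x + (4 * (h - z x)) • grad z x)
    simp only [Diff.ip_add_left, Diff.ip_add_right, Diff.ip_smul_left, Diff.ip_smul_right,
      Diff.ip_comm hx.1 (grad f x) (grad z x)] at q1
    have q2 : (h - z x) ^ 4 * D.lap f x ≤ (h - z x) ^ 4 * (-D.Γ f f x) :=
      mul_le_mul_of_nonneg_left (hlf x hx.1) (by positivity)
    have q3 : (h - z x) ^ 3 * D.m x ≤ h ^ 3 * C :=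
      mul_le_mul (pow_le_pow_left₀ e0 e1 3) (hm2 x hx.1) hm.le (by positivity)
    have q4 := mul_le_mul_of_nonneg_left q3 hN
    rw [hlz x hx.1]
    simp only [Diff.Γ] at q2 ⊢
    have q5 := mul_le_mul_of_nonneg_right q2 hm.le
    have q6 := mul_nonneg q1 hm.le
    push_cast
    nlinarith
  have hK : ∫ x in S, (h - z x) ^ 4 * D.m x * D.Γ f f x
      ≤ 16 / 3 * N * h ^ 3 * C * volume.real S := by
    refine (setIntegral_mono_on (liou_int hS hSΩ fun x hx => (cw x hx).mul (cF x hx))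
      (liou_int hS hSΩ fun x hx => (continuousAt_const.sub
        (continuousAt_const.mul (c1 x hx))).sub (continuousAt_const.mul (c2 x hx)))
      hS.measurableSet hpt).trans (le_of_eq ?_)
    simp only [Pi.sub_apply, Pi.mul_apply]
    rw [integral_sub, integral_sub, integral_const_mul 2, integral_const_mul (16 / 3), I1, I2]
    · simp [mul_comm]
    · exact liou_int hS hSΩ fun x _ => continuousAt_const
    · exact (liou_int hS hSΩ c1).const_mul _
    · exact (liou_int hS hSΩ fun x _ => continuousAt_const).sub ((liou_int hS hSΩ c1).const_mul _)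
    · exact (liou_int hS hSΩ c2).const_mul _
  have h1 := liou_shrink (κ := (h / 2) ^ 4 * C⁻¹) hh (by positivity) hS hS' cF cw
    (fun x hx => Diff.ip_self_nonneg hx _)
    (fun x hx hx' => mul_nonneg (by positivity) (D.m_pos x hx).le)
    (fun x hx hx' => mul_le_mul (pow_le_pow_left₀ (by positivity) (by linarith) 4) (hm1 x hx)
      (by positivity) (by positivity)) hK
  refine h1.trans ?_
  have h2 : 16 / 3 * N * h ^ 3 * C * volume.real S / ((h / 2) ^ 4 * C⁻¹)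
      = 256 / 3 * (N * C ^ 2 * volume.real S / h) := by
    field_simp; ring
  have h3 : 0 ≤ N * C ^ 2 * volume.real S / h := by
    have := measureReal_nonneg (μ := volume) (s := S)
    positivity
  rw [h2]
  calc _ ≤ 86 * (N * C ^ 2 * volume.real S / h) := by linarith
    _ = _ := by ring

/-- An integral bound for a constant-coefficient operator. -/
lemma liou_flat {D : Diff n} {z : E n → ℝ} {h B : ℝ} (hh : 0 < h)
    (hS : IsCompact {x | x ∈ D.Ω ∧ z x ≤ h}) (hS' : IsCompact {x | x ∈ D.Ω ∧ z x ≤ h / 2})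
    (hz : ∀ x ∈ D.Ω, ContDiffAt ℝ 2 z x) (hz0 : ∀ x ∈ D.Ω, 0 ≤ z x)
    (hl : ∀ x ∈ D.Ω, 0 ≤ D.lap z x) (hm : ∀ x, D.m x = 1)
    (hB : ∀ x ∈ D.Ω, z x ≤ h → D.Γ z z x ≤ B) :
    ∫ x in {x | x ∈ D.Ω ∧ z x ≤ h / 2}, D.lap z x
      ≤ 8 * B * volume.real {x | x ∈ D.Ω ∧ z x ≤ h} / h := by
  set S := {x | x ∈ D.Ω ∧ z x ≤ h} with hSdef
  have hSΩ : S ⊆ D.Ω := fun x hx => hx.1
  have hz1 : ∀ x ∈ D.Ω, ContDiffAt ℝ 1 z x := fun x hx => (hz x hx).of_le (by norm_num)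
  have hη : ∀ k : ℕ, ∀ x ∈ D.Ω, ContinuousAt (fun x => (h - z x) ^ k) x := fun k x hx =>
    (continuousAt_const.sub (hz x hx).continuousAt).pow k
  have I1 := liou_ibp hS hz1 hz 0
  have c1 : ∀ x ∈ D.Ω, ContinuousAt (fun x => ((h - z x) ^ (0 + 2) * D.lap z x
      - (((0:ℕ):ℝ) + 2) * (h - z x) ^ (0 + 1) * D.Γ z z x) * D.m x) x := fun x hx =>
    (((hη _ x hx).mul (Diff.continuousAt_lap hx (hz x hx))).sub
      ((continuousAt_const.mul (hη _ x hx)).mul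
        (Diff.continuousAt_Γ hx (hz1 x hx) (hz1 x hx)))).mul (Diff.m_at hx)
  have cF : ∀ x ∈ D.Ω, ContinuousAt (D.lap z) x := fun x hx => Diff.continuousAt_lap hx (hz x hx)
  have hpt : ∀ x ∈ S, (h - z x) ^ 2 * D.lap z x ≤ 2 * h * B
      + (((h - z x) ^ (0 + 2) * D.lap z x
        - (((0:ℕ):ℝ) + 2) * (h - z x) ^ (0 + 1) * D.Γ z z x) * D.m x) := fun x hx => by
    have e0 : 0 ≤ h - z x := by linarith [hx.2]
    have e1 : h - z x ≤ h := by linarith [hz0 x hx.1]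
    have q : (h - z x) * D.Γ z z x ≤ h * B :=
      mul_le_mul e1 (hB x hx.1 hx.2) (Diff.ip_self_nonneg hx.1 _) hh.le
    rw [hm]
    push_cast
    nlinarith
  have hK : ∫ x in S, (h - z x) ^ 2 * D.lap z x ≤ 2 * h * B * volume.real S := by
    refine (setIntegral_mono_on (liou_int hS hSΩ fun x hx => (hη 2 x hx).mul (cF x hx))
      (liou_int hS hSΩ fun x hx => continuousAt_const.add (c1 x hx))
      hS.measurableSet hpt).trans (le_of_eq ?_)
    simp only [Pi.add_apply]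
    rw [integral_add, I1]
    · simp [mul_comm]
    · exact liou_int hS hSΩ fun x _ => continuousAt_const
    · exact liou_int hS hSΩ c1
  have h1 := liou_shrink (κ := (h / 2) ^ 2) hh (by positivity) hS hS' cF (hη 2) hl
    (fun x hx hx' => by positivity)
    (fun x hx hx' => pow_le_pow_left₀ (by positivity) (by linarith) 2) hK
  refine h1.trans (le_of_eq ?_)
  field_simp; ring

/-- The constant-coefficient operator with matrix `A Aᵀ`. -/
noncomputable def liouFlat {Ω : Set (E n)} (ho : IsOpen Ω) {A : Matrix (Fin n) (Fin n) ℝ}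
    (hA : A.det ≠ 0) : Diff n where
  Ω := Ω
  a := fun _ => A * Aᵀ
  m := fun _ => 1
  isOpen := ho
  a_pos := fun _ _ => by
    have := Matrix.PosDef.mul_mul_conjTranspose_same (Matrix.PosDef.one (n := Fin n) (R := ℝ))
      (B := A) (Matrix.vecMul_injective_iff_isUnit.2
        ((Matrix.isUnit_iff_isUnit_det A).2 (isUnit_iff_ne_zero.2 hA)))
    simpa using this
  m_pos := fun _ _ => one_pos
  a_smooth := fun _ _ => contDiffOn_const
  m_cont := continuousOn_const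

lemma liouFlat_ip {Ω : Set (E n)} (ho : IsOpen Ω) {A : Matrix (Fin n) (Fin n) ℝ}
    (hA : A.det ≠ 0) (x : E n) (v : Fin n → ℝ) :
    (liouFlat ho hA).ip x v v = ∑ k, (∑ i, v i * A i k) ^ 2 := by
  simp only [Diff.ip, liouFlat, div_one, ← Matrix.mulVec_mulVec, Matrix.dotProduct_mulVec v A,
    Matrix.mulVec_transpose]
  simp only [dotProduct, vecMul, sq]

lemma liouFlat_lap {Ω : Set (E n)} (ho : IsOpen Ω) {A : Matrix (Fin n) (Fin n) ℝ}
    (hA : A.det ≠ 0) {x : E n} (hx : x ∈ Ω) {g : E n → ℝ} (hg : ContDiffAt ℝ 2 g x) :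
    (liouFlat ho hA).lap g x = ∑ k, (fun i => A i k) ⬝ᵥ hess g x *ᵥ fun i => A i k := by
  rw [Diff.lap_eq (D := liouFlat ho hA) hx hg]
  simp only [liouFlat, div_one, pd, fderiv_fun_const, Pi.zero_apply,
    _root_.zero_apply, zero_mul, Finset.sum_const_zero, add_zero, Matrix.mul_apply,
    transpose_apply, dotProduct, mulVec, Finset.sum_mul, Finset.mul_sum]
  calc ∑ i, ∑ j, ∑ k, A i k * A j k * hess g x i j
      = ∑ i, ∑ k, ∑ j, A i k * A j k * hess g x i j :=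
        Finset.sum_congr rfl fun i _ => Finset.sum_comm
    _ = ∑ k, ∑ i, ∑ j, A i k * A j k * hess g x i j := Finset.sum_comm
    _ = _ := Finset.sum_congr rfl fun k _ => Finset.sum_congr rfl fun i _ =>
        Finset.sum_congr rfl fun j _ => by ring

end Vale.Agent.P252
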