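import Vale.Agent.P252.ConvexDefs

/-! A Poincare type inequality on a compact convex set. -/

open MeasureTheory Set

namespace Vale.Agent.P252

section
variable {n : ℕ}

lemma poincare_scale (G : EuclideanSpace ℝ (Fin n) → ENNReal) (hG : Measurable G)
    (y : EuclideanSpace ℝ (Fin n)) {t : ℝ} (ht : 1 / 2 ≤ t) :
    ∫⁻ y', G (y + t • y') ≤ 2 ^ n * ∫⁻ x, G x := by
  have ht0 : 0 < t := by linarith
  have hm : Measurable fun w : EuclideanSpace ℝ (Fin n) => G (y + w) := hG.comp (by fun_prop)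
  have h1 : ∫⁻ y', G (y + t • y') = ∫⁻ w, G (y + w) ∂(Measure.map (t • ·) volume) :=
    (lintegral_map hm (by fun_prop)).symm
  rw [h1, Measure.map_addHaar_smul _ ht0.ne', lintegral_smul_measure, lintegral_add_left_eq_self,
    smul_eq_mul]
  refine mul_le_mul_left ?_ _
  have h2 : |(t ^ Module.finrank ℝ (EuclideanSpace ℝ (Fin n)))⁻¹| ≤ 2 ^ n := by
    rw [finrank_euclideanSpace_fin, abs_of_pos (by positivity), ← inv_pow]
    refine pow_le_pow_left₀ (by positivity) ?_ _
    rw [inv_le_comm₀ ht0 (by norm_num)]; linarith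
  calc _ ≤ ENNReal.ofReal (2 ^ n) := ENNReal.ofReal_le_ofReal h2
    _ = 2 ^ n := by rw [ENNReal.ofReal_pow (by norm_num)]; simp

lemma poincare_slice (S : Set (EuclideanSpace ℝ (Fin n)))
    (G : EuclideanSpace ℝ (Fin n) → ENNReal) (hG : Measurable G) {s t : ℝ} (ht : 1 / 2 ≤ t) :
    ∫⁻ y in S, ∫⁻ y' in S, G (s • y + t • y') ≤ 2 ^ n * volume S * ∫⁻ x, G x := by
  calc ∫⁻ y in S, ∫⁻ y' in S, G (s • y + t • y')
      ≤ ∫⁻ _y in S, 2 ^ n * ∫⁻ x, G x := lintegral_mono fun y =>
        (setLIntegral_le_lintegral _ _).trans (poincare_scale G hG _ ht)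
    _ = _ := by rw [setLIntegral_const]; ring

lemma poincare_slice2 (S : Set (EuclideanSpace ℝ (Fin n)))
    (G : EuclideanSpace ℝ (Fin n) → ENNReal) (hG : Measurable G) (t : ℝ) :
    ∫⁻ y in S, ∫⁻ y' in S, G ((1 - t) • y + t • y') ≤ 2 ^ n * volume S * ∫⁻ x, G x := by
  rcases le_total (1 / 2) t with ht | ht
  · exact poincare_slice S G hG ht
  · have hm : Measurable (Function.uncurry fun y y' : EuclideanSpace ℝ (Fin n) =>
        G ((1 - t) • y + t • y')) := hG.comp (by fun_prop)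
    rw [lintegral_lintegral_swap hm.aemeasurable]
    simp only [add_comm ((1 - t) • _)]
    exact poincare_slice S G hG (by linarith)

end

theorem poincare {n : ℕ} (S : Set (EuclideanSpace ℝ (Fin n))) (hS : IsCompact S)
    (hcv : Convex ℝ S) (f g : EuclideanSpace ℝ (Fin n) → ℝ)
    (hf : ∀ x ∈ S, ContDiffAt ℝ 1 f x) (hg : ContinuousOn g S)
    (hfg : ∀ x ∈ S, ∀ y ∈ S, ∀ y' ∈ S, |fderiv ℝ f x (y - y')| ≤ g x)
    (A B : Set (EuclideanSpace ℝ (Fin n))) (hA : MeasurableSet A) (hB : MeasurableSet B)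
    (hAS : A ⊆ S) (hBS : B ⊆ S) (s T : ℝ) (hT : 0 ≤ T)
    (hfA : ∀ x ∈ A, f x ≤ s) (hfB : ∀ x ∈ B, s + T ≤ f x) :
    T * (volume.real A * volume.real B) ≤ 2 ^ (n + 1) * volume.real S * ∫ x in S, g x := by
  classical
  have hSm := hS.measurableSet
  have hg0 : ∀ x ∈ S, 0 ≤ g x := fun x hx => (abs_nonneg _).trans (hfg x hx x hx x hx)
  set G : EuclideanSpace ℝ (Fin n) → ENNReal :=
    S.piecewise (fun x => ENNReal.ofReal (g x)) (fun _ => 0) with hGdef
  have hG : Measurable G := ContinuousOn.measurable_piecewise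
    (ENNReal.continuous_ofReal.comp_continuousOn hg) continuousOn_const hSm
  have hGS : ∀ x ∈ S, G x = ENNReal.ofReal (g x) := fun x hx => by simp [hGdef, hx]
  have hGint : ∫⁻ x, G x = ENNReal.ofReal (∫ x in S, g x) := by
    rw [ofReal_integral_eq_lintegral_ofReal (hg.integrableOn_compact hS)
      ((ae_restrict_iff' hSm).2 (Filter.Eventually.of_forall hg0)), ← lintegral_indicator hSm]
    rfl
  have hline : ∀ y ∈ A, ∀ y' ∈ B,
      ENNReal.ofReal T ≤ ∫⁻ t in Icc (0:ℝ) 1, G ((1 - t) • y + t • y') := by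
    intro y hy y' hy'
    have hmem : ∀ t ∈ Icc (0:ℝ) 1, (1 - t) • y + t • y' ∈ S := fun t ht =>
      hcv (hAS hy) (hBS hy') (by linarith [ht.2]) ht.1 (by ring)
    have hγ : ∀ t : ℝ, HasDerivAt (fun t : ℝ => (1 - t) • y + t • y') (y' - y) t := fun t => by
      have := (((hasDerivAt_id t).const_sub 1).smul_const y).add ((hasDerivAt_id t).smul_const y')
      refine this.congr_deriv ?_
      simp [sub_eq_neg_add]
    have hγc : Continuous fun t : ℝ => (1 - t) • y + t • y' := by fun_prop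
    have hder : ∀ t ∈ Icc (0:ℝ) 1, HasDerivAt (fun t : ℝ => f ((1 - t) • y + t • y'))
        (fderiv ℝ f ((1 - t) • y + t • y') (y' - y)) t := fun t ht =>
      ((hf _ (hmem t ht)).differentiableAt (by simp)).hasFDerivAt.comp_hasDerivAt t (hγ t)
    have hgc : ContinuousOn (fun t : ℝ => g ((1 - t) • y + t • y')) (Icc 0 1) :=
      hg.comp hγc.continuousOn hmem
    have h1 := intervalIntegral.sub_le_integral_of_hasDeriv_right_of_le (a := 0) (b := 1)
      (g := fun t : ℝ => f ((1 - t) • y + t • y'))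
      (φ := fun t : ℝ => g ((1 - t) • y + t • y')) zero_le_one
      (fun t ht => (hder t ht).continuousAt.continuousWithinAt)
      (fun t ht => (hder t (Ioo_subset_Icc_self ht)).hasDerivWithinAt)
      (hgc.integrableOn_compact isCompact_Icc)
      (fun t ht => (le_abs_self _).trans
        (hfg _ (hmem t (Ioo_subset_Icc_self ht)) _ (hBS hy') _ (hAS hy)))
    simp only [sub_self, zero_smul, one_smul, zero_add, sub_zero, add_zero] at h1
    rw [intervalIntegral.integral_of_le zero_le_one, ← integral_Icc_eq_integral_Ioc] at h1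
    have h2 : T ≤ ∫ t in Icc (0:ℝ) 1, g ((1 - t) • y + t • y') := by
      linarith [hfA y hy, hfB y' hy']
    refine (ENNReal.ofReal_le_ofReal h2).trans (le_of_eq ?_)
    rw [ofReal_integral_eq_lintegral_ofReal (hgc.integrableOn_compact isCompact_Icc)
      ((ae_restrict_iff' measurableSet_Icc).2
        (Filter.Eventually.of_forall fun t ht => hg0 _ (hmem t ht)))]
    exact setLIntegral_congr_fun measurableSet_Icc fun t ht => (hGS _ (hmem t ht)).symm
  have key : ENNReal.ofReal T * (volume A * volume B) ≤ 2 ^ n * volume S * ∫⁻ x, G x := by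
    calc ENNReal.ofReal T * (volume A * volume B)
        = ∫⁻ _y in A, ∫⁻ _y' in B, ENNReal.ofReal T := by
          rw [setLIntegral_const, setLIntegral_const]; ring
      _ ≤ ∫⁻ y in A, ∫⁻ y' in B, ∫⁻ t in Icc (0:ℝ) 1, G ((1 - t) • y + t • y') :=
          setLIntegral_mono' hA fun y hy => setLIntegral_mono' hB fun y' hy' => hline y hy y' hy'
      _ ≤ ∫⁻ y in S, ∫⁻ y' in S, ∫⁻ t in Icc (0:ℝ) 1, G ((1 - t) • y + t • y') :=
          (lintegral_mono fun y => lintegral_mono_set hBS).trans (lintegral_mono_set hAS)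
      _ = ∫⁻ y in S, ∫⁻ t in Icc (0:ℝ) 1, ∫⁻ y' in S, G ((1 - t) • y + t • y') :=
          lintegral_congr fun y =>
            lintegral_lintegral_swap (Measurable.aemeasurable (hG.comp (by fun_prop)))
      _ = ∫⁻ t in Icc (0:ℝ) 1, ∫⁻ y in S, ∫⁻ y' in S, G ((1 - t) • y + t • y') := by
          refine lintegral_lintegral_swap (Measurable.aemeasurable ?_)
          exact Measurable.lintegral_prod_right'
            (f := fun p : (EuclideanSpace ℝ (Fin n) × ℝ) × EuclideanSpace ℝ (Fin n) =>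
              G ((1 - p.1.2) • p.1.1 + p.1.2 • p.2)) (hG.comp (by fun_prop))
      _ ≤ ∫⁻ _t in Icc (0:ℝ) 1, 2 ^ n * volume S * ∫⁻ x, G x :=
          lintegral_mono fun t => poincare_slice2 S G hG t
      _ = _ := by simp
  have hI : 0 ≤ ∫ x in S, g x := setIntegral_nonneg hSm hg0
  rw [hGint] at key
  have hSf := hS.measure_lt_top (μ := volume)
  have h3 := ENNReal.toReal_mono (by finiteness) key
  simp only [ENNReal.toReal_mul, ENNReal.toReal_ofReal hT, ENNReal.toReal_ofReal hI,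
    ENNReal.toReal_pow, ENNReal.toReal_ofNat] at h3
  refine h3.trans ?_
  have h4 : 0 ≤ volume.real S * ∫ x in S, g x := mul_nonneg measureReal_nonneg hI
  have h5 : (2:ℝ) ^ n ≤ 2 ^ (n + 1) := pow_le_pow_right₀ (by norm_num) (by omega)
  rw [mul_assoc, mul_assoc]
  exact mul_le_mul_of_nonneg_right h5 h4

end Vale.Agent.P252
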