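import Vale.Agent.P252.LiouvilleA
import Vale.Agent.P252.LiouvilleB
import Vale.Agent.P252.Poincare

/-! A Liouville type theorem for nonnegative supersolutions of the linearized Monge-Ampere
operator. -/

open scoped ContDiff Topology
open Matrix Finset MeasureTheory

namespace Vale.Agent.P252

variable {n : ℕ}

lemma liou_dual_cs {H : Matrix (Fin n) (Fin n) ℝ} (hH : H.PosDef) (p w : Fin n → ℝ) {t : ℝ}
    (ht : 0 < t) : 2 * |p ⬝ᵥ w| ≤ t * (p ⬝ᵥ H⁻¹ *ᵥ p) + (w ⬝ᵥ H *ᵥ w) / t := by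
  have hu : IsUnit H.det := isUnit_iff_ne_zero.2 hH.det_pos.ne'
  have e1 : H⁻¹ *ᵥ (H *ᵥ w) = w := by
    rw [Matrix.mulVec_mulVec, Matrix.nonsing_inv_mul _ hu, Matrix.one_mulVec]
  have h := psd_cs hH.inv.posSemidef p (H *ᵥ w)
  rw [e1, dotProduct_comm (H *ᵥ w) w] at h
  have ha := psd_quad_nonneg hH.inv.posSemidef p
  have hb := psd_quad_nonneg hH.posSemidef w
  generalize p ⬝ᵥ H⁻¹ *ᵥ p = a at *
  generalize w ⬝ᵥ H *ᵥ w = b at *
  rw [← sq_abs] at h
  have h0 := abs_nonneg (p ⬝ᵥ w)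
  generalize |p ⬝ᵥ w| = c at *
  have e : b = t * (b / t) := by field_simp
  have hb' : 0 ≤ b / t := by positivity
  generalize b / t = d at *
  subst e
  have h2 : (2 * c) ^ 2 ≤ (t * a + d) ^ 2 := by nlinarith [sq_nonneg (t * a - d)]
  exact (pow_le_pow_iff_left₀ (by positivity) (by positivity) two_ne_zero).1 h2

/-- The set where a supersolution is large takes a small share of the section. -/
lemma liou_small (hn : 2 ≤ n) {Ω : Set (E n)} {z : E n → ℝ} {x0 : E n} {C : ℝ}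
    (H : SecHyp Ω z x0 C) : ∃ K : ℝ, 0 ≤ K ∧ ∀ h : ℝ, 0 < h → ∀ A : Matrix (Fin n) (Fin n) ℝ,
      h ^ n ≤ C * A.det ^ 2 → A.det ^ 2 ≤ C * h ^ n →
      (∀ x ∈ Ω, z x ≤ h → ∃ w : Fin n → ℝ, ‖w‖ ≤ C ∧ ∀ i, x i - x0 i = (A *ᵥ w) i) →
      (∀ x ∈ Ω, z x ≤ h → ∀ k, |∑ i, pd i z x * A i k| ≤ C * h) →
      ∀ v : E n → ℝ, ContDiffOn ℝ 2 v Ω → (∀ x ∈ Ω, 0 ≤ v x) →
      (∀ x ∈ Ω, ∑ j, ∑ k, (hess z x)⁻¹ j k * hess v x j k ≤ 0) →
      ∀ ε T : ℝ, 0 < ε → 0 ≤ T → ∀ x1 ∈ Ω, v x1 < ε → z x1 ≤ h / 8 →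
      T * volume.real {x ∈ {x | x ∈ Ω ∧ z x ≤ h / 2} | 4 * ε * Real.exp T ≤ v x}
        ≤ K * |A.det| := by
  have hC := H.Cpos
  refine ⟨(C ^ 2 * (n:ℝ) ^ n * (8 * n * C) ^ n) * (2 ^ (n + 1) * ((2 * C) ^ n
    * (C * (n * (86 * n * C ^ 2) + 8 * (n * C ^ 2)) * (2 * C) ^ n))), by positivity, ?_⟩
  intro h hh A hA1 hA2 hA3 hA4 v hv hv0 hsup ε T hε hT x1 hx1 hv1 hz1
  obtain ⟨G, hGm, hGS, hGv, hGvol⟩ := liou_abp hn H hh hA1 hA2 hA3 hv hv0 hsup hε hx1 hv1 hz1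
  have hA : A.det ≠ 0 := by
    intro h0
    rw [h0] at hA1
    have := pow_pos hh n
    linarith
  set S := {x | x ∈ Ω ∧ z x ≤ h / 2} with hS
  set B := {x ∈ S | 4 * ε * Real.exp T ≤ v x} with hB
  have hSc : IsCompact S := H.cpt _
  have hSΩ : S ⊆ Ω := fun x hx => hx.1
  have hz2 : ∀ x ∈ Ω, ContDiffAt ℝ 2 z x := fun x hx =>
    (H.smooth.contDiffAt (H.isOpen.mem_nhds hx)).of_le (nat_le_infty 2)
  have hv2 : ∀ x ∈ Ω, ContDiffAt ℝ 2 v x := fun x hx => hv.contDiffAt (H.isOpen.mem_nhds hx)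
  have hvc : ContinuousOn v S := fun x hx => (hv2 x hx.1).continuousAt.continuousWithinAt
  have hBm : MeasurableSet B :=
    (hSc.isClosed.isClosed_le continuousOn_const hvc).measurableSet
  set D := maDiff H.isOpen H.smooth H.pos with hD
  set D' := liouFlat H.isOpen hA with hD'
  set f : E n → ℝ := fun x => Real.log (v x + ε) with hf
  have hpos : ∀ x ∈ Ω, 0 < v x + ε := fun x hx => by linarith [hv0 x hx]
  have hjet : ∀ x ∈ Ω, D.Jet f x ((v x + ε)⁻¹ • (grad v x + 0))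
      ((v x + ε)⁻¹ * (D.lap v x + 0) - ((v x + ε) ^ 2)⁻¹ * D.ip x (grad v x + 0) (grad v x + 0)) :=
    fun x hx => ((Diff.jet_of (D := D) (hv2 x hx)).add hx (Diff.jet_const ε x)).log hx
      (hpos x hx).ne'
  have hf2 : ∀ x ∈ Ω, ContDiffAt ℝ 2 f x := fun x hx => (hjet x hx).1
  have hf1 : ∀ x ∈ Ω, ContDiffAt ℝ 1 f x := fun x hx => (hf2 x hx).of_le (by norm_num)
  have hlf : ∀ x ∈ Ω, D.lap f x ≤ -D.Γ f f x := fun x hx => by
    rw [(hjet x hx).2.2, Diff.Γ, (hjet x hx).2.1, Diff.ip_smul_left, Diff.ip_smul_right, add_zero,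
      add_zero, hD, maDiff_lap _ _ _ hx (hv2 x hx)]
    have := mul_nonpos_of_nonneg_of_nonpos (inv_pos.2 (hpos x hx)).le (hsup x hx)
    rw [← inv_pow, sq, mul_assoc]
    linarith
  have hlz : ∀ x ∈ Ω, D.lap z x = n := fun x hx => by
    rw [hD, maDiff_lap _ _ _ hx (hz2 x hx), liou_pair_self (H.pos x hx)]
  have E1 := liou_cacc (D := D) hh hC (Nat.cast_nonneg n) (H.cpt _) (H.cpt _) hz2 hf2 H.nonneg hlz
    hlf H.detlo H.dethi
  have hW : ∀ x ∈ Ω, D'.lap z x = ∑ k, (fun i => A i k) ⬝ᵥ hess z x *ᵥ fun i => A i k :=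
    fun x hx => liouFlat_lap H.isOpen hA hx (hz2 x hx)
  have E2 := liou_flat (D := D') (B := n * (C * h) ^ 2) hh (H.cpt _) (H.cpt _) hz2 H.nonneg
    (fun x hx => by
      rw [hW x hx]
      exact Finset.sum_nonneg fun k _ => psd_quad_nonneg (H.pos x hx).posSemidef _)
    (fun _ => rfl) (fun x hx hx' => by
      rw [Diff.Γ, hD', liouFlat_ip]
      have : ∀ k, (∑ i, grad z x i * A i k) ^ 2 ≤ (C * h) ^ 2 := fun k => by
        rw [← sq_abs]
        exact pow_le_pow_left₀ (abs_nonneg _) (hA4 x hx hx' k) 2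
      refine (Finset.sum_le_sum fun k _ => this k).trans (le_of_eq ?_)
      simp)
  change ∫ x in S, _ ≤ 86 * n * C ^ 2 * volume.real {x | x ∈ Ω ∧ z x ≤ h} / h at E1
  change ∫ x in S, _ ≤ 8 * _ * volume.real {x | x ∈ Ω ∧ z x ≤ h} / h at E2
  have V1 : volume.real {x | x ∈ Ω ∧ z x ≤ h} ≤ (2 * C) ^ n * |A.det| :=
    liou_vol_le hC.le fun x hx => hA3 x hx.1 hx.2
  have V2 : volume.real S ≤ (2 * C) ^ n * |A.det| :=
    liou_vol_le hC.le fun x hx => hA3 x hx.1 (by linarith [hx.2])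
  have cF : ∀ x ∈ Ω, ContinuousAt (D.Γ f f) x := fun x hx =>
    Diff.continuousAt_Γ hx (hf1 x hx) (hf1 x hx)
  have cW : ∀ x ∈ Ω, ContinuousAt (D'.lap z) x := fun x hx =>
    Diff.continuousAt_lap hx (hz2 x hx)
  set g : E n → ℝ := fun x => C * n * h * D.Γ f f x + C / h * D'.lap z x with hg
  have hgc : ContinuousOn g S := fun x hx => ((continuousAt_const.mul (cF x hx.1)).add
    (continuousAt_const.mul (cW x hx.1))).continuousWithinAt
  have hgi : ∫ x in S, g x ≤ C * (n * (86 * n * C ^ 2) + 8 * (n * C ^ 2))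
      * ((2 * C) ^ n * |A.det|) := by
    rw [hg, integral_add ((liou_int hSc hSΩ cF).const_mul _) ((liou_int hSc hSΩ cW).const_mul _),
      integral_const_mul, integral_const_mul]
    calc _ ≤ C * n * h * (86 * n * C ^ 2 * volume.real {x | x ∈ Ω ∧ z x ≤ h} / h)
          + C / h * (8 * (n * (C * h) ^ 2) * volume.real {x | x ∈ Ω ∧ z x ≤ h} / h) := by gcongr
      _ = C * (n * (86 * n * C ^ 2) + 8 * (n * C ^ 2)) * volume.real {x | x ∈ Ω ∧ z x ≤ h} := by
          field_simp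
      _ ≤ _ := by gcongr
  have hcv : Convex ℝ S := H.cvx.convex_le _
  have hfg : ∀ x ∈ S, ∀ y ∈ S, ∀ y' ∈ S, |fderiv ℝ f x (y - y')| ≤ g x := by
    intro x hx y hy y' hy'
    obtain ⟨w, hw, hy1⟩ := hA3 y hy.1 (by linarith [hy.2])
    obtain ⟨w', hw', hy1'⟩ := hA3 y' hy'.1 (by linarith [hy'.2])
    have e : fderiv ℝ f x (y - y') = ∑ k, (w k - w' k) * (grad f x ⬝ᵥ fun i => A i k) := by
      rw [fderiv_eq_sum_pd]
      have : ∀ i, (y - y') i = ∑ k, A i k * (w k - w' k) := fun i => by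
        have h1 := hy1 i
        have h2 := hy1' i
        simp only [mulVec, dotProduct] at h1 h2
        simp only [PiLp.sub_apply, mul_sub, Finset.sum_sub_distrib]
        linarith
      simp only [this, dotProduct, grad, Finset.sum_mul, Finset.mul_sum]
      rw [Finset.sum_comm]
      exact Finset.sum_congr rfl fun k _ => Finset.sum_congr rfl fun i _ => by ring
    rw [e]
    refine (Finset.abs_sum_le_sum_abs _ _).trans ?_
    have h1 : ∀ k, |(w k - w' k) * (grad f x ⬝ᵥ fun i => A i k)|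
        ≤ C * h * D.Γ f f x + C / h * ((fun i => A i k) ⬝ᵥ hess z x *ᵥ fun i => A i k) :=
      fun k => by
        have h2 := liou_dual_cs (H.pos x hx.1) (grad f x) (fun i => A i k) hh
        have h3 : |w k - w' k| ≤ 2 * C := by
          have a1 : |w k| ≤ C := (norm_le_pi_norm w k).trans hw
          have a2 : |w' k| ≤ C := (norm_le_pi_norm w' k).trans hw'
          linarith [abs_sub (w k) (w' k)]
        rw [abs_mul, Diff.Γ, hD, maDiff_ip _ _ _ hx.1]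
        calc _ ≤ 2 * C * |grad f x ⬝ᵥ fun i => A i k| := by gcongr
          _ = C * (2 * |grad f x ⬝ᵥ fun i => A i k|) := by ring
          _ ≤ C * _ := mul_le_mul_of_nonneg_left h2 hC.le
          _ = _ := by ring
    refine (Finset.sum_le_sum fun k _ => h1 k).trans (le_of_eq ?_)
    simp only [hg, hW x hx.1, Finset.sum_add_distrib, ← Finset.mul_sum, Finset.sum_const,
      Finset.card_univ, Fintype.card_fin, nsmul_eq_mul]
    ring
  have P := poincare S hSc hcv f g (fun x hx => hf1 x hx.1) hgc hfg G B hGm hBm hGS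
    (fun x hx => hx.1) (Real.log (4 * ε)) T hT
    (fun x hx => Real.log_le_log (hpos x (hGS hx).1) (by linarith [hGv x hx]))
    (fun x hx => by
      rw [← Real.log_exp T, ← Real.log_mul (by positivity) (by positivity)]
      exact Real.log_le_log (by positivity) (by linarith [hx.2]))
  have ha : 0 < |A.det| := abs_pos.2 hA
  have hB0 : 0 ≤ volume.real B := measureReal_nonneg
  have hgi0 : 0 ≤ ∫ x in S, g x := setIntegral_nonneg hSc.measurableSet fun x hx =>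
    (abs_nonneg _).trans (hfg x hx x hx x hx)
  refine le_of_mul_le_mul_right ?_ ha
  calc T * volume.real B * |A.det|
      ≤ T * volume.real B * ((C ^ 2 * (n:ℝ) ^ n * (8 * n * C) ^ n) * volume.real G) := by gcongr
    _ = (C ^ 2 * (n:ℝ) ^ n * (8 * n * C) ^ n) * (T * (volume.real G * volume.real B)) := by ring
    _ ≤ (C ^ 2 * (n:ℝ) ^ n * (8 * n * C) ^ n) * (2 ^ (n + 1) * volume.real S * ∫ x in S, g x) := by
        gcongr
    _ ≤ (C ^ 2 * (n:ℝ) ^ n * (8 * n * C) ^ n) * (2 ^ (n + 1) * ((2 * C) ^ n * |A.det|)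
        * (C * (n * (86 * n * C ^ 2) + 8 * (n * C ^ 2)) * ((2 * C) ^ n * |A.det|))) := by gcongr
    _ = _ := by ring

theorem liouville {n : ℕ} (hn : 2 ≤ n) {Ω : Set (E n)} {z : E n → ℝ} {x0 : E n} {C : ℝ}
    (H : SecHyp Ω z x0 C) {ι : Type} [Fintype ι] (v : ι → E n → ℝ)
    (hv : ∀ i, ContDiffOn ℝ 2 (v i) Ω) (hv0 : ∀ i, ∀ x ∈ Ω, 0 ≤ v i x)
    (hsup : ∀ i, ∀ x ∈ Ω, ∑ j, ∑ k, (hess z x)⁻¹ j k * hess (v i) x j k ≤ 0)
    (hinf : ∀ i, ∀ ε : ℝ, 0 < ε → ∃ x ∈ Ω, v i x < ε) (δ : ℝ) (hδ : 0 < δ) :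
    ∃ x ∈ Ω, ∀ i, v i x < δ := by
  obtain ⟨K, hK0, hK⟩ := liou_small hn H
  have hC := H.Cpos
  set L : ℝ := C ^ 2 * (n:ℝ) ^ n * (8 * n * C) ^ n with hL
  have hL0 : 0 ≤ L := by positivity
  set T : ℝ := Fintype.card ι * K * L + 1 with hT
  have hT0 : 0 < T := by positivity
  set ε : ℝ := δ / (4 * Real.exp T) with hε
  have hε0 : 0 < ε := by positivity
  have hεδ : 4 * ε * Real.exp T = δ := by rw [hε]; field_simp
  choose y hy hy' using fun i => hinf i ε hε0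
  have hsum : 0 ≤ ∑ i, z (y i) := Finset.sum_nonneg fun i _ => H.nonneg _ (hy i)
  set h : ℝ := 8 * ∑ i, z (y i) + 1 with hh
  have hh0 : 0 < h := by positivity
  have hyh : ∀ i, z (y i) ≤ h / 8 := fun i => by
    have := Finset.single_le_sum (f := fun i => z (y i)) (fun i _ => H.nonneg _ (hy i))
      (Finset.mem_univ i)
    linarith
  obtain ⟨A, hA1, hA2, hA3, hA4⟩ := H.box h hh0
  have hA : A.det ≠ 0 := by
    intro h0
    rw [h0] at hA1
    have := pow_pos hh0 n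
    linarith
  have ha : 0 < |A.det| := abs_pos.2 hA
  obtain ⟨G, -, hGS, -, hGvol⟩ := liou_abp hn H hh0 hA1 hA2 hA3 (v := fun _ => 0) contDiffOn_const
    (fun _ _ => le_rfl) (fun x _ => by
      have : ∀ k, pd k (fun _ : E n => (0:ℝ)) = fun _ => 0 := fun k => funext fun y => by simp [pd]
      simp [hess, this]) one_pos H.mem one_pos (by rw [H.zero]; positivity)
  by_contra hcon
  push Not at hcon
  set S := {x | x ∈ Ω ∧ z x ≤ h / 2} with hS
  have hSc : IsCompact S := H.cpt _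
  have hcov : G ⊆ ⋃ i, {x ∈ S | 4 * ε * Real.exp T ≤ v i x} := fun x hx => by
    obtain ⟨i, hi⟩ := hcon x (hGS hx).1
    exact Set.mem_iUnion.2 ⟨i, hGS hx, by rwa [hεδ]⟩
  have h1 : volume.real G ≤ ∑ i, volume.real {x ∈ S | 4 * ε * Real.exp T ≤ v i x} :=
    (measureReal_mono hcov ((measure_mono (Set.iUnion_subset fun i x hx => hx.1)).trans_lt
      hSc.measure_lt_top).ne).trans (measureReal_iUnion_fintype_le _)
  have h2 : T * volume.real G ≤ Fintype.card ι * (K * |A.det|) := by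
    refine (mul_le_mul_of_nonneg_left h1 hT0.le).trans ?_
    rw [Finset.mul_sum]
    refine (Finset.sum_le_sum fun i _ => hK h hh0 A hA1 hA2 hA3 hA4 (v i) (hv i) (hv0 i) (hsup i)
      ε T hε0 hT0.le (y i) (hy i) (hy' i) (hyh i)).trans (le_of_eq ?_)
    simp
  have h3 : T * |A.det| ≤ L * (Fintype.card ι * (K * |A.det|)) :=
    calc T * |A.det| ≤ T * (L * volume.real G) := mul_le_mul_of_nonneg_left hGvol hT0.le
      _ = L * (T * volume.real G) := by ring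
      _ ≤ _ := mul_le_mul_of_nonneg_left h2 hL0
  rw [hT] at h3
  nlinarith

end Vale.Agent.P252
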