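import Vale.Agent.P252.PogMain
import Vale.Agent.P252.Liouville

/-! Constant Hessian for solutions of `det D² z = c` with uniformly normalized sections. -/

namespace Vale.Agent.P252

theorem hess_const {n : ℕ} (hn : 2 ≤ n) {Ω : Set (E n)} {z : E n → ℝ} {x0 : E n} {C : ℝ}
    (H : SecHyp Ω z x0 C) (c : ℝ) (hdet : ∀ x ∈ Ω, (hess z x).det = c) :
    ∃ A : Matrix (Fin n) (Fin n) ℝ, ∀ x ∈ Ω, hess z x = A :=
  hess_const_of hn H c hdet fun v h1 h2 h3 h4 δ hδ => liouville hn H v h1 h2 h3 h4 δ hδ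

end Vale.Agent.P252
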