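import Vale.Agent.P252.Wedge3
import Vale.Agent.P252.Build
import Vale.Agent.P252.Complete
import Vale.Agent.P252.Dichotomy
import Vale.Agent.P252.Pogorelov
import Vale.Agent.P252.Main

/-! Assembly of the rigidity theorem for `3 ≤ n ≤ 9`. -/

open scoped ContDiff Topology
open Matrix Finset

namespace Vale.Agent.P252

variable {n : ℕ}

/-- The function `u` minus its tangent plane at `x0`. -/
noncomputable def tilt (u : E n → ℝ) (x0 x : E n) : ℝ :=
  u x - u x0 - ∑ i, pd i u x0 * (x i - x0 i)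

section tilt
variable {Ω : Set (E n)} {u : E n → ℝ} (ho : IsOpen Ω) (hs : ContDiffOn ℝ ∞ u Ω) (x0 : E n)

lemma contDiff_lin : ContDiff ℝ ∞ (fun x : E n => ∑ i, pd i u x0 * (x i - x0 i)) :=
  ContDiff.sum fun i _ => contDiff_const.mul ((contDiff_coord i).sub contDiff_const)

include hs in
lemma tilt_smooth : ContDiffOn ℝ ∞ (tilt u x0) Ω :=
  (hs.sub contDiffOn_const).sub (contDiff_lin x0).contDiffOn

include ho hs in
lemma tilt_hess {x : E n} (hx : x ∈ Ω) : hess (tilt u x0) x = hess u x := by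
  ext i j
  have e : pd j (tilt u x0) =ᶠ[𝓝 x] fun y => pd j u y - pd j u x0 := by
    filter_upwards [ho.mem_nhds hx] with y hy
    have h1 := ((hasGrad_of_diff ((hs.contDiffAt (ho.mem_nhds hy)).differentiableAt
      (by simp))).sub (hasGrad_const' (u x0) y)).sub (HasGrad.sum' Finset.univ fun k =>
      ((hasGrad_coord k y).sub (hasGrad_const' (x0 k) y)).const_mul (pd k u x0))
    exact (h1.2 j).trans (by simp [grad])
  have h2 := (hasGrad_of_diff ((contDiffAt_pd_infty (hs.contDiffAt (ho.mem_nhds hx))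
    j).differentiableAt (by simp))).sub (hasGrad_const' (pd j u x0) x)
  simp only [hess, of_apply, pd_congr e, h2.2 i]
  simp [grad]

include ho hs in
lemma tilt_amOp {x : E n} (hx : x ∈ Ω) : amOp (tilt u x0) x = amOp u x := by
  have e : wfun (tilt u x0) =ᶠ[𝓝 x] wfun u := by
    filter_upwards [ho.mem_nhds hx] with y hy
    simp only [wfun, tilt_hess ho hs x0 hy]
  simp only [amOp, tilt_hess ho hs x0 hx, hess_congr e]

lemma tilt_closed (hcl : IsClosed (epi Ω u)) : IsClosed (epi Ω (tilt u x0)) := by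
  have hc : Continuous fun Z : Fin (n + 1) → ℝ => (Fin.cons (Z 0 + (u x0
      + ∑ i, pd i u x0 * (Z i.succ - x0 i))) (fun i => Z i.succ) : Fin (n + 1) → ℝ) :=
    continuous_pi fun k => by
      refine Fin.cases ?_ (fun i => ?_) k
      · simp only [Fin.cons_zero]; fun_prop
      · simp only [Fin.cons_succ]; fun_prop
  convert hcl.preimage hc using 1
  ext Z
  simp only [epi, tilt, Set.mem_ofPred_eq, Set.mem_preimage, Fin.cons_succ, Fin.cons_zero]
  constructor <;> rintro ⟨h1, h2⟩ <;> exact ⟨h1, by linarith⟩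

end tilt

/-- Data of a normalized solution: minimum zero at `x0`, compact sections. -/
structure Norm0 (Ω : Set (E n)) (z : E n → ℝ) (x0 : E n) : Prop where
  isOpen : IsOpen Ω
  convex : Convex ℝ Ω
  smooth : ContDiffOn ℝ ∞ z Ω
  pos : ∀ x ∈ Ω, (hess z x).PosDef
  am : ∀ x ∈ Ω, amOp z x = 0
  closed : IsClosed (epi Ω z)
  mem : x0 ∈ Ω
  zero : z x0 = 0
  nonneg : ∀ x ∈ Ω, 0 ≤ z x
  cpt : ∀ h : ℝ, IsCompact {x | x ∈ Ω ∧ z x ≤ h}

lemma norm0_tilt {Ω : Set (E n)} {u : E n → ℝ} (ho : IsOpen Ω) (hc : Convex ℝ Ω)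
    (hs : ContDiffOn ℝ ∞ u Ω) (hp : ∀ x ∈ Ω, (hess u x).PosDef) (ham : ∀ x ∈ Ω, amOp u x = 0)
    (hcl : IsClosed (epi Ω u)) {x0 : E n} (hx0 : x0 ∈ Ω) : Norm0 Ω (tilt u x0) x0 where
  isOpen := ho
  convex := hc
  smooth := tilt_smooth hs x0
  pos := fun x hx => by rw [tilt_hess ho hs x0 hx]; exact hp x hx
  am := fun x hx => by rw [tilt_amOp ho hs x0 hx]; exact ham x hx
  closed := tilt_closed x0 hcl
  mem := hx0
  zero := by simp [tilt]
  nonneg := fun x hx => by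
    rcases eq_or_ne x x0 with rfl | h
    · simp [tilt]
    · have := (convexOn_of_hess ho hc hs hp).2 x0 hx0 x hx h
      simp only [tilt]; linarith
  cpt := isCompact_section ho hc hs hp hcl hx0

variable {Ω : Set (E n)} {z : E n → ℝ} {x0 : E n}

lemma Norm0.exists_AS (H : Norm0 Ω z x0) : ∃ S : AS n, S.Ω = Ω ∧
    (∀ Z, Z ∈ S.K ↔ x0 + (WithLp.toLp 2 fun i => Z i.succ : E n) ∈ Ω ∧
      z (x0 + (WithLp.toLp 2 fun i => Z i.succ : E n)) ≤ Z 0) ∧
    (∀ x, S.X x = Fin.cons (z x) (fun i => x i - x0 i)) ∧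
    (∀ x, S.N x = (hess z x).det ^ (-(1 : ℝ) / ((n : ℝ) + 2)) •
      (Fin.cons 1 (fun i => -pd i z x) : Fin (n + 1) → ℝ)) := by
  obtain ⟨S, h1, h2, h3, h4⟩ :=
    Vale.Agent.P252.exists_AS H.isOpen H.convex H.smooth H.pos H.am H.closed
  refine ⟨S.toFrame (Fin.cons 0 fun i => x0 i) (B := 1) (by simp), h1, fun Z => ?_, fun x => ?_,
    fun x => ?_⟩
  · have e : (WithLp.toLp 2 fun i => x0 i + Z i.succ : E n)
        = x0 + (WithLp.toLp 2 fun i => Z i.succ : E n) := by ext i; simp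
    simp only [AS.toFrame_K, frame, h2, epi, one_mulVec, Set.mem_ofPred_eq, Pi.add_apply,
      Fin.cons_succ, Fin.cons_zero, zero_add, e]
  · rw [AS.toFrame_X, h3, inv_one, one_mulVec]
    funext k
    refine Fin.cases (by simp) (fun i => by simp) k
  · rw [AS.toFrame_N, h4]
    simp [tau]

lemma cons1T_zero {h : ℝ} {A : Matrix (Fin n) (Fin n) ℝ} (N : Fin (n + 1) → ℝ) :
    ((cons1 h A)ᵀ *ᵥ N) 0 = h * N 0 := by
  simp [cons1, mulVec, dotProduct, Fin.sum_univ_succ]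

lemma cons1T_succ {h : ℝ} {A : Matrix (Fin n) (Fin n) ℝ} (N : Fin (n + 1) → ℝ) (k : Fin n) :
    ((cons1 h A)ᵀ *ᵥ N) k.succ = ∑ i, A i k * N i.succ := by
  simp [cons1, mulVec, dotProduct, Fin.sum_univ_succ]

lemma Norm0.secHyp (H : Norm0 Ω z x0) {S : AS n} (h1 : S.Ω = Ω)
    (hX : ∀ x, S.X x = Fin.cons (z x) (fun i => x i - x0 i))
    (hN : ∀ x, S.N x = (hess z x).det ^ (-(1 : ℝ) / ((n : ℝ) + 2)) •
      (Fin.cons 1 (fun i => -pd i z x) : Fin (n + 1) → ℝ)) {C η : ℝ} (hC : 0 < C) (hη : 0 < η)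
    (hG : ∀ h : ℝ, 0 < h → ∃ A : Matrix (Fin n) (Fin n) ℝ, A.det ≠ 0 ∧
      CapHyp (frame S.K 0 (cons1 h A)) (e0 n) 1 C ∧ DualHyp (frame S.K 0 (cons1 h A)) η) :
    ∃ C' : ℝ, SecHyp Ω z x0 C' := by
  subst h1
  obtain ⟨c, hc, hlo⟩ := AS.tw_lower n (e0 n) 1 C hC
  obtain ⟨M, hM, hup⟩ := AS.tw_upper n C η hC hη
  set ρ : E n → ℝ := fun x => (hess z x).det ^ (-(1 : ℝ) / ((n : ℝ) + 2)) with hρ
  have hρ0 : ∀ x ∈ S.Ω, 0 < ρ x := fun x hx => Real.rpow_pos_of_pos (H.pos x hx).det_pos _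
  have hρd : ∀ x ∈ S.Ω, ρ x ^ (n + 2) * (hess z x).det = 1 := fun x hx => by
    have h := (H.pos x hx).det_pos
    rw [hρ, ← Real.rpow_natCast, ← Real.rpow_mul h.le]
    have : -(1:ℝ) / ((n:ℝ) + 2) * ((n + 2 : ℕ) : ℝ) = -1 := by push_cast; field_simp
    rw [this, Real.rpow_neg_one, inv_mul_cancel₀ h.ne']
  have key : ∀ h : ℝ, 0 < h → ∃ (A : Matrix (Fin n) (Fin n) ℝ) (t : ℝ), 0 < t ∧
      h ^ n = (t * h) ^ (n + 2) * A.det ^ 2 ∧
      (∀ x ∈ S.Ω, z x ≤ h → ∃ w : Fin n → ℝ, ‖w‖ ≤ C ∧ ∀ i, x i - x0 i = (A *ᵥ w) i) ∧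
      (∀ x ∈ S.Ω, z x ≤ h → ∀ k, |∑ i, pd i z x * A i k| ≤ C ^ 2 * h) ∧
      (∀ x ∈ S.Ω, z x ≤ h → c * (1 - h⁻¹ * z x) ≤ t * h * ρ x) ∧
      ∀ x ∈ S.Ω, η * (t * h * ρ x) + t * (S.N x ⬝ᵥ S.X x) ≤ M := fun h hh => by
    obtain ⟨A, hA, hcap, hdual⟩ := hG h hh
    have hB : (cons1 h A).det ≠ 0 := by rw [cons1_det]; positivity
    have hτ := tau_pos hB
    set S' := S.toFrame 0 hB with hS'
    have H' : CapHyp S'.K (e0 n) 1 C := hcap
    have back : ∀ x, cons1 h A *ᵥ S'.X x = S.X x := fun x => by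
      have := AS.frame_back 0 hB (S.X x)
      rwa [zero_add] at this
    have x0' : ∀ x, S'.Xf (e0 n) x = h⁻¹ * z x := fun x => by
      have := congrFun (back x) 0
      rw [cons1_mulVec, hX, Fin.cons_zero, Fin.cons_zero] at this
      rw [← this, inv_mul_cancel_left₀ hh.ne']
      simp [AS.Xf, e0]
    have n0 : ∀ x, S'.N x 0 = tau n (cons1 h A) ^ 2 * h * ρ x := fun x => by
      rw [hS', AS.toFrame_N, Pi.smul_apply, cons1T_zero, hN]
      simp [hρ, mul_assoc]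
    have n0' : ∀ x, S'.Nf (e0 n) x = tau n (cons1 h A) ^ 2 * h * ρ x := fun x => by
      rw [← n0]; simp [AS.Nf, e0]
    have hmem : ∀ x ∈ S.Ω, z x ≤ h → x ∈ S'.cap (e0 n) 1 := fun x hx hz =>
      ⟨hx, by rw [x0', inv_mul_le_iff₀ hh]; linarith⟩
    refine ⟨A, tau n (cons1 h A) ^ 2, by positivity, ?_, fun x hx hz => ?_, fun x hx hz k => ?_,
      fun x hx hz => ?_, fun x hx => ?_⟩
    · have h2 := tau_pow hB
      rw [cons1_det, abs_mul, abs_of_pos hh] at h2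
      have h3 : (tau n (cons1 h A) ^ (n + 2) * (h * |A.det|)) ^ 2 = 1 := by rw [h2, one_pow]
      rw [mul_pow, mul_pow, sq_abs] at h3
      rw [mul_pow, ← pow_mul, mul_comm 2, pow_mul]
      linear_combination (-h ^ n) * h3
    · refine ⟨fun i => S'.X x i.succ, ?_, fun i => ?_⟩
      · exact (pi_norm_le_iff_of_nonneg hC.le).2 fun i =>
          (norm_le_pi_norm (S'.X x) _).trans (AS.cap_X H' (hmem x hx hz))
      · have := congrFun (back x) i.succ
        rw [cons1_mulVec, hX, Fin.cons_succ, Fin.cons_succ] at this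
        exact this.symm
    · have h2 := AS.cap_Nk H' hC (hmem x hx hz) k.succ
      rw [n0', hS', AS.toFrame_N, Pi.smul_apply, cons1T_succ, hN] at h2
      have h3 : tau n (cons1 h A) ^ 2 • ∑ i, A i k * (ρ x • (Fin.cons 1 (fun i => -pd i z x) :
          Fin (n + 1) → ℝ)) i.succ = -(tau n (cons1 h A) ^ 2 * ρ x) * ∑ i, pd i z x * A i k := by
        simp only [smul_eq_mul, Pi.smul_apply, Fin.cons_succ, Finset.mul_sum]
        exact Finset.sum_congr rfl fun i _ => by ring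
      have h4 : 0 < tau n (cons1 h A) ^ 2 * ρ x := mul_pos (pow_pos hτ 2) (hρ0 x hx)
      rw [h3, abs_mul, abs_neg, abs_of_pos h4] at h2
      exact le_of_mul_le_mul_left (h2.trans (le_of_eq (by ring))) h4
    · have := hlo S' H' x (hmem x hx hz)
      rwa [x0', n0'] at this
    · have h2 := hup S' H' hdual x hx
      have h3 := AS.toFrame_Nf S 0 hB (S'.X x) x
      rw [back] at h3
      rw [n0] at h2
      exact (le_of_eq (congrArg _ h3.symm)).trans h2
  have hX0 : S.X x0 = 0 := by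
    rw [hX, H.zero]
    funext k
    refine Fin.cases (by simp) (fun i => by simp) k
  have r0 := hρ0 x0 H.mem
  have pinch : ∀ x ∈ S.Ω, c * η / (2 * M) * ρ x0 ≤ ρ x ∧ ρ x ≤ 2 * M / (c * η) * ρ x0 := by
    intro x hx
    have rx := hρ0 x hx
    have z0 := H.nonneg x hx
    set h : ℝ := 1 + 2 * z x + 2 * |S.N x ⬝ᵥ S.X x| / (η * ρ x) with hh
    have q0 : 0 ≤ 2 * |S.N x ⬝ᵥ S.X x| / (η * ρ x) := by positivity
    have h0 : 0 < h := by positivity
    obtain ⟨A, t, ht, -, -, -, k1, k2⟩ := key h h0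
    have a1 := k1 x0 H.mem (by rw [H.zero]; exact h0.le)
    have a2 := k2 x0 H.mem
    have a3 := k1 x hx (by linarith)
    have a4 := k2 x hx
    rw [H.zero, mul_zero, sub_zero, mul_one] at a1
    rw [hX0, dotProduct_zero, mul_zero, add_zero] at a2
    have a5 : h⁻¹ * z x ≤ 1 / 2 := by rw [inv_mul_le_iff₀ h0]; linarith
    have a6 : c / 2 ≤ t * h * ρ x := by nlinarith
    have a7 : 2 * |S.N x ⬝ᵥ S.X x| ≤ h * (η * ρ x) := by
      rw [← div_le_iff₀ (by positivity)]; linarith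
    have a8 : η * (t * h * ρ x) ≤ 2 * M := by
      have := mul_le_mul_of_nonneg_left a7 ht.le
      have := mul_le_mul_of_nonneg_left (neg_abs_le (S.N x ⬝ᵥ S.X x)) ht.le
      linarith
    have th : 0 < t * h := mul_pos ht h0
    generalize t * h = s at *
    constructor
    · rw [div_mul_eq_mul_div, div_le_iff₀ (by positivity)]
      refine le_of_mul_le_mul_left ?_ th
      have b1 := mul_le_mul_of_nonneg_left a2 hc.le
      have b2 := mul_le_mul_of_nonneg_left a6 hM.le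
      linarith
    · rw [div_mul_eq_mul_div, le_div_iff₀ (by positivity)]
      refine le_of_mul_le_mul_left ?_ th
      have b1 := mul_le_mul_of_nonneg_left a8 hc.le
      have b2 := mul_le_mul_of_nonneg_left a1 hM.le
      linarith
  set c1 : ℝ := (M / (η * ρ x0)) ^ (n + 2) with hc1
  set c2 : ℝ := (ρ x0 / c) ^ (n + 2) with hc2
  set c3 : ℝ := (2 * M / (c * η) * ρ x0) ^ (n + 2) with hc3
  set c4 : ℝ := ((c * η / (2 * M) * ρ x0) ^ (n + 2))⁻¹ with hc4
  have p1 : 0 < c1 := by positivity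
  have p2 : 0 < c2 := by positivity
  have p3 : 0 < c3 := by positivity
  have p4 : 0 < c4 := by positivity
  have p5 : 0 < C ^ 2 := by positivity
  refine ⟨C + C ^ 2 + c1 + c2 + c3 + c4, H.isOpen, H.smooth, H.pos,
    (convexOn_of_hess H.isOpen H.convex H.smooth H.pos).1.convexOn, H.mem, H.zero, H.nonneg, H.cpt,
    by positivity, fun h h0 => ?_, fun x hx => ?_, fun x hx => ?_⟩
  · obtain ⟨A, t, ht, k0, k3, k4, k1, k2⟩ := key h h0
    have a1 := k1 x0 H.mem (by rw [H.zero]; exact h0.le)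
    have a2 := k2 x0 H.mem
    rw [H.zero, mul_zero, sub_zero, mul_one] at a1
    rw [hX0, dotProduct_zero, mul_zero, add_zero] at a2
    have th : 0 < t * h := mul_pos ht h0
    generalize t * h = s at *
    have hn := pow_pos h0 n
    refine ⟨A, ?_, ?_, fun x hx hz => ?_, fun x hx hz k => (k4 x hx hz k).trans ?_⟩
    · have b1 : s ^ (n + 2) ≤ c1 :=
        pow_le_pow_left₀ th.le (by rw [le_div_iff₀ (by positivity)]; linarith) _
      rw [k0]
      exact mul_le_mul_of_nonneg_right (by linarith) (sq_nonneg _)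
    · have b1 : 1 ≤ c2 * s ^ (n + 2) := by
        rw [hc2, ← mul_pow]
        exact one_le_pow₀ (by rw [div_mul_eq_mul_div, le_div_iff₀ hc]; linarith)
      have b2 : A.det ^ 2 ≤ c2 * h ^ n := by
        rw [k0, ← mul_assoc]
        exact le_mul_of_one_le_left (sq_nonneg _) b1
      exact b2.trans (mul_le_mul_of_nonneg_right (by linarith) hn.le)
    · obtain ⟨w, hw, hw'⟩ := k3 x hx hz
      exact ⟨w, by linarith, hw'⟩
    · exact mul_le_mul_of_nonneg_right (by linarith) h0.le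
  · have b1 : ρ x ^ (n + 2) ≤ c3 := pow_le_pow_left₀ (hρ0 x hx).le (pinch x hx).2 _
    have b2 := hρd x hx
    have b3 := (H.pos x hx).det_pos
    rw [inv_le_iff_one_le_mul₀' (by positivity), ← b2]
    exact mul_le_mul_of_nonneg_right (by linarith) b3.le
  · have b1 : (c * η / (2 * M) * ρ x0) ^ (n + 2) ≤ ρ x ^ (n + 2) :=
      pow_le_pow_left₀ (by positivity) (pinch x hx).1 _
    have b2 := hρd x hx
    have b3 := (H.pos x hx).det_pos
    have b4 : (hess z x).det ≤ c4 := by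
      rw [hc4, ← one_div, le_div_iff₀ (by positivity), ← b2, mul_comm]
      exact mul_le_mul_of_nonneg_right b1 b3.le
    linarith

lemma Norm0.det_const (hn : 2 ≤ n) (H : Norm0 Ω z x0) {C : ℝ} (HS : SecHyp Ω z x0 C) :
    ∀ x ∈ Ω, (hess z x).det = (hess z x0).det := by
  have hC := HS.Cpos
  have hneg : -((n:ℝ) + 1) / ((n:ℝ) + 2) < 0 :=
    div_neg_of_neg_of_pos (neg_neg_of_pos (by positivity)) (by positivity)
  have hw : ∀ x ∈ Ω, ContDiffAt ℝ 2 (wfun z) x := fun x hx =>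
    ((contDiffAt_det fun i j => contDiffAt_hess_infty
      (H.smooth.contDiffAt (H.isOpen.mem_nhds hx)) i j).of_le (nat_le_infty 2)).rpow_const_of_ne
      (H.pos x hx).det_pos.ne'
  have hne : (wfun z '' Ω).Nonempty := ⟨_, x0, H.mem, rfl⟩
  have hba : BddAbove (wfun z '' Ω) := ⟨C⁻¹ ^ (-((n:ℝ) + 1) / ((n:ℝ) + 2)), by
    rintro _ ⟨x, hx, rfl⟩
    exact Real.rpow_le_rpow_of_nonpos (inv_pos.2 hC) (HS.detlo x hx) hneg.le⟩
  have hbb : BddBelow (wfun z '' Ω) := ⟨0, by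
    rintro _ ⟨x, hx, rfl⟩
    exact Real.rpow_nonneg (H.pos x hx).det_pos.le _⟩
  set Mx := sSup (wfun z '' Ω) with hMx
  set mx := sInf (wfun z '' Ω) with hmx
  have h1 : ∀ x ∈ Ω, wfun z x ≤ Mx := fun x hx => le_csSup hba ⟨x, hx, rfl⟩
  have h2 : ∀ x ∈ Ω, mx ≤ wfun z x := fun x hx => csInf_le hbb ⟨x, hx, rfl⟩
  have hlap : ∀ x ∈ Ω, ∀ a b : ℝ,
      ∑ j, ∑ k, (hess z x)⁻¹ j k * hess (fun y => a * wfun z y + b) x j k = 0 := by
    intro x hx a b
    have J := ((Diff.jet_of (D := maDiff H.isOpen H.smooth H.pos) (hw x hx)).const_mul hx a).add hx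
      (Diff.jet_const b x)
    rw [← maDiff_lap H.isOpen H.smooth H.pos hx J.1, J.2.2,
      maDiff_lap H.isOpen H.smooth H.pos hx (hw x hx)]
    have := H.am x hx
    simp only [amOp, mul_assoc, ← Finset.mul_sum] at this
    rw [(mul_eq_zero.1 this).resolve_left (H.pos x hx).det_pos.ne']
    simp
  have h3 : Mx ≤ mx := by
    refine le_of_forall_pos_le_add fun δ hδ => ?_
    obtain ⟨x, -, hx⟩ := liouville hn HS
      (fun (s : Bool) y => cond s (-1) 1 * wfun z y + cond s Mx (-mx))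
      (fun s x hx => ((contDiffAt_const.mul (hw x hx)).add contDiffAt_const).contDiffWithinAt)
      (fun s x hx => by
        cases s
        · simp only [cond_false]; linarith [h2 x hx]
        · simp only [cond_true]; linarith [h1 x hx])
      (fun s x hx => (hlap x hx _ _).le)
      (fun s ε hε => by
        cases s
        · obtain ⟨_, ⟨x, hx, rfl⟩, h⟩ := exists_lt_of_csInf_lt hne (lt_add_of_pos_right mx hε)
          exact ⟨x, hx, by simp only [cond_false]; linarith⟩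
        · obtain ⟨_, ⟨x, hx, rfl⟩, h⟩ := exists_lt_of_lt_csSup hne (sub_lt_self Mx hε)
          exact ⟨x, hx, by simp only [cond_true]; linarith⟩) (δ / 2) (half_pos hδ)
    have a1 := hx true
    have a2 := hx false
    simp only [cond_true, cond_false] at a1 a2
    linarith
  intro x hx
  have e : wfun z x = wfun z x0 := by
    linarith [h1 x hx, h2 x hx, h1 x0 H.mem, h2 x0 H.mem]
  exact (Real.rpow_left_inj (H.pos x hx).det_pos.le (H.pos x0 H.mem).det_pos.le hneg.ne).1 e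

theorem Norm0.hess_const {m : ℕ} (h2 : 2 ≤ m) (h8 : m ≤ 8) {Ω : Set (E (m + 1))}
    {z : E (m + 1) → ℝ} {x0 : E (m + 1)} (H : Norm0 Ω z x0) :
    ∃ A : Matrix (Fin (m + 1)) (Fin (m + 1)) ℝ, ∀ x ∈ Ω, hess z x = A := by
  obtain ⟨S, h1, hK, hX, hN⟩ := H.exists_AS
  have hpos : ∀ Z ∈ S.K, 0 ≤ Z 0 := fun Z hZ =>
    (H.nonneg _ ((hK Z).1 hZ).1).trans ((hK Z).1 hZ).2
  have hcont : Continuous fun Z : Fin (m + 2) → ℝ =>
      x0 + (WithLp.toLp 2 fun i => Z i.succ : E (m + 1)) := by fun_prop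
  refine (dichotomy m S.K S.K_closed S.K_convex ?_ hpos (fun Z hZ s hs => ?_) (fun h => ?_)
    ?_).elim ?_ ?_
  rotate_left 4
  · rintro ⟨C, η, hC, hη, hG⟩
    obtain ⟨C', HS⟩ := H.secHyp h1 hX hN hC hη hG
    exact Vale.Agent.P252.hess_const (by omega) HS _ (H.det_const (by omega) HS)
  · rintro ⟨C, hC, hW⟩
    obtain ⟨L, hL⟩ := AS.wedge_false m h2 h8 C hC
    obtain ⟨O, B, hB, hw⟩ := hW L
    exact absurd hw (hL (S.toFrame O hB))
  · have e : (WithLp.toLp 2 fun i : Fin (m + 1) => (0 : Fin (m + 2) → ℝ) i.succ : E (m + 1))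
        = 0 := by ext i; simp
    rw [hK, e, add_zero, H.zero]
    exact ⟨H.mem, le_rfl⟩
  · have e : (WithLp.toLp 2 fun i : Fin (m + 1) => (Z + s • e0 (m + 1)) i.succ : E (m + 1))
        = WithLp.toLp 2 fun i => Z i.succ := by ext i; simp [e0]
    rw [hK] at hZ ⊢
    rw [e]
    refine ⟨hZ.1, hZ.2.trans ?_⟩
    simp [e0, hs]
  · obtain ⟨R, hR⟩ := (H.cpt h).isBounded.exists_norm_le
    refine ⟨|h| + (|R| + ‖x0‖), fun Z hZ hh => ?_⟩
    have a1 := hR _ ⟨((hK Z).1 hZ).1, ((hK Z).1 hZ).2.trans hh⟩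
    have a2 := norm_sub_le (x0 + (WithLp.toLp 2 fun i => Z i.succ : E (m + 1))) x0
    rw [add_sub_cancel_left] at a2
    rw [pi_norm_le_iff_of_nonneg (by positivity)]
    intro k
    refine Fin.cases ?_ (fun i => ?_) k
    · rw [Real.norm_of_nonneg (hpos Z hZ)]
      linarith [le_abs_self h, abs_nonneg R, norm_nonneg x0]
    · have a3 := PiLp.norm_apply_le (WithLp.toLp 2 fun i => Z i.succ : E (m + 1)) i
      simp only at a3
      linarith [le_abs_self R, abs_nonneg h]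
  · have e : x0 + (WithLp.toLp 2 fun i : Fin (m + 1) => e0 (m + 1) i.succ : E (m + 1)) = x0 := by
      ext i; simp [e0]
    refine ⟨e0 (m + 1), mem_interior_iff_mem_nhds.2 ?_⟩
    have a1 : Ω ∈ 𝓝 (x0 + (WithLp.toLp 2 fun i : Fin (m + 1) => e0 (m + 1) i.succ :
        E (m + 1))) := by rw [e]; exact H.isOpen.mem_nhds H.mem
    have a2 : ContinuousAt (fun Z : Fin (m + 2) → ℝ =>
        z (x0 + (WithLp.toLp 2 fun i => Z i.succ : E (m + 1))) - Z 0) (e0 (m + 1)) :=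
      (ContinuousAt.comp (f := fun Z : Fin (m + 2) → ℝ =>
        x0 + (WithLp.toLp 2 fun i => Z i.succ : E (m + 1)))
        (H.smooth.contDiffAt a1).continuousAt hcont.continuousAt).sub (continuous_apply 0).continuousAt
    have a3 : z (x0 + (WithLp.toLp 2 fun i : Fin (m + 1) => e0 (m + 1) i.succ : E (m + 1)))
        - e0 (m + 1) 0 < 0 := by rw [e, H.zero]; simp [e0]
    filter_upwards [hcont.continuousAt.eventually a1, a2.eventually (gt_mem_nhds a3)] with Z b1 b2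
    exact (hK Z).2 ⟨b1, by linarith⟩

theorem rigidity (n : ℕ) (h3 : 3 ≤ n) (h9 : n ≤ 9) (Ω : Set (E n)) (u : E n → ℝ) (ho : IsOpen Ω)
    (hne : Ω.Nonempty) (hc : Convex ℝ Ω) (hs : ContDiffOn ℝ ∞ u Ω)
    (hp : ∀ x ∈ Ω, (hess u x).PosDef) (ham : ∀ x ∈ Ω, amOp u x = 0)
    (hcomp : EuclideanComplete Ω u) :
    Ω = Set.univ ∧ ∃ (A : Matrix (Fin n) (Fin n) ℝ) (b : Fin n → ℝ) (c : ℝ), A.PosDef ∧
      ∀ x : E n, u x = (1 / 2) * (∑ i, ∑ j, A i j * x i * x j) + (∑ i, b i * x i) + c := by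
  obtain ⟨m, rfl⟩ : ∃ m, n = m + 1 := ⟨n - 1, by omega⟩
  obtain ⟨x0, hx0⟩ := hne
  have hcl := isClosed_epi ho hc hs hp hcomp
  obtain ⟨A, hA⟩ := (norm0_tilt ho hc hs hp ham hcl hx0).hess_const (by omega) (by omega)
  have hA' : ∀ x ∈ Ω, hess u x = A := fun x hx => by rw [← tilt_hess ho hs x0 hx, hA x hx]
  obtain ⟨h1, b, c, h2⟩ := paraboloid_of_const_hess ho ⟨x0, hx0⟩ hc hs hcl A hA'
  exact ⟨h1, A, b, c, hA' x0 hx0 ▸ hp x0 hx0, h2⟩

end Vale.Agent.P252
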