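import Vale.Agent.P252.DiffCalc

/-! Derivatives of determinants and inverses, the Piola identity, the linearized
Monge-Ampere operator as a diffusion structure. -/

open scoped ContDiff Topology
open Matrix Finset

namespace Vale.Agent.P252

variable {n : ℕ} {ι : Type} [Fintype ι] [DecidableEq ι]

omit [Fintype ι] in
lemma HasGrad.prod (s : Finset ι) {g : ι → E n → ℝ} {x : E n} {v : ι → Fin n → ℝ}
    (hg : ∀ k, HasGrad (g k) x (v k)) :
    HasGrad (fun x => ∏ k ∈ s, g k x) x (fun i => ∑ k ∈ s, v k i * ∏ j ∈ s.erase k, g j x) := by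
  induction s using Finset.induction_on with
  | empty => simpa using hasGrad_const 1 x
  | insert a s ha ih =>
    simp only [Finset.prod_insert ha, Finset.sum_insert ha, Finset.erase_insert ha]
    refine ((hg a).mul ih).congr fun i => ?_
    congr 1
    rw [Finset.mul_sum]
    refine Finset.sum_congr rfl fun k hk => ?_
    have hka : a ≠ k := fun h => ha (h ▸ hk)
    rw [Finset.erase_insert_of_ne hka, Finset.prod_insert (fun h => ha (Finset.mem_of_mem_erase h))]
    ring

lemma nat_le_infty (k : ℕ) : (k : WithTop ℕ∞) ≤ ∞ := by exact_mod_cast le_top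

lemma contDiffAt_det {M : E n → Matrix ι ι ℝ} {x : E n} {N : WithTop ℕ∞}
    (hM : ∀ i j, ContDiffAt ℝ N (fun y => M y i j) x) : ContDiffAt ℝ N (fun y => (M y).det) x := by
  simp only [Matrix.det_apply']
  exact ContDiffAt.sum fun σ _ => contDiffAt_const.mul (contDiffAt_prod fun i _ => hM _ _)

lemma contDiffAt_adjugate {M : E n → Matrix ι ι ℝ} {x : E n} {N : WithTop ℕ∞}
    (hM : ∀ i j, ContDiffAt ℝ N (fun y => M y i j) x) (i j : ι) :
    ContDiffAt ℝ N (fun y => (M y).adjugate i j) x := by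
  simp only [Matrix.adjugate_apply]
  apply contDiffAt_det
  intro a b
  by_cases h : a = j
  · subst h; simp only [Matrix.updateRow_self]; exact contDiffAt_const
  · simp only [Matrix.updateRow_ne h]; exact hM a b

lemma contDiffAt_inv_entry {M : E n → Matrix ι ι ℝ} {x : E n} {N : WithTop ℕ∞}
    (hM : ∀ i j, ContDiffAt ℝ N (fun y => M y i j) x) (h0 : (M x).det ≠ 0) (i j : ι) :
    ContDiffAt ℝ N (fun y => (M y)⁻¹ i j) x := by
  simp only [Matrix.inv_def, Ring.inverse_eq_inv', Matrix.smul_apply, smul_eq_mul]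
  exact ((contDiffAt_det hM).inv h0).mul (contDiffAt_adjugate hM i j)

lemma hasGrad_det_adj {M : E n → Matrix ι ι ℝ} {x : E n}
    (hM : ∀ i j, DifferentiableAt ℝ (fun y => M y i j) x) :
    HasGrad (fun y => (M y).det) x
      (fun k => ∑ i, ∑ j, (M x).adjugate i j * pd k (fun y => M y j i) x) := by
  simp only [Matrix.det_apply']
  have h := HasGrad.sum Finset.univ fun σ : Equiv.Perm ι =>
    (HasGrad.prod Finset.univ fun i => hasGrad_of_diff (hM (σ i) i)).const_mul
      ((Equiv.Perm.sign σ : ℤ) : ℝ)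
  refine h.congr fun k => ?_
  have h1 : ∀ i, ∑ j, (M x).adjugate i j * pd k (fun y => M y j i) x
      = ((M x).updateCol i fun j => pd k (fun y => M y j i) x).det := fun i => by
    rw [← Matrix.cramer_apply, Matrix.cramer_eq_adjugate_mulVec]; rfl
  simp only [h1, Matrix.det_apply', Pi.smul_apply, smul_eq_mul, Finset.mul_sum]
  rw [Finset.sum_comm]
  refine Finset.sum_congr rfl fun i _ => Finset.sum_congr rfl fun σ _ => ?_
  congr 1
  rw [← Finset.mul_prod_erase Finset.univ _ (Finset.mem_univ i), Matrix.updateCol_self]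
  congr 1
  exact Finset.prod_congr rfl fun j hj => by
    rw [Matrix.updateCol_ne (Finset.ne_of_mem_erase hj)]

/-- Jacobi formula. -/
lemma hasGrad_det {M : E n → Matrix ι ι ℝ} {x : E n}
    (hM : ∀ i j, DifferentiableAt ℝ (fun y => M y i j) x) (h0 : (M x).det ≠ 0) :
    HasGrad (fun y => (M y).det) x
      (fun k => (M x).det * ∑ i, ∑ j, (M x)⁻¹ i j * pd k (fun y => M y j i) x) := by
  refine (hasGrad_det_adj hM).congr fun k => ?_
  simp only [Finset.mul_sum, Matrix.inv_def, Ring.inverse_eq_inv', Matrix.smul_apply, smul_eq_mul]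
  refine Finset.sum_congr rfl fun i _ => Finset.sum_congr rfl fun j _ => ?_
  field_simp

/-- Derivative of the inverse. -/
lemma pd_inv_entry {M : E n → Matrix ι ι ℝ} {x : E n}
    (hM : ∀ i j, ContDiffAt ℝ 1 (fun y => M y i j) x) (h0 : (M x).det ≠ 0) (k : Fin n) (i j : ι) :
    pd k (fun y => (M y)⁻¹ i j) x
      = -∑ a, ∑ b, (M x)⁻¹ i a * pd k (fun y => M y a b) x * (M x)⁻¹ b j := by
  have hinv := contDiffAt_inv_entry hM h0
  have hev : ∀ᶠ y in 𝓝 x, (M y).det ≠ 0 := (contDiffAt_det hM).continuousAt.eventually_ne h0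
  let D1 : Matrix ι ι ℝ := Matrix.of fun a b => pd k (fun y => (M y)⁻¹ a b) x
  let D2 : Matrix ι ι ℝ := Matrix.of fun a b => pd k (fun y => M y a b) x
  have key : D1 * M x + (M x)⁻¹ * D2 = 0 := by
    ext a b
    have h1 := (HasGrad.sum Finset.univ fun c =>
      (hasGrad_of_diff ((hinv a c).differentiableAt (by simp))).mul
      (hasGrad_of_diff ((hM c b).differentiableAt (by simp)))).2 k
    have e : (fun y => ∑ c, (M y)⁻¹ a c * M y c b) =ᶠ[𝓝 x] fun _ => (1 : Matrix ι ι ℝ) a b :=
      hev.mono fun y hy => by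
        rw [← Matrix.nonsing_inv_mul (M y) (isUnit_iff_ne_zero.2 hy), Matrix.mul_apply]
    rw [pd_congr e, (hasGrad_const _ x).2 k] at h1
    simp only [Matrix.add_apply, Matrix.mul_apply, D1, D2, Matrix.of_apply, Matrix.zero_apply,
      ← Finset.sum_add_distrib]
    exact h1.symm
  have h2 : D1 = -((M x)⁻¹ * D2 * (M x)⁻¹) := by
    have h3 : D1 * M x = -((M x)⁻¹ * D2) := eq_neg_of_add_eq_zero_left key
    calc D1 = D1 * M x * (M x)⁻¹ := by
          rw [Matrix.mul_assoc, Matrix.mul_nonsing_inv _ (isUnit_iff_ne_zero.2 h0), Matrix.mul_one]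
      _ = _ := by rw [h3, Matrix.neg_mul]
  have h4 := congrFun (congrFun h2 i) j
  simp only [D1, D2, Matrix.of_apply, Matrix.neg_apply, Matrix.mul_apply, Finset.sum_mul] at h4
  rw [h4, Finset.sum_comm]

lemma contDiffAt_hess {u : E n → ℝ} {x : E n} {N M : WithTop ℕ∞} (hu : ContDiffAt ℝ N u x)
    (h : M + 1 + 1 ≤ N) (i j : Fin n) : ContDiffAt ℝ M (fun y => hess u y i j) x :=
  contDiffAt_pd (contDiffAt_pd hu h j) le_rfl i

lemma contDiffAt_pd_infty {u : E n → ℝ} {x : E n} (hu : ContDiffAt ℝ ∞ u x) (i : Fin n) :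
    ContDiffAt ℝ ∞ (pd i u) x := contDiffAt_pd hu (by simp) i

lemma contDiffAt_hess_infty {u : E n → ℝ} {x : E n} (hu : ContDiffAt ℝ ∞ u x) (i j : Fin n) :
    ContDiffAt ℝ ∞ (fun y => hess u y i j) x :=
  contDiffAt_pd_infty (contDiffAt_pd_infty hu j) i

/-- Third derivatives: swap of the first two indices. -/
lemma pd_hess_swap {u : E n → ℝ} {x : E n} (hu : ContDiffAt ℝ 3 u x) (k i j : Fin n) :
    pd k (fun y => hess u y i j) x = pd i (fun y => hess u y k j) x :=
  pd_comm (contDiffAt_pd hu (by norm_num) j) k i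

/-- Third derivatives: swap of the last two indices. -/
lemma pd_hess_symm {u : E n → ℝ} {x : E n} (hu : ContDiffAt ℝ 3 u x) (k i j : Fin n) :
    pd k (fun y => hess u y i j) x = pd k (fun y => hess u y j i) x := by
  refine pd_congr ?_ k
  filter_upwards [hu.eventually (by simp)] with y hy
  exact hess_symm (hy.of_le (by norm_num)) i j

lemma inv_symm_of_posDef {H : Matrix ι ι ℝ} (hH : H.PosDef) (i j : ι) : H⁻¹ i j = H⁻¹ j i :=
  psd_symm hH.inv.posSemidef i j

/-- Piola identity: the cofactor matrix of a Hessian is divergence free. -/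
lemma piola {u : E n → ℝ} {x : E n} (hu : ContDiffAt ℝ 3 u x) (hp : (hess u x).PosDef) (j : Fin n) :
    ∑ i, pd i (fun y => (hess u y).det * (hess u y)⁻¹ i j) x = 0 := by
  have h0 := hp.det_pos.ne'
  have hH : ∀ a b, ContDiffAt ℝ 1 (fun y => hess u y a b) x := fun a b =>
    contDiffAt_hess hu (by norm_num) a b
  have hd := hasGrad_det (fun a b => (hH a b).differentiableAt (by simp)) h0
  have h1 : ∀ i, pd i (fun y => (hess u y).det * (hess u y)⁻¹ i j) x
      = (hess u x).det * ((∑ a, ∑ b, (hess u x)⁻¹ a b * pd i (fun y => hess u y b a) x)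
          * (hess u x)⁻¹ i j
        - ∑ a, ∑ b, (hess u x)⁻¹ i a * pd i (fun y => hess u y a b) x * (hess u x)⁻¹ b j) :=
    fun i => by
      rw [(hd.mul (hasGrad_of_diff
        ((contDiffAt_inv_entry hH h0 i j).differentiableAt (by simp)))).2 i]
      simp only [grad, pd_inv_entry hH h0]
      ring
  simp only [h1, ← Finset.mul_sum, Finset.sum_sub_distrib]
  apply mul_eq_zero_of_right
  rw [sub_eq_zero]
  simp only [Finset.sum_mul]
  calc ∑ i, ∑ a, ∑ b, (hess u x)⁻¹ a b * pd i (fun y => hess u y b a) x * (hess u x)⁻¹ i j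
      = ∑ a, ∑ i, ∑ b, (hess u x)⁻¹ a b * pd i (fun y => hess u y b a) x * (hess u x)⁻¹ i j :=
        Finset.sum_comm
    _ = ∑ a, ∑ b, ∑ i, (hess u x)⁻¹ a b * pd i (fun y => hess u y b a) x * (hess u x)⁻¹ i j :=
        Finset.sum_congr rfl fun a _ => Finset.sum_comm
    _ = _ := Finset.sum_congr rfl fun a _ => Finset.sum_congr rfl fun b _ =>
        Finset.sum_congr rfl fun i _ => by
          rw [pd_hess_symm hu i b a, pd_hess_swap hu i a b, pd_hess_symm hu a i b]

/-- The linearized Monge-Ampere operator of `u`, with density `det D² u`. -/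
noncomputable def maDiff {Ω : Set (E n)} {u : E n → ℝ} (ho : IsOpen Ω) (hs : ContDiffOn ℝ ∞ u Ω)
    (hp : ∀ x ∈ Ω, (hess u x).PosDef) : Diff n where
  Ω := Ω
  a := fun x => (hess u x).det • (hess u x)⁻¹
  m := fun x => (hess u x).det
  isOpen := ho
  a_pos := fun x hx => (hp x hx).inv.smul (hp x hx).det_pos
  m_pos := fun x hx => (hp x hx).det_pos
  a_smooth := fun i j x hx => by
    have hH := contDiffAt_hess_infty (hs.contDiffAt (ho.mem_nhds hx))
    exact (((contDiffAt_det hH).mul (contDiffAt_inv_entry hH (hp x hx).det_pos.ne' i j)).of_le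
      (by simp)).contDiffWithinAt
  m_cont := fun x hx =>
    (contDiffAt_det (contDiffAt_hess_infty
      (hs.contDiffAt (ho.mem_nhds hx)))).continuousAt.continuousWithinAt

section
variable {Ω : Set (E n)} {u : E n → ℝ} (ho : IsOpen Ω) (hs : ContDiffOn ℝ ∞ u Ω)
    (hp : ∀ x ∈ Ω, (hess u x).PosDef)

lemma maDiff_ip {x : E n} (hx : x ∈ Ω) (v w : Fin n → ℝ) :
    (maDiff ho hs hp).ip x v w = v ⬝ᵥ (hess u x)⁻¹ *ᵥ w := by
  have := (hp x hx).det_pos.ne'
  simp only [Diff.ip, maDiff, smul_mulVec, dotProduct_smul, smul_eq_mul]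
  field_simp

lemma maDiff_lap {x : E n} (hx : x ∈ Ω) {g : E n → ℝ} (hg : ContDiffAt ℝ 2 g x) :
    (maDiff ho hs hp).lap g x = ∑ j, ∑ k, (hess u x)⁻¹ j k * hess g x j k := by
  have h0 := (hp x hx).det_pos.ne'
  rw [Diff.lap_eq (D := maDiff ho hs hp) hx hg]
  have h3 : ContDiffAt ℝ 3 u x := (hs.contDiffAt (ho.mem_nhds hx)).of_le
    (nat_le_infty 3)
  have h1 : ∑ i, ∑ j, pd i (fun y => (maDiff ho hs hp).a y i j) x * pd j g x = 0 := by
    rw [Finset.sum_comm]
    refine Finset.sum_eq_zero fun j _ => ?_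
    rw [← Finset.sum_mul]
    exact mul_eq_zero_of_left (piola h3 (hp x hx) j) _
  rw [h1, add_zero]
  simp only [maDiff, Matrix.smul_apply, smul_eq_mul, mul_assoc, ← Finset.mul_sum]
  field_simp

end

end Vale.Agent.P252
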