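import Vale.Agent.P252.Jacobi

/-! Volume bounds and the Aleksandrov-Bakelman-Pucci step of the Liouville theorem. -/

open scoped ContDiff Topology
open Matrix Finset MeasureTheory

namespace Vale.Agent.P252

variable {n : ℕ}

lemma liou_cube {r : ℝ} (hr : 0 ≤ r) :
    volume {q : E n | ‖q.ofLp‖ ≤ r} = ENNReal.ofReal ((2 * r) ^ n) := by
  have h := (PiLp.volume_preserving_ofLp (Fin n)).measure_preimage
    (s := Metric.closedBall 0 r) measurableSet_closedBall.nullMeasurableSet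
  rw [Real.volume_pi_closedBall _ hr, Fintype.card_fin] at h
  rw [← h]
  congr 1
  ext q; simp

lemma liou_det (A : Matrix (Fin n) (Fin n) ℝ) :
    LinearMap.det (Matrix.toEuclideanLin A) = A.det := LinearMap.det_toLpLin 2 A

lemma liou_vol_le {S : Set (E n)} {x0 : E n} {A : Matrix (Fin n) (Fin n) ℝ} {C : ℝ} (hC : 0 ≤ C)
    (hS : ∀ x ∈ S, ∃ w : Fin n → ℝ, ‖w‖ ≤ C ∧ ∀ i, x i - x0 i = (A *ᵥ w) i) :
    volume.real S ≤ (2 * C) ^ n * |A.det| := by
  have h1 : S ⊆ (fun x => -x0 + x) ⁻¹' (Matrix.toEuclideanLin A '' {q : E n | ‖q.ofLp‖ ≤ C}) := by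
    intro x hx
    obtain ⟨w, hw, hx'⟩ := hS x hx
    refine ⟨WithLp.toLp 2 w, hw, ?_⟩
    ext i
    have := hx' i
    simp only [PiLp.add_apply, PiLp.neg_apply]
    change (A *ᵥ w) i = _
    linarith
  have h2 := measure_mono (μ := volume) h1
  rw [measure_preimage_add, Measure.addHaar_image_linearMap, liou_cube hC, liou_det,
    ← ENNReal.ofReal_mul (abs_nonneg _), mul_comm] at h2
  exact ENNReal.toReal_le_of_le_ofReal (by positivity) h2

lemma liou_vol_dual {A : Matrix (Fin n) (Fin n) ℝ} (hA : A.det ≠ 0) {r : ℝ} (hr : 0 ≤ r) :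
    volume {p : E n | ‖Aᵀ *ᵥ p.ofLp‖ ≤ r} = ENNReal.ofReal ((2 * r) ^ n / |A.det|) := by
  have h := Measure.addHaar_preimage_linearMap (volume : Measure (E n))
    (f := Matrix.toEuclideanLin Aᵀ) (by rwa [liou_det, det_transpose]) {q : E n | ‖q.ofLp‖ ≤ r}
  rw [liou_cube hr, liou_det, det_transpose, ← ENNReal.ofReal_mul (abs_nonneg _), abs_inv,
    mul_comm, ← div_eq_mul_inv] at h
  exact h

lemma liou_hasFDerivAt_grad {u : E n → ℝ} {x : E n} (hu : ContDiffAt ℝ 2 u x) :
    HasFDerivAt (fun y => (WithLp.toLp 2 (grad u y) : E n))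
      (LinearMap.toContinuousLinearMap (Matrix.toEuclideanLin (hess u x)ᵀ)) x := by
  rw [← hasFDerivWithinAt_univ, hasFDerivWithinAt_euclidean]
  intro i
  rw [hasFDerivWithinAt_univ]
  have h := ((contDiffAt_pd_one hu i).differentiableAt (by simp)).hasFDerivAt
  refine h.congr_fderiv ?_
  ext v
  rw [fderiv_eq_sum_pd]
  change _ = ((hess u x)ᵀ *ᵥ v.ofLp) i
  simp only [mulVec, dotProduct, transpose_apply, hess, of_apply]
  exact Finset.sum_congr rfl fun j _ => mul_comm _ _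

lemma liou_hess_add {g h : E n → ℝ} {x : E n} (hg : ContDiffAt ℝ 2 g x) (hh : ContDiffAt ℝ 2 h x)
    (c : ℝ) : hess (fun y => g y + c * h y) x = hess g x + c • hess h x := by
  ext i j
  have e : pd j (fun y => g y + c * h y) =ᶠ[𝓝 x] fun y => pd j g y + c * pd j h y := by
    filter_upwards [ev_diff (hg.of_le (by norm_num)), ev_diff (hh.of_le (by norm_num))]
      with y h1 h2
    exact ((hasGrad_of_diff h1).add' ((hasGrad_of_diff h2).const_mul c)).2 j
  simp only [hess, of_apply, Matrix.add_apply, Matrix.smul_apply, smul_eq_mul]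
  rw [pd_congr e]
  exact ((hasGrad_of_diff ((contDiffAt_pd_one hg j).differentiableAt (by simp))).add'
    ((hasGrad_of_diff ((contDiffAt_pd_one hh j).differentiableAt (by simp))).const_mul c)).2 i

lemma liou_hasGrad_lin (p : Fin n → ℝ) (x0 x : E n) :
    HasGrad (fun y : E n => ∑ i, p i * (y i - x0 i)) x p := by
  have h := HasGrad.sum Finset.univ fun i =>
    ((hasGrad_coord i x).sub (hasGrad_const' (x0 i) x)).const_mul (p i)
  refine h.congr fun i => ?_
  simp

lemma liou_contDiff_lin {N : WithTop ℕ∞} (p : Fin n → ℝ) (x0 : E n) :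
    ContDiff ℝ N (fun y : E n => ∑ i, p i * (y i - x0 i)) :=
  ContDiff.sum fun i _ => contDiff_const.mul ((contDiff_coord i).sub contDiff_const)

lemma liou_hess_lin (p : Fin n → ℝ) (x0 x : E n) :
    hess (fun y : E n => ∑ i, p i * (y i - x0 i)) x = 0 := by
  ext i j
  have e : pd j (fun y : E n => ∑ i, p i * (y i - x0 i)) = fun _ => p j :=
    funext fun y => (liou_hasGrad_lin p x0 y).2 j
  simp only [hess, of_apply, e, Matrix.zero_apply]
  exact (hasGrad_const _ x).2 i

lemma liou_pair_self {H : Matrix (Fin n) (Fin n) ℝ} (hH : H.PosDef) :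
    ∑ j, ∑ k, H⁻¹ j k * H j k = n := by
  have h1 : ∀ j, ∑ k, H⁻¹ j k * H j k = 1 := fun j => by
    have := congrFun (congrFun (Matrix.nonsing_inv_mul H
      (isUnit_iff_ne_zero.2 hH.det_pos.ne')) j) j
    rw [Matrix.mul_apply, Matrix.one_apply_eq] at this
    rw [← this]
    exact Finset.sum_congr rfl fun k _ => by rw [psd_symm hH.posSemidef j k]
  simp [h1]

/-- The contact set of a small supersolution fills a fixed share of a section. -/
lemma liou_abp (hn : 2 ≤ n) {Ω : Set (E n)} {z : E n → ℝ} {x0 : E n} {C : ℝ} (H : SecHyp Ω z x0 C)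
    {h : ℝ} (hh : 0 < h) {A : Matrix (Fin n) (Fin n) ℝ} (hA1 : h ^ n ≤ C * A.det ^ 2)
    (hA2 : A.det ^ 2 ≤ C * h ^ n)
    (hA3 : ∀ x ∈ Ω, z x ≤ h → ∃ w : Fin n → ℝ, ‖w‖ ≤ C ∧ ∀ i, x i - x0 i = (A *ᵥ w) i)
    {v : E n → ℝ} (hv : ContDiffOn ℝ 2 v Ω) (hv0 : ∀ x ∈ Ω, 0 ≤ v x)
    (hsup : ∀ x ∈ Ω, ∑ j, ∑ k, (hess z x)⁻¹ j k * hess v x j k ≤ 0)
    {ε : ℝ} (hε : 0 < ε) {x1 : E n} (hx1 : x1 ∈ Ω) (hv1 : v x1 < ε) (hz1 : z x1 ≤ h / 8) :
    ∃ G : Set (E n), MeasurableSet G ∧ G ⊆ {x | x ∈ Ω ∧ z x ≤ h / 2} ∧ (∀ x ∈ G, v x ≤ 3 * ε) ∧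
      |A.det| ≤ (C ^ 2 * (n:ℝ) ^ n * (8 * n * C) ^ n) * volume.real G := by
  have hC := H.Cpos
  have hn0 : (0:ℝ) < n := by exact_mod_cast (show 0 < n by omega)
  have hA : A.det ≠ 0 := by
    intro h0
    rw [h0] at hA1
    have := pow_pos hh n
    linarith
  set S := {x | x ∈ Ω ∧ z x ≤ h / 2} with hS
  have hSc : IsCompact S := H.cpt _
  have hz2 : ∀ x ∈ Ω, ContDiffAt ℝ 2 z x := fun x hx =>
    (H.smooth.contDiffAt (H.isOpen.mem_nhds hx)).of_le (nat_le_infty 2)
  have hv2 : ∀ x ∈ Ω, ContDiffAt ℝ 2 v x := fun x hx => hv.contDiffAt (H.isOpen.mem_nhds hx)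
  set c : ℝ := h / (8 * ε) with hc
  have hc0 : 0 < c := by positivity
  set u : E n → ℝ := fun y => z y + c * v y with hu
  have hu2 : ∀ x ∈ Ω, ContDiffAt ℝ 2 u x := fun x hx =>
    (hz2 x hx).add (contDiffAt_const.mul (hv2 x hx))
  have hdc : ContinuousOn (fun x => |(hess u x).det|) S := fun x hx =>
    (contDiffAt_det (N := 0) fun i j => contDiffAt_hess (hu2 x hx.1) (by norm_num) i j
      ).continuousAt.abs.continuousWithinAt
  have hvc : ContinuousOn v S := fun x hx => (hv2 x hx.1).continuousAt.continuousWithinAt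
  set G := {x ∈ S | v x ≤ 3 * ε} ∩ {x ∈ S | |(hess u x).det| ≤ C * (n:ℝ) ^ n} with hG
  have hGcl : IsClosed G := (hSc.isClosed.isClosed_le hvc continuousOn_const).inter
    (hSc.isClosed.isClosed_le hdc continuousOn_const)
  have hGS : G ⊆ S := fun x hx => hx.1.1
  refine ⟨G, hGcl.measurableSet, hGS, fun x hx => hx.1.2, ?_⟩
  set r : ℝ := h / (16 * n * C) with hr
  have hr0 : 0 < r := by positivity
  have hP : {p : E n | ‖Aᵀ *ᵥ p.ofLp‖ ≤ r} ⊆ (fun y => (WithLp.toLp 2 (grad u y) : E n)) '' G := by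
    intro p hp
    set l : E n → ℝ := fun y => ∑ i, p i * (y i - x0 i) with hl
    have hlb : ∀ x ∈ S, |l x| ≤ h / 16 := fun x hx => by
      obtain ⟨w, hw, hx'⟩ := hA3 x hx.1 (by linarith [hx.2])
      have e : l x = ∑ k, (Aᵀ *ᵥ p.ofLp) k * w k := by
        simp only [hl, hx', mulVec, dotProduct, transpose_apply, Finset.mul_sum, Finset.sum_mul]
        rw [Finset.sum_comm]
        exact Finset.sum_congr rfl fun k _ => Finset.sum_congr rfl fun i _ => by ring
      rw [e]
      refine (Finset.abs_sum_le_sum_abs _ _).trans ?_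
      have h1 : ∀ k, |(Aᵀ *ᵥ p.ofLp) k * w k| ≤ r * C := fun k => by
        rw [abs_mul]
        exact mul_le_mul ((norm_le_pi_norm _ k).trans hp) ((norm_le_pi_norm w k).trans hw)
          (abs_nonneg _) hr0.le
      refine (Finset.sum_le_sum fun k _ => h1 k).trans (le_of_eq ?_)
      simp only [Finset.sum_const, Finset.card_univ, Fintype.card_fin, nsmul_eq_mul, hr]
      field_simp
    have hψ2 : ∀ x ∈ Ω, ContDiffAt ℝ 2 (fun y => u y + (-1) * l y) x := fun x hx =>
      (hu2 x hx).add (contDiffAt_const.mul (liou_contDiff_lin _ x0).contDiffAt)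
    have hx1S : x1 ∈ S := ⟨hx1, by linarith⟩
    obtain ⟨x, hxS, hmin⟩ := hSc.exists_isMinOn ⟨x1, hx1S⟩
      (f := fun y => u y + (-1) * l y) fun y hy => (hψ2 y hy.1).continuousAt.continuousWithinAt
    have h1 : u x + (-1) * l x ≤ u x1 + (-1) * l x1 := hmin hx1S
    have h2 : c * v x1 ≤ h / 8 := by
      have : c * ε = h / 8 := by rw [hc]; field_simp
      nlinarith
    have h3 := abs_le.1 (hlb x hxS)
    have h4 := abs_le.1 (hlb x1 hx1S)
    have h5 : 0 ≤ c * v x := mul_nonneg hc0.le (hv0 x hxS.1)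
    have h6 := H.nonneg x hxS.1
    simp only [hu] at h1
    have hzx : z x < h / 2 := by linarith
    have hvx : v x ≤ 3 * ε := by
      have h7 : c * v x ≤ c * (3 * ε) := by
        have : c * (3 * ε) = 3 * h / 8 := by rw [hc]; field_simp
        linarith
      exact le_of_mul_le_mul_left h7 hc0
    have hloc : IsLocalMin (fun y => u y + (-1) * l y) x := by
      refine hmin.isLocalMin ?_
      filter_upwards [H.isOpen.mem_nhds hxS.1,
        (hz2 x hxS.1).continuousAt.eventually (gt_mem_nhds hzx)] with y hy1 hy2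
      exact ⟨hy1, hy2.le⟩
    have hgr := grad_eq_zero_of_isLocalMin hloc
    rw [((hasGrad_of_diff ((hu2 x hxS.1).differentiableAt (by simp))).add'
      ((liou_hasGrad_lin p.ofLp x0 x).const_mul (-1))).grad_eq] at hgr
    have hps := hess_psd_of_isLocalMin (hψ2 x hxS.1) hloc
    rw [liou_hess_add (hu2 x hxS.1) (liou_contDiff_lin _ x0).contDiffAt, liou_hess_lin,
      smul_zero, add_zero] at hps
    have hd := det_le_det_mul_pair_pow (H.pos x hxS.1) hps
    have hp0 := psd_pair_nonneg (H.pos x hxS.1).inv.posSemidef hps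
    have hp1 : ∑ i, ∑ j, (hess z x)⁻¹ i j * hess u x i j ≤ n := by
      rw [hu, liou_hess_add (hz2 x hxS.1) (hv2 x hxS.1)]
      simp only [Matrix.add_apply, Matrix.smul_apply, smul_eq_mul, mul_add,
        Finset.sum_add_distrib, liou_pair_self (H.pos x hxS.1), mul_left_comm _ c,
        ← Finset.mul_sum]
      have := mul_nonpos_of_nonneg_of_nonpos hc0.le (hsup x hxS.1)
      linarith
    refine ⟨x, ⟨⟨hxS, hvx⟩, hxS, ?_⟩, ?_⟩
    · rw [abs_of_nonneg hps.det_nonneg]
      refine hd.trans (mul_le_mul (H.dethi x hxS.1) ?_ (by positivity) hC.le)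
      rw [Fintype.card_fin]
      exact pow_le_pow_left₀ hp0 hp1 n
    · ext i
      have := congrFun hgr i
      simp only [Pi.add_apply, Pi.smul_apply, smul_eq_mul, Pi.zero_apply] at this
      change grad u x i = p i
      linarith
  have h1 := addHaar_image_le_lintegral_abs_det_fderiv (volume : Measure (E n))
    hGcl.measurableSet fun x hx => (liou_hasFDerivAt_grad (hu2 x (hGS hx).1)).hasFDerivWithinAt
  have h2 : ∫⁻ x in G, ENNReal.ofReal |(LinearMap.toContinuousLinearMap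
      (Matrix.toEuclideanLin (hess u x)ᵀ)).det| ≤ ENNReal.ofReal (C * (n:ℝ) ^ n) * volume G := by
    rw [← setLIntegral_const]
    refine setLIntegral_mono' hGcl.measurableSet fun x hx => ENNReal.ofReal_le_ofReal ?_
    rw [LinearMap.det_toContinuousLinearMap, liou_det, det_transpose]
    exact hx.2.2
  have h3 := ((measure_mono hP).trans h1).trans h2
  rw [liou_vol_dual hA hr0.le] at h3
  have hGf : volume G ≠ ⊤ := ((measure_mono hGS).trans_lt hSc.measure_lt_top).ne
  have h4 := ENNReal.toReal_mono (by finiteness) h3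
  rw [ENNReal.toReal_mul, ENNReal.toReal_ofReal (by positivity),
    ENNReal.toReal_ofReal (by positivity)] at h4
  have ha : 0 < |A.det| := abs_pos.2 hA
  have h5 : (2 * r) ^ n * (8 * n * C) ^ n = h ^ n := by
    rw [← mul_pow]; congr 1; rw [hr]; field_simp; norm_num
  rw [div_le_iff₀ ha] at h4
  rw [← sq_abs, ← h5] at hA2
  refine le_of_mul_le_mul_right ?_ ha
  have h6 : C * (2 * r) ^ n * (8 * n * C) ^ n
      ≤ C * (C * (n:ℝ) ^ n * (volume G).toReal * |A.det|) * (8 * n * C) ^ n := by gcongr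
  calc |A.det| * |A.det| = |A.det| ^ 2 := by ring
    _ ≤ C * (2 * r) ^ n * (8 * n * C) ^ n := by linarith
    _ ≤ _ := h6
    _ = _ := by rw [Measure.real]; ring

end Vale.Agent.P252
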