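import Vale.Agent.P252.MatIneq

/-! Matrix lemmas for the Pogorelov estimate. -/

open Matrix Finset

namespace Vale.Agent.P252.PogMat

variable {n : ℕ}

lemma sq_sum_eq_trace {S : Matrix (Fin n) (Fin n) ℝ} (hs : Sᵀ = S) :
    ∑ i, ∑ j, S i j ^ 2 = (S * S).trace := by
  simp only [trace, diag_apply, mul_apply]
  refine Finset.sum_congr rfl fun i _ => Finset.sum_congr rfl fun j _ => ?_
  have : S j i = S i j := congrFun (congrFun hs i) j
  rw [this, sq]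

lemma traceless_bound (hn : 2 ≤ n) {S : Matrix (Fin n) (Fin n) ℝ} (hs : Sᵀ = S)
    (ht : S.trace = 0) (v : Fin n → ℝ) :
    (S *ᵥ v) ⬝ᵥ (S *ᵥ v) ≤ (1 - 1 / n) * (S * S).trace * (v ⬝ᵥ v) := by
  set g := S *ᵥ v with hg
  have hn0 : (2 : ℝ) ≤ n := by exact_mod_cast hn
  set p := g ⬝ᵥ v with hp
  let M : Fin n → Fin n → ℝ := fun i j =>
    (g i * v j + v i * g j) / 2 - p / n * (if i = j then 1 else 0)
  have hcs := Finset.sum_mul_sq_le_sq_mul_sq (Finset.univ : Finset (Fin n × Fin n))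
    (fun q => S q.1 q.2) (fun q => M q.1 q.2)
  simp only [Fintype.sum_prod_type] at hcs
  have e1 : ∑ i, ∑ j, S i j * M i j = g ⬝ᵥ g := by
    have h1 : ∀ i j, S i j * M i j = g i * (S i j * v j) / 2 + g j * (S j i * v i) / 2
        - p / n * (if i = j then S i j else 0) := fun i j => by
      have : S j i = S i j := congrFun (congrFun hs i) j
      simp only [M, this]
      split_ifs <;> ring
    have h2 : ∑ i, ∑ j, g i * (S i j * v j) / 2 = g ⬝ᵥ g / 2 := by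
      simp only [← Finset.sum_div, ← Finset.mul_sum]
      rfl
    have h3 : ∑ i, ∑ j, g j * (S j i * v i) / 2 = g ⬝ᵥ g / 2 := by
      rw [Finset.sum_comm, h2]
    have h4 : ∑ i, ∑ j, p / n * (if i = j then S i j else 0) = 0 := by
      simp only [← Finset.mul_sum, Finset.sum_ite_eq, Finset.mem_univ, if_true]
      exact mul_eq_zero_of_right _ ht
    simp only [h1, Finset.sum_sub_distrib, Finset.sum_add_distrib, h2, h3, h4]
    ring
  have e2 : ∑ i, ∑ j, M i j ^ 2 = ((g ⬝ᵥ g) * (v ⬝ᵥ v) + p ^ 2) / 2 - p ^ 2 / n := by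
    have h1 : ∀ i j, M i j ^ 2 = (g i * g i) * (v j * v j) / 4 + (v i * v i) * (g j * g j) / 4
        + (g i * v i) * (g j * v j) / 2
        - (if i = j then 2 * (p / n) * (g i * v i) - (p / n) ^ 2 else 0) := fun i j => by
      simp only [M]
      split_ifs with h
      · subst h; ring
      · ring
    have h2 : ∀ a b : Fin n → ℝ, ∀ c : ℝ, ∑ i, ∑ j, a i * b j / c = (∑ i, a i) * (∑ j, b j) / c :=
      fun a b c => by simp only [← Finset.sum_div, Finset.sum_mul_sum]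
    simp only [h1, Finset.sum_sub_distrib, Finset.sum_add_distrib, h2, Finset.sum_ite_eq,
      Finset.mem_univ, if_true, ← Finset.mul_sum, Finset.sum_const, Finset.card_univ,
      Fintype.card_fin, nsmul_eq_mul]
    change (g ⬝ᵥ g) * (v ⬝ᵥ v) / 4 + (v ⬝ᵥ v) * (g ⬝ᵥ g) / 4 + p * p / 2
      - (2 * (p / n) * p - n * (p / n) ^ 2) = _
    field_simp
    ring
  rw [e1, e2, sq_sum_eq_trace hs] at hcs
  have hT : 0 ≤ (S * S).trace := by
    rw [← sq_sum_eq_trace hs]; positivity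
  have hG : 0 ≤ g ⬝ᵥ g := Finset.sum_nonneg fun i _ => mul_self_nonneg _
  have hV : 0 ≤ v ⬝ᵥ v := Finset.sum_nonneg fun i _ => mul_self_nonneg _
  have hpc : p ^ 2 ≤ (g ⬝ᵥ g) * (v ⬝ᵥ v) := by
    have := Finset.sum_mul_sq_le_sq_mul_sq Finset.univ g v
    simp only [sq] at this ⊢
    exact this
  have hθ : 1 / (n : ℝ) ≤ 1 / 2 := one_div_le_one_div_of_le (by norm_num) hn0
  have h5 : ((g ⬝ᵥ g) * (v ⬝ᵥ v) + p ^ 2) / 2 - p ^ 2 / n
      ≤ (1 - 1 / n) * ((g ⬝ᵥ g) * (v ⬝ᵥ v)) := by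
    have : p ^ 2 / n = 1 / n * p ^ 2 := by ring
    rw [this]
    nlinarith
  have h6 := hcs.trans (mul_le_mul_of_nonneg_left h5 hT)
  rcases hG.eq_or_lt with h0 | h0
  · rw [← h0]
    have : 0 ≤ 1 - 1 / (n : ℝ) := by linarith
    positivity
  · refine le_of_mul_le_mul_left ?_ h0
    nlinarith

lemma conj_facts {H S : Matrix (Fin n) (Fin n) ℝ} (hH : H.PosDef) (hs : Sᵀ = S) :
    ∃ (S' B : Matrix (Fin n) (Fin n) ℝ), S'ᵀ = S' ∧ S'.trace = (H⁻¹ * S).trace ∧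
      (S' * S').trace = (H⁻¹ * S * H⁻¹ * S).trace ∧
      ∀ v, (S' *ᵥ (B *ᵥ v)) ⬝ᵥ (S' *ᵥ (B *ᵥ v)) = (S *ᵥ v) ⬝ᵥ H⁻¹ *ᵥ (S *ᵥ v) ∧
        (B *ᵥ v) ⬝ᵥ (B *ᵥ v) = v ⬝ᵥ H *ᵥ v := by
  obtain ⟨B, hB, rfl⟩ := pd_exists_factor hH
  have hu : IsUnit B.det := isUnit_iff_ne_zero.2 hB
  have hinv : (Bᵀ * B)⁻¹ = B⁻¹ * B⁻¹ᵀ := by
    rw [Matrix.mul_inv_rev, Matrix.transpose_nonsing_inv]
  refine ⟨B⁻¹ᵀ * S * B⁻¹, B, ?_, ?_, ?_, fun v => ⟨?_, ?_⟩⟩
  · rw [transpose_mul, transpose_mul, transpose_transpose, hs, Matrix.mul_assoc]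
  · rw [hinv, Matrix.trace_mul_cycle]
  · rw [hinv, ← Matrix.mul_assoc, Matrix.trace_mul_comm]
    simp only [Matrix.mul_assoc]
  · have : (B⁻¹ᵀ * S * B⁻¹) *ᵥ (B *ᵥ v) = B⁻¹ᵀ *ᵥ (S *ᵥ v) := by
      rw [mulVec_mulVec, Matrix.mul_assoc, Matrix.nonsing_inv_mul _ hu, Matrix.mul_one,
        mulVec_mulVec]
    rw [this, hinv, ← mulVec_mulVec, dotProduct_mulVec (S *ᵥ v) B⁻¹, mulVec_transpose]
  · rw [← mulVec_mulVec, dotProduct_mulVec v Bᵀ, vecMul_transpose]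

lemma trace_sq_nonneg {H S : Matrix (Fin n) (Fin n) ℝ} (hH : H.PosDef) (hs : Sᵀ = S) :
    0 ≤ (H⁻¹ * S * H⁻¹ * S).trace := by
  obtain ⟨S', B, h1, -, h3, -⟩ := conj_facts hH hs
  rw [← h3, ← sq_sum_eq_trace h1]; positivity

lemma traceless_bound' (hn : 2 ≤ n) {H S : Matrix (Fin n) (Fin n) ℝ} (hH : H.PosDef) (hs : Sᵀ = S)
    (ht : (H⁻¹ * S).trace = 0) (v : Fin n → ℝ) :
    (S *ᵥ v) ⬝ᵥ H⁻¹ *ᵥ (S *ᵥ v) ≤
      (1 - 1 / n) * (H⁻¹ * S * H⁻¹ * S).trace * (v ⬝ᵥ H *ᵥ v) := by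
  obtain ⟨S', B, h1, h2, h3, h4⟩ := conj_facts hH hs
  rw [← h3, ← (h4 v).1, ← (h4 v).2]
  exact traceless_bound hn h1 (h2.trans ht) _

lemma quad_le {M : Matrix (Fin n) (Fin n) ℝ} {τ : ℝ} (h : ∀ i j, |M i j| ≤ τ) (y : Fin n → ℝ) :
    y ⬝ᵥ M *ᵥ y ≤ n * τ * (y ⬝ᵥ y) := by
  have h1 : ∀ i j, y i * (M i j * y j) ≤ τ / 2 * (y i * y i) + τ / 2 * (y j * y j) := fun i j => by
    have h2 := abs_le.1 (h i j)
    nlinarith [mul_nonneg (sub_nonneg.2 h2.1) (sq_nonneg (y i - y j)),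
      mul_nonneg (sub_nonneg.2 h2.2) (sq_nonneg (y i + y j))]
  calc y ⬝ᵥ M *ᵥ y = ∑ i, ∑ j, y i * (M i j * y j) := by
        simp only [dotProduct, mulVec, Finset.mul_sum]
    _ ≤ ∑ i, ∑ j, (τ / 2 * (y i * y i) + τ / 2 * (y j * y j)) :=
        Finset.sum_le_sum fun i _ => Finset.sum_le_sum fun j _ => h1 i j
    _ = n * τ * (y ⬝ᵥ y) := by
        simp only [Finset.sum_add_distrib, Finset.sum_const, Finset.card_univ, Fintype.card_fin,
          nsmul_eq_mul, ← Finset.mul_sum, dotProduct]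
        ring

lemma inv_entry_le {M : Matrix (Fin n) (Fin n) ℝ} {τ δ : ℝ} (h : ∀ i j, |M i j| ≤ τ) (hτ : 1 ≤ τ)
    (hδ : 0 < δ) (hd : δ ≤ M.det) (i j : Fin n) : |M⁻¹ i j| ≤ n.factorial * τ ^ n / δ := by
  have h1 : |M.adjugate i j| ≤ n.factorial * τ ^ n := by
    rw [Matrix.adjugate_apply]
    have := Matrix.det_le (A := M.updateRow j (Pi.single i 1)) (abv := AbsoluteValue.abs) (x := τ)
      fun a b => by
        rw [AbsoluteValue.abs_apply]
        by_cases e : a = j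
        · subst e
          rw [Matrix.updateRow_self, Pi.single_apply]
          split_ifs
          · simpa using hτ
          · simp; linarith
        · rw [Matrix.updateRow_ne e]; exact h a b
    simpa using this
  have h0 : 0 < M.det := hδ.trans_le hd
  rw [Matrix.inv_def, Ring.inverse_eq_inv', Matrix.smul_apply, smul_eq_mul, abs_mul,
    abs_of_pos (inv_pos.2 h0), div_eq_inv_mul]
  exact mul_le_mul (inv_anti₀ hδ hd) h1 (abs_nonneg _) (inv_pos.2 hδ).le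

lemma quad_single (M : Matrix (Fin n) (Fin n) ℝ) (i j : Fin n) :
    (Pi.single i 1 : Fin n → ℝ) ⬝ᵥ M *ᵥ Pi.single j 1 = M i j := by
  simp

lemma quad_add {M : Matrix (Fin n) (Fin n) ℝ} (hs : ∀ i j, M i j = M j i) (i j : Fin n) (t : ℝ) :
    (Pi.single i 1 + t • Pi.single j 1 : Fin n → ℝ) ⬝ᵥ M *ᵥ (Pi.single i 1 + t • Pi.single j 1)
      = M i i + 2 * t * M i j + t ^ 2 * M j j := by
  simp only [mulVec_add, mulVec_smul, add_dotProduct, dotProduct_add, smul_dotProduct,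
    dotProduct_smul, quad_single, smul_eq_mul, hs j i]
  ring

lemma psd_entry {M : Matrix (Fin n) (Fin n) ℝ} (hM : M.PosSemidef) (i j : Fin n) :
    |M i j| ≤ (M i i + M j j) / 2 := by
  have h1 := psd_quad_nonneg hM (Pi.single i 1 + (1 : ℝ) • Pi.single j 1)
  have h2 := psd_quad_nonneg hM (Pi.single i 1 + (-1 : ℝ) • Pi.single j 1)
  rw [quad_add (psd_symm hM)] at h1 h2
  rw [abs_le]
  constructor <;> linarith

lemma eq_zero_of_det_one_add {D : Matrix (Fin n) (Fin n) ℝ} (hD : D.PosSemidef)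
    (h : (1 + D).det = 1) : D = 0 := by
  have h1 := congrArg (Polynomial.eval (-1 : ℝ)) hD.1.charpoly_eq
  rw [Matrix.eval_charpoly, Polynomial.eval_prod] at h1
  have e : Matrix.scalar (Fin n) (-1 : ℝ) - D = (-1 : ℝ) • (1 + D) := by
    ext i j
    simp only [Matrix.scalar_apply, Matrix.sub_apply, Matrix.diagonal_apply, Matrix.smul_apply,
      Matrix.add_apply, Matrix.one_apply, smul_eq_mul]
    split_ifs <;> ring
  have e2 : ∀ i, Polynomial.eval (-1 : ℝ)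
      (Polynomial.X - Polynomial.C ((hD.1.eigenvalues i : ℝ) : ℝ)) =
      (-1) * (1 + hD.1.eigenvalues i) := fun i => by simp; ring
  rw [e, Matrix.det_smul, h, mul_one] at h1
  simp only [RCLike.ofReal_real_eq_id, id, e2, Finset.prod_mul_distrib, Finset.prod_const,
    Finset.card_univ] at h1
  have h2 : ∏ i, (1 + hD.1.eigenvalues i) = 1 :=
    (mul_left_cancel₀ (pow_ne_zero _ (by norm_num)) (h1.symm.trans (mul_one _).symm))
  rw [← hD.1.eigenvalues_eq_zero_iff]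
  funext i
  have h3 : 1 + hD.1.eigenvalues i ≤ ∏ j, (1 + hD.1.eigenvalues j) := by
    rw [← Finset.mul_prod_erase _ _ (Finset.mem_univ i)]
    refine le_mul_of_one_le_right (by linarith [hD.eigenvalues_nonneg i]) ?_
    exact Finset.one_le_prod fun j _ => by linarith [hD.eigenvalues_nonneg j]
  have := hD.eigenvalues_nonneg i
  simp only [Pi.zero_apply]
  linarith

lemma eq_of_le_of_det {H A : Matrix (Fin n) (Fin n) ℝ} (hH : H.PosDef) (hA : (A - H).PosSemidef)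
    (hd : A.det = H.det) : H = A := by
  obtain ⟨B, hB, rfl⟩ := pd_exists_factor hH
  have hu : IsUnit B.det := isUnit_iff_ne_zero.2 hB
  have hu' : IsUnit Bᵀ.det := by rwa [det_transpose]
  have h1 := psd_conj hA B⁻¹
  have e : 1 + B⁻¹ᵀ * (A - Bᵀ * B) * B⁻¹ = B⁻¹ᵀ * A * B⁻¹ := by
    rw [Matrix.mul_sub, Matrix.sub_mul, Matrix.transpose_nonsing_inv, ← Matrix.mul_assoc,
      Matrix.nonsing_inv_mul _ hu', Matrix.one_mul, Matrix.mul_nonsing_inv _ hu]
    abel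
  have h2 := eq_zero_of_det_one_add h1 (by
    rw [e, det_mul, det_mul, hd, det_mul, det_transpose, det_transpose, det_nonsing_inv,
      Ring.inverse_eq_inv']
    field_simp)
  have h3 : Bᵀ * (B⁻¹ᵀ * (A - Bᵀ * B) * B⁻¹) * B = A - Bᵀ * B := by
    rw [Matrix.transpose_nonsing_inv, ← Matrix.mul_assoc, ← Matrix.mul_assoc,
      Matrix.mul_nonsing_inv _ hu', Matrix.one_mul, Matrix.mul_assoc,
      Matrix.nonsing_inv_mul _ hu, Matrix.mul_one]
  rw [h2, Matrix.mul_zero, Matrix.zero_mul] at h3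
  exact (sub_eq_zero.1 h3.symm).symm

end Vale.Agent.P252.PogMat
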