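import Vale.Agent.P252.Build
import Vale.Agent.P252.PogMat

/-! Differentiating the equation `det D² z = c` twice, and the Pogorelov estimate. -/

open scoped ContDiff Topology
open Matrix Finset

namespace Vale.Agent.P252.Pog

variable {n : ℕ}

/-- The derivative of the Hessian in the coordinate direction `k`. -/
noncomputable def T (z : E n → ℝ) (k : Fin n) (x : E n) : Matrix (Fin n) (Fin n) ℝ :=
  Matrix.of fun i j => pd k (fun y => hess z y i j) x

/-- The derivative of the Hessian in the direction `w`. -/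
noncomputable def S (z : E n → ℝ) (w : Fin n → ℝ) (x : E n) : Matrix (Fin n) (Fin n) ℝ :=
  ∑ k, w k • T z k x

/-- First directional derivative. -/
noncomputable def zw (z : E n → ℝ) (w : Fin n → ℝ) (y : E n) : ℝ := ∑ i, w i * pd i z y

/-- Second directional derivative. -/
noncomputable def zww (z : E n → ℝ) (w : Fin n → ℝ) (y : E n) : ℝ := w ⬝ᵥ hess z y *ᵥ w

section
variable {Ω : Set (E n)} {z : E n → ℝ} (ho : IsOpen Ω) (hs : ContDiffOn ℝ ∞ z Ω)
    (hp : ∀ x ∈ Ω, (hess z x).PosDef) {c : ℝ} (hdet : ∀ x ∈ Ω, (hess z x).det = c)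

include ho hs in
lemma S_symm {x : E n} (hx : x ∈ Ω) (w : Fin n → ℝ) : (S z w x)ᵀ = S z w x := by
  have h3 : ContDiffAt ℝ 3 z x := (Build.u_at ho hs hx).of_le (nat_le_infty 3)
  ext i j
  simp only [S, T, transpose_apply, Matrix.sum_apply, Matrix.smul_apply, Matrix.of_apply]
  exact Finset.sum_congr rfl fun k _ => by rw [pd_hess_symm h3 k j i]

include ho hs hp hdet in
lemma log_deriv_zero {x : E n} (hx : x ∈ Ω) (k : Fin n) :
    ∑ i, ∑ j, (hess z x)⁻¹ i j * pd k (fun y => hess z y j i) x = 0 := by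
  have h0 := (hp x hx).det_pos.ne'
  have hd := (hasGrad_det (fun a b =>
    (contDiffAt_hess_infty (Build.u_at ho hs hx) a b).differentiableAt (by simp)) h0).2 k
  have e : (fun y => (hess z y).det) =ᶠ[𝓝 x] fun _ => c :=
    (ho.eventually_mem hx).mono fun y hy => hdet y hy
  rw [pd_congr e, (hasGrad_const c x).2 k] at hd
  exact (mul_eq_zero.1 hd.symm).resolve_left h0

include hdet in
lemma lap_pd {x : E n} (hx : x ∈ Ω) (k : Fin n) : (maDiff ho hs hp).lap (pd k z) x = 0 := by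
  rw [Build.ma_lap_pd ho hs hp hx, log_deriv_zero ho hs hp hdet hx]

include ho hs hp hdet in
lemma trace_S {x : E n} (hx : x ∈ Ω) (w : Fin n → ℝ) : ((hess z x)⁻¹ * S z w x).trace = 0 := by
  simp only [S, Matrix.mul_sum, Matrix.mul_smul, trace_sum, trace_smul]
  refine Finset.sum_eq_zero fun k _ => ?_
  have := log_deriv_zero ho hs hp hdet hx k
  rw [smul_eq_mul]
  exact mul_eq_zero_of_right _ this

include hdet in
lemma lap_hess {x : E n} (hx : x ∈ Ω) (a b : Fin n) :
    (maDiff ho hs hp).lap (fun y => hess z y a b) x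
      = ((hess z x)⁻¹ * T z a x * (hess z x)⁻¹ * T z b x).trace := by
  have h0 := (hp x hx).det_pos.ne'
  have hz := Build.u_at ho hs hx
  have h3 : ContDiffAt ℝ 3 z x := hz.of_le (nat_le_infty 3)
  have hg := contDiffAt_pd_infty hz b
  have hg3 : ContDiffAt ℝ 3 (pd b z) x := hg.of_le (nat_le_infty 3)
  have hH : ∀ i j, ContDiffAt ℝ 1 (fun y => hess z y i j) x := fun i j =>
    (contDiffAt_hess_infty hz i j).of_le (by simp)
  have e : (fun y => ∑ i, ∑ j, (hess z y)⁻¹ i j * hess (pd b z) y i j) =ᶠ[𝓝 x] fun _ => 0 := by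
    filter_upwards [ho.mem_nhds hx] with y hy
    rw [← maDiff_lap ho hs hp hy
      ((contDiffAt_pd_infty (Build.u_at ho hs hy) b).of_le (nat_le_infty 2)),
      lap_pd ho hs hp hdet hy]
  have h1 := (HasGrad.sum Finset.univ fun i => HasGrad.sum Finset.univ fun j =>
    (hasGrad_of_diff ((contDiffAt_inv_entry hH h0 i j).differentiableAt (by simp))).mul
    (hasGrad_of_diff ((contDiffAt_hess_infty hg i j).differentiableAt (by simp)))).2 a
  rw [pd_congr e, (hasGrad_const 0 x).2 a] at h1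
  have h2 : ∀ i j, grad (fun y => (hess z y)⁻¹ i j) x a
      = -((hess z x)⁻¹ * T z a x * (hess z x)⁻¹) i j := fun i j => by
    simp only [grad, pd_inv_entry hH h0, Matrix.mul_apply, T, Matrix.of_apply, Finset.sum_mul]
    rw [Finset.sum_comm]
  have h4 : ∀ i j, hess (pd b z) x i j = T z b x j i := fun i j => by
    change pd i (fun y => hess z y j b) x = pd b (fun y => hess z y j i) x
    rw [pd_hess_symm h3 i j b, pd_hess_swap h3 i b j, pd_hess_symm h3 b i j]
  have h5 : ∀ i j, grad (fun y => hess (pd b z) y i j) x a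
      = hess (fun y => hess z y a b) x i j := fun i j => by
    change pd a (fun y => hess (pd b z) y i j) x = pd i (fun y => hess (pd b z) y j a) x
    rw [pd_hess_swap hg3 a i j, pd_hess_symm hg3 i a j]
  simp only [h2, h4, h5, Finset.sum_add_distrib, neg_mul, Finset.sum_neg_distrib] at h1
  rw [maDiff_lap ho hs hp hx ((contDiffAt_hess_infty hz a b).of_le (nat_le_infty 2))]
  simp only [trace, diag_apply, Matrix.mul_apply (M := (hess z x)⁻¹ * T z a x * (hess z x)⁻¹)]
  linarith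

include hdet in
lemma jet_zw {x : E n} (hx : x ∈ Ω) (w : Fin n → ℝ) :
    (maDiff ho hs hp).Jet (zw z w) x (hess z x *ᵥ w) 0 := by
  have h := Diff.Jet.sum (D := maDiff ho hs hp) Finset.univ hx fun i =>
    (Diff.jet_of ((contDiffAt_pd_infty (Build.u_at ho hs hx) i).of_le (nat_le_infty 2))).const_mul
      hx (w i)
  refine h.congr ?_ ?_
  · funext k
    simp [grad, hess, mulVec, dotProduct, mul_comm]
  · simp [lap_pd ho hs hp hdet hx]

include hdet in
lemma jet_zww {x : E n} (hx : x ∈ Ω) (w : Fin n → ℝ) :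
    (maDiff ho hs hp).Jet (zww z w) x (S z w x *ᵥ w)
      ((hess z x)⁻¹ * S z w x * (hess z x)⁻¹ * S z w x).trace := by
  have h3 : ContDiffAt ℝ 3 z x := (Build.u_at ho hs hx).of_le (nat_le_infty 3)
  have h := Diff.Jet.sum (D := maDiff ho hs hp) Finset.univ hx fun a =>
    Diff.Jet.sum (D := maDiff ho hs hp) Finset.univ hx fun b =>
    (Diff.jet_of ((contDiffAt_hess_infty (Build.u_at ho hs hx) a b).of_le
      (nat_le_infty 2))).const_mul hx (w a * w b)
  refine (h.congr_fun (Filter.Eventually.of_forall fun y => ?_)).congr ?_ ?_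
  · simp only [zww, dotProduct, mulVec, Finset.mul_sum]
    exact Finset.sum_congr rfl fun a _ => Finset.sum_congr rfl fun b _ => by ring
  · funext k
    simp only [Finset.sum_apply, Pi.smul_apply, smul_eq_mul, grad, mulVec, dotProduct, S, T,
      Matrix.sum_apply, Matrix.smul_apply, Matrix.of_apply, Finset.sum_mul]
    rw [Finset.sum_comm]
    exact Finset.sum_congr rfl fun b _ => Finset.sum_congr rfl fun a _ => by
      rw [pd_hess_swap h3 k a b]; ring
  · simp only [lap_hess ho hs hp hdet hx, S, Matrix.mul_sum, Matrix.sum_mul, Matrix.mul_smul,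
      Matrix.smul_mul, trace_sum, trace_smul, smul_eq_mul, Finset.mul_sum]
    rw [Finset.sum_comm]
    exact Finset.sum_congr rfl fun b _ => Finset.sum_congr rfl fun a _ => by ring

lemma jet_z {x : E n} (hx : x ∈ Ω) : (maDiff ho hs hp).Jet z x (grad z x) n :=
  (Diff.jet_of ((Build.u_at ho hs hx).of_le (nat_le_infty 2))).congr rfl
    (Build.ma_lap_u ho hs hp hx)

include ho hs hp hdet in
/-- The inequality at an interior maximum of the Pogorelov functional. -/
lemma at_max (hn : 2 ≤ n) {x : E n} (hx : x ∈ Ω) {w : Fin n → ℝ} {h α : ℝ} (hα : 0 < α)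
    (hW : 0 < zww z w x) (hh : z x < h) (hQ : 4 * α * zw z w x ^ 2 ≤ 1)
    (hmax : IsLocalMax (fun y => Real.log (zww z w y)
      + (2 * ((n : ℝ) - 1)) * Real.log (h - z y) + α * (zw z w y * zw z w y)) x) :
    α * zww z w x * (h - z x) ≤ 2 * ((n : ℝ) - 1) * n := by
  have hn0 : (2 : ℝ) ≤ n := by exact_mod_cast hn
  set D := maDiff ho hs hp with hD
  have hx' : x ∈ D.Ω := hx
  have hd : 0 < h - z x := sub_pos.2 hh
  have j1 := (jet_zww ho hs hp hdet hx w).log hx' hW.ne'
  have j2 := (((Diff.jet_const h x).sub hx' (jet_z ho hs hp hx)).log hx' hd.ne').const_mul hx'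
    (2 * ((n : ℝ) - 1))
  have j3 := ((jet_zw ho hs hp hdet hx w).mul hx' (jet_zw ho hs hp hdet hx w)).const_mul hx' α
  have j4 := ((j1.add hx' j2).add hx' j3).neg hx'
  have hmin := hmax.neg
  have g0 := grad_eq_zero_of_isLocalMin hmin
  have l0 := Diff.lap_nonneg_of_isLocalMin hx' j4.1 hmin
  rw [j4.2.1, neg_eq_zero] at g0
  rw [j4.2.2] at l0
  have hb := PogMat.traceless_bound' hn (hp x hx) (S_symm ho hs hx w) (trace_S ho hs hp hdet hx w) w
  rw [← maDiff_ip ho hs hp hx, ← hD] at hb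
  have hww : D.ip x (hess z x *ᵥ w) (hess z x *ᵥ w) = zww z w x := by
    rw [hD, maDiff_ip ho hs hp hx, Build.inv_mul_col hp hx, dotProduct_comm]; rfl
  change _ ≤ _ * zww z w x at hb
  set W := zww z w x
  set q := zw z w x
  set d := h - z x
  set t := ((hess z x)⁻¹ * S z w x * (hess z x)⁻¹ * S z w x).trace
  set g := S z w x *ᵥ w
  set u := hess z x *ᵥ w
  set p := grad z x
  set N := 2 * ((n : ℝ) - 1) with hN
  have e1 : (N * d⁻¹) • p = W⁻¹ • g + (2 * α * q) • u := by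
    have := g0
    simp only [zero_sub, smul_neg, smul_smul, ← add_smul] at this
    rw [← sub_eq_zero, ← neg_eq_zero, ← this]
    module
  have e2 := Diff.ip_add_le hx' (W⁻¹ • g) ((2 * α * q) • u)
  rw [← e1] at e2
  simp only [Diff.ip_smul_left, Diff.ip_smul_right, hww] at e2
  simp only [zero_sub, Diff.ip_neg_left, Diff.ip_neg_right, neg_neg, hww, mul_zero, add_zero,
    zero_add] at l0
  have hG := Diff.ip_self_nonneg hx' g
  have hP := Diff.ip_self_nonneg hx' p
  set G := D.ip x g g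
  set P := D.ip x p p
  -- normalized quantities
  have hN0 : 0 < (n : ℝ) - 1 := by linarith
  have a1 : (W ^ 2)⁻¹ * G / ((n : ℝ) - 1) ≤ W⁻¹ * t - (W ^ 2)⁻¹ * G := by
    have h1 : n * G ≤ ((n : ℝ) - 1) * t * W := by
      have : (1 - 1 / (n : ℝ)) * t * W = ((n : ℝ) - 1) * t * W / n := by field_simp
      rw [this, le_div_iff₀ (by linarith)] at hb
      linarith
    rw [div_le_iff₀ hN0]
    have h2 : (W⁻¹ * t - (W ^ 2)⁻¹ * G) * ((n : ℝ) - 1) - (W ^ 2)⁻¹ * G
        = (W ^ 2)⁻¹ * (((n : ℝ) - 1) * t * W - n * G) := by field_simp; ring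
    have h3 : 0 ≤ (W ^ 2)⁻¹ * (((n : ℝ) - 1) * t * W - n * G) :=
      mul_nonneg (by positivity) (by linarith)
    linarith
  have a2 : N * ((d ^ 2)⁻¹ * P) - 4 * α ^ 2 * q ^ 2 * W ≤ (W ^ 2)⁻¹ * G / ((n : ℝ) - 1) := by
    rw [le_div_iff₀ hN0]
    have h1 : N * d⁻¹ * (N * d⁻¹ * P) = 2 * (N * ((d ^ 2)⁻¹ * P) * ((n : ℝ) - 1)) := by
      rw [hN]; field_simp
    have h2 : W⁻¹ * (W⁻¹ * G) = (W ^ 2)⁻¹ * G := by field_simp
    have h3 : 2 * α * q * (2 * α * q * W) = 4 * α ^ 2 * q ^ 2 * W := by ring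
    rw [h1, h2, h3] at e2
    have h4 : 0 ≤ 4 * α ^ 2 * q ^ 2 * W * ((n : ℝ) - 2) :=
      mul_nonneg (by positivity) (by linarith)
    nlinarith
  have a3 : 4 * α ^ 2 * q ^ 2 * W ≤ α * W := by
    have : 4 * α ^ 2 * q ^ 2 * W = (4 * α * q ^ 2) * (α * W) := by ring
    rw [this]
    exact mul_le_of_le_one_left (by positivity) hQ
  have a4 : α * W ≤ N * (d⁻¹ * n) := by nlinarith
  have a5 := mul_le_mul_of_nonneg_right a4 hd.le
  have a6 : N * (d⁻¹ * n) * d = N * n := by field_simp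
  rwa [a6] at a5

include ho hs hp hdet in
/-- Pogorelov's interior estimate for a fixed direction. -/
lemma pogorelov (hn : 2 ≤ n) {w : Fin n → ℝ} (hw : w ≠ 0) {h K : ℝ} (hh : 0 < h) (hK : 0 < K)
    (hnn : ∀ x ∈ Ω, 0 ≤ z x) (hcpt : IsCompact {x | x ∈ Ω ∧ z x ≤ h})
    (hQ : ∀ x ∈ Ω, z x ≤ h → |zw z w x| ≤ K * h) {x : E n} (hx : x ∈ Ω) (hxh : z x ≤ h / 2) :
    zww z w x ≤ 2 ^ (2 * (n - 1)) * Real.exp 1 * (8 * K ^ 2 * n ^ 2) * h := by
  have hn0 : (2 : ℝ) ≤ n := by exact_mod_cast hn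
  obtain ⟨k, hk⟩ : ∃ k, 2 * (n - 1) = k + 1 := ⟨2 * (n - 1) - 1, by omega⟩
  have hkr : ((k + 1 : ℕ) : ℝ) = 2 * ((n : ℝ) - 1) := by
    rw [← hk]; push_cast [Nat.cast_sub (by omega : 1 ≤ n)]; ring
  set α : ℝ := 1 / (4 * K ^ 2 * h ^ 2) with hα
  have hα0 : 0 < α := by positivity
  have hW : ∀ y ∈ Ω, 0 < zww z w y := fun y hy => by
    simpa [zww] using (hp y hy).dotProduct_mulVec_pos hw
  have hQ' : ∀ y ∈ Ω, z y ≤ h → 4 * α * zw z w y ^ 2 ≤ 1 := fun y hy hyh => by
    have h1 := hQ y hy hyh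
    have h2 : zw z w y ^ 2 ≤ (K * h) ^ 2 := by
      rw [← sq_abs]; exact pow_le_pow_left₀ (abs_nonneg _) h1 2
    have h3 : 4 * α * (K * h) ^ 2 = 1 := by rw [hα]; field_simp
    calc 4 * α * zw z w y ^ 2 ≤ 4 * α * (K * h) ^ 2 := by gcongr
      _ = 1 := h3
  let Ψ : E n → ℝ := fun y => zww z w y * (h - z y) ^ (k + 1) * Real.exp (α * (zw z w y * zw z w y))
  have hcont : ∀ y ∈ Ω, ContinuousAt Ψ y := fun y hy => by
    have c1 := (jet_zww ho hs hp hdet hy w).1.continuousAt
    have c2 := (jet_zw ho hs hp hdet hy w).1.continuousAt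
    have c3 := (Build.u_at ho hs hy).continuousAt
    exact (c1.mul ((continuousAt_const.sub c3).pow _)).mul
      (continuousAt_const.mul (c2.mul c2)).rexp
  have hxh' : z x ≤ h := by linarith
  obtain ⟨y, hy, hmax⟩ := hcpt.exists_isMaxOn ⟨x, hx, hxh'⟩
    (fun y hy => (hcont y hy.1).continuousWithinAt)
  have hx1 : zww z w x * (h / 2) ^ (k + 1) ≤ Ψ x := by
    have h1 : (h / 2) ^ (k + 1) ≤ (h - z x) ^ (k + 1) :=
      pow_le_pow_left₀ (by positivity) (by linarith) _
    have h2 : 1 ≤ Real.exp (α * (zw z w x * zw z w x)) :=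
      Real.one_le_exp (mul_nonneg hα0.le (mul_self_nonneg _))
    have h3 := mul_le_mul_of_nonneg_left h1 (hW x hx).le
    exact h3.trans (le_mul_of_one_le_right (le_trans (by have := hW x hx; positivity) h3) h2)
  have hxy : Ψ x ≤ Ψ y := hmax ⟨hx, hxh'⟩
  have hpos : 0 < Ψ y := lt_of_lt_of_le (by have := hW x hx; positivity) (hx1.trans hxy)
  have hyh : z y < h := by
    refine lt_of_le_of_ne hy.2 fun e => ?_
    simp [Ψ, e] at hpos
  have hnear : ∀ᶠ v in 𝓝 y, v ∈ Ω ∧ z v < h :=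
    (ho.eventually_mem hy.1).and
      ((Build.u_at ho hs hy.1).continuousAt.eventually_lt continuousAt_const hyh)
  have hlog : ∀ v, v ∈ Ω ∧ z v < h → Real.log (zww z w v)
      + (2 * ((n : ℝ) - 1)) * Real.log (h - z v) + α * (zw z w v * zw z w v) = Real.log (Ψ v) ∧
      0 < Ψ v := fun v hv => by
    have h1 := hW v hv.1
    have h2 : 0 < h - z v := sub_pos.2 hv.2
    refine ⟨?_, by positivity⟩
    simp only [Ψ]
    rw [Real.log_mul (by positivity) (Real.exp_pos _).ne', Real.log_mul h1.ne' (by positivity),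
      Real.log_exp, Real.log_pow, hkr]
  have hloc : IsLocalMax (fun v => Real.log (zww z w v)
      + (2 * ((n : ℝ) - 1)) * Real.log (h - z v) + α * (zw z w v * zw z w v)) y := by
    filter_upwards [hnear] with v hv
    rw [(hlog v hv).1, (hlog y ⟨hy.1, hyh⟩).1]
    exact Real.log_le_log (hlog v hv).2 (hmax ⟨hv.1, hv.2.le⟩)
  have key := at_max ho hs hp hdet hn hy.1 hα0 (hW y hy.1) hyh (hQ' y hy.1 hy.2) hloc
  have hd : 0 < h - z y := sub_pos.2 hyh
  have b1 : zww z w y * (h - z y) ≤ 8 * K ^ 2 * n ^ 2 * h ^ 2 := by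
    have h1 : zww z w y * (h - z y) = α * zww z w y * (h - z y) * (4 * K ^ 2 * h ^ 2) := by
      rw [hα]; field_simp
    have h2 : 2 * ((n : ℝ) - 1) * n ≤ 2 * n ^ 2 := by nlinarith
    rw [h1]
    calc α * zww z w y * (h - z y) * (4 * K ^ 2 * h ^ 2)
        ≤ 2 * n ^ 2 * (4 * K ^ 2 * h ^ 2) :=
          mul_le_mul_of_nonneg_right (key.trans h2) (by positivity)
      _ = _ := by ring
  have b2 : (h - z y) ^ k ≤ h ^ k := pow_le_pow_left₀ hd.le (by linarith [hnn y hy.1]) _
  have b3 : Real.exp (α * (zw z w y * zw z w y)) ≤ Real.exp 1 := by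
    refine Real.exp_le_exp.2 ?_
    have := hQ' y hy.1 hy.2
    have h2 : 0 ≤ α * (zw z w y * zw z w y) := mul_nonneg hα0.le (mul_self_nonneg _)
    nlinarith
  have b4 : Ψ y ≤ 8 * K ^ 2 * n ^ 2 * h ^ 2 * h ^ k * Real.exp 1 := by
    have : Ψ y = zww z w y * (h - z y) * (h - z y) ^ k * Real.exp (α * (zw z w y * zw z w y)) := by
      simp only [Ψ]; ring
    rw [this]
    gcongr
  have b5 := hx1.trans (hxy.trans b4)
  rw [hk]
  have hpow : 0 < (h / 2) ^ (k + 1) := by positivity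
  refine le_of_mul_le_mul_right (b5.trans (le_of_eq ?_)) hpow
  rw [div_pow]
  field_simp
  ring

end

end Vale.Agent.P252.Pog
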