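import Vale.Agent.P252.PogCalc

/-! Bounded Hessian, and constant Hessian given the Liouville property. -/

open scoped ContDiff Topology
open Matrix Finset

namespace Vale.Agent.P252

namespace Pog

variable {n : ℕ}

lemma quad_conj (H A : Matrix (Fin n) (Fin n) ℝ) (y : Fin n → ℝ) :
    y ⬝ᵥ (Aᵀ * H * A) *ᵥ y = (A *ᵥ y) ⬝ᵥ H *ᵥ (A *ᵥ y) := by
  rw [← mulVec_mulVec, ← mulVec_mulVec, dotProduct_mulVec y Aᵀ, vecMul_transpose]

lemma diag_le (hn : 2 ≤ n) {Ω : Set (E n)} {z : E n → ℝ} {x0 : E n} {C : ℝ}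
    (H : SecHyp Ω z x0 C) (c : ℝ) (hdet : ∀ x ∈ Ω, (hess z x).det = c) :
    ∃ M : ℝ, 0 ≤ M ∧ ∀ x ∈ Ω, ∀ e : Fin n → ℝ, e ⬝ᵥ hess z x *ᵥ e ≤ M * (e ⬝ᵥ hess z x0 *ᵥ e) := by
  have hC := H.Cpos
  set τ : ℝ := max 1 (2 ^ (2 * (n - 1)) * Real.exp 1 * (8 * C ^ 2 * n ^ 2)) with hτ
  have hτ1 : 1 ≤ τ := le_max_left _ _
  set σ : ℝ := n.factorial * τ ^ n / (C⁻¹ * C⁻¹) with hσ
  have hσ0 : 0 ≤ σ := by positivity
  refine ⟨n * τ * (n * σ), by positivity, fun x hx e => ?_⟩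
  set h := 2 * z x + 1 with hh
  have hz := H.nonneg x hx
  have hh0 : 0 < h := by linarith
  obtain ⟨A, a1, -, -, a4⟩ := H.box h hh0
  have hA : A.det ≠ 0 := by
    intro e
    rw [e] at a1
    have : 0 < h ^ n := by positivity
    simp at a1
    linarith
  have hu : IsUnit A.det := isUnit_iff_ne_zero.2 hA
  let M : E n → Matrix (Fin n) (Fin n) ℝ := fun y => h⁻¹ • (Aᵀ * hess z y * A)
  have hMq : ∀ y v, v ⬝ᵥ M y *ᵥ v = h⁻¹ * ((A *ᵥ v) ⬝ᵥ hess z y *ᵥ (A *ᵥ v)) := fun y v => by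
    simp only [M, smul_mulVec, dotProduct_smul, smul_eq_mul, quad_conj]
  have hMpsd : ∀ y ∈ Ω, (M y).PosSemidef := fun y hy =>
    (psd_conj (H.pos y hy).posSemidef A).smul (inv_pos.2 hh0).le
  have hMent : ∀ y ∈ Ω, z y ≤ h / 2 → ∀ i j, |M y i j| ≤ τ := fun y hy hyh => by
    have hdiag : ∀ k, M y k k ≤ τ := fun k => by
      have hw : A *ᵥ Pi.single k 1 ≠ 0 := fun e => by
        have h1 := congrArg (fun v => A⁻¹ *ᵥ v) e
        simp only [mulVec_mulVec, Matrix.nonsing_inv_mul _ hu, one_mulVec, mulVec_zero] at h1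
        simpa using congrFun h1 k
      have := pogorelov H.isOpen H.smooth H.pos hdet hn hw hh0 hC H.nonneg (H.cpt h)
        (fun v hv hvh => by
          have := a4 v hv hvh k
          simpa [zw, mul_comm] using this) hy hyh
      rw [← PogMat.quad_single (M y) k k, hMq, inv_mul_le_iff₀ hh0, mul_comm h]
      exact this.trans (mul_le_mul_of_nonneg_right (le_max_right _ _) hh0.le)
    intro i j
    have := PogMat.psd_entry (hMpsd y hy) i j
    linarith [hdiag i, hdiag j]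
  have hdet0 : C⁻¹ * C⁻¹ ≤ (M x0).det := by
    have h1 := H.detlo x0 H.mem
    have h2 : C⁻¹ ≤ A.det ^ 2 / h ^ n := by
      rw [le_div_iff₀ (by positivity), inv_mul_le_iff₀ hC]; exact a1
    have h3 : (M x0).det = (hess z x0).det * (A.det ^ 2 / h ^ n) := by
      simp only [M, det_smul, det_mul, det_transpose, Fintype.card_fin, inv_pow]
      field_simp
    rw [h3]
    exact mul_le_mul h1 h2 (inv_pos.2 hC).le ((inv_pos.2 hC).le.trans h1)
  have hinv := PogMat.inv_entry_le (hMent x0 H.mem (by rw [H.zero]; positivity)) hτ1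
    (by positivity) hdet0
  have hd0 : (M x0).det ≠ 0 := (lt_of_lt_of_le (by positivity) hdet0).ne'
  set y := A⁻¹ *ᵥ e with hy
  have hAy : A *ᵥ y = e := by rw [hy, mulVec_mulVec, Matrix.mul_nonsing_inv _ hu, one_mulVec]
  have q1 := PogMat.quad_le (hMent x hx (by linarith)) y
  have q2 := PogMat.quad_le hinv y
  have q3 := psd_cs (hMpsd x0 H.mem) y ((M x0)⁻¹ *ᵥ y)
  rw [mulVec_mulVec, Matrix.mul_nonsing_inv _ (isUnit_iff_ne_zero.2 hd0), one_mulVec,
    dotProduct_comm ((M x0)⁻¹ *ᵥ y)] at q3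
  have q4 := psd_quad_nonneg (hMpsd x0 H.mem) y
  have hY : 0 ≤ y ⬝ᵥ y := Finset.sum_nonneg fun i _ => mul_self_nonneg _
  have q5 : y ⬝ᵥ y ≤ n * σ * (y ⬝ᵥ M x0 *ᵥ y) := by
    rcases hY.eq_or_lt with h0 | h0
    · rw [← h0]; positivity
    · refine le_of_mul_le_mul_left ?_ h0
      have := mul_le_mul_of_nonneg_left q2 q4
      rw [← hσ] at this
      nlinarith
  have q6 := q1.trans (mul_le_mul_of_nonneg_left q5 (by positivity))
  rw [hMq, hMq, hAy] at q6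
  have q7 := mul_le_mul_of_nonneg_left q6 hh0.le
  have e1 : ∀ t : ℝ, h * (h⁻¹ * t) = t := fun t => by field_simp
  have e2 : h * (n * τ * (n * σ * (h⁻¹ * (e ⬝ᵥ hess z x0 *ᵥ e))))
      = n * τ * (n * σ) * (e ⬝ᵥ hess z x0 *ᵥ e) := by field_simp
  rwa [e1, e2] at q7

end Pog

theorem hess_bounded {n : ℕ} (hn : 2 ≤ n) {Ω : Set (E n)} {z : E n → ℝ} {x0 : E n} {C : ℝ}
    (H : SecHyp Ω z x0 C) (c : ℝ) (hdet : ∀ x ∈ Ω, (hess z x).det = c) :
    ∃ M : ℝ, ∀ x ∈ Ω, ∀ i j, |hess z x i j| ≤ M := by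
  obtain ⟨M, hM, h⟩ := Pog.diag_le hn H c hdet
  refine ⟨M * ∑ k, hess z x0 k k, fun x hx i j => ?_⟩
  have h1 : ∀ k, hess z x k k ≤ M * ∑ k, hess z x0 k k := fun k => by
    have := h x hx (Pi.single k 1)
    rw [PogMat.quad_single, PogMat.quad_single] at this
    refine this.trans (mul_le_mul_of_nonneg_left ?_ hM)
    exact Finset.single_le_sum (f := fun k => hess z x0 k k)
      (fun k _ => (H.pos x0 H.mem).posSemidef.diag_nonneg) (Finset.mem_univ k)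
  have := PogMat.psd_entry (H.pos x hx).posSemidef i j
  linarith [h1 i, h1 j]

/-- The Liouville property for nonnegative supersolutions. -/
def LiouvilleProp {n : ℕ} (Ω : Set (E n)) (z : E n → ℝ) : Prop :=
  ∀ {ι : Type} [Fintype ι] (v : ι → E n → ℝ),
    (∀ i, ContDiffOn ℝ 2 (v i) Ω) → (∀ i, ∀ x ∈ Ω, 0 ≤ v i x) →
    (∀ i, ∀ x ∈ Ω, ∑ j, ∑ k, (hess z x)⁻¹ j k * hess (v i) x j k ≤ 0) →
    (∀ i, ∀ ε : ℝ, 0 < ε → ∃ x ∈ Ω, v i x < ε) → ∀ δ : ℝ, 0 < δ → ∃ x ∈ Ω, ∀ i, v i x < δ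

theorem hess_const_of {n : ℕ} (hn : 2 ≤ n) {Ω : Set (E n)} {z : E n → ℝ} {x0 : E n} {C : ℝ}
    (H : SecHyp Ω z x0 C) (c : ℝ) (hdet : ∀ x ∈ Ω, (hess z x).det = c)
    (hL : LiouvilleProp Ω z) :
    ∃ A : Matrix (Fin n) (Fin n) ℝ, ∀ x ∈ Ω, hess z x = A := by
  obtain ⟨M, hM, h⟩ := Pog.diag_le hn H c hdet
  let m : (Fin n → ℝ) → ℝ := fun e => sSup (Pog.zww z e '' Ω)
  have hbdd : ∀ e, BddAbove (Pog.zww z e '' Ω) := fun e =>
    ⟨M * (e ⬝ᵥ hess z x0 *ᵥ e), by rintro _ ⟨x, hx, rfl⟩; exact h x hx e⟩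
  have hle : ∀ e, ∀ x ∈ Ω, Pog.zww z e x ≤ m e := fun e x hx => le_csSup (hbdd e) ⟨x, hx, rfl⟩
  have hnear : ∀ {ι : Type} [Fintype ι] (w : ι → Fin n → ℝ) (δ : ℝ), 0 < δ →
      ∃ x ∈ Ω, ∀ i, m (w i) - Pog.zww z (w i) x < δ := by
    intro ι _ w
    have jet : ∀ i, ∀ x ∈ Ω, (maDiff H.isOpen H.smooth H.pos).Jet
        (fun y => m (w i) - Pog.zww z (w i) y) x _ _ := fun i x hx =>
      (Diff.jet_const (m (w i)) x).sub hx (Pog.jet_zww H.isOpen H.smooth H.pos hdet hx (w i))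
    refine hL (fun i y => m (w i) - Pog.zww z (w i) y)
      (fun i x hx => (jet i x hx).1.contDiffWithinAt) (fun i x hx => sub_nonneg.2 (hle _ x hx))
      (fun i x hx => ?_) (fun i ε hε => ?_)
    · rw [← maDiff_lap H.isOpen H.smooth H.pos hx (jet i x hx).1, (jet i x hx).2.2]
      have := PogMat.trace_sq_nonneg (H.pos x hx) (Pog.S_symm H.isOpen H.smooth hx (w i))
      linarith
    · obtain ⟨_, ⟨x, hx, rfl⟩, h1⟩ := exists_lt_of_lt_csSup (s := Pog.zww z (w i) '' Ω)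
        ⟨_, x0, H.mem, rfl⟩ (sub_lt_self (m (w i)) hε)
      exact ⟨x, hx, by linarith⟩
  let e1 : Fin n → Fin n → ℝ := fun i => Pi.single i 1
  let e2 : Fin n → Fin n → Fin n → ℝ := fun i j => Pi.single i 1 + (1 : ℝ) • Pi.single j 1
  let A : Matrix (Fin n) (Fin n) ℝ := Matrix.of fun i j => (m (e2 i j) - m (e1 i) - m (e1 j)) / 2
  have hAs : ∀ i j, A i j = A j i := fun i j => by
    have : e2 i j = e2 j i := by simp only [e2, one_smul, add_comm]
    simp only [A, Matrix.of_apply, this]; ring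
  have happ : ∀ (e : Fin n → ℝ) (δ : ℝ), 0 < δ → ∃ x ∈ Ω, m e - Pog.zww z e x < δ ∧
      ∀ i j, |hess z x i j - A i j| < δ := fun e δ hδ => by
    obtain ⟨x, hx, h1⟩ := hnear (ι := Option (Fin n ⊕ Fin n × Fin n))
      (fun o => o.elim e (Sum.elim e1 fun p => e2 p.1 p.2)) δ hδ
    refine ⟨x, hx, h1 none, fun i j => ?_⟩
    have a1 : m (e1 i) - Pog.zww z (e1 i) x < δ := h1 (some (Sum.inl i))
    have a2 : m (e1 j) - Pog.zww z (e1 j) x < δ := h1 (some (Sum.inl j))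
    have a3 : m (e2 i j) - Pog.zww z (e2 i j) x < δ := h1 (some (Sum.inr (i, j)))
    have b1 := hle (e1 i) x hx
    have b2 := hle (e1 j) x hx
    have b3 := hle (e2 i j) x hx
    have c1 : Pog.zww z (e1 i) x = hess z x i i := PogMat.quad_single _ _ _
    have c2 : Pog.zww z (e1 j) x = hess z x j j := PogMat.quad_single _ _ _
    have c3 : Pog.zww z (e2 i j) x = _ :=
      PogMat.quad_add (psd_symm (H.pos x hx).posSemidef) i j 1
    simp only [A, Matrix.of_apply]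
    rw [abs_lt]
    constructor <;> linarith
  have hseq : ∀ e : Fin n → ℝ, ∃ x : ℕ → E n, (∀ k, x k ∈ Ω) ∧
      Filter.Tendsto (fun k => hess z (x k)) Filter.atTop (𝓝 A) ∧
      Filter.Tendsto (fun k => Pog.zww z e (x k)) Filter.atTop (𝓝 (m e)) := fun e => by
    choose x hx h1 h2 using fun k : ℕ => happ e (1 / ((k : ℝ) + 1)) (by positivity)
    refine ⟨x, hx, ?_, ?_⟩
    · refine tendsto_pi_nhds.2 fun i => tendsto_pi_nhds.2 fun j => ?_
      rw [tendsto_iff_dist_tendsto_zero]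
      exact squeeze_zero (fun _ => dist_nonneg) (fun k => (h2 k i j).le)
        tendsto_one_div_add_atTop_nhds_zero_nat
    · rw [tendsto_iff_dist_tendsto_zero]
      refine squeeze_zero (fun _ => dist_nonneg) (fun k => ?_)
        tendsto_one_div_add_atTop_nhds_zero_nat
      rw [Real.dist_eq, abs_sub_comm, abs_of_nonneg (sub_nonneg.2 (hle e _ (hx k)))]
      exact (h1 k).le
  have hq : ∀ e : Fin n → ℝ, e ⬝ᵥ A *ᵥ e = m e := fun e => by
    obtain ⟨x, -, h1, h2⟩ := hseq e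
    have c : Continuous fun B : Matrix (Fin n) (Fin n) ℝ => e ⬝ᵥ B *ᵥ e := by fun_prop
    exact tendsto_nhds_unique ((c.tendsto A).comp h1) h2
  have hd : A.det = c := by
    obtain ⟨x, hx, h1, -⟩ := hseq 0
    have c1 : Continuous fun B : Matrix (Fin n) (Fin n) ℝ => B.det := continuous_id.matrix_det
    have h2 := (c1.tendsto A).comp h1
    have e : ((fun B : Matrix (Fin n) (Fin n) ℝ => B.det) ∘ fun k => hess z (x k)) = fun _ => c :=
      funext fun k => hdet _ (hx k)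
    rw [e] at h2
    exact tendsto_nhds_unique h2 tendsto_const_nhds
  refine ⟨A, fun x hx => PogMat.eq_of_le_of_det (H.pos x hx) ?_ (hd.trans (hdet x hx).symm)⟩
  refine psd_of_quad (fun i j => ?_) fun e => ?_
  · rw [Matrix.sub_apply, Matrix.sub_apply, hAs i j, psd_symm (H.pos x hx).posSemidef i j]
  · rw [sub_mulVec, dotProduct_sub, hq]
    exact sub_nonneg.2 (hle e x hx)

end Vale.Agent.P252
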