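import Mathlib

/-! Smooth global solutions of regular-singular systems `y Z' = -lam (Z - z0) + y Φ(Z)`. -/

open scoped ContDiff Topology
open Set MeasureTheory intervalIntegral

namespace Vale.Agent.P252

/-- Weighted radial mean. -/
noncomputable def wmean (k g : ℝ → ℝ) (y : ℝ) : ℝ := ∫ τ in (0:ℝ)..1, k τ * g (y * τ)

lemma continuous_wmean {k g : ℝ → ℝ} (hk : Continuous k) (hg : Continuous g) :
    Continuous (wmean k g) := by
  unfold wmean
  apply intervalIntegral.continuous_parametric_intervalIntegral_of_continuous'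
  show Continuous (fun p : ℝ × ℝ => k p.2 * g (p.1 * p.2))
  fun_prop

lemma hasDerivAt_wmean {k g g' : ℝ → ℝ} (hk : Continuous k) (hg : ∀ x, HasDerivAt g (g' x) x)
    (hg' : Continuous g') (y : ℝ) :
    HasDerivAt (wmean k g) (wmean (fun τ => k τ * τ) g' y) y := by
  have hgc : Continuous g := continuous_iff_continuousAt.2 fun x => (hg x).continuousAt
  have hF' : Continuous (fun p : ℝ × ℝ => k p.2 * p.2 * g' (p.1 * p.2)) := by fun_prop
  obtain ⟨C, hC⟩ : ∃ C, ∀ p ∈ (Metric.closedBall y 1) ×ˢ (Icc (0:ℝ) 1),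
      ‖(fun p : ℝ × ℝ => k p.2 * p.2 * g' (p.1 * p.2)) p‖ ≤ C :=
    ((isCompact_closedBall y 1).prod isCompact_Icc).exists_bound_of_continuousOn hF'.continuousOn
  have := intervalIntegral.hasDerivAt_integral_of_dominated_loc_of_deriv_le (μ := volume)
    (F := fun x τ => k τ * g (x * τ)) (F' := fun x τ => k τ * τ * g' (x * τ)) (a := 0) (b := 1)
    (bound := fun _ => C) (x₀ := y) (s := Metric.closedBall y 1)
    (Metric.closedBall_mem_nhds y one_pos)
    (Filter.Eventually.of_forall fun x => by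
      apply Continuous.aestronglyMeasurable; fun_prop)
    (by apply Continuous.intervalIntegrable; fun_prop)
    (by apply Continuous.aestronglyMeasurable; fun_prop)
    (Filter.Eventually.of_forall fun t ht x hx => by
      have ht' : t ∈ Icc (0:ℝ) 1 := by
        rw [uIoc_of_le zero_le_one] at ht; exact Ioc_subset_Icc_self ht
      exact hC (x, t) ⟨hx, ht'⟩)
    (by simp)
    (Filter.Eventually.of_forall fun t _ x _ => by
      have h1 : HasDerivAt (fun x => x * t) t x := by simpa using (hasDerivAt_id x).mul_const t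
      have h2 := ((hg (x * t)).comp x h1).const_mul (k t)
      exact h2.congr_deriv (by ring))
  exact this.2

lemma contDiff_wmean (n : ℕ) : ∀ {k g : ℝ → ℝ}, Continuous k → ContDiff ℝ n g →
    ContDiff ℝ n (wmean k g) := by
  induction n with
  | zero =>
    intro k g hk hg
    simp only [Nat.cast_zero, contDiff_zero] at hg ⊢
    exact continuous_wmean hk hg
  | succ n ih =>
    intro k g hk hg
    have hg2 : ContDiff ℝ ((n : WithTop ℕ∞) + 1) g := by exact_mod_cast hg
    rw [contDiff_succ_iff_deriv] at hg2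
    obtain ⟨hd, -, hc⟩ := hg2
    have hder : ∀ y, HasDerivAt (wmean k g) (wmean (fun τ => k τ * τ) (deriv g) y) y :=
      fun y => hasDerivAt_wmean hk (fun x => (hd x).hasDerivAt) hc.continuous y
    have : ContDiff ℝ ((n : WithTop ℕ∞) + 1) (wmean k g) := by
      rw [contDiff_succ_iff_deriv]
      refine ⟨fun y => (hder y).differentiableAt, by simp, ?_⟩
      have : deriv (wmean k g) = wmean (fun τ => k τ * τ) (deriv g) :=
        funext fun y => (hder y).deriv
      rw [this]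
      exact ih (by fun_prop) hc
    exact_mod_cast this

/-- The primitive vanishing at zero. -/
noncomputable def prim (g : ℝ → ℝ) (y : ℝ) : ℝ := ∫ s in (0:ℝ)..y, g s

lemma hasDerivAt_prim {g : ℝ → ℝ} (hg : Continuous g) (y : ℝ) : HasDerivAt (prim g) (g y) y :=
  (hg.integral_hasStrictDerivAt 0 y).hasDerivAt

lemma prim_zero (g : ℝ → ℝ) : prim g 0 = 0 := by simp [prim]

lemma contDiff_prim_succ (n : ℕ) {g : ℝ → ℝ} (hg : ContDiff ℝ n g) :
    ContDiff ℝ ((n + 1 : ℕ) : WithTop ℕ∞) (prim g) := by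
  have hder := hasDerivAt_prim hg.continuous
  have : ContDiff ℝ ((n : WithTop ℕ∞) + 1) (prim g) := by
    rw [contDiff_succ_iff_deriv]
    refine ⟨fun y => (hder y).differentiableAt, by simp, ?_⟩
    have : deriv (prim g) = g := funext fun y => (hder y).deriv
    rw [this]; exact hg
  exact_mod_cast this

lemma contDiff_prim {g : ℝ → ℝ} (hg : ContDiff ℝ ∞ g) : ContDiff ℝ ∞ (prim g) := by
  rw [contDiff_infty] at hg ⊢
  intro n
  exact (contDiff_prim_succ n (hg n)).of_le (by exact_mod_cast Nat.le_succ n)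

/-- Admissible weights: `k = τ ^ lam` on the unit interval, abstractly. -/
structure Wt (k k' : ℝ → ℝ) (lam : ℝ) : Prop where
  der : ∀ τ, HasDerivAt k (k' τ) τ
  cont : Continuous k'
  one : k 1 = 1
  le : ∀ τ ∈ Icc (0:ℝ) 1, |k τ| ≤ 1
  eul : ∀ τ ∈ Icc (0:ℝ) 1, k' τ * τ = lam * k τ

lemma Wt.contk {k k' : ℝ → ℝ} {lam : ℝ} (h : Wt k k' lam) : Continuous k :=
  continuous_iff_continuousAt.2 fun x => (h.der x).continuousAt

lemma wt_zero : Wt (fun _ => 1) (fun _ => 0) 0 :=
  ⟨fun τ => hasDerivAt_const τ 1, continuous_const, rfl, fun _ _ => by simp, fun _ _ => by simp⟩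

lemma wt_rpow {lam : ℝ} (h : 1 ≤ lam) :
    Wt (fun τ => τ ^ lam) (fun τ => lam * τ ^ (lam - 1)) lam := by
  refine ⟨fun τ => Real.hasDerivAt_rpow_const (Or.inr h), ?_, by simp, fun τ hτ => ?_,
    fun τ hτ => ?_⟩
  · exact continuous_const.mul (Real.continuous_rpow_const (by linarith))
  · rw [abs_of_nonneg (Real.rpow_nonneg hτ.1 _)]
    exact Real.rpow_le_one hτ.1 hτ.2 (by linarith)
  · have : τ ^ lam = τ ^ (lam - 1) * τ := by
      rw [← Real.rpow_add_one' hτ.1 (by linarith)]; ring_nf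
    rw [this]; ring

lemma mul_wmean_eq {k k' : ℝ → ℝ} {lam : ℝ} (h : Wt k k' lam) {g : ℝ → ℝ} (hg : Continuous g)
    (y : ℝ) : y * wmean k g y = prim g y - wmean k' (prim g) y := by
  have hp := hasDerivAt_prim hg
  have hpc : Continuous (prim g) := continuous_iff_continuousAt.2 fun x => (hp x).continuousAt
  have hkc := h.contk
  have hk' := h.cont
  have := intervalIntegral.integral_mul_deriv_eq_deriv_mul (a := 0) (b := 1) (u := k) (u' := k')
    (v := fun τ => prim g (y * τ)) (v' := fun τ => g (y * τ) * y) (fun x _ => h.der x)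
    (fun x _ => by
      have h1 : HasDerivAt (fun x => y * x) y x := by simpa using (hasDerivAt_id x).const_mul y
      exact (hp (y * x)).comp x h1)
    (hk'.intervalIntegrable _ _) (by apply Continuous.intervalIntegrable; fun_prop)
  simp only [mul_one, mul_zero, prim_zero, h.one, one_mul, sub_zero] at this
  unfold wmean
  rw [← this, ← intervalIntegral.integral_const_mul]
  congr 1; funext τ; ring

lemma hasDerivAt_mul_wmean {k k' : ℝ → ℝ} {lam : ℝ} (h : Wt k k' lam) {g : ℝ → ℝ}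
    (hg : Continuous g) (y : ℝ) :
    HasDerivAt (fun y => y * wmean k g y) (g y - lam * wmean k g y) y := by
  have hp := hasDerivAt_prim hg
  have e : (fun y => y * wmean k g y) = fun y => prim g y - wmean k' (prim g) y :=
    funext (mul_wmean_eq h hg)
  rw [e]
  have h2 := (hp y).sub (hasDerivAt_wmean h.cont hp hg y)
  refine h2.congr_deriv ?_
  congr 1
  unfold wmean
  rw [← intervalIntegral.integral_const_mul]
  apply intervalIntegral.integral_congr
  intro τ hτ
  rw [uIcc_of_le zero_le_one] at hτ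
  simp only [h.eul τ hτ]; ring

lemma contDiff_mul_wmean (n : ℕ) {k k' : ℝ → ℝ} {lam : ℝ} (h : Wt k k' lam) {g : ℝ → ℝ}
    (hg : ContDiff ℝ n g) :
    ContDiff ℝ ((n + 1 : ℕ) : WithTop ℕ∞) (fun y => y * wmean k g y) := by
  have e : (fun y => y * wmean k g y) = fun y => prim g y - wmean k' (prim g) y :=
    funext (mul_wmean_eq h hg.continuous)
  rw [e]
  exact (contDiff_prim_succ n hg).sub (contDiff_wmean (n + 1) h.cont (contDiff_prim_succ n hg))

lemma abs_wmean_le {k k' : ℝ → ℝ} {lam : ℝ} (h : Wt k k' lam) {g : ℝ → ℝ} {B : ℝ → ℝ}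
    (hB : Continuous B) (y : ℝ) (hb : ∀ τ ∈ Icc (0:ℝ) 1, |g (y * τ)| ≤ B τ) :
    |wmean k g y| ≤ ∫ τ in (0:ℝ)..1, B τ := by
  unfold wmean
  rw [← Real.norm_eq_abs]
  apply intervalIntegral.norm_integral_le_of_norm_le zero_le_one _ (hB.intervalIntegrable _ _)
  refine Filter.Eventually.of_forall fun τ hτ => ?_
  have hτ' : τ ∈ Icc (0:ℝ) 1 := Ioc_subset_Icc_self hτ
  rw [Real.norm_eq_abs, abs_mul]
  calc |k τ| * |g (y * τ)| ≤ 1 * B τ :=
        mul_le_mul (h.le τ hτ') (hb τ hτ') (abs_nonneg _) zero_le_one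
    _ = B τ := one_mul _

lemma wmean_sub {k g₁ g₂ : ℝ → ℝ} (hk : Continuous k) (h₁ : Continuous g₁) (h₂ : Continuous g₂)
    (y : ℝ) : wmean k g₁ y - wmean k g₂ y = wmean k (fun s => g₁ s - g₂ s) y := by
  unfold wmean
  rw [← intervalIntegral.integral_sub]
  · congr 1; funext τ; ring
  · apply Continuous.intervalIntegrable; fun_prop
  · apply Continuous.intervalIntegrable; fun_prop

lemma integral_exp_aux (a : ℝ) : ∫ τ in (0:ℝ)..1, a * Real.exp (a * τ) = Real.exp a - 1 := by
  have := intervalIntegral.integral_eq_sub_of_hasDerivAt (a := 0) (b := 1)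
    (f := fun τ => Real.exp (a * τ)) (f' := fun τ => a * Real.exp (a * τ))
    (fun x _ => by
      have h1 : HasDerivAt (fun x => a * x) a x := by simpa using (hasDerivAt_id x).const_mul a
      exact h1.exp.congr_deriv (by ring))
    (by apply Continuous.intervalIntegrable; fun_prop)
  simpa using this

theorem exists_continuous_sol {ι : Type} [Fintype ι] (Φ : (ι → ℝ) → (ι → ℝ)) {L : NNReal}
    (hL : LipschitzWith L Φ) {C : ℝ} (hC : ∀ z, ‖Φ z‖ ≤ C) (z0 : ι → ℝ)
    (k k' : ι → ℝ → ℝ) (lam : ι → ℝ) (hk : ∀ i, Wt (k i) (k' i) (lam i)) :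
    ∃ Z : ℝ → ι → ℝ, Continuous Z ∧
      ∀ y i, Z y i = z0 i + y * wmean (k i) (fun s => Φ (Z s) i) y := by
  set K : ℝ := 2 * (L:ℝ) + 1 with hK
  have hL0 : (0:ℝ) ≤ L := L.2
  have hKpos : 0 < K := by positivity
  have hΦc : Continuous Φ := hL.continuous
  have hC0 : 0 ≤ C := (norm_nonneg _).trans (hC 0)
  let lift : BoundedContinuousFunction ℝ (ι → ℝ) → ℝ → ι → ℝ :=
    fun ζ y => z0 + Real.exp (K * |y|) • ζ y
  have hlift : ∀ ζ, Continuous (lift ζ) := fun ζ => by
    have := ζ.continuous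
    simp only [lift]; fun_prop
  have hgc : ∀ ζ i, Continuous (fun s => Φ (lift ζ s) i) := fun ζ i =>
    (continuous_apply i).comp (hΦc.comp (hlift ζ))
  let T0 : BoundedContinuousFunction ℝ (ι → ℝ) → ℝ → ι → ℝ :=
    fun ζ y i => Real.exp (-(K * |y|)) * (y * wmean (k i) (fun s => Φ (lift ζ s) i) y)
  have hT0c : ∀ ζ, Continuous (T0 ζ) := fun ζ => by
    apply continuous_pi; intro i
    have := continuous_wmean (hk i).contk (hgc ζ i)
    simp only [T0]; fun_prop
  have hT0b : ∀ ζ y, ‖T0 ζ y‖ ≤ C := fun ζ y => by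
    rw [pi_norm_le_iff_of_nonneg hC0]
    intro i
    have h1 : |wmean (k i) (fun s => Φ (lift ζ s) i) y| ≤ C := by
      have := abs_wmean_le (hk i) (g := fun s => Φ (lift ζ s) i) (B := fun _ => C)
        continuous_const y (fun τ _ => (norm_le_pi_norm (Φ (lift ζ (y * τ))) i).trans (hC _))
      simpa using this
    have h2 : Real.exp (-(K * |y|)) * |y| ≤ 1 := by
      rw [Real.exp_neg, inv_mul_le_iff₀ (Real.exp_pos _), mul_one]
      have h3 := Real.add_one_le_exp (K * |y|)
      have h4 := abs_nonneg y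
      nlinarith
    simp only [T0, Real.norm_eq_abs, abs_mul, abs_of_pos (Real.exp_pos _)]
    calc Real.exp (-(K * |y|)) * (|y| * |wmean (k i) (fun s => Φ (lift ζ s) i) y|)
        = (Real.exp (-(K * |y|)) * |y|) * |wmean (k i) (fun s => Φ (lift ζ s) i) y| := by ring
      _ ≤ 1 * C := mul_le_mul h2 h1 (abs_nonneg _) zero_le_one
      _ = C := one_mul _
  let T : BoundedContinuousFunction ℝ (ι → ℝ) → BoundedContinuousFunction ℝ (ι → ℝ) :=
    fun ζ => BoundedContinuousFunction.ofNormedAddCommGroup (T0 ζ) (hT0c ζ) C (hT0b ζ)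
  have hT : ContractingWith (1 / 2) T := by
    refine ⟨by norm_num, LipschitzWith.of_dist_le_mul fun ζ₁ ζ₂ => ?_⟩
    have hd : 0 ≤ dist ζ₁ ζ₂ := dist_nonneg
    rw [BoundedContinuousFunction.dist_le (by positivity)]
    intro y
    rw [dist_pi_le_iff (by positivity)]
    intro i
    change dist (T0 ζ₁ y i) (T0 ζ₂ y i) ≤ _
    rw [Real.dist_eq]
    have e : T0 ζ₁ y i - T0 ζ₂ y i = Real.exp (-(K * |y|)) * (y * wmean (k i)
        (fun s => Φ (lift ζ₁ s) i - Φ (lift ζ₂ s) i) y) := by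
      rw [← wmean_sub (hk i).contk (hgc ζ₁ i) (hgc ζ₂ i)]; simp only [T0]; ring
    have h1 := abs_wmean_le (hk i) (g := fun s => Φ (lift ζ₁ s) i - Φ (lift ζ₂ s) i)
      (B := fun τ => L * dist ζ₁ ζ₂ * Real.exp (K * |y| * τ)) (by fun_prop) y (fun τ hτ => by
        have h2 : dist (Φ (lift ζ₁ (y * τ)) i) (Φ (lift ζ₂ (y * τ)) i)
            ≤ L * dist (lift ζ₁ (y * τ)) (lift ζ₂ (y * τ)) :=
          (dist_le_pi_dist _ _ i).trans (hL.dist_le_mul _ _)
        have h3 : dist (lift ζ₁ (y * τ)) (lift ζ₂ (y * τ))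
            ≤ Real.exp (K * |y| * τ) * dist ζ₁ ζ₂ := by
          simp only [lift, dist_add_left, dist_smul₀, Real.norm_eq_abs,
            abs_of_pos (Real.exp_pos _), abs_mul, abs_of_nonneg hτ.1, mul_assoc]
          exact mul_le_mul_of_nonneg_left (BoundedContinuousFunction.dist_coe_le_dist _)
            (Real.exp_pos _).le
        rw [Real.dist_eq] at h2
        calc _ ≤ _ := h2
          _ ≤ L * (Real.exp (K * |y| * τ) * dist ζ₁ ζ₂) := mul_le_mul_of_nonneg_left h3 hL0
          _ = _ := by ring)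
    have h4 : K * |y| * ∫ τ in (0:ℝ)..1, L * dist ζ₁ ζ₂ * Real.exp (K * |y| * τ)
        = L * dist ζ₁ ζ₂ * (Real.exp (K * |y|) - 1) := by
      rw [← integral_exp_aux, ← intervalIntegral.integral_const_mul,
        ← intervalIntegral.integral_const_mul]
      congr 1; funext τ; ring
    rw [e, abs_mul, abs_mul, abs_of_pos (Real.exp_pos _), Real.exp_neg,
      inv_mul_le_iff₀ (Real.exp_pos _)]
    have h5 : K * (|y| * |wmean (k i) (fun s => Φ (lift ζ₁ s) i - Φ (lift ζ₂ s) i) y|)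
        ≤ L * dist ζ₁ ζ₂ * (Real.exp (K * |y|) - 1) := by
      rw [← h4, ← mul_assoc]
      exact mul_le_mul_of_nonneg_left h1 (by positivity)
    have h6 : L * dist ζ₁ ζ₂ * (Real.exp (K * |y|) - 1)
        ≤ K * (Real.exp (K * |y|) * (((1 / 2 : NNReal) : ℝ) * dist ζ₁ ζ₂)) := by
      have h7 := Real.exp_pos (K * |y|)
      have h8 : ((1 / 2 : NNReal) : ℝ) = 1 / 2 := by norm_num
      rw [h8, hK]
      nlinarith [mul_nonneg hL0 hd, mul_nonneg h7.le hd]
    exact le_of_mul_le_mul_left (h5.trans h6) hKpos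
  obtain ⟨ζ, hζ⟩ : ∃ ζ, T ζ = ζ := ⟨_, hT.fixedPoint_isFixedPt⟩
  refine ⟨lift ζ, hlift ζ, fun y i => ?_⟩
  have h1 : ζ y i = T0 ζ y i := by
    conv_lhs => rw [← hζ]
    rfl
  have h2 : lift ζ y i = z0 i + Real.exp (K * |y|) * ζ y i := by simp [lift]
  rw [h2, h1]
  simp only [T0]
  rw [← mul_assoc, ← Real.exp_add]; simp

theorem exists_smooth_sol {ι : Type} [Fintype ι] (Φ : (ι → ℝ) → (ι → ℝ))
    (hΦ : ContDiff ℝ ∞ Φ) (hs : HasCompactSupport Φ) (z0 : ι → ℝ)
    (k k' : ι → ℝ → ℝ) (lam : ι → ℝ) (hk : ∀ i, Wt (k i) (k' i) (lam i)) :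
    ∃ Z : ℝ → ι → ℝ, ContDiff ℝ ∞ Z ∧ Z 0 = z0 ∧
      (∀ y i, y * deriv (fun s => Z s i) y = y * Φ (Z y) i - lam i * (Z y i - z0 i)) ∧
      (∀ y i, lam i = 0 → deriv (fun s => Z s i) y = Φ (Z y) i) := by
  obtain ⟨L, hL⟩ := ContDiff.lipschitzWith_of_hasCompactSupport hs hΦ (by simp)
  obtain ⟨C, hC⟩ := hs.exists_bound_of_continuous hΦ.continuous
  obtain ⟨Z, hZc, hZ⟩ := exists_continuous_sol Φ hL hC z0 k k' lam hk
  have hZi : ∀ i, (fun s => Z s i) = fun y => z0 i + y * wmean (k i) (fun s => Φ (Z s) i) y :=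
    fun i => funext fun y => hZ y i
  have hgc : ∀ i, Continuous (fun s => Φ (Z s) i) := fun i =>
    (continuous_apply i).comp (hΦ.continuous.comp hZc)
  have hder : ∀ y i, deriv (fun s => Z s i) y
      = Φ (Z y) i - lam i * wmean (k i) (fun s => Φ (Z s) i) y := fun y i => by
    rw [hZi i]
    exact ((hasDerivAt_mul_wmean (hk i) (hgc i) y).const_add (z0 i)).deriv
  refine ⟨Z, ?_, ?_, fun y i => ?_, fun y i h0 => ?_⟩
  · rw [contDiff_infty]
    intro n
    induction n with
    | zero => simpa using hZc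
    | succ n ih =>
      rw [contDiff_pi]
      intro i
      rw [hZi i]
      have h1 : ContDiff ℝ n (fun s => Φ (Z s) i) :=
        contDiff_pi.1 ((contDiff_infty.1 hΦ n).comp ih) i
      exact contDiff_const.add (contDiff_mul_wmean n (hk i) h1)
  · funext i; rw [hZ]; simp
  · rw [hder, hZ y i]; ring
  · rw [hder, h0]; ring

end Vale.Agent.P252
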