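import Vale.Agent.P252.Energy

/-! The wedge identity and the Caccioppoli inequality. -/

open scoped ContDiff Topology
open Matrix Finset MeasureTheory

namespace Vale.Agent.P252

lemma exists_cutoff : ∃ (θ θ' : ℝ → ℝ) (M : ℝ), ContDiff ℝ 1 θ ∧ (∀ t, HasDerivAt θ (θ' t) t) ∧
    (∀ t, |θ' t| ≤ M) ∧ (∀ t, |θ t| ≤ 1) ∧ (∀ t, |t| ≤ 1 → θ t = 1) ∧ (∀ t, 2 ≤ |t| → θ t = 0) := by
  let f : ContDiffBump (0:ℝ) := ⟨1, 2, one_pos, one_lt_two⟩
  have h1 : ContDiff ℝ 1 f := f.contDiff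
  obtain ⟨M, hM⟩ := (h1.continuous_deriv le_rfl).bounded_above_of_compact_support
    f.hasCompactSupport.deriv
  refine ⟨f, deriv f, M, h1, fun t => (h1.differentiable (by simp) t).hasDerivAt, hM,
    fun t => ?_, fun t ht => f.one_of_mem_closedBall (by simpa [f] using ht),
    fun t ht => f.zero_of_le_dist (by simpa [f] using ht)⟩
  rw [abs_of_nonneg f.nonneg]
  exact f.le_one

lemma Diff.null_ibp_mul {n : ℕ} {D : Diff n} {O S : Set (E n)} (hO : IsOpen O) (hOΩ : O ⊆ D.Ω)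
    (hS : IsCompact S) (hSO : S ⊆ O) {χ f g : E n → ℝ} (hχ : ∀ x ∈ O, ContDiffAt ℝ 1 χ x)
    (h0 : ∀ x ∈ O, x ∉ S → χ x = 0) (hf : ∀ x ∈ O, ContDiffAt ℝ 1 f x)
    (hg : ∀ x ∈ O, ContDiffAt ℝ 2 g x) :
    Null S (fun x => (χ x * (f x * D.lap g x + D.Γ f g x) + f x * D.Γ χ g x) * D.m x) := by
  refine (Diff.null_ibp hO hOΩ hS hSO (c := fun x => χ x * f x)
    (fun x hx => (hχ x hx).mul (hf x hx)) (fun x hx hx' => by simp [h0 x hx hx']) hg).congr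
    hS.measurableSet fun x hx => ?_
  have h2 := ((hasGrad_of_diff ((hχ x (hSO hx)).differentiableAt (by simp))).mul'
    (hasGrad_of_diff ((hf x (hSO hx)).differentiableAt (by simp)))).grad_eq
  simp only [Diff.Γ, h2, Diff.ip_add_left, Diff.ip_smul_left]
  ring

/-- The pointwise inequality behind the Caccioppoli estimate. -/
lemma Diff.wedge_ineq {n : ℕ} {D : Diff n} {x : E n} (hx : x ∈ D.Ω) (R T U V Z : Fin n → ℝ)
    {ν ζ : ℝ} (h3 : 3 ≤ ν) (h9 : ν ≤ 9) :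
    ζ ^ 2 * (D.ip x R R + D.ip x (U - V) (U - V)) ≤ 2000 *
      (D.ip x ((2 * ζ) • Z - ((ν / 2 - 1) * ζ ^ 2) • (R - T))
        ((ν - 1) • T - R - (1 / 250 : ℝ) • (U + V))
      + ζ ^ 2 * (2 * ν * D.ip x R T - D.ip x (R - T) ((ν - 1) • T - R)
        + 1 / 250 * (D.ip x U U + D.ip x V V))) + 384000000 * D.ip x Z Z := by
  set W := (ν - 1) • T - R - (1 / 250 : ℝ) • (U + V) with hW
  have hRR := Diff.ip_self_nonneg hx R
  have hTT := Diff.ip_self_nonneg hx T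
  have hUU := Diff.ip_self_nonneg hx U
  have hVV := Diff.ip_self_nonneg hx V
  have h1 := Diff.ip_sub_le hx U V
  have h2 := Diff.ip_add_le hx U V
  have h4 := Diff.ip_sub_le hx R T
  have h5 : D.ip x W W ≤ 192 * (D.ip x R R + D.ip x T T + (D.ip x U U + D.ip x V V)) := by
    have a1 := Diff.ip_self_nonneg hx ((ν - 1) • T + R)
    have a2 := Diff.ip_self_nonneg hx ((ν - 1) • T + (1 / 250 : ℝ) • (U + V))
    have a3 := Diff.ip_self_nonneg hx (R - (1 / 250 : ℝ) • (U + V))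
    have a4 : (ν - 1) ^ 2 * D.ip x T T ≤ 64 * D.ip x T T :=
      mul_le_mul_of_nonneg_right (by nlinarith) hTT
    rw [hW]
    generalize U + V = Y at *
    simp only [Diff.ip_add_left, Diff.ip_add_right, Diff.ip_sub_left, Diff.ip_sub_right,
      Diff.ip_smul_left, Diff.ip_smul_right, Diff.ip_comm hx T R, Diff.ip_comm hx Y R,
      Diff.ip_comm hx Y T] at a1 a2 a3 ⊢
    linarith
  have h6 := Diff.ip_self_nonneg hx ((192000:ℝ) • Z + ζ • W)
  have h7 := Diff.ip_self_nonneg hx ((ν - 2) • (R - T) + (U + V))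
  have h8 : (ν - 2) ^ 2 * D.ip x (R - T) (R - T) ≤ 49 * D.ip x (R - T) (R - T) :=
    mul_le_mul_of_nonneg_right (by nlinarith) (Diff.ip_self_nonneg hx _)
  have h10 : (D.ip x R R + D.ip x T T) / 10
      ≤ D.ip x R R - (ν - 4) * D.ip x R T + (ν - 1) * D.ip x T T := by
    have a1 := Diff.ip_self_nonneg hx ((9 / 5 : ℝ) • R - (ν - 4) • T)
    simp only [Diff.ip_sub_left, Diff.ip_sub_right, Diff.ip_smul_left, Diff.ip_smul_right,
      Diff.ip_comm hx T R] at a1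
    have a2 : 0 ≤ (ν - 11 / 10 - (ν - 4) ^ 2 / (18 / 5)) * D.ip x T T :=
      mul_nonneg (by nlinarith) hTT
    linarith
  have h11 : 3 / 20 * (D.ip x R R + D.ip x T T)
      ≤ ν / 2 * (D.ip x R R - (ν - 4) * D.ip x R T + (ν - 1) * D.ip x T T) := by
    nlinarith
  have e1 : D.ip x (R - T) W = D.ip x (R - T) ((ν - 1) • T - R)
      - 1 / 250 * D.ip x (R - T) (U + V) := by
    rw [hW, Diff.ip_sub_right, Diff.ip_smul_right]
  have e2 : D.ip x (R - T) ((ν - 1) • T - R)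
      = ν * D.ip x R T - D.ip x R R - (ν - 1) * D.ip x T T := by
    simp only [Diff.ip_sub_left, Diff.ip_sub_right, Diff.ip_smul_right, Diff.ip_comm hx T R]
    ring
  rw [Diff.ip_sub_left D x ((2 * ζ) • Z), Diff.ip_smul_left, Diff.ip_smul_left, e1, e2]
  clear e1 e2 hW
  clear_value W
  generalize U + V = Y at *
  generalize U - V = Y' at *
  generalize R - T = Q at *
  simp only [Diff.ip_add_left, Diff.ip_add_right, Diff.ip_smul_left, Diff.ip_smul_right,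
    Diff.ip_comm hx W Z, Diff.ip_comm hx Y Q] at h6 h7
  have hz := sq_nonneg ζ
  have key : D.ip x R R + D.ip x Y' Y' + 2000 / 192000 * D.ip x W W ≤ 2000 *
      (ν / 2 * (D.ip x R R - (ν - 4) * D.ip x R T + (ν - 1) * D.ip x T T)
        + 1 / 250 * (D.ip x U U + D.ip x V V) + 1 / 250 * ((ν / 2 - 1) * D.ip x Q Y)) := by
    linarith
  have := mul_le_mul_of_nonneg_left key hz
  linarith

namespace AS
variable {m : ℕ} (S : AS (m + 1))

/-- The function `a p + b q`. -/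
noncomputable def wφ (x : E (m + 1)) : ℝ := S.X x 0 * S.N x 0 + S.X x 1 * S.N x 1

/-- The logarithmic gradient of a conormal component. -/
noncomputable def wU (k : Fin (m + 2)) (x : E (m + 1)) : Fin (m + 1) → ℝ :=
  (S.N x k)⁻¹ • grad (fun y => S.N y k) x

/-- The normalized field `R`. -/
noncomputable def wR (x : E (m + 1)) : Fin (m + 1) → ℝ :=
  (S.wφ x)⁻¹ • (S.N x 0 • grad (fun y => S.X y 0) x + S.N x 1 • grad (fun y => S.X y 1) x)

/-- The normalized field `T`. -/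
noncomputable def wT (x : E (m + 1)) : Fin (m + 1) → ℝ :=
  (-(S.wφ x)⁻¹) • (S.X x 0 • grad (fun y => S.N y 0) x + S.X x 1 • grad (fun y => S.N y 1) x)

/-- The invariant energy density. -/
noncomputable def wF (x : E (m + 1)) : ℝ :=
  S.wφ x ^ (-(((m:ℝ) + 1) / 2 - 1)) * (S.toDiff.ip x (S.wR x) (S.wR x)
    + S.toDiff.ip x (S.wU 0 x - S.wU 1 x) (S.wU 0 x - S.wU 1 x)) * S.m x

/-- The region where `φ / p` and `φ / q` lie between `e^{-r}` and `e^r`. -/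
def wS (r : ℝ) : Set (E (m + 1)) :=
  {x | x ∈ S.Ω ∧ S.X x 0 + S.X x 1 ≤ 2 * Real.exp r ∧ S.N x 0 ≤ Real.exp r * S.wφ x ∧
    S.wφ x ≤ Real.exp r * S.N x 0 ∧ S.N x 1 ≤ Real.exp r * S.wφ x ∧
    S.wφ x ≤ Real.exp r * S.N x 1}

/-- The open set on which the wedge computation takes place. -/
def wO (L : ℝ) : Set (E (m + 1)) :=
  {x | x ∈ S.Ω ∧ S.X x 0 + S.X x 1 < 8 * Real.exp L ∧ 0 < S.N x 0 ∧ 0 < S.N x 1 ∧ 0 < S.wφ x}

/-- What is needed on the large cap. -/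
structure Big (L : ℝ) : Prop where
  cpt : IsCompact {x | x ∈ S.Ω ∧ S.X x 0 + S.X x 1 ≤ 8 * Real.exp L}
  pos : ∀ x ∈ S.Ω, S.X x 0 + S.X x 1 ≤ 8 * Real.exp L →
    0 ≤ S.X x 0 ∧ 0 ≤ S.X x 1 ∧ 0 < S.N x 0 + S.N x 1

variable {S}

lemma wφ_at {x : E (m + 1)} (hx : x ∈ S.Ω) : ContDiffAt ℝ 2 S.wφ x :=
  ((X_at hx 0).mul (N_at hx 0)).add ((X_at hx 1).mul (N_at hx 1))

lemma hasGrad_wφ {x : E (m + 1)} (hx : x ∈ S.Ω) (h0 : S.wφ x ≠ 0) :
    HasGrad S.wφ x (S.wφ x • (S.wR x - S.wT x)) :=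
  (((jet_X hx 0).hasGrad.mul' (jet_N hx 0).hasGrad).add'
    ((jet_X hx 1).hasGrad.mul' (jet_N hx 1).hasGrad)).congr' (by
      funext i
      simp only [wR, wT, Pi.add_apply, Pi.sub_apply, Pi.smul_apply, smul_eq_mul]
      field_simp
      ring)

lemma isOpen_wO (L : ℝ) : IsOpen (S.wO L) :=
  isOpen_iff_mem_nhds.2 fun x hx => by
    filter_upwards [S.isOpen.mem_nhds hx.1,
      ((X_at hx.1 0).add (X_at hx.1 1)).continuousAt.eventually (gt_mem_nhds hx.2.1),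
      (N_at hx.1 0).continuousAt.eventually (lt_mem_nhds hx.2.2.1),
      (N_at hx.1 1).continuousAt.eventually (lt_mem_nhds hx.2.2.2.1),
      (wφ_at hx.1).continuousAt.eventually (lt_mem_nhds hx.2.2.2.2)] with y h1 h2 h3 h4 h5
    exact ⟨h1, h2, h3, h4, h5⟩

lemma wS_subset {L r : ℝ} (H : S.Big L) (hr : r ≤ L) : S.wS r ⊆ S.wO L := by
  rintro x ⟨hx, h1, h2, h3, h4, h5⟩
  have e1 := Real.exp_le_exp.2 hr
  have e2 := Real.exp_pos r
  have h6 := (H.pos x hx (by linarith)).2.2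
  have h7 : 0 < S.wφ x := by
    by_contra h
    nlinarith
  exact ⟨hx, by linarith, (mul_pos_iff_of_pos_left e2).1 (h7.trans_le h3),
    (mul_pos_iff_of_pos_left e2).1 (h7.trans_le h5), h7⟩

lemma wS_compact {L r : ℝ} (H : S.Big L) (hr : r ≤ L) : IsCompact (S.wS r) := by
  have e1 := Real.exp_le_exp.2 hr
  have e2 := Real.exp_pos r
  have hc : ContinuousOn (fun x => (S.X x 0 + S.X x 1, S.N x 0, S.N x 1, S.wφ x))
      {x | x ∈ S.Ω ∧ S.X x 0 + S.X x 1 ≤ 8 * Real.exp L} := fun x hx =>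
    (((X_at hx.1 0).add (X_at hx.1 1)).continuousAt.prodMk ((N_at hx.1 0).continuousAt.prodMk
      ((N_at hx.1 1).continuousAt.prodMk (wφ_at hx.1).continuousAt))).continuousWithinAt
  have hF : IsClosed {w : ℝ × ℝ × ℝ × ℝ | w.1 ≤ 2 * Real.exp r ∧ w.2.1 ≤ Real.exp r * w.2.2.2 ∧
      w.2.2.2 ≤ Real.exp r * w.2.1 ∧ w.2.2.1 ≤ Real.exp r * w.2.2.2 ∧
      w.2.2.2 ≤ Real.exp r * w.2.2.1} := by
    simp only [Set.ofPred_and]
    refine IsClosed.inter ?_ (IsClosed.inter ?_ (IsClosed.inter ?_ (IsClosed.inter ?_ ?_))) <;>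
      exact isClosed_le (by fun_prop) (by fun_prop)
  have hcl := hc.preimage_isClosed_of_isClosed H.cpt.isClosed hF
  refine H.cpt.of_isClosed_subset ?_ fun x hx => ⟨hx.1, by linarith [hx.2.1]⟩
  convert hcl using 1
  ext x
  exact ⟨fun hx => ⟨⟨hx.1, by linarith [hx.2.1]⟩, hx.2⟩, fun hx => ⟨hx.1.1, hx.2⟩⟩

lemma wS_mono {L r s : ℝ} (H : S.Big L) (hr : r ≤ L) (hrs : r ≤ s) : S.wS r ⊆ S.wS s := by
  intro x hx
  obtain ⟨-, -, g1, g2, g3⟩ := wS_subset H hr hx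
  obtain ⟨hx, h1, h2, h3, h4, h5⟩ := hx
  have e1 := Real.exp_le_exp.2 hrs
  exact ⟨hx, by linarith, h2.trans (by gcongr), h3.trans (by gcongr), h4.trans (by gcongr),
    h5.trans (by gcongr)⟩

lemma abs_log_le_iff {s t r : ℝ} (hs : 0 < s) (ht : 0 < t) :
    |Real.log s - Real.log t| ≤ r ↔ t ≤ Real.exp r * s ∧ s ≤ Real.exp r * t := by
  rw [← Real.log_le_log_iff ht (by positivity), ← Real.log_le_log_iff hs (by positivity),
    Real.log_mul (Real.exp_pos r).ne' hs.ne', Real.log_mul (Real.exp_pos r).ne' ht.ne',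
    Real.log_exp, abs_le]
  constructor <;> rintro ⟨h1, h2⟩ <;> constructor <;> linarith

lemma mem_wS_iff {L r : ℝ} (H : S.Big L) {x : E (m + 1)} (hx : x ∈ S.wO L) :
    x ∈ S.wS r ↔ |Real.log (S.wφ x) - Real.log (S.N x 0)| ≤ r ∧
      |Real.log (S.wφ x) - Real.log (S.N x 1)| ≤ r := by
  obtain ⟨hx, h1, h2, h3, h4⟩ := hx
  rw [abs_log_le_iff h4 h2, abs_log_le_iff h4 h3]
  refine ⟨fun h => ⟨⟨h.2.2.1, h.2.2.2.1⟩, h.2.2.2.2⟩, fun h => ⟨hx, ?_, h.1.1, h.1.2, h.2⟩⟩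
  obtain ⟨ha, hb, -⟩ := H.pos x hx h1.le
  have h5 := h.1.2
  have h6 := h.2.2
  simp only [wφ] at h5 h6
  have h7 : S.X x 0 ≤ Real.exp r := le_of_mul_le_mul_right (by nlinarith [mul_nonneg hb h3.le]) h2
  have h8 : S.X x 1 ≤ Real.exp r := le_of_mul_le_mul_right (by nlinarith [mul_nonneg ha h2.le]) h3
  linarith

lemma wF_at {L : ℝ} {x : E (m + 1)} (hx : x ∈ S.wO L) : ContinuousAt S.wF x := by
  obtain ⟨hx, -, h2, h3, h4⟩ := hx
  have c1 := fun k => (N_at hx k).continuousAt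
  have c2 := fun k => continuousAt_grad ((N_at hx k).of_le (by norm_num : (1 : WithTop ℕ∞) ≤ 2))
  have c3 := fun k => continuousAt_grad ((X_at hx k).of_le (by norm_num : (1 : WithTop ℕ∞) ≤ 2))
  have cR : ContinuousAt S.wR x := ((wφ_at hx).continuousAt.inv₀ h4.ne').smul
    (((c1 0).smul (c3 0)).add ((c1 1).smul (c3 1)))
  have cU : ContinuousAt (fun y => S.wU 0 y - S.wU 1 y) x :=
    (((c1 0).inv₀ h2.ne').smul (c2 0)).sub (((c1 1).inv₀ h3.ne').smul (c2 1))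
  exact (((wφ_at hx).continuousAt.rpow_const (Or.inl h4.ne')).mul
    ((Diff.continuousAt_ip hx cR cR).add (Diff.continuousAt_ip hx cU cU))).mul (Diff.m_at hx)

lemma wF_nonneg {x : E (m + 1)} (hx : x ∈ S.Ω) (h : 0 < S.wφ x) : 0 ≤ S.wF x :=
  mul_nonneg (mul_nonneg (Real.rpow_nonneg h.le _)
    (add_nonneg (Diff.ip_self_nonneg hx _) (Diff.ip_self_nonneg hx _))) (S.m_pos x hx).le

lemma wF_int {L r : ℝ} (H : S.Big L) (hr : r ≤ L) : IntegrableOn S.wF (S.wS r) :=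
  integrableOn_of_at (wS_compact H hr) fun _ hx => wF_at (wS_subset H hr hx)

lemma null_wedge {L : ℝ} {T : Set (E (m + 1))} (hT : IsCompact T) (hTO : T ⊆ S.wO L)
    {χ : E (m + 1) → ℝ} (hχ : ∀ x ∈ S.wO L, ContDiffAt ℝ 1 χ x)
    (h0 : ∀ x ∈ S.wO L, x ∉ T → χ x = 0) (ε : ℝ) :
    Null T (fun x => (S.toDiff.ip x (grad χ x)
        ((((m:ℝ) + 1) - 1) • S.wT x - S.wR x - ε • (S.wU 0 x + S.wU 1 x))
      + χ x * (2 * ((m:ℝ) + 1) * S.toDiff.ip x (S.wR x) (S.wT x)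
        - S.toDiff.ip x (S.wR x - S.wT x) ((((m:ℝ) + 1) - 1) • S.wT x - S.wR x)
        + ε * (S.toDiff.ip x (S.wU 0 x) (S.wU 0 x) + S.toDiff.ip x (S.wU 1 x) (S.wU 1 x))))
      * S.m x) := by
  have c1 : ∀ x ∈ S.wO L, ∀ k, ContDiffAt ℝ 1 (fun y => S.X y k) x := fun x hx k =>
    (X_at hx.1 k).of_le (by norm_num)
  have c2 : ∀ x ∈ S.wO L, ∀ k, ContDiffAt ℝ 1 (fun y => S.N y k) x := fun x hx k =>
    (N_at hx.1 k).of_le (by norm_num)
  have c3 : ∀ x ∈ S.wO L, ContDiffAt ℝ 1 (fun y => (S.wφ y)⁻¹) x := fun x hx =>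
    ((wφ_at hx.1).of_le (by norm_num)).inv hx.2.2.2.2.ne'
  have n1 := Diff.null_ibp_mul (D := S.toDiff) (isOpen_wO L) (fun x hx => hx.1) hT hTO hχ h0
    (f := fun y => -m * (S.X y 0 * (S.wφ y)⁻¹) - ε * (S.N y 0)⁻¹) (g := fun y => S.N y 0)
    (fun x hx => (contDiffAt_const.mul ((c1 x hx 0).mul (c3 x hx))).sub
      (contDiffAt_const.mul ((c2 x hx 0).inv hx.2.2.1.ne'))) (fun x hx => N_at hx.1 0)
  have n2 := Diff.null_ibp_mul (D := S.toDiff) (isOpen_wO L) (fun x hx => hx.1) hT hTO hχ h0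
    (f := fun y => -m * (S.X y 1 * (S.wφ y)⁻¹) - ε * (S.N y 1)⁻¹) (g := fun y => S.N y 1)
    (fun x hx => (contDiffAt_const.mul ((c1 x hx 1).mul (c3 x hx))).sub
      (contDiffAt_const.mul ((c2 x hx 1).inv hx.2.2.2.1.ne'))) (fun x hx => N_at hx.1 1)
  have n3 := Diff.null_ibp_mul (D := S.toDiff) (isOpen_wO L) (fun x hx => hx.1) hT hTO hχ h0
    (f := fun y => -(S.N y 0 * (S.wφ y)⁻¹)) (g := fun y => S.X y 0)
    (fun x hx => ((c2 x hx 0).mul (c3 x hx)).neg) (fun x hx => X_at hx.1 0)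
  have n4 := Diff.null_ibp_mul (D := S.toDiff) (isOpen_wO L) (fun x hx => hx.1) hT hTO hχ h0
    (f := fun y => -(S.N y 1 * (S.wφ y)⁻¹)) (g := fun y => S.X y 1)
    (fun x hx => ((c2 x hx 1).mul (c3 x hx)).neg) (fun x hx => X_at hx.1 1)
  refine (((n1.add n2).add n3).add n4).congr hT.measurableSet fun x hx' => ?_
  obtain ⟨hx, -, hp, hq, hφ⟩ := hTO hx'
  have gφ := (((jet_X hx 0).hasGrad.mul' (jet_N hx 0).hasGrad).add'
    ((jet_X hx 1).hasGrad.mul' (jet_N hx 1).hasGrad)).inv hφ.ne'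
  have g1 := ((((jet_X hx 0).hasGrad.mul' gφ).const_mul (-m)).sub
    (((jet_N hx 0).hasGrad.inv hp.ne').const_mul ε)).grad_eq
  have g2 := ((((jet_X hx 1).hasGrad.mul' gφ).const_mul (-m)).sub
    (((jet_N hx 1).hasGrad.inv hq.ne').const_mul ε)).grad_eq
  have g3 := ((jet_N hx 0).hasGrad.mul' gφ).neg.grad_eq
  have g4 := ((jet_N hx 1).hasGrad.mul' gφ).neg.grad_eq
  have k00 := S.ΓNX x hx 0 0
  have k01 := S.ΓNX x hx 0 1
  have k10 := S.ΓNX x hx 1 0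
  have k11 := S.ΓNX x hx 1 1
  simp only [Diff.Γ, if_true, zero_ne_one, one_ne_zero, if_false, sub_zero] at k00 k01 k10 k11
  simp only [Diff.Γ, wφ, g1, g2, g3, g4, S.lapN x hx, S.lapX x hx, wR, wT, wU] at hφ ⊢
  clear gφ g1 g2 g3 g4 n1 n2 n3 n4
  generalize grad (fun y => S.X y 0) x = A at *
  generalize grad (fun y => S.X y 1) x = B at *
  generalize grad (fun y => S.N y 0) x = P at *
  generalize grad (fun y => S.N y 1) x = Q at *
  simp only [Diff.ip_add_left, Diff.ip_add_right, Diff.ip_sub_left, Diff.ip_sub_right,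
    Diff.ip_smul_left, Diff.ip_smul_right, Diff.ip_neg_left, Diff.ip_comm hx A P,
    Diff.ip_comm hx A Q, Diff.ip_comm hx B P, Diff.ip_comm hx B Q, Diff.ip_comm hx B A,
    Diff.ip_comm hx Q P, k00, k01, k10, k11]
  push_cast
  field_simp
  ring

lemma grad_log_bound {L : ℝ} (H : S.Big L) {x : E (m + 1)} (hx : x ∈ S.wO L) :
    S.toDiff.ip x (S.wR x - S.wT x - S.wU 0 x) (S.wR x - S.wT x - S.wU 0 x)
      ≤ 2 * (S.toDiff.ip x (S.wR x) (S.wR x)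
        + S.toDiff.ip x (S.wU 0 x - S.wU 1 x) (S.wU 0 x - S.wU 1 x)) ∧
    S.toDiff.ip x (S.wR x - S.wT x - S.wU 1 x) (S.wR x - S.wT x - S.wU 1 x)
      ≤ 2 * (S.toDiff.ip x (S.wR x) (S.wR x)
        + S.toDiff.ip x (S.wU 0 x - S.wU 1 x) (S.wU 0 x - S.wU 1 x)) := by
  obtain ⟨hx, h1, hp, hq, hφ⟩ := hx
  obtain ⟨ha, hb, -⟩ := H.pos x hx h1.le
  have e1 : S.wR x - S.wT x - S.wU 0 x
      = S.wR x - (S.X x 1 * S.N x 1 / S.wφ x) • (S.wU 0 x - S.wU 1 x) := by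
    funext i
    simp only [wT, wU, Pi.add_apply, Pi.sub_apply, Pi.smul_apply, smul_eq_mul]
    field_simp
    simp only [wφ]
    ring
  have e2 : S.wR x - S.wT x - S.wU 1 x
      = S.wR x + (S.X x 0 * S.N x 0 / S.wφ x) • (S.wU 0 x - S.wU 1 x) := by
    funext i
    simp only [wT, wU, Pi.add_apply, Pi.sub_apply, Pi.smul_apply, smul_eq_mul]
    field_simp
    simp only [wφ]
    ring
  have h2 := mul_nonneg ha hp.le
  have h3 := mul_nonneg hb hq.le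
  have key : ∀ t : ℝ, 0 ≤ t → t ≤ S.wφ x → S.toDiff.ip x ((t / S.wφ x) • (S.wU 0 x - S.wU 1 x))
      ((t / S.wφ x) • (S.wU 0 x - S.wU 1 x))
      ≤ S.toDiff.ip x (S.wU 0 x - S.wU 1 x) (S.wU 0 x - S.wU 1 x) := fun t h4 h5 => by
    rw [Diff.ip_smul_left, Diff.ip_smul_right, ← mul_assoc]
    have h6 : t / S.wφ x ≤ 1 := (div_le_one hφ).2 h5
    exact mul_le_of_le_one_left (Diff.ip_self_nonneg hx _)
      (mul_le_one₀ h6 (div_nonneg h4 hφ.le) h6)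
  rw [e1, e2]
  constructor
  · have := key _ h3 (by simp only [wφ]; linarith)
    linarith [Diff.ip_sub_le hx (S.wR x) ((S.X x 1 * S.N x 1 / S.wφ x) • (S.wU 0 x - S.wU 1 x))]
  · have := key _ h2 (by simp only [wφ]; linarith)
    linarith [Diff.ip_add_le hx (S.wR x) ((S.X x 0 * S.N x 0 / S.wφ x) • (S.wU 0 x - S.wU 1 x))]

theorem caccioppoli : ∃ Cc : ℝ, 0 < Cc ∧ ∀ m : ℕ, 2 ≤ m → m ≤ 8 → ∀ (S : AS (m + 1)) (L r : ℝ),
    S.Big L → 0 < r → 2 * r ≤ L →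
    ∫ x in S.wS r, S.wF x ≤ Cc / r ^ 2 * ∫ x in S.wS (2 * r), S.wF x := by
  obtain ⟨θ, θ', M, hθ, hθ', hM, hθ1, hθa, hθb⟩ := exists_cutoff
  refine ⟨384000000 * 8 * M ^ 2 + 1, by positivity, fun m h2 h8 S L r H hr hrL => ?_⟩
  have hT := wS_compact H hrL
  have hTO := wS_subset H hrL
  set κ : ℝ := ((m:ℝ) + 1) / 2 - 1 with hκ
  set ζ : E (m + 1) → ℝ := fun y => θ (r⁻¹ * (Real.log (S.wφ y) - Real.log (S.N y 0)))
    * θ (r⁻¹ * (Real.log (S.wφ y) - Real.log (S.N y 1))) with hζ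
  have cζ : ∀ x ∈ S.wO L, ContDiffAt ℝ 1 ζ x := fun x hx => by
    have c1 := ((wφ_at hx.1).of_le (by norm_num : (1 : WithTop ℕ∞) ≤ 2)).log hx.2.2.2.2.ne'
    have c2 := ((N_at hx.1 0).of_le (by norm_num : (1 : WithTop ℕ∞) ≤ 2)).log hx.2.2.1.ne'
    have c3 := ((N_at hx.1 1).of_le (by norm_num : (1 : WithTop ℕ∞) ≤ 2)).log hx.2.2.2.1.ne'
    exact (hθ.contDiffAt.comp x (contDiffAt_const.mul (c1.sub c2))).mul
      (hθ.contDiffAt.comp x (contDiffAt_const.mul (c1.sub c3)))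
  have ζ0 : ∀ x ∈ S.wO L, x ∉ S.wS (2 * r) → ζ x = 0 := fun x hx hx' => by
    rw [mem_wS_iff H hx, not_and_or, not_le, not_le] at hx'
    have key : ∀ t : ℝ, 2 * r < |t| → θ (r⁻¹ * t) = 0 := fun t ht => hθb _ (by
      rw [abs_mul, abs_inv, abs_of_pos hr, le_inv_mul_iff₀ hr]; linarith)
    rcases hx' with h | h <;> simp only [hζ, key _ h, zero_mul, mul_zero]
  have ζ1 : ∀ x ∈ S.wS r, ζ x = 1 := fun x hx => by
    rw [mem_wS_iff H (wS_subset H (by linarith) hx)] at hx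
    have key : ∀ t : ℝ, |t| ≤ r → θ (r⁻¹ * t) = 1 := fun t ht => hθa _ (by
      rw [abs_mul, abs_inv, abs_of_pos hr, inv_mul_le_iff₀ hr]; linarith)
    simp only [hζ, key _ hx.1, key _ hx.2, mul_one]
  have N1 := (null_wedge hT hTO (χ := fun y => ζ y * ζ y * S.wφ y ^ (-κ))
    (fun x hx => ((cζ x hx).mul (cζ x hx)).mul (((wφ_at hx.1).of_le (by norm_num)).rpow_const_of_ne
      hx.2.2.2.2.ne')) (fun x hx hx' => by simp [ζ0 x hx hx']) (1 / 250)).const_mul 2000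
  have hI : IntegrableOn (fun x => ζ x ^ 2 * S.wF x) (S.wS (2 * r)) :=
    integrableOn_of_at hT fun x hx => ((cζ x (hTO hx)).continuousAt.pow 2).mul (wF_at (hTO hx))
  have h1 := N1.le hT.measurableSet hI ((wF_int H hrL).const_mul
    ((384000000 * 8 * M ^ 2 + 1) / r ^ 2)) fun x hx' => ?_
  · rw [integral_const_mul] at h1
    refine le_trans ?_ h1
    rw [← setIntegral_congr_fun (wS_compact H (by linarith)).measurableSet
      (f := fun x => ζ x ^ 2 * S.wF x) fun x hx => by simp [ζ1 x hx]]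
    refine setIntegral_mono_set hI ?_ (wS_mono H (by linarith) (by linarith)).eventuallyLE
    refine (ae_restrict_iff' hT.measurableSet).2 (Filter.Eventually.of_forall fun x hx => ?_)
    exact mul_nonneg (sq_nonneg _) (wF_nonneg hx.1 (hTO hx).2.2.2.2)
  have hb := grad_log_bound H (hTO hx')
  obtain ⟨hx, -, hp, hq, hφ⟩ := hTO hx'
  have g0 := hasGrad_wφ hx hφ.ne'
  have gl : HasGrad (fun y => Real.log (S.wφ y)) x (S.wR x - S.wT x) :=
    (g0.log hφ.ne').congr' (by rw [smul_smul, inv_mul_cancel₀ hφ.ne', one_smul])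
  have g1 := ((gl.sub ((jet_N hx 0).hasGrad.log hp.ne')).const_mul r⁻¹).comp' (hθ' _)
  have g2 := ((gl.sub ((jet_N hx 1).hasGrad.log hq.ne')).const_mul r⁻¹).comp' (hθ' _)
  have g3 : HasGrad ζ x _ := g1.mul' g2
  have g4 := g0.comp' (Real.hasDerivAt_rpow_const (p := -κ) (Or.inl hφ.ne'))
  have hZ : S.toDiff.ip x (grad ζ x) (grad ζ x) ≤ 8 * M ^ 2 / r ^ 2 *
      (S.toDiff.ip x (S.wR x) (S.wR x)
        + S.toDiff.ip x (S.wU 0 x - S.wU 1 x) (S.wU 0 x - S.wU 1 x)) := by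
    rw [g3.grad_eq]
    refine (Diff.ip_add_le hx _ _).trans ?_
    have key : ∀ (s t : ℝ) (v : Fin (m + 1) → ℝ) (B : ℝ), S.toDiff.ip x v v ≤ B →
        S.toDiff.ip x (θ s • θ' t • r⁻¹ • v) (θ s • θ' t • r⁻¹ • v) ≤ M ^ 2 / r ^ 2 * B :=
      fun s t v B hB => by
        simp only [Diff.ip_smul_left, Diff.ip_smul_right]
        have a1 : θ s ^ 2 ≤ 1 := (sq_le_one_iff_abs_le_one _).2 (hθ1 s)
        have a2 : θ' t ^ 2 ≤ M ^ 2 := sq_le_sq' (abs_le.1 (hM t)).1 (abs_le.1 (hM t)).2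
        have a3 := Diff.ip_self_nonneg hx v
        calc _ = θ s ^ 2 * θ' t ^ 2 / r ^ 2 * S.toDiff.ip x v v := by field_simp
          _ ≤ 1 * M ^ 2 / r ^ 2 * B := by gcongr
          _ = _ := by rw [one_mul]
    have a1 := key (r⁻¹ * (Real.log (S.wφ x) - Real.log (S.N x 1)))
      (r⁻¹ * (Real.log (S.wφ x) - Real.log (S.N x 0))) _ _ hb.1
    have a2 := key (r⁻¹ * (Real.log (S.wφ x) - Real.log (S.N x 0)))
      (r⁻¹ * (Real.log (S.wφ x) - Real.log (S.N x 1))) _ _ hb.2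
    refine (add_le_add (mul_le_mul_of_nonneg_left a1 zero_le_two)
      (mul_le_mul_of_nonneg_left a2 zero_le_two)).trans (le_of_eq ?_)
    ring
  have g5 : grad (fun y => ζ y * ζ y * S.wφ y ^ (-κ)) x = S.wφ x ^ (-κ) •
      ((2 * ζ x) • grad ζ x - ((((m:ℝ) + 1) / 2 - 1) * ζ x ^ 2) • (S.wR x - S.wT x)) := by
    rw [(((hasGrad_of_diff g3.1).mul' (hasGrad_of_diff g3.1)).mul' g4).grad_eq,
      Real.rpow_sub_one hφ.ne', ← hκ]
    funext i
    simp only [Pi.add_apply, Pi.sub_apply, Pi.smul_apply, smul_eq_mul]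
    field_simp
    ring
  have h3 : (3:ℝ) ≤ (m:ℝ) + 1 := by exact_mod_cast Nat.succ_le_succ h2
  have h9 : (m:ℝ) + 1 ≤ 9 := by exact_mod_cast Nat.succ_le_succ h8
  have h4 := Diff.wedge_ineq hx (S.wR x) (S.wT x) (S.wU 0 x) (S.wU 1 x) (grad ζ x)
    (ζ := ζ x) h3 h9
  have hw := mul_nonneg (Real.rpow_nonneg hφ.le (-κ)) (S.m_pos x hx).le
  have hE : 0 ≤ S.toDiff.ip x (S.wR x) (S.wR x)
      + S.toDiff.ip x (S.wU 0 x - S.wU 1 x) (S.wU 0 x - S.wU 1 x) :=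
    add_nonneg (Diff.ip_self_nonneg hx _) (Diff.ip_self_nonneg hx _)
  have h5 : 384000000 * S.toDiff.ip x (grad ζ x) (grad ζ x) ≤ (384000000 * 8 * M ^ 2 + 1) / r ^ 2
      * (S.toDiff.ip x (S.wR x) (S.wR x)
        + S.toDiff.ip x (S.wU 0 x - S.wU 1 x) (S.wU 0 x - S.wU 1 x)) := by
    have : 0 ≤ 1 / r ^ 2 * (S.toDiff.ip x (S.wR x) (S.wR x)
        + S.toDiff.ip x (S.wU 0 x - S.wU 1 x) (S.wU 0 x - S.wU 1 x)) := by positivity
    calc _ ≤ 384000000 * (8 * M ^ 2 / r ^ 2 * (S.toDiff.ip x (S.wR x) (S.wR x)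
        + S.toDiff.ip x (S.wU 0 x - S.wU 1 x) (S.wU 0 x - S.wU 1 x))) := by gcongr
      _ ≤ _ := by
        rw [add_div, add_mul]
        exact le_add_of_le_of_nonneg (le_of_eq (by ring)) this
  have h6 := mul_le_mul_of_nonneg_right (h4.trans (add_le_add le_rfl h5)) hw
  rw [g5, Diff.ip_smul_left]
  simp only [wF, ← hκ] at h6 ⊢
  linarith

end AS

end Vale.Agent.P252
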