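import Vale.Agent.P252.Wedge1

/-! Cell estimates and decay of the wedge energy. -/

open scoped ContDiff Topology
open Matrix Finset MeasureTheory

namespace Vale.Agent.P252

lemma setIntegral_le_card {n : ℕ} {ι : Type} (I : Finset ι) {T : Set (E n)}
    (hT : MeasurableSet T) {F : E n → ℝ} (hF : IntegrableOn F T) (P : ι → E n → Prop) {c : ℝ}
    (h1 : ∀ x ∈ T, ∃ i ∈ I, P i x)
    (h2 : ∀ i ∈ I, ∃ (U : Set (E n)) (G : E n → ℝ), MeasurableSet U ∧ IntegrableOn G U ∧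
      (∀ x ∈ U, 0 ≤ G x) ∧ ∫ x in U, G x ≤ c ∧ ∀ x ∈ T, P i x → x ∈ U ∧ F x ≤ G x) :
    ∫ x in T, F x ≤ I.card * c := by
  choose! U G hU hG hG0 hc hP using h2
  have hi : ∀ i ∈ I, Integrable ((U i).indicator (G i)) := fun i hi =>
    (integrable_indicator_iff (hU i hi)).2 (hG i hi)
  have h0 : ∀ i ∈ I, ∀ x, 0 ≤ (U i).indicator (G i) x := fun i hi x =>
    Set.indicator_nonneg (hG0 i hi) x
  calc ∫ x in T, F x = ∫ x, T.indicator F x := (integral_indicator hT).symm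
    _ ≤ ∫ x, ∑ i ∈ I, (U i).indicator (G i) x := by
        refine integral_mono ((integrable_indicator_iff hT).2 hF) (integrable_finsetSum I hi)
          fun x => ?_
        by_cases hx : x ∈ T
        · obtain ⟨i, hi, hPi⟩ := h1 x hx
          rw [Set.indicator_of_mem hx]
          refine le_trans ?_ (Finset.single_le_sum (fun j hj => h0 j hj x) hi)
          rw [Set.indicator_of_mem (hP i hi x hx hPi).1]
          exact (hP i hi x hx hPi).2
        · rw [Set.indicator_of_notMem hx]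
          exact Finset.sum_nonneg fun j hj => h0 j hj x
    _ = ∑ i ∈ I, ∫ x in U i, G i x := by
        rw [integral_finsetSum I hi]
        exact Finset.sum_congr rfl fun i hi => integral_indicator (hU i hi)
    _ ≤ ∑ _i ∈ I, c := Finset.sum_le_sum hc
    _ = _ := by simp

lemma intOn_add {n : ℕ} {T : Set (E n)} {f g : E n → ℝ} (hf : IntegrableOn f T)
    (hg : IntegrableOn g T) : IntegrableOn (fun x => f x + g x) T := hf.add hg

lemma intOn_mul {n : ℕ} {T : Set (E n)} {f : E n → ℝ} (hf : IntegrableOn f T) (c : ℝ) :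
    IntegrableOn (fun x => c * f x) T := hf.const_mul c

/-- The vector `e_0 - e_1`. -/
def v01 (m : ℕ) : Fin (m + 2) → ℝ := Pi.single 0 1 - Pi.single 1 1

lemma e01_zero (m : ℕ) : e01 m 0 = 1 := by simp [e01]
lemma e01_e01 (m : ℕ) : e01 m ⬝ᵥ e01 m = 2 := by simp [e01]; norm_num
lemma e01_v01 (m : ℕ) : e01 m ⬝ᵥ v01 m = 0 := by simp [e01, v01]
lemma v01_e01 (m : ℕ) : v01 m ⬝ᵥ e01 m = 0 := by simp [e01, v01]
lemma v01_v01 (m : ℕ) : v01 m ⬝ᵥ v01 m = 2 := by simp [v01]; norm_num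
lemma norm_v01 (m : ℕ) : ‖v01 m‖ ≤ 1 := by
  rw [pi_norm_le_iff_of_nonneg zero_le_one]
  intro i
  simp only [v01, Pi.sub_apply, Pi.single_apply]
  split_ifs <;> simp

lemma cons2_det {m : ℕ} {s t : ℝ} (hs : 0 < s) (ht : 0 < t) {A : Matrix (Fin m) (Fin m) ℝ}
    (hA : A.det ≠ 0) : (cons1 s (cons1 t A)).det ≠ 0 := by
  rw [cons1_det, cons1_det]; positivity

namespace AS
variable {m : ℕ} {S : AS (m + 1)}

lemma Xf_e01 : S.Xf (e01 m) = fun x => S.X x 0 + S.X x 1 := by funext x; simp [Xf, e01]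
lemma Nf_e01 : S.Nf (e01 m) = fun x => S.N x 0 + S.N x 1 := by funext x; simp [Nf, e01]
lemma Xf_v01 : S.Xf (v01 m) = fun x => S.X x 0 - S.X x 1 := by funext x; simp [Xf, v01]
lemma Nf_v01 : S.Nf (v01 m) = fun x => S.N x 0 - S.N x 1 := by funext x; simp [Nf, v01]

section cell
variable (S) {s t : ℝ} {A : Matrix (Fin m) (Fin m) ℝ} (hs : 0 < s) (ht : 0 < t) (hA : A.det ≠ 0)

lemma cell_X0 (x : E (m + 1)) : (S.toFrame 0 (cons2_det hs ht hA)).X x 0 = s⁻¹ * S.X x 0 := by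
  have h := congrFun (frame_back 0 (cons2_det hs ht hA) (S.X x)) 0
  rw [zero_add, cons1_mulVec, Fin.cons_zero] at h
  rw [toFrame_X, ← h, inv_mul_cancel_left₀ hs.ne']

lemma cell_X1 (x : E (m + 1)) : (S.toFrame 0 (cons2_det hs ht hA)).X x 1 = t⁻¹ * S.X x 1 := by
  have h := congrFun (frame_back 0 (cons2_det hs ht hA) (S.X x)) (Fin.succ 0)
  rw [zero_add, cons1_mulVec, Fin.cons_succ, cons1_mulVec, Fin.cons_zero,
    Fin.succ_zero_eq_one] at h
  rw [toFrame_X, ← h, inv_mul_cancel_left₀ ht.ne']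

lemma cell_N0 (x : E (m + 1)) : (S.toFrame 0 (cons2_det hs ht hA)).N x 0
    = tau (m + 1) (cons1 s (cons1 t A)) ^ 2 * s * S.N x 0 := by
  simp [toFrame_N, cons1, mulVec, dotProduct, Fin.sum_univ_succ, mul_assoc]

lemma cell_N1 (x : E (m + 1)) : (S.toFrame 0 (cons2_det hs ht hA)).N x 1
    = tau (m + 1) (cons1 s (cons1 t A)) ^ 2 * t * S.N x 1 := by
  rw [← Fin.succ_zero_eq_one]
  simp only [toFrame_N, cons1, mulVec, dotProduct, Fin.sum_univ_succ, mul_assoc, Pi.smul_apply,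
    transpose_apply, of_apply, Fin.cases_zero, Fin.cases_succ, smul_eq_mul]
  simp

lemma cell_wφ (x : E (m + 1)) : (S.toFrame 0 (cons2_det hs ht hA)).wφ x
    = tau (m + 1) (cons1 s (cons1 t A)) ^ 2 * S.wφ x := by
  simp only [wφ, cell_X0 S hs ht hA, cell_X1 S hs ht hA, cell_N0 S hs ht hA, cell_N1 S hs ht hA]
  field_simp

lemma cell_wF {x : E (m + 1)} (hx : x ∈ S.Ω) (hφ : 0 < S.wφ x) :
    (S.toFrame 0 (cons2_det hs ht hA)).wF x = S.wF x := by
  have hτ := tau_pos (cons2_det hs ht hA)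
  have eR : (S.toFrame 0 (cons2_det hs ht hA)).wR x = S.wR x := by
    simp only [wR, cell_wφ S hs ht hA, cell_X0 S hs ht hA, cell_X1 S hs ht hA, cell_N0 S hs ht hA,
      cell_N1 S hs ht hA, ((jet_X hx _).hasGrad.const_mul _).grad_eq]
    funext i
    simp only [Pi.add_apply, Pi.smul_apply, smul_eq_mul]
    field_simp
  have eU0 : (S.toFrame 0 (cons2_det hs ht hA)).wU 0 x = S.wU 0 x := by
    simp only [wU, cell_N0 S hs ht hA, ((jet_N hx _).hasGrad.const_mul _).grad_eq, smul_smul]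
    congr 1
    field_simp
  have eU1 : (S.toFrame 0 (cons2_det hs ht hA)).wU 1 x = S.wU 1 x := by
    simp only [wU, cell_N1 S hs ht hA, ((jet_N hx _).hasGrad.const_mul _).grad_eq, smul_smul]
    congr 1
    field_simp
  simp only [wF, eR, eU0, eU1, cell_wφ S hs ht hA, toFrame_ip, toFrame_m]
  generalize tau (m + 1) (cons1 s (cons1 t A)) = τ at *
  have h1 : (τ ^ 2) ^ (-(((m:ℝ) + 1) / 2 - 1)) = τ ^ 2 / τ ^ (m + 1) := by
    rw [← Real.rpow_natCast τ 2, ← Real.rpow_mul hτ.le, ← Real.rpow_natCast τ (m + 1),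
      ← Real.rpow_sub hτ]
    congr 1
    push_cast
    ring
  rw [Real.mul_rpow (by positivity) hφ.le, h1]
  field_simp

end cell

lemma big_of_wedge {C : ℝ} (hC : 0 < C) {L : ℕ} (H : WedgeHyp S.K C L) : S.Big L := by
  obtain ⟨A, hA, hc⟩ := H.cells L L (by simp) (by simp)
  have he : 0 < Real.exp ((L:ℤ):ℝ) := Real.exp_pos _
  have hmem : ∀ x, x ∈ (S.toFrame 0 (cons2_det he he hA)).cap (e01 m) 8 ↔
      x ∈ S.Ω ∧ S.X x 0 + S.X x 1 ≤ 8 * Real.exp L := fun x => by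
    simp only [cap, Xf_e01, cell_X0 S he he hA, cell_X1 S he he hA, Set.mem_ofPred_eq, toFrame_Ω,
      ← mul_add, Int.cast_natCast]
    rw [inv_mul_le_iff₀ (Real.exp_pos _), mul_comm]
  refine ⟨?_, fun x hx h => ?_⟩
  · convert cap_compact (S := S.toFrame 0 (cons2_det he he hA)) hc using 1
    exact Set.ext fun x => (hmem x).symm
  · obtain ⟨h1, h2⟩ := H.nonneg _ (S.X_mem x hx) h
    refine ⟨h1, h2, ?_⟩
    have h3 := cap_pos (S := S.toFrame 0 (cons2_det he he hA)) hc hC ((hmem x).2 ⟨hx, h⟩)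
    simp only [Nf_e01, cell_N0 S he he hA, cell_N1 S he he hA, ← mul_add] at h3
    have hτ := tau_pos (cons2_det he he hA)
    exact (mul_pos_iff_of_pos_left (by positivity)).1 h3

lemma grad_y {x : E (m + 1)} (hx : x ∈ S.Ω) (hp : 0 < S.N x 0) (hq : 0 < S.N x 1) :
    grad (S.sl (e01 m) (v01 m)) x
      = (2 * S.N x 0 * S.N x 1 / (S.N x 0 + S.N x 1) ^ 2) • (S.wU 0 x - S.wU 1 x) := by
  rw [grad_sl hx (by rw [Nf_e01]; positivity), Nf_e01, Nf_v01,
    ((jet_N hx 0).hasGrad.add' (jet_N hx 1).hasGrad).grad_eq,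
    ((jet_N hx 0).hasGrad.sub (jet_N hx 1).hasGrad).grad_eq]
  funext i
  simp only [wU, Pi.add_apply, Pi.sub_apply, Pi.smul_apply, smul_eq_mul]
  field_simp
  ring

lemma two_le_WX {x : E (m + 1)} (hx : x ∈ S.Ω) :
    S.toDiff.ip x (grad (fun y => S.X y 0) x) (grad (fun y => S.X y 0) x)
      + S.toDiff.ip x (grad (fun y => S.X y 1) x) (grad (fun y => S.X y 1) x) ≤ S.WX x := by
  rw [WX, Fin.sum_univ_succ, Fin.sum_univ_succ, ← add_assoc]
  exact le_add_of_nonneg_right (Finset.sum_nonneg fun _ _ => Diff.ip_self_nonneg hx _)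

lemma cell_point (h1 : 1 ≤ m) {c : ℝ} (hc : 0 < c) {x : E (m + 1)} (hx : x ∈ S.Ω)
    (htw : x ∈ S.cap (e01 m) 8 → c * (8 - S.Xf (e01 m) x) ≤ S.Nf (e01 m) x)
    (ha : 0 ≤ S.X x 0) (hb : 0 ≤ S.X x 1) (hp : 0 < S.N x 0) (hq : 0 < S.N x 1)
    (k1 : S.N x 0 ≤ S.wφ x) (k2 : S.wφ x ≤ 3 * S.N x 0) (k3 : S.N x 1 ≤ S.wφ x)
    (k4 : S.wφ x ≤ 3 * S.N x 1) :
    x ∈ S.cap (e01 m) 8 ∧ S.wF x ≤ c ^ (-(((m:ℝ) + 1) / 2 - 1)) *
      ((8 * c)⁻¹ * S.I1 (e01 m) 8 x + 21 / c ^ 2 * S.I2 (e01 m) (v01 m) 8 (fun _ => 1) x) := by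
  have hφ : 0 < S.wφ x := hp.trans_le k1
  have ha3 : S.X x 0 ≤ 3 := by
    simp only [wφ] at k2
    exact le_of_mul_le_mul_right (by nlinarith [mul_nonneg hb hq.le]) hp
  have hb3 : S.X x 1 ≤ 3 := by
    simp only [wφ] at k4
    exact le_of_mul_le_mul_right (by nlinarith [mul_nonneg ha hp.le]) hq
  have hcap : x ∈ S.cap (e01 m) 8 := ⟨hx, by rw [Xf_e01]; linarith⟩
  refine ⟨hcap, ?_⟩
  have h2 := htw hcap
  have hW := WX_nonneg hx
  have hm := S.m_pos x hx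
  have hR : S.toDiff.ip x (S.wR x) (S.wR x) ≤ 2 * S.WX x := by
    rw [wR, smul_add, smul_smul, smul_smul]
    refine (Diff.ip_add_le hx _ _).trans ?_
    have key : ∀ (t : ℝ) (v : Fin (m + 1) → ℝ), 0 < t → t ≤ S.wφ x →
        S.toDiff.ip x (((S.wφ x)⁻¹ * t) • v) (((S.wφ x)⁻¹ * t) • v) ≤ S.toDiff.ip x v v :=
      fun t v h4 h5 => by
        rw [Diff.ip_smul_left, Diff.ip_smul_right, ← mul_assoc]
        have h6 : (S.wφ x)⁻¹ * t ≤ 1 := by rw [inv_mul_le_iff₀ hφ]; linarith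
        exact mul_le_of_le_one_left (Diff.ip_self_nonneg hx _)
          (mul_le_one₀ h6 (by positivity) h6)
    linarith [key _ (grad (fun y => S.X y 0) x) hp k1, key _ (grad (fun y => S.X y 1) x) hq k3,
      two_le_WX hx]
  have hoo := Diff.ip_self_nonneg hx (S.wU 0 x - S.wU 1 x)
  have hRR := Diff.ip_self_nonneg hx (S.wR x)
  simp only [wF, I1, I2, Diff.Γ, grad_y hx hp hq, Diff.ip_smul_left, Diff.ip_smul_right, Xf_e01,
    Nf_e01] at h2 ⊢
  generalize S.toDiff.ip x (S.wU 0 x - S.wU 1 x) (S.wU 0 x - S.wU 1 x) = oo at *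
  generalize S.toDiff.ip x (S.wR x) (S.wR x) = RR at *
  have hη : 2 ≤ 8 - (S.X x 0 + S.X x 1) := by linarith
  generalize 8 - (S.X x 0 + S.X x 1) = η at *
  have hP : 2 * c ≤ S.N x 0 + S.N x 1 := by nlinarith
  have hw : S.wφ x ^ (-(((m:ℝ) + 1) / 2 - 1)) ≤ c ^ (-(((m:ℝ) + 1) / 2 - 1)) := by
    have : (1:ℝ) ≤ m := by exact_mod_cast h1
    exact Real.rpow_le_rpow_of_nonpos hc (by linarith) (by linarith)
  have hy : 1 / 18 ≤ 2 * S.N x 0 * S.N x 1 / (S.N x 0 + S.N x 1) ^ 2 := by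
    rw [le_div_iff₀ (by positivity)]
    have a1 : S.N x 0 + S.N x 1 ≤ 6 * S.N x 0 := by linarith
    have a2 : S.N x 0 + S.N x 1 ≤ 6 * S.N x 1 := by linarith
    have := mul_le_mul a1 a2 (by positivity) (by positivity)
    nlinarith
  generalize 2 * S.N x 0 * S.N x 1 / (S.N x 0 + S.N x 1) ^ 2 = y at *
  generalize S.N x 0 + S.N x 1 = P at *
  have hP0 : 0 ≤ P := by linarith
  have hy0 : 0 ≤ y := by linarith
  have hη0 : 0 ≤ η := by linarith
  have a1 : RR ≤ (8 * c)⁻¹ * (P * η ^ 3 * S.WX x) := by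
    rw [le_inv_mul_iff₀ (by positivity)]
    calc 8 * c * RR ≤ 8 * c * (2 * S.WX x) := by gcongr
      _ = 2 * c * 2 ^ 3 * S.WX x := by ring
      _ ≤ _ := by gcongr
  have a2 : oo ≤ 21 / c ^ 2 * (P ^ 2 * η ^ 2 * (y * (y * oo))) := by
    rw [div_mul_eq_mul_div, le_div_iff₀ (by positivity)]
    calc oo * c ^ 2 ≤ 21 * ((2 * c) ^ 2 * 2 ^ 2 * (1 / 18 * (1 / 18 * oo))) := by
          nlinarith [mul_nonneg hoo (sq_nonneg c)]
      _ ≤ _ := by gcongr
  calc _ ≤ c ^ (-(((m:ℝ) + 1) / 2 - 1)) * ((8 * c)⁻¹ * (P * η ^ 3 * S.WX x)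
        + 21 / c ^ 2 * (P ^ 2 * η ^ 2 * (y * (y * oo)))) * S.m x := by gcongr
    _ = _ := by ring

lemma exists_cell {s t r : ℝ} {k : ℕ} (hs : 0 < s) (ht : 0 < t) (hr : r = k)
    (h : |Real.log s - Real.log t| ≤ r) :
    ∃ i ∈ Finset.Icc (-(k:ℤ)) k, Real.exp i * t ≤ s ∧ s ≤ 3 * (Real.exp i * t) := by
  subst hr
  obtain ⟨h1, h2⟩ := abs_le.1 h
  refine ⟨⌊Real.log s - Real.log t⌋, Finset.mem_Icc.2 ⟨Int.le_floor.2 (by push_cast; exact h1),
    ?_⟩, ?_, ?_⟩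
  · exact_mod_cast (Int.floor_le _).trans h2
  · have := Real.exp_le_exp.2 (Int.floor_le (Real.log s - Real.log t))
    rwa [Real.exp_sub, Real.exp_log hs, Real.exp_log ht, le_div_iff₀ ht] at this
  · have := Real.exp_le_exp.2 (Int.lt_floor_add_one (Real.log s - Real.log t)).le
    rw [Real.exp_sub, Real.exp_log hs, Real.exp_log ht, div_le_iff₀ ht, Real.exp_add] at this
    refine this.trans ?_
    have h3 : Real.exp 1 ≤ 3 := Real.exp_one_lt_three.le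
    calc _ ≤ Real.exp ⌊Real.log s - Real.log t⌋ * 3 * t := by gcongr
      _ = _ := by ring

theorem cells_bound (m : ℕ) (h1 : 1 ≤ m) (C : ℝ) (hC : 0 < C) : ∃ C2 : ℝ, 0 < C2 ∧
    ∀ (S : AS (m + 1)) (L k : ℕ), WedgeHyp S.K C L → k ≤ L →
      ∫ x in S.wS k, S.wF x ≤ (2 * k + 1) ^ 2 * C2 := by
  obtain ⟨c, hc, htw⟩ := tw_lower (m + 1) (e01 m) 8 C hC
  obtain ⟨C0, hC0, har⟩ := area_le (m + 1) (e01 m) (e01_zero m) 8 C hC
  obtain ⟨C1, hC1, hen⟩ := energy1 (m + 1) (e01 m) (e01_zero m) 8 C hC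
  set B : ℝ := 4 * C ^ 4 * (|8| + (∑ k, |e01 m k|) * C) with hB
  have hB0 : 0 ≤ B := by positivity
  have hw : 0 < c ^ (-(((m:ℝ) + 1) / 2 - 1)) := Real.rpow_pos_of_pos hc _
  refine ⟨c ^ (-(((m:ℝ) + 1) / 2 - 1)) * ((8 * c)⁻¹ * C1 + 21 / c ^ 2 * (B * C0)),
    by positivity, fun S L k H hk => ?_⟩
  have hbig := big_of_wedge hC H
  have hkL : (k:ℝ) ≤ L := by exact_mod_cast hk
  refine (setIntegral_le_card (Finset.Icc (-(k:ℤ)) k ×ˢ Finset.Icc (-(k:ℤ)) k)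
    (wS_compact hbig hkL).measurableSet (wF_int hbig hkL)
    (fun ij x => (Real.exp ij.1 * S.N x 0 ≤ S.wφ x ∧ S.wφ x ≤ 3 * (Real.exp ij.1 * S.N x 0)) ∧
      Real.exp ij.2 * S.N x 1 ≤ S.wφ x ∧ S.wφ x ≤ 3 * (Real.exp ij.2 * S.N x 1))
    (c := c ^ (-(((m:ℝ) + 1) / 2 - 1)) * ((8 * c)⁻¹ * C1 + 21 / c ^ 2 * (B * C0)))
    (fun x hx => ?_) (fun ij hij => ?_)).trans (le_of_eq ?_)
  · have hO := wS_subset hbig hkL hx
    obtain ⟨h2, h3⟩ := (mem_wS_iff hbig hO).1 hx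
    obtain ⟨i, hi, h4⟩ := exists_cell hO.2.2.2.2 hO.2.2.1 rfl h2
    obtain ⟨j, hj, h5⟩ := exists_cell hO.2.2.2.2 hO.2.2.2.1 rfl h3
    exact ⟨(i, j), Finset.mem_product.2 ⟨hi, hj⟩, h4, h5⟩
  · obtain ⟨hi, hj⟩ := Finset.mem_product.1 hij
    obtain ⟨A, hA, hcap⟩ := H.cells ij.1 ij.2
      ((abs_le.2 (Finset.mem_Icc.1 hi)).trans (by exact_mod_cast hk))
      ((abs_le.2 (Finset.mem_Icc.1 hj)).trans (by exact_mod_cast hk))
    have hs : 0 < Real.exp ij.1 := Real.exp_pos _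
    have ht : 0 < Real.exp ij.2 := Real.exp_pos _
    set S' := S.toFrame 0 (cons2_det hs ht hA) with hS'
    have H' : CapHyp S'.K (e01 m) 8 C := hcap
    have i1 := I1_int H'
    have i2 := I2_int H' hC (v01 m) (ψ' := fun _ => 1) continuous_const
    refine ⟨S'.cap (e01 m) 8, fun x => c ^ (-(((m:ℝ) + 1) / 2 - 1)) *
      ((8 * c)⁻¹ * S'.I1 (e01 m) 8 x + 21 / c ^ 2 * S'.I2 (e01 m) (v01 m) 8 (fun _ => 1) x),
      (cap_compact H').measurableSet, intOn_mul (intOn_add (intOn_mul i1 _) (intOn_mul i2 _)) _,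
      fun x hx => ?_, ?_, fun x hx hP => ?_⟩
    · have := I1_nonneg H' hC hx
      have := I2_nonneg (e := e01 m) (h := 8) (v01 m) (ψ' := fun _ => 1)
        (fun _ => zero_le_one) hx.1
      positivity
    · rw [integral_const_mul, integral_add (i1.const_mul _) (i2.const_mul _), integral_const_mul,
        integral_const_mul]
      have a1 := hen S' H'
      have a2 := energy2 H' hC (v01 m) (ψ := fun t => t) contDiff_id (fun t => hasDerivAt_id t)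
        continuous_const hB0 (fun x hx => ?_) (har S' H')
      · gcongr
      have b1 := cap_N H' hC hx (norm_v01 m)
      have b2 := cap_pos H' hC hx
      have b3 : |S'.sl (e01 m) (v01 m) x| ≤ C ^ 2 := by
        rw [sl, abs_mul, abs_inv, abs_of_pos b2, mul_inv_le_iff₀ b2]; exact b1
      have b4 : S'.sl (e01 m) (v01 m) x ^ 2 ≤ (C ^ 2) ^ 2 :=
        sq_le_sq' (abs_le.1 b3).1 (abs_le.1 b3).2
      have b5 := cap_eta H' hx
      have b6 : 0 ≤ 8 - S'.Xf (e01 m) x := sub_nonneg.2 hx.2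
      rw [e01_e01, e01_v01]
      calc _ = 4 * S'.sl (e01 m) (v01 m) x ^ 2 * (8 - S'.Xf (e01 m) x) := by ring
        _ ≤ 4 * (C ^ 2) ^ 2 * (|8| + (∑ k, |e01 m k|) * C) := by gcongr
        _ = B := by rw [hB]; ring
    · obtain ⟨-, g1, hp, hq, hφ⟩ := wS_subset hbig hkL hx
      obtain ⟨ha, hb, -⟩ := hbig.pos x hx.1 g1.le
      have hτ := pow_pos (tau_pos (cons2_det hs ht hA)) 2
      rw [← cell_wF S hs ht hA hx.1 hφ]
      refine cell_point (S := S') h1 hc hx.1 (htw S' H' x) ?_ ?_ ?_ ?_ ?_ ?_ ?_ ?_ <;>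
        simp only [hS', cell_X0 S hs ht hA, cell_X1 S hs ht hA, cell_N0 S hs ht hA,
          cell_N1 S hs ht hA, cell_wφ S hs ht hA]
      · positivity
      · positivity
      · positivity
      · positivity
      · linarith [mul_le_mul_of_nonneg_left hP.1.1 hτ.le]
      · linarith [mul_le_mul_of_nonneg_left hP.1.2 hτ.le]
      · linarith [mul_le_mul_of_nonneg_left hP.2.1 hτ.le]
      · linarith [mul_le_mul_of_nonneg_left hP.2.2 hτ.le]
  · congr 1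
    rw [Finset.card_product, Int.card_Icc]
    have : ((k:ℤ) + 1 - -(k:ℤ)).toNat = 2 * k + 1 := by omega
    rw [this]
    push_cast
    ring

theorem energy_decay (m : ℕ) (h2 : 2 ≤ m) (h8 : m ≤ 8) (C : ℝ) (hC : 0 < C) : ∃ C4 : ℝ, 0 < C4 ∧
    ∀ (S : AS (m + 1)) (L r : ℕ), WedgeHyp S.K C L → 1 ≤ r → 4 * r ≤ L →
      ∫ x in S.wS r, S.wF x ≤ C4 / r ^ 2 := by
  obtain ⟨Cc, hCc, hcac⟩ := caccioppoli
  obtain ⟨C2, hC2, hcell⟩ := cells_bound m (by omega) C hC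
  refine ⟨Cc ^ 2 * 81 * C2 / 4, by positivity, fun S L r H hr hL => ?_⟩
  have hbig := big_of_wedge hC H
  have hr' : (1:ℝ) ≤ r := by exact_mod_cast hr
  have hL' : 4 * (r:ℝ) ≤ L := by exact_mod_cast hL
  have a1 := hcac m h2 h8 S L r hbig (by linarith) (by linarith)
  have a2 := hcac m h2 h8 S L (2 * r) hbig (by linarith) (by linarith)
  have a3 := hcell S L (4 * r) H hL
  rw [show ((4 * r : ℕ) : ℝ) = 2 * (2 * (r:ℝ)) by push_cast; ring] at a3
  calc _ ≤ Cc / r ^ 2 * (Cc / (2 * r) ^ 2 * ((9 * r) ^ 2 * C2)) := by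
        refine a1.trans (mul_le_mul_of_nonneg_left (a2.trans
          (mul_le_mul_of_nonneg_left (a3.trans ?_) (by positivity))) (by positivity))
        gcongr
        linarith
    _ = _ := by field_simp; ring

end AS

end Vale.Agent.P252
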