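import Vale.Agent.P252.Wedge2

/-! A wedge-like convex set cannot be bounded by an affine maximal hypersurface, `3 ≤ n ≤ 9`. -/

open scoped ContDiff Topology
open Matrix Finset MeasureTheory

namespace Vale.Agent.P252

lemma exists_frontier_on_ray {N : ℕ} {K : Set (Fin N → ℝ)} (hK : IsClosed K) {U e : Fin N → ℝ}
    (hU : U ∈ K) {s1 : ℝ} (hs1 : 0 ≤ s1) (h1 : U - s1 • e ∉ K) :
    ∃ s : ℝ, 0 ≤ s ∧ U - s • e ∈ frontier K := by
  by_contra hno
  push Not at hno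
  have hc : IsPreconnected ((fun s : ℝ => U - s • e) '' Set.Icc 0 s1) :=
    isPreconnected_Icc.image _ (by fun_prop)
  have hsub : (fun s : ℝ => U - s • e) '' Set.Icc 0 s1 ⊆ interior K ∪ Kᶜ := by
    rintro _ ⟨s, hs, rfl⟩
    by_cases h : U - s • e ∈ K
    · left
      by_contra h'
      exact hno s hs.1 ⟨subset_closure h, h'⟩
    · exact Or.inr h
  rcases hc.subset_or_subset isOpen_interior hK.isOpen_compl
    (Set.disjoint_compl_right_iff_subset.2 interior_subset) hsub with h | h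
  · exact h1 (interior_subset (h ⟨s1, ⟨hs1, le_rfl⟩, rfl⟩))
  · exact h ⟨0, ⟨le_rfl, hs1⟩, rfl⟩ (by simpa using hU)

/-- A ball of fixed size inside a wedge-like set, near `1.5 e_0`. -/
lemma wedge_ball {m : ℕ} {K : Set (Fin (m + 2) → ℝ)} (hK : Convex ℝ K) {C : ℝ} (hC : 0 < C)
    {L : ℕ} (hL : 100 ≤ L) (H : WedgeHyp K C L) :
    ∃ U0 : Fin (m + 2) → ℝ, ∀ W : Fin (m + 2) → ℝ, ‖W‖ ≤ 1 →
      U0 + ((20 * (2 + C + C⁻¹))⁻¹ * C⁻¹) • W ∈ K ∧
      ‖U0 + ((20 * (2 + C + C⁻¹))⁻¹ * C⁻¹) • W - Pi.single 0 (3 / 2)‖ ≤ 1 / 10 := by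
  obtain ⟨O, hO, hO1⟩ := H.near0
  obtain ⟨P, hP, hP1⟩ := H.far0
  have hE : (100:ℝ) ≤ Real.exp L := by
    have h1 : (100:ℝ) ≤ L := by exact_mod_cast hL
    linarith [Real.add_one_le_exp (L:ℝ)]
  set s : ℝ := 3 / 2 / Real.exp L with hs
  have hs0 : 0 ≤ s := by positivity
  have hs1 : s ≤ 3 / 200 := by
    rw [hs, div_le_iff₀ (by positivity)]; linarith
  set Z := (1 - s) • O + s • P with hZ
  have hZK : Z ∈ K := hK hO hP (by linarith) hs0 (by ring)
  have hZ1 : ‖Z - Pi.single 0 (3 / 2)‖ ≤ 1 / 20 := by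
    have e : Z - Pi.single 0 (3 / 2) = (1 - s) • O + s • (P - Pi.single 0 (Real.exp L)) := by
      have : (Pi.single 0 (3 / 2) : Fin (m + 2) → ℝ) = s • Pi.single 0 (Real.exp L) := by
        rw [← Pi.single_smul, smul_eq_mul, hs, div_mul_cancel₀ _ (Real.exp_pos _).ne']
      rw [this, hZ, smul_sub]; abel
    rw [e]
    refine (norm_add_le _ _).trans ?_
    rw [norm_smul, norm_smul, Real.norm_of_nonneg hs0, Real.norm_of_nonneg (by linarith)]
    nlinarith [norm_nonneg O, norm_nonneg (P - Pi.single 0 (Real.exp L))]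
  have hZ2 : ‖Z‖ ≤ 3 / 2 + 1 / 20 := by
    have := norm_add_le (Z - Pi.single 0 (3 / 2)) (Pi.single 0 (3 / 2))
    rw [sub_add_cancel, Pi.norm_single, Real.norm_of_nonneg (by norm_num)] at this
    linarith
  have hOe : e01 m ⬝ᵥ O ≤ 8 := by
    have h0 := (le_abs_self _).trans (norm_le_pi_norm O 0)
    have h1 := (le_abs_self _).trans (norm_le_pi_norm O 1)
    simp only [e01, add_dotProduct, single_dotProduct, one_mul]
    linarith
  have he : ‖e01 m‖ ≤ 1 := by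
    rw [pi_norm_le_iff_of_nonneg zero_le_one]
    intro i
    simp only [e01, Pi.add_apply, Pi.single_apply]
    split_ifs with h1 h2
    · exact absurd (h1.symm.trans h2) zero_ne_one
    all_goals simp
  set t : ℝ := (20 * (2 + C + C⁻¹))⁻¹ with ht
  have ht0 : 0 < t := by positivity
  have ht1 : t * (2 + C + C⁻¹) = 1 / 20 := by rw [ht]; field_simp
  have hCi : 0 < C⁻¹ := inv_pos.2 hC
  have ht2 : t ≤ 1 := by nlinarith [mul_pos ht0 hC, mul_pos ht0 hCi]
  refine ⟨(1 - t) • Z + t • (O + C • e01 m), fun W hW => ?_⟩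
  have e : (1 - t) • Z + t • (O + C • e01 m) + (t * C⁻¹) • W
      = (1 - t) • Z + t • (O + C • e01 m + C⁻¹ • W) := by
    rw [smul_add t (O + _), smul_smul, add_assoc]
  rw [e]
  refine ⟨hK hZK (H.central.2 O hO hOe W hW) (by linarith) ht0.le (by ring), ?_⟩
  have e2 : (1 - t) • Z + t • (O + C • e01 m + C⁻¹ • W) - Pi.single 0 (3 / 2)
      = (Z - Pi.single 0 (3 / 2)) + t • (O + C • e01 m + C⁻¹ • W - Z) := by
    rw [smul_sub, sub_smul, one_smul]; abel
  rw [e2]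
  refine (norm_add_le _ _).trans ?_
  have h3 : ‖O + C • e01 m + C⁻¹ • W - Z‖ ≤ 2 + C + C⁻¹ := by
    refine (norm_sub_le _ _).trans ?_
    have := norm_add₃_le (a := O) (b := C • e01 m) (c := C⁻¹ • W)
    rw [norm_smul, norm_smul, Real.norm_of_nonneg hC.le, Real.norm_of_nonneg hCi.le] at this
    nlinarith
  rw [norm_smul, Real.norm_of_nonneg ht0.le]
  nlinarith

lemma edge_fun {δ : ℝ} (hδ : 0 < δ) : ∃ ψ ψ' : ℝ → ℝ, ContDiff ℝ 1 ψ ∧
    (∀ t, HasDerivAt ψ (ψ' t) t) ∧ Continuous ψ' ∧ (∀ t, 0 ≤ ψ' t) ∧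
    (∀ t, 1 - δ ≤ |t| → 1 ≤ ψ' t) ∧ ∀ t, |t| ≤ 1 + δ → |ψ t| ≤ 5 * δ := by
  refine ⟨fun t => (2 * δ)⁻¹ * (max (t - (1 - 2 * δ)) 0 ^ (0 + 2)
      - max (-t - (1 - 2 * δ)) 0 ^ (0 + 2)),
    fun t => δ⁻¹ * (max (t - (1 - 2 * δ)) 0 + max (-t - (1 - 2 * δ)) 0),
    contDiff_const.mul (((contDiff_pos_pow 0).comp (contDiff_id.sub contDiff_const)).sub
      ((contDiff_pos_pow 0).comp (contDiff_neg.sub contDiff_const))),
    fun t => ?_, by fun_prop, fun t => by positivity, fun t ht => ?_, fun t ht => ?_⟩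
  · have h1 := (hasDerivAt_pos_pow 0 (t - (1 - 2 * δ))).comp t
      ((hasDerivAt_id t).sub_const (1 - 2 * δ))
    have h2 := (hasDerivAt_pos_pow 0 (-t - (1 - 2 * δ))).comp t
      ((hasDerivAt_neg t).sub_const (1 - 2 * δ))
    refine ((h1.sub h2).const_mul (2 * δ)⁻¹).congr_deriv ?_
    push_cast
    field_simp
    ring
  · rw [le_inv_mul_iff₀ hδ]
    have a1 := le_max_left (t - (1 - 2 * δ)) 0
    have a2 := le_max_right (t - (1 - 2 * δ)) 0
    have a3 := le_max_left (-t - (1 - 2 * δ)) 0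
    have a4 := le_max_right (-t - (1 - 2 * δ)) 0
    rcases le_abs.1 ht with h | h <;> linarith
  · obtain ⟨h1, h2⟩ := abs_le.1 ht
    have a1 : max (t - (1 - 2 * δ)) 0 ≤ 3 * δ := max_le (by linarith) (by linarith)
    have a2 := le_max_right (t - (1 - 2 * δ)) 0
    have a3 : max (-t - (1 - 2 * δ)) 0 ≤ 3 * δ := max_le (by linarith) (by linarith)
    have a4 := le_max_right (-t - (1 - 2 * δ)) 0
    beta_reduce
    rw [abs_mul, abs_of_pos (by positivity : 0 < (2 * δ)⁻¹), inv_mul_le_iff₀ (by positivity),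
      abs_le, zero_add]
    have a5 := pow_le_pow_left₀ a2 a1 2
    have a6 := pow_le_pow_left₀ a4 a3 2
    have a7 := pow_nonneg a2 2
    have a8 := pow_nonneg a4 2
    have a9 := sq_nonneg δ
    constructor <;> linarith

namespace AS
variable {m : ℕ} {S : AS (m + 1)}

variable (S) in
/-- The band `1 ≤ z ≤ 2`. -/
def band : Set (E (m + 1)) := {x | x ∈ S.Ω ∧ 1 ≤ S.X x 0 + S.X x 1 ∧ S.X x 0 + S.X x 1 ≤ 2}

lemma band_subset : S.band ⊆ S.cap (e01 m) 8 := fun x hx =>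
  ⟨hx.1, by rw [Xf_e01]; linarith [hx.2.2]⟩

lemma band_compact {C : ℝ} (H : CapHyp S.K (e01 m) 8 C) : IsCompact S.band := by
  have hc : ContinuousOn (fun x => S.X x 0 + S.X x 1) (S.cap (e01 m) 8) := fun x hx =>
    ((X_at hx.1 0).add (X_at hx.1 1)).continuousAt.continuousWithinAt
  have hcl := hc.preimage_isClosed_of_isClosed (cap_compact H).isClosed
    (isClosed_Icc (a := 1) (b := 2))
  refine (cap_compact H).of_isClosed_subset ?_ band_subset
  convert hcl using 1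
  ext x
  exact ⟨fun hx => ⟨band_subset hx, hx.2⟩, fun hx => ⟨hx.1.1, hx.2⟩⟩

theorem area_ge (m : ℕ) (C : ℝ) (hC : 0 < C) : ∃ c0 : ℝ, 0 < c0 ∧ ∀ (S : AS (m + 1)) (L : ℕ),
    100 ≤ L → WedgeHyp S.K C L → c0 ≤ ∫ x in S.band, S.Nf (e01 m) x * S.m x := by
  set ρ : ℝ := (20 * (2 + C + C⁻¹))⁻¹ * C⁻¹ with hρ
  have hρ0 : 0 < ρ := by positivity
  refine ⟨volume.real (Metric.closedBall (0 : E (m + 1)) ρ), ?_, fun S L hL H => ?_⟩
  · exact ENNReal.toReal_pos (Metric.measure_closedBall_pos _ _ hρ0).ne'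
      measure_closedBall_lt_top.ne
  obtain ⟨U0, hU0⟩ := wedge_ball S.K_convex hC hL H
  rw [← hρ] at hU0
  rw [area_eq (e01_zero m) (band_compact H.central).measurableSet fun x hx =>
    ⟨hx.1, cap_pos H.central hC (band_subset hx)⟩]
  set w0 : E (m + 1) := WithLp.toLp 2 fun i => U0 i.succ - e01 m i.succ * U0 0 with hw0
  have e : volume.real (Metric.closedBall (0 : E (m + 1)) ρ)
      = volume.real (Metric.closedBall w0 ρ) := by
    simp only [Measure.real, Measure.addHaar_closedBall_center]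
  rw [e]
  refine measureReal_mono (fun w hw => ?_) (ne_top_of_le_ne_top (box_finite _ _)
    (measure_mono ((Set.image_mono band_subset).trans (proj_subset H.central))))
  set W : Fin (m + 2) → ℝ := Fin.cons 0 fun i => ρ⁻¹ * (w i - w0 i) with hW
  have hW1 : ‖W‖ ≤ 1 := by
    rw [pi_norm_le_iff_of_nonneg zero_le_one]
    intro i
    refine Fin.cases (by simp [hW]) (fun i => ?_) i
    have h1 : ‖(w - w0) i‖ ≤ ρ := (PiLp.norm_apply_le (w - w0) i).trans
      (by simpa [dist_eq_norm] using hw)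
    simp only [hW, Fin.cons_succ, norm_mul, norm_inv, Real.norm_of_nonneg hρ0.le]
    rw [inv_mul_le_iff₀ hρ0, mul_one]
    exact h1
  obtain ⟨h1, h2⟩ := hU0 W hW1
  set U := U0 + ρ • W with hU
  have a0 := abs_le.1 ((norm_le_pi_norm (U - Pi.single 0 (3 / 2)) 0).trans h2)
  have a1 := abs_le.1 ((norm_le_pi_norm (U - Pi.single 0 (3 / 2)) 1).trans h2)
  simp only [Pi.sub_apply, Pi.single_eq_same, ne_eq, one_ne_zero, not_false_eq_true,
    Pi.single_eq_of_ne, sub_zero] at a0 a1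
  have k0 : ∀ s : ℝ, (U - s • e01 m) 0 = U 0 - s := fun s => by simp [e01]
  have k1 : ∀ s : ℝ, (U - s • e01 m) 1 = U 1 - s := fun s => by simp [e01]
  have hE := Real.one_le_exp (Nat.cast_nonneg L : (0:ℝ) ≤ L)
  obtain ⟨s, hs, hfr⟩ := exists_frontier_on_ray S.K_closed h1 (e := e01 m) zero_le_one
    (fun h => by
      have := (H.nonneg _ h (by rw [k0, k1]; linarith)).2
      rw [k1] at this
      linarith)
  obtain ⟨x, hx, hxe⟩ := S.bdry _ hfr
  have b1 := (H.nonneg _ (S.X_mem x hx) (by rw [hxe, k0, k1]; linarith)).2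
  refine ⟨x, ⟨hx, ?_, ?_⟩, ?_⟩
  · rw [hxe, k1] at b1
    rw [hxe, k0, k1]; linarith
  · rw [hxe, k0, k1]; linarith
  · ext i
    simp only [proj, hxe, hU, hW, hw0, Pi.sub_apply, Pi.add_apply, Pi.smul_apply, smul_eq_mul,
      Fin.cons_succ, Fin.cons_zero, e01_zero]
    field_simp
    ring

lemma slope_bound {C δ : ℝ} (hC : 0 < C) {L : ℕ} (H : WedgeHyp S.K C L)
    (hδ : 2 * ((1 + C) * C ^ 2) ≤ δ * Real.exp L) {x : E (m + 1)} (hx : x ∈ S.cap (e01 m) 8) :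
    |S.sl (e01 m) (v01 m) x| ≤ 1 + δ := by
  have hP := cap_pos H.central hC hx
  have hE := Real.exp_pos (L:ℝ)
  have key : ∀ k : Fin (m + 2), (∃ P ∈ S.K, ‖P - Pi.single k (Real.exp L)‖ ≤ 1) →
      -(δ / 2 * S.Nf (e01 m) x) ≤ S.N x k := by
    rintro k ⟨P, hP1, hP2⟩
    have h1 := S.supp x hx.1 P hP1
    have h2 := cap_Nv H.central hC hx (P - Pi.single k (Real.exp L) - S.X x)
    have h3 : ‖P - Pi.single k (Real.exp L) - S.X x‖ ≤ 1 + C :=
      (norm_sub_le _ _).trans (add_le_add hP2 (cap_X H.central hx))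
    have h4 : S.Nf (P - Pi.single k (Real.exp L) - S.X x) x
        = S.N x ⬝ᵥ (P - S.X x) - S.N x k * Real.exp L := by
      simp only [Nf, dotProduct_sub, dotProduct_single]; ring
    have h5 : ‖P - Pi.single k (Real.exp L) - S.X x‖ * C ^ 2 * S.Nf (e01 m) x
        ≤ δ * Real.exp L / 2 * S.Nf (e01 m) x := by
      refine mul_le_mul_of_nonneg_right ?_ hP.le
      have := mul_le_mul_of_nonneg_right h3 (sq_nonneg C)
      linarith
    have h6 := le_abs_self (S.Nf (P - Pi.single k (Real.exp L) - S.X x) x)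
    refine le_of_mul_le_mul_right ?_ hE
    linarith
  have h0 := key 0 H.far0
  have h1 := key 1 H.far1
  rw [sl, abs_mul, abs_inv, abs_of_pos hP, mul_inv_le_iff₀ hP, abs_le]
  simp only [Nf_e01, Nf_v01] at h0 h1 ⊢
  constructor <;> linarith

lemma band_point (h1 : 1 ≤ m) {C : ℝ} (hC : 0 < C) {L : ℕ} (H : WedgeHyp S.K C L)
    {Λ' Λ lam δ r : ℝ} (hΛ' : 0 < Λ') (hΛ : max 1 (2 ^ (m + 2) * 2 * Λ' ^ (m + 1)) ≤ Λ)
    (hlam : 0 < lam) (hδ : 0 < δ) (hδ1 : δ ≤ 1) (hr : 4 ≤ δ * Real.exp r) {ψ' : ℝ → ℝ}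
    (hψ0 : ∀ t, 0 ≤ ψ' t) (hψ1 : ∀ t, 1 - δ ≤ |t| → 1 ≤ ψ' t) {x : E (m + 1)} (hx : x ∈ S.band) :
    S.Nf (e01 m) x * S.m x ≤ (Λ'⁻¹ + Λ / lam) * S.I1 (e01 m) 8 x
      + lam * S.I2 (e01 m) (v01 m) 8 ψ' x + (S.wS r).indicator
        (fun x => lam * (Λ ^ 2 * (2 * Λ) ^ (((m:ℝ) + 1) / 2 - 1)) * S.wF x) x := by
  have hcap := band_subset hx
  have hP := cap_pos H.central hC hcap
  have hm := S.m_pos x hx.1
  have hW := WX_nonneg hx.1
  have hΛ0 : 0 < Λ := (lt_max_of_lt_left one_pos).trans_le hΛ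
  have hη : 1 ≤ 8 - S.Xf (e01 m) x := by rw [Xf_e01]; linarith [hx.2.2]
  have hI1 : S.Nf (e01 m) x * S.WX x * S.m x ≤ S.I1 (e01 m) 8 x := by
    have := one_le_pow₀ (n := 3) hη
    calc _ = S.Nf (e01 m) x * 1 * S.WX x * S.m x := by ring
      _ ≤ _ := by unfold I1; gcongr
  have hI1' := I1_nonneg H.central hC hcap
  have hI2' := I2_nonneg (e := e01 m) (h := 8) (v01 m) hψ0 hx.1
  have hE := Real.one_le_exp (Nat.cast_nonneg L : (0:ℝ) ≤ L)
  obtain ⟨ha, hb⟩ := H.nonneg _ (S.X_mem x hx.1) (by linarith [hx.2.2])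
  have hind : 0 ≤ (S.wS r).indicator
      (fun x => lam * (Λ ^ 2 * (2 * Λ) ^ (((m:ℝ) + 1) / 2 - 1)) * S.wF x) x := by
    by_cases h : x ∈ S.wS r
    · rw [Set.indicator_of_mem h]
      obtain ⟨-, -, g2, -, g4, -⟩ := h
      have g5 : 0 < S.wφ x := by
        simp only [Nf_e01] at hP
        by_contra g
        nlinarith [Real.exp_pos r]
      have := wF_nonneg hx.1 g5
      positivity
    · rw [Set.indicator_of_notMem h]
  rcases le_or_gt Λ' (S.WX x) with hc | hc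
  · have h2 : S.Nf (e01 m) x * S.m x ≤ Λ'⁻¹ * S.I1 (e01 m) 8 x := by
      rw [le_inv_mul_iff₀ hΛ']
      refine le_trans ?_ hI1
      have := mul_le_mul_of_nonneg_right hc (mul_pos hP hm).le
      linarith
    have h3 : 0 ≤ Λ / lam * S.I1 (e01 m) 8 x := by positivity
    have h4 : 0 ≤ lam * S.I2 (e01 m) (v01 m) 8 ψ' x := by positivity
    linarith
  have hPΛ : S.Nf (e01 m) x ≤ Λ := by
    have h2 := gram_X hx.1 (v := e01 m) (by rw [e01_e01]; norm_num)
    rw [e01_e01] at h2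
    refine (le_max_of_pow_le (k := 1) (h2.trans ?_)).trans hΛ
    change _ * S.WX x ^ (m + 1) ≤ _
    gcongr
  have h2 := ip_X_sl hx.1 hP.ne' (v01 m) (v01 m)
  rw [v01_e01, v01_v01] at h2
  have h3 := Diff.two_abs_ip_le hx.1 (grad (S.sl (e01 m) (v01 m)) x) (grad (S.Xf (v01 m)) x) hlam
  have h4 : S.toDiff.ip x (grad (S.Xf (v01 m)) x) (grad (S.Xf (v01 m)) x) ≤ 2 * S.WX x := by
    rw [Xf_v01, ((jet_X hx.1 0).hasGrad.sub (jet_X hx.1 1).hasGrad).grad_eq]
    linarith [Diff.ip_sub_le hx.1 (grad (fun y => S.X y 0) x) (grad (fun y => S.X y 1) x),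
      two_le_WX hx.1]
  have hyy := Diff.ip_self_nonneg hx.1 (grad (S.sl (e01 m) (v01 m)) x)
  have h5 : S.Nf (e01 m) x * S.m x ≤ Λ / lam * S.I1 (e01 m) 8 x + lam * (S.Nf (e01 m) x ^ 2
      * S.toDiff.ip x (grad (S.sl (e01 m) (v01 m)) x) (grad (S.sl (e01 m) (v01 m)) x) * S.m x) := by
    rw [h2, mul_zero, zero_sub, abs_div, abs_neg, abs_two, abs_of_pos hP] at h3
    generalize S.toDiff.ip x (grad (S.sl (e01 m) (v01 m)) x) (grad (S.sl (e01 m) (v01 m)) x)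
      = yy at *
    generalize S.toDiff.ip x (grad (S.Xf (v01 m)) x) (grad (S.Xf (v01 m)) x) = tt at *
    generalize S.Nf (e01 m) x = P at *
    have a1 : 2 * (2 / P) ≤ lam * yy + 2 * S.WX x / lam := h3.trans (by gcongr)
    have a2 := mul_le_mul_of_nonneg_left a1 (by positivity : 0 ≤ P ^ 2 * S.m x / 4)
    have a3 : P ^ 2 * S.m x / 4 * (2 * (2 / P)) = P * S.m x := by field_simp; norm_num
    have a4 : P / lam * (P * S.WX x * S.m x) ≤ Λ / lam * S.I1 (e01 m) 8 x := by gcongr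
    have a5 : 0 ≤ P / lam * (P * S.WX x * S.m x) := by positivity
    have a6 : 0 ≤ lam * (P ^ 2 * yy * S.m x) := by positivity
    have a7 : P ^ 2 * S.m x / 4 * (lam * yy + 2 * S.WX x / lam)
        = lam * (P ^ 2 * yy * S.m x) / 4 + P / lam * (P * S.WX x * S.m x) / 2 := by
      field_simp; ring
    linarith
  have h6 : 0 ≤ Λ'⁻¹ * S.I1 (e01 m) 8 x := by positivity
  rcases le_or_gt (1 - δ) |S.sl (e01 m) (v01 m) x| with hy | hy
  · have a1 := hψ1 _ hy
    have a2 := one_le_pow₀ (n := 2) hη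
    have a3 : S.Nf (e01 m) x ^ 2 * S.toDiff.ip x (grad (S.sl (e01 m) (v01 m)) x)
        (grad (S.sl (e01 m) (v01 m)) x) * S.m x ≤ S.I2 (e01 m) (v01 m) 8 ψ' x := by
      calc _ = S.Nf (e01 m) x ^ 2 * 1 * 1 * S.toDiff.ip x (grad (S.sl (e01 m) (v01 m)) x)
            (grad (S.sl (e01 m) (v01 m)) x) * S.m x := by ring
        _ ≤ _ := by unfold I2 Diff.Γ; gcongr
    have := mul_le_mul_of_nonneg_left a3 hlam.le
    linarith
  have h7 : 0 ≤ lam * S.I2 (e01 m) (v01 m) 8 ψ' x := by positivity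
  rw [sl, abs_mul, abs_inv, abs_of_pos hP, mul_inv_lt_iff₀ hP, abs_lt] at hy
  simp only [Nf_e01, Nf_v01] at hy hP hPΛ
  have hp : δ / 2 * (S.N x 0 + S.N x 1) ≤ S.N x 0 := by linarith [hy.1]
  have hq : δ / 2 * (S.N x 0 + S.N x 1) ≤ S.N x 1 := by linarith [hy.2]
  have hp0 : 0 < S.N x 0 := lt_of_lt_of_le (by positivity) hp
  have hq0 : 0 < S.N x 1 := lt_of_lt_of_le (by positivity) hq
  have hφ1 : δ / 2 * (S.N x 0 + S.N x 1) ≤ S.wφ x := by
    have a1 := mul_le_mul_of_nonneg_left hp ha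
    have a2 := mul_le_mul_of_nonneg_left hq hb
    have a3 := mul_le_mul_of_nonneg_right hx.2.1
      (by positivity : 0 ≤ δ / 2 * (S.N x 0 + S.N x 1))
    simp only [wφ]
    linarith
  have hφ2 : S.wφ x ≤ 2 * (S.N x 0 + S.N x 1) := by
    have a1 := mul_nonneg ha hq0.le
    have a2 := mul_nonneg hb hp0.le
    have a3 := mul_le_mul_of_nonneg_right hx.2.2 hP.le
    simp only [wφ]
    linarith
  have hφ0 : 0 < S.wφ x := lt_of_lt_of_le (by positivity) hφ1
  have hEr := Real.exp_pos r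
  have key : ∀ t : ℝ, δ / 2 * (S.N x 0 + S.N x 1) ≤ t →
      2 * (S.N x 0 + S.N x 1) ≤ Real.exp r * t := fun t ht => by
    have a1 := mul_le_mul_of_nonneg_left ht hEr.le
    have a2 := mul_le_mul_of_nonneg_right hr hP.le
    linarith
  have hmem : x ∈ S.wS r := by
    refine ⟨hx.1, ?_, ?_, hφ2.trans (key _ hp), ?_, hφ2.trans (key _ hq)⟩
    · nlinarith [hx.2.2]
    · linarith [key _ hφ1]
    · linarith [key _ hφ1]
  rw [Set.indicator_of_mem hmem]
  have h8 : S.Nf (e01 m) x ^ 2 * S.toDiff.ip x (grad (S.sl (e01 m) (v01 m)) x)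
      (grad (S.sl (e01 m) (v01 m)) x) * S.m x
      ≤ Λ ^ 2 * (2 * Λ) ^ (((m:ℝ) + 1) / 2 - 1) * S.wF x := by
    have hoo := Diff.ip_self_nonneg hx.1 (S.wU 0 x - S.wU 1 x)
    have hRR := Diff.ip_self_nonneg hx.1 (S.wR x)
    have hw : 1 ≤ (2 * Λ) ^ (((m:ℝ) + 1) / 2 - 1) * S.wφ x ^ (-(((m:ℝ) + 1) / 2 - 1)) := by
      have : (1:ℝ) ≤ m := by exact_mod_cast h1
      rw [Real.rpow_neg hφ0.le, le_mul_inv_iff₀ (Real.rpow_pos_of_pos hφ0 _), one_mul]
      exact Real.rpow_le_rpow hφ0.le (by linarith) (by linarith)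
    have hy1 : 2 * S.N x 0 * S.N x 1 / (S.N x 0 + S.N x 1) ^ 2 ≤ 1 := by
      rw [div_le_one (by positivity)]
      nlinarith
    have hy0 : 0 ≤ 2 * S.N x 0 * S.N x 1 / (S.N x 0 + S.N x 1) ^ 2 := by positivity
    simp only [wF, grad_y hx.1 hp0 hq0, Diff.ip_smul_left, Diff.ip_smul_right, Nf_e01]
    generalize 2 * S.N x 0 * S.N x 1 / (S.N x 0 + S.N x 1) ^ 2 = y at *
    generalize S.toDiff.ip x (S.wU 0 x - S.wU 1 x) (S.wU 0 x - S.wU 1 x) = oo at *
    generalize S.toDiff.ip x (S.wR x) (S.wR x) = RR at *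
    calc _ ≤ Λ ^ 2 * (1 * (1 * oo)) * S.m x := by gcongr
      _ = Λ ^ 2 * 1 * oo * S.m x := by ring
      _ ≤ Λ ^ 2 * ((2 * Λ) ^ (((m:ℝ) + 1) / 2 - 1) * S.wφ x ^ (-(((m:ℝ) + 1) / 2 - 1)))
          * (RR + oo) * S.m x := by gcongr; linarith
      _ = _ := by ring
  have := mul_le_mul_of_nonneg_left h8 hlam.le
  linarith

theorem wedge_false (m : ℕ) (h2 : 2 ≤ m) (h8 : m ≤ 8) (C : ℝ) (hC : 0 < C) :
    ∃ L : ℕ, ∀ S : AS (m + 1), ¬ WedgeHyp S.K C L := by
  obtain ⟨c0, hc0, hlo⟩ := area_ge m C hC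
  obtain ⟨C0, hC0, har⟩ := area_le (m + 1) (e01 m) (e01_zero m) 8 C hC
  obtain ⟨C1, hC1, hen⟩ := energy1 (m + 1) (e01 m) (e01_zero m) 8 C hC
  obtain ⟨C4, hC4, hdec⟩ := energy_decay m h2 h8 C hC
  set Λ' : ℝ := 8 * C1 / c0 with hΛ'
  have hΛ'0 : 0 < Λ' := by positivity
  set Λ : ℝ := max 1 (2 ^ (m + 2) * 2 * Λ' ^ (m + 1)) with hΛ
  have hΛ0 : 0 < Λ := lt_max_of_lt_left one_pos
  set lam : ℝ := 8 * Λ * C1 / c0 with hlam
  have hlam0 : 0 < lam := by positivity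
  set δ : ℝ := min 1 (c0 / (4 * 320 * lam * C0)) with hδ
  have hδ0 : 0 < δ := lt_min one_pos (by positivity)
  have hδ1 : δ ≤ 1 := min_le_left _ _
  set K : ℝ := lam * (Λ ^ 2 * (2 * Λ) ^ (((m:ℝ) + 1) / 2 - 1)) with hK
  have hK0 : 0 < K := by positivity
  obtain ⟨r, hr⟩ := exists_nat_ge (25 + 4 / δ + 4 * K * C4 / c0 + 2 * ((1 + C) * C ^ 2) / δ)
  have p1 : 0 < 4 / δ := by positivity
  have p2 : 0 < 4 * K * C4 / c0 := by positivity
  have p3 : 0 < 2 * ((1 + C) * C ^ 2) / δ := by positivity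
  have hr25 : 25 ≤ r := by
    have : (25:ℝ) ≤ r := by linarith
    exact_mod_cast this
  refine ⟨4 * r, fun S H => ?_⟩
  obtain ⟨ψ, ψ', hψ, hψ', hψc, hψ0, hψ1, hψ2⟩ := edge_fun hδ0
  have hbig := big_of_wedge hC H
  have hrL : (r:ℝ) ≤ ((4 * r : ℕ) : ℝ) := by exact_mod_cast (by omega : r ≤ 4 * r)
  have hEr := Real.add_one_le_exp (r:ℝ)
  have hr4 : 4 ≤ δ * Real.exp r := by
    rw [← div_le_iff₀' hδ0]; linarith
  have hsl : 2 * ((1 + C) * C ^ 2) ≤ δ * Real.exp ((4 * r : ℕ) : ℝ) := by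
    rw [← div_le_iff₀' hδ0]; linarith [Real.exp_le_exp.2 hrL]
  have hcap := cap_compact H.central
  have i1 := I1_int H.central
  have i2 := I2_int H.central hC (v01 m) hψc
  have i3 := (wF_int hbig hrL).const_mul K
  have mS := (wS_compact hbig hrL).measurableSet
  have i4 : Integrable ((S.wS r).indicator fun x => K * S.wF x) :=
    (integrable_indicator_iff mS).2 i3
  have n4 : ∀ x, 0 ≤ (S.wS r).indicator (fun x => K * S.wF x) x := fun x =>
    Set.indicator_nonneg (fun y hy => mul_nonneg hK0.le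
      (wF_nonneg hy.1 (wS_subset hbig hrL hy).2.2.2.2)) x
  have a1 := hlo S _ (by omega) H
  have a2 : ∫ x in S.band, S.Nf (e01 m) x * S.m x ≤ ∫ x in S.band, ((Λ'⁻¹ + Λ / lam)
      * S.I1 (e01 m) 8 x + lam * S.I2 (e01 m) (v01 m) 8 ψ' x
      + (S.wS r).indicator (fun x => K * S.wF x) x) :=
    setIntegral_mono_on ((I0_int H.central).mono_set band_subset)
      ((((i1.const_mul (Λ'⁻¹ + Λ / lam)).add (i2.const_mul lam)).mono_measure
        (Measure.restrict_mono band_subset le_rfl)).add i4.integrableOn)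
      (band_compact H.central).measurableSet fun x hx =>
      band_point (by omega) hC H hΛ'0 le_rfl hlam0 hδ0 hδ1 hr4 hψ0 hψ1 hx
  have j1 := i1.mono_set band_subset
  have j2 := i2.mono_set band_subset
  rw [integral_add (intOn_add (intOn_mul j1 _) (intOn_mul j2 _)) i4.integrableOn,
    integral_add (j1.const_mul _) (j2.const_mul _), integral_const_mul, integral_const_mul] at a2
  have b1 : ∫ x in S.band, S.I1 (e01 m) 8 x ≤ C1 := by
    refine le_trans (setIntegral_mono_set i1 ?_ band_subset.eventuallyLE) (hen S H.central)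
    exact (ae_restrict_iff' hcap.measurableSet).2 (Filter.Eventually.of_forall fun x hx =>
      I1_nonneg H.central hC hx)
  have b2 : ∫ x in S.band, S.I2 (e01 m) (v01 m) 8 ψ' x ≤ 320 * δ * C0 := by
    refine le_trans (setIntegral_mono_set i2 ?_ band_subset.eventuallyLE)
      (energy2 H.central hC (v01 m) hψ hψ' hψc (by positivity) (fun x hx => ?_)
        (har S H.central))
    · exact (ae_restrict_iff' hcap.measurableSet).2 (Filter.Eventually.of_forall fun x hx =>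
        I2_nonneg (v01 m) hψ0 hx.1)
    have d1 := slope_bound hC H hsl hx
    have d2 := hψ2 _ d1
    have d3 : 0 ≤ 8 - S.Xf (e01 m) x := sub_nonneg.2 hx.2
    have d4 : 8 - S.Xf (e01 m) x ≤ 8 := by
      have hE := Real.one_le_exp (Nat.cast_nonneg (4 * r) : (0:ℝ) ≤ ((4 * r : ℕ) : ℝ))
      have h1 := hx.2
      rw [Xf_e01] at h1 ⊢
      obtain ⟨ha, hb⟩ := H.nonneg _ (S.X_mem x hx.1) (by linarith)
      linarith
    rw [e01_e01, e01_v01]
    refine (le_abs_self _).trans ?_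
    rw [sub_zero, abs_mul, abs_mul, abs_mul, abs_mul, abs_two, abs_of_nonneg d3]
    calc _ ≤ 2 * (5 * δ) * 8 * ((1 + 1) * 2) := by gcongr; linarith
      _ = _ := by ring
  have b3 : ∫ x in S.band, (S.wS r).indicator (fun x => K * S.wF x) x ≤ K * (C4 / r ^ 2) := by
    refine (setIntegral_le_integral i4 (Filter.Eventually.of_forall n4)).trans ?_
    rw [integral_indicator mS, integral_const_mul]
    exact mul_le_mul_of_nonneg_left (hdec S _ r H (by omega) le_rfl) hK0.le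
  have c1 : (Λ'⁻¹ + Λ / lam) * C1 = c0 / 4 := by
    rw [hlam, hΛ']; field_simp; norm_num
  have c2 : lam * (320 * δ * C0) ≤ c0 / 4 := by
    have : δ ≤ c0 / (4 * 320 * lam * C0) := min_le_right _ _
    rw [le_div_iff₀ (by positivity)] at this
    linarith
  have c3 : K * (C4 / r ^ 2) ≤ c0 / 4 := by
    have d1 : 4 * K * C4 / c0 ≤ (r:ℝ) ^ 2 := by nlinarith
    rw [div_le_iff₀ hc0] at d1
    rw [← mul_div_assoc, div_le_iff₀ (by nlinarith)]
    linarith
  have c4 := mul_le_mul_of_nonneg_left b1 (by positivity : 0 ≤ Λ'⁻¹ + Λ / lam)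
  have c5 := mul_le_mul_of_nonneg_left b2 hlam0.le
  linarith

end AS

end Vale.Agent.P252
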